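import Mathlib

/-! P002: basic definitions (tangent group, words, linearisation, closure of integral points). -/

namespace Vale.Agent.P002

open Matrix

abbrev SL (n : Type) [Fintype n] [DecidableEq n] (R : Type) [CommRing R] : Type :=
  Matrix.SpecialLinearGroup n R

variable {n : Type} [Fintype n] [DecidableEq n]

section Ad
variable {R S : Type} [CommRing R] [CommRing S]

/-- entrywise image of a special linear matrix -/
abbrev smap (f : R →+* S) : SL n R →* SL n S := Matrix.SpecialLinearGroup.map f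

@[simp] theorem smap_val (f : R →+* S) (A : SL n R) : (smap f A).1 = A.1.map f := rfl

theorem val_mul (A B : SL n R) : (A * B).1 = A.1 * B.1 := rfl
theorem val_one : (1 : SL n R).1 = 1 := rfl
theorem mul_inv_val (A : SL n R) : A.1 * (A⁻¹).1 = 1 := by
  rw [← val_mul, mul_inv_cancel]; rfl
theorem inv_mul_val (A : SL n R) : (A⁻¹).1 * A.1 = 1 := by
  rw [← val_mul, inv_mul_cancel]; rfl

/-- conjugation action on matrices -/
def Ad (A : SL n R) : Matrix n n R →ₗ[R] Matrix n n R where
  toFun X := A.1 * X * (A⁻¹).1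
  map_add' X Y := by rw [mul_add, add_mul]
  map_smul' c X := by simp

theorem Ad_apply (A : SL n R) (X : Matrix n n R) : Ad A X = A.1 * X * (A⁻¹).1 := rfl

@[simp] theorem Ad_one (X : Matrix n n R) : Ad (1 : SL n R) X = X := by
  simp [Ad_apply]

theorem Ad_mul (A B : SL n R) (X : Matrix n n R) : Ad (A * B) X = Ad A (Ad B X) := by
  simp only [Ad_apply, _root_.mul_inv_rev, val_mul, Matrix.mul_assoc]

@[simp] theorem Ad_inv_Ad (A : SL n R) (X : Matrix n n R) : Ad A⁻¹ (Ad A X) = X := by
  rw [← Ad_mul, inv_mul_cancel, Ad_one]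

@[simp] theorem Ad_Ad_inv (A : SL n R) (X : Matrix n n R) : Ad A (Ad A⁻¹ X) = X := by
  rw [← Ad_mul, mul_inv_cancel, Ad_one]

@[simp] theorem trace_Ad (A : SL n R) (X : Matrix n n R) : (Ad A X).trace = X.trace := by
  rw [Ad_apply, Matrix.trace_mul_comm, ← Matrix.mul_assoc, inv_mul_val, Matrix.one_mul]

theorem trace_mul_Ad (A : SL n R) (Z X : Matrix n n R) :
    (Z * Ad A X).trace = (Ad A⁻¹ Z * X).trace := by
  rw [← trace_Ad A⁻¹, Ad_apply, Ad_apply, Ad_apply, inv_inv]
  congr 1
  simp only [Matrix.mul_assoc, inv_mul_val, Matrix.mul_one]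

theorem Ad_map (f : R →+* S) (A : SL n R) (X : Matrix n n R) :
    (Ad A X).map f = Ad (smap f A) (X.map f) := by
  rw [Ad_apply, Ad_apply, Matrix.map_mul, Matrix.map_mul, ← map_inv]; rfl

theorem Ad_eq_self_iff (A : SL n R) (X : Matrix n n R) : Ad A X = X ↔ A.1 * X = X * A.1 := by
  constructor
  · intro h
    conv_rhs => rw [← h, Ad_apply, Matrix.mul_assoc, inv_mul_val, Matrix.mul_one]
  · intro h
    rw [Ad_apply, h, Matrix.mul_assoc, mul_inv_val, Matrix.mul_one]

end Ad

/-- The tangent group: pairs `(u, a)` standing for `(1 + ε u) a`. -/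
@[ext] structure TG (n : Type) [Fintype n] [DecidableEq n] (R : Type) [CommRing R] where
  u : Matrix n n R
  a : SL n R

namespace TG
variable {R S : Type} [CommRing R] [CommRing S]

instance : Mul (TG n R) := ⟨fun x y => ⟨x.u + Ad x.a y.u, x.a * y.a⟩⟩
instance : One (TG n R) := ⟨⟨0, 1⟩⟩
instance : Inv (TG n R) := ⟨fun x => ⟨-Ad x.a⁻¹ x.u, x.a⁻¹⟩⟩

@[simp] theorem mul_u (x y : TG n R) : (x * y).u = x.u + Ad x.a y.u := rfl
@[simp] theorem mul_a (x y : TG n R) : (x * y).a = x.a * y.a := rfl
@[simp] theorem one_u : (1 : TG n R).u = 0 := rfl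
@[simp] theorem one_a : (1 : TG n R).a = 1 := rfl
@[simp] theorem inv_u (x : TG n R) : (x⁻¹).u = -Ad x.a⁻¹ x.u := rfl
@[simp] theorem inv_a (x : TG n R) : (x⁻¹).a = x.a⁻¹ := rfl

instance : Group (TG n R) := Group.ofLeftAxioms
  (fun x y z => by
    ext1
    · simp [Ad_mul, add_assoc]
    · simp [mul_assoc])
  (fun x => by ext1 <;> simp)
  (fun x => by ext1 <;> simp)

/-- projection to the base point -/
def pr : TG n R →* SL n R where
  toFun x := x.a
  map_one' := rfl
  map_mul' _ _ := rfl

@[simp] theorem pr_apply (x : TG n R) : pr x = x.a := rfl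

/-- the zero section -/
def zs : SL n R →* TG n R where
  toFun a := ⟨0, a⟩
  map_one' := rfl
  map_mul' a b := by ext1 <;> simp

@[simp] theorem zs_u (a : SL n R) : (zs a).u = 0 := rfl
@[simp] theorem zs_a (a : SL n R) : (zs a).a = a := rfl

/-- base change -/
def tmap (f : R →+* S) : TG n R →* TG n S where
  toFun x := ⟨x.u.map f, smap f x.a⟩
  map_one' := by ext1 <;> simp
  map_mul' x y := by
    ext1
    · simp [Matrix.map_add, Ad_map]
    · simp

@[simp] theorem tmap_u (f : R →+* S) (x : TG n R) : (tmap f x).u = x.u.map f := rfl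
@[simp] theorem tmap_a (f : R →+* S) (x : TG n R) : (tmap f x).a = smap f x.a := rfl

/-- scaling -/
def scal (c : R) : TG n R →* TG n R where
  toFun x := ⟨c • x.u, x.a⟩
  map_one' := by ext1 <;> simp
  map_mul' x y := by ext1 <;> simp

/-- pairs over the same base point -/
def fib : Subgroup (TG n R × TG n R) := (pr.comp (MonoidHom.fst _ _)).eqLocus
  (pr.comp (MonoidHom.snd _ _))

/-- addition of tangent vectors -/
def addH : (fib : Subgroup (TG n R × TG n R)) →* TG n R where
  toFun x := ⟨x.1.1.u + x.1.2.u, x.1.1.a⟩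
  map_one' := by ext1 <;> simp
  map_mul' x y := by
    have h : x.1.1.a = x.1.2.a := x.2
    ext1
    · simp only [Subgroup.coe_mul, Prod.fst_mul, Prod.snd_mul, mul_u, map_add, h]; abel
    · simp

/-- traceless tangent vectors -/
def tl : Subgroup (TG n R) where
  carrier := {x | x.u.trace = 0}
  mul_mem' := by
    intro x y hx hy
    simp only [Set.mem_setOf_eq] at *
    simp [hx, hy]
  one_mem' := by simp
  inv_mem' := by
    intro x hx
    simp only [Set.mem_setOf_eq] at *
    simp [hx]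

end TG

section ld
variable {O R S : Type} [CommRing O] [CommRing R] [CommRing S] [Algebra O R]

theorem map_der_mul (D : Derivation O R R) (M N : Matrix n n R) :
    (M * N).map D = M.map D * N + M * N.map D := by
  ext i j
  simp only [Matrix.map_apply, Matrix.mul_apply, Matrix.add_apply, map_sum, Derivation.leibniz,
    smul_eq_mul, ← Finset.sum_add_distrib]
  exact Finset.sum_congr rfl fun k _ => by ring

theorem map_der_one (D : Derivation O R R) : (1 : Matrix n n R).map D = 0 := by
  ext i j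
  by_cases h : i = j <;> simp [Matrix.one_apply, h]

/-- logarithmic derivative `D(A) A⁻¹` -/
def ld (D : Derivation O R R) (A : SL n R) : Matrix n n R := A.1.map D * (A⁻¹).1

theorem ld_mul_val (D : Derivation O R R) (A : SL n R) : ld D A * A.1 = A.1.map D := by
  rw [ld, Matrix.mul_assoc, inv_mul_val, Matrix.mul_one]

theorem ld_mul (D : Derivation O R R) (A B : SL n R) :
    ld D (A * B) = ld D A + Ad A (ld D B) := by
  simp only [ld, Ad_apply, val_mul, map_der_mul, _root_.mul_inv_rev, Matrix.add_mul,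
    Matrix.mul_assoc]
  rw [← Matrix.mul_assoc B.1, mul_inv_val, Matrix.one_mul]

theorem ld_one (D : Derivation O R R) : ld D (1 : SL n R) = 0 := by
  rw [ld, val_one, map_der_one, Matrix.zero_mul]

/-- the jet homomorphism of a derivation -/
def jet (D : Derivation O R R) : SL n R →* TG n R where
  toFun A := ⟨ld D A, A⟩
  map_one' := by ext1 <;> simp [ld_one]
  map_mul' A B := by ext1 <;> simp [ld_mul]

@[simp] theorem jet_u (D : Derivation O R R) (A : SL n R) : (jet D A).u = ld D A := rfl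
@[simp] theorem jet_a (D : Derivation O R R) (A : SL n R) : (jet D A).a = A := rfl

theorem ld_inv (D : Derivation O R R) (A : SL n R) : ld D A⁻¹ = -Ad A⁻¹ (ld D A) := by
  exact congrArg TG.u (map_inv (jet D) A)

theorem ld_const (D : Derivation O R R) (A : SL n O) :
    ld D (smap (algebraMap O R) A) = 0 := by
  have : (smap (algebraMap O R) A).1.map D = 0 := by
    ext i j; simp
  rw [ld, this, Matrix.zero_mul]

/-- `ld` is linear in the derivation -/
def ldL (A : SL n R) : Derivation O R R →ₗ[R] Matrix n n R where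
  toFun D := ld D A
  map_add' D E := by
    have : A.1.map (D + E : Derivation O R R) = A.1.map D + A.1.map E := by ext; simp
    simp only [ld, this, Matrix.add_mul]
  map_smul' c D := by
    have : A.1.map (c • D : Derivation O R R) = c • A.1.map D := by ext; simp
    simp only [ld, this, RingHom.id_apply, Matrix.smul_mul]

@[simp] theorem ldL_apply (A : SL n R) (D : Derivation O R R) : ldL A D = ld D A := rfl

end ld

/-- A group word in constants `K` and variables `V`: a function natural in the group. -/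
structure Word (K V : Type) where
  ev : ∀ {G : Type} [Group G], (K → G) → (V → G) → G
  nat : ∀ {G H : Type} [Group G] [Group H] (f : G →* H) (J : K → G) (ρ : V → G),
    f (ev J ρ) = ev (fun k => f (J k)) (fun v => f (ρ v))

section Lin
variable {K V R S : Type} [CommRing R] [CommRing S]

theorem Word.ev_a (w : Word K V) (J : K → SL n R) (ρ : V → SL n R) (u : V → Matrix n n R) :
    (w.ev (fun k => TG.zs (J k)) (fun v => (⟨u v, ρ v⟩ : TG n R))).a = w.ev J ρ :=
  w.nat TG.pr _ _

/-- linearisation of a word at a point -/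
def Lin (w : Word K V) (J : K → SL n R) (ρ : V → SL n R) :
    (V → Matrix n n R) →ₗ[R] Matrix n n R where
  toFun u := (w.ev (fun k => TG.zs (J k)) (fun v => (⟨u v, ρ v⟩ : TG n R))).u
  map_add' u u' := by
    let J' : K → (TG.fib : Subgroup (TG n R × TG n R)) :=
      fun k => ⟨(TG.zs (J k), TG.zs (J k)), rfl⟩
    let ρ' : V → (TG.fib : Subgroup (TG n R × TG n R)) :=
      fun v => ⟨(⟨u v, ρ v⟩, ⟨u' v, ρ v⟩), rfl⟩
    have h1 := w.nat ((MonoidHom.fst _ _).comp TG.fib.subtype) J' ρ'
    have h2 := w.nat ((MonoidHom.snd _ _).comp TG.fib.subtype) J' ρ'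
    have h3 := w.nat TG.addH J' ρ'
    have e : (fun k => TG.addH (J' k)) = fun k => TG.zs (J k) := by
      funext k; ext1 <;> simp [TG.addH, J']
    rw [e] at h3
    have h4 := congrArg TG.u h3
    have h5 := congrArg TG.u h1
    have h6 := congrArg TG.u h2
    exact h4.symm.trans (congrArg₂ (· + ·) h5 h6)
  map_smul' c u := by
    have h := w.nat (TG.scal c) (fun k => TG.zs (J k)) (fun v => (⟨u v, ρ v⟩ : TG n R))
    have e : (fun k => TG.scal c (TG.zs (J k))) = fun k => TG.zs (J k) := by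
      funext k; ext1 <;> simp [TG.scal]
    rw [e] at h
    exact (congrArg TG.u h).symm

theorem Lin_apply (w : Word K V) (J : K → SL n R) (ρ : V → SL n R) (u : V → Matrix n n R) :
    Lin w J ρ u = (w.ev (fun k => TG.zs (J k)) (fun v => (⟨u v, ρ v⟩ : TG n R))).u := rfl

theorem trace_Lin (w : Word K V) (J : K → SL n R) (ρ : V → SL n R) (u : V → Matrix n n R)
    (hu : ∀ v, (u v).trace = 0) : (Lin w J ρ u).trace = 0 := by
  let J' : K → (TG.tl : Subgroup (TG n R)) := fun k => ⟨TG.zs (J k), Matrix.trace_zero n R⟩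
  let ρ' : V → (TG.tl : Subgroup (TG n R)) := fun v => ⟨⟨u v, ρ v⟩, hu v⟩
  have h := w.nat TG.tl.subtype J' ρ'
  have h2 : (TG.tl.subtype (w.ev J' ρ')).u.trace = 0 := (w.ev J' ρ').2
  rw [h] at h2
  exact h2

theorem Lin_map (w : Word K V) (f : R →+* S) (J : K → SL n R) (ρ : V → SL n R)
    (u : V → Matrix n n R) :
    (Lin w J ρ u).map f =
      Lin w (fun k => smap f (J k)) (fun v => smap f (ρ v)) (fun v => (u v).map f) := by
  have h := w.nat (TG.tmap f) (fun k => TG.zs (J k)) (fun v => (⟨u v, ρ v⟩ : TG n R))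
  have e : (fun k => TG.tmap f (TG.zs (J k))) = fun k => TG.zs (smap f (J k)) := by
    funext k; ext1 <;> simp
  rw [e] at h
  exact congrArg TG.u h

theorem ld_ev {O : Type} [CommRing O] [Algebra O R] (w : Word K V) (D : Derivation O R R)
    (J : K → SL n R) (hJ : ∀ k, ld D (J k) = 0) (ρ : V → SL n R) :
    ld D (w.ev J ρ) = Lin w J ρ (fun v => ld D (ρ v)) := by
  have h := w.nat (jet D) J ρ
  have e : (fun k => jet D (J k)) = fun k => TG.zs (J k) := by
    funext k; ext1 <;> simp [hJ]
  rw [e] at h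
  exact congrArg TG.u h

/-- traceless matrices -/
def sl (n : Type) [Fintype n] (R : Type) [CommRing R] : Submodule R (Matrix n n R) :=
  LinearMap.ker (Matrix.traceLinearMap n R R)

theorem mem_sl {X : Matrix n n R} : X ∈ sl n R ↔ X.trace = 0 := Iff.rfl

/-- families of traceless matrices -/
def slV (V n : Type) [Fintype n] (R : Type) [CommRing R] : Submodule R (V → Matrix n n R) :=
  Submodule.pi Set.univ fun _ => sl n R

theorem mem_slV {u : V → Matrix n n R} : u ∈ slV V n R ↔ ∀ v, (u v).trace = 0 := by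
  simp [slV, Submodule.mem_pi, mem_sl]

/-- the tangent space (cocycles) -/
def Z1 (w : Word K V) (J : K → SL n R) (ρ : V → SL n R) : Submodule R (V → Matrix n n R) :=
  slV V n R ⊓ LinearMap.ker (Lin w J ρ)

theorem mem_Z1 {w : Word K V} {J : K → SL n R} {ρ : V → SL n R} {u : V → Matrix n n R} :
    u ∈ Z1 w J ρ ↔ (∀ v, (u v).trace = 0) ∧ Lin w J ρ u = 0 := by
  simp [Z1, mem_slV]

/-- the linearisation is onto the traceless matrices -/
def Sm (w : Word K V) (J : K → SL n R) (ρ : V → SL n R) : Prop :=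
  ∀ Y : Matrix n n R, Y.trace = 0 → ∃ u : V → Matrix n n R,
    (∀ v, (u v).trace = 0) ∧ Lin w J ρ u = Y

/-- traceless common centraliser of two matrices -/
def Z0 (A B : SL n R) : Submodule R (Matrix n n R) where
  carrier := {Z | Z.trace = 0 ∧ A.1 * Z = Z * A.1 ∧ B.1 * Z = Z * B.1}
  add_mem' := by
    rintro X Y ⟨h1, h2, h3⟩ ⟨k1, k2, k3⟩
    refine ⟨by simp [h1, k1], ?_, ?_⟩ <;> simp only [mul_add, add_mul, *]
  zero_mem' := by simp
  smul_mem' := by
    rintro c X ⟨h1, h2, h3⟩
    refine ⟨by simp [h1], ?_, ?_⟩ <;> simp only [Matrix.mul_smul, Matrix.smul_mul, *]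

/-- linearisation of the commutator -/
def Lc (A B : SL n R) (α β : Matrix n n R) : Matrix n n R :=
  α + Ad A β - Ad (A * B * A⁻¹) α - Ad (A * B * A⁻¹ * B⁻¹) β

theorem comm_u (A B : SL n R) (α β : Matrix n n R) :
    ((⟨α, A⟩ : TG n R) * ⟨β, B⟩ * (⟨α, A⟩ : TG n R)⁻¹ * (⟨β, B⟩ : TG n R)⁻¹).u = Lc A B α β := by
  simp only [TG.mul_u, TG.inv_u, TG.mul_a, TG.inv_a, map_neg, ← Ad_mul, Lc]
  abel

end Lin

section Points
variable {K V O : Type} [CommRing O]

/-- matrix entries of a family -/
def ent {R : Type} [CommRing R] (ρ : V → SL n R) : V × n × n → R :=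
  fun p => (ρ p.1).1 p.2.1 p.2.2

/-- the constants over an `O`-algebra -/
def cJ (J : K → SL n O) (R : Type) [CommRing R] [Algebra O R] : K → SL n R :=
  fun k => smap (algebraMap O R) (J k)

/-- image of a family under an algebra map -/
def pm {R S : Type} [CommRing R] [CommRing S] [Algebra O R] [Algebra O S] (θ : R →ₐ[O] S)
    (ρ : V → SL n R) : V → SL n S := fun v => smap (θ : R →+* S) (ρ v)

theorem pm_cJ {R S : Type} [CommRing R] [CommRing S] [Algebra O R] [Algebra O S] (θ : R →ₐ[O] S)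
    (J : K → SL n O) : pm θ (cJ J R) = cJ J S := by
  funext k; ext i j; simp [pm, cJ]

theorem ev_pm {R S : Type} [CommRing R] [CommRing S] [Algebra O R] [Algebra O S] (θ : R →ₐ[O] S)
    (w : Word K V) (J : K → SL n O) (ρ : V → SL n R) :
    w.ev (cJ J S) (pm θ ρ) = smap (θ : R →+* S) (w.ev (cJ J R) ρ) := by
  rw [w.nat, ← pm_cJ θ J]; rfl

theorem aeval_ent_pm {R S : Type} [CommRing R] [CommRing S] [Algebra O R] [Algebra O S]
    (θ : R →ₐ[O] S) (ρ : V → SL n R) (f : MvPolynomial (V × n × n) O) :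
    MvPolynomial.aeval (ent (pm θ ρ)) f = θ (MvPolynomial.aeval (ent ρ) f) := by
  rw [MvPolynomial.comp_aeval_apply]; rfl

theorem ld_cJ {R : Type} [CommRing R] [Algebra O R] (D : Derivation O R R) (J : K → SL n O)
    (k : K) : ld D (cJ J R k) = 0 := ld_const D _

/-- solutions of the relation -/
def XX (w : Word K V) (J : K → SL n O) (R : Type) [CommRing R] [Algebra O R] :
    Set (V → SL n R) := {ρ | w.ev (cJ J R) ρ = 1}

/-- Zariski closure of the integral solutions -/
def WW (w : Word K V) (J : K → SL n O) (R : Type) [CommRing R] [Algebra O R] :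
    Set (V → SL n R) :=
  {ρ | ∀ f : MvPolynomial (V × n × n) O,
    (∀ y ∈ XX w J O, MvPolynomial.aeval (ent y) f = 0) → MvPolynomial.aeval (ent ρ) f = 0}

/-- every cocycle comes from a derivation -/
def Full (w : Word K V) (J : K → SL n O) {R : Type} [CommRing R] [Algebra O R]
    (ρ : V → SL n R) : Prop :=
  ∀ u ∈ Z1 w (cJ J R) ρ, ∃ D : Derivation O R R, ∀ v, ld D (ρ v) = u v

/-- every traceless family comes from a derivation -/
def DGen (O : Type) [CommRing O] {κ R : Type} [CommRing R] [Algebra O R] (x : κ → SL n R) :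
    Prop :=
  ∀ u : κ → Matrix n n R, (∀ v, (u v).trace = 0) → ∃ D : Derivation O R R, ∀ v, ld D (x v) = u v

/-- A twist family for the relation `w`. -/
structure Tw (w : Word K V) where
  γ : Word K V
  τ : ∀ {G : Type} [Group G], (K → G) → (V → G) → G → V → G
  nat : ∀ {G H : Type} [Group G] [Group H] (f : G →* H) (J : K → G) (ρ : V → G) (z : G) (v : V),
    f (τ J ρ z v) = τ (fun k => f (J k)) (fun v => f (ρ v)) (f z) v
  one : ∀ {G : Type} [Group G] (J : K → G) (ρ : V → G), τ J ρ 1 = ρ
  pres : ∀ {G : Type} [Group G] (J : K → G) (ρ : V → G) (z : G), Commute z (γ.ev J ρ) →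
    w.ev J (τ J ρ z) = w.ev J ρ

/-- tangent vector of a twist family -/
def Tw.tv {w : Word K V} (t : Tw w) {R : Type} [CommRing R] (J : K → SL n R) (ρ : V → SL n R)
    (ξ : Matrix n n R) : V → Matrix n n R :=
  fun v => (t.τ (fun k => TG.zs (J k)) (fun v => TG.zs (ρ v)) ⟨ξ, 1⟩ v).u

end Points

/-- diagonalisable with multiplicatively independent eigenvalues -/
def Good {F : Type} [Field F] (B : SL n F) : Prop :=
  ∃ (P Q : Matrix n n F) (lam : n → Fˣ), P * Q = 1 ∧ Q * P = 1 ∧
    B.1 = P * Matrix.diagonal (fun i => (lam i : F)) * Q ∧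
    ∀ m : n → ℤ, ∏ i, lam i ^ m i = 1 → ∀ i j, m i = m j

/-- The surface-type relation `[a0,b0][a1,b1] C(rest)`; the variables `inl 0, …, inl 3` are
`a0, b0, a1, b1`. -/
def sys {K W : Type} (C : Word K W) : Word K (Fin 4 ⊕ W) where
  ev J ρ := (ρ (.inl 0) * ρ (.inl 1) * (ρ (.inl 0))⁻¹ * (ρ (.inl 1))⁻¹) *
    (ρ (.inl 2) * ρ (.inl 3) * (ρ (.inl 2))⁻¹ * (ρ (.inl 3))⁻¹) * C.ev J (fun w => ρ (.inr w))
  nat f J ρ := by simp only [map_mul, map_inv, C.nat]

theorem Lin_sys {K W R : Type} [CommRing R] (C : Word K W) (J : K → SL n R)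
    (ρ : Fin 4 ⊕ W → SL n R) (u : Fin 4 ⊕ W → Matrix n n R) :
    Lin (sys C) J ρ u = Lc (ρ (.inl 0)) (ρ (.inl 1)) (u (.inl 0)) (u (.inl 1)) +
      Ad (ρ (.inl 0) * ρ (.inl 1) * (ρ (.inl 0))⁻¹ * (ρ (.inl 1))⁻¹)
        (Lc (ρ (.inl 2)) (ρ (.inl 3)) (u (.inl 2)) (u (.inl 3)) +
        Ad (ρ (.inl 2) * ρ (.inl 3) * (ρ (.inl 2))⁻¹ * (ρ (.inl 3))⁻¹)
          (Lin C J (fun w => ρ (.inr w)) (fun w => u (.inr w)))) := by
  rw [Lin_apply, Lin_apply]
  simp only [sys]
  rw [TG.mul_u, TG.mul_u, comm_u, comm_u]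
  simp only [TG.mul_a, TG.inv_a, Ad_mul, map_add, add_assoc]

/-- the base family `(A0, 1, A1, 1, y)` -/
def base {W G : Type} [Group G] (A0 A1 : G) (y : W → G) : Fin 4 ⊕ W → G :=
  Sum.elim ![A0, 1, A1, 1] y

/-- A twist whose holonomy at the base family is `F A0 A1` and whose tangent vector has the
components `lam ξ` on the remaining variables. -/
def Pr {K W F : Type} [Field F] {C : Word K W} (J : K → SL n F) (y : W → SL n F)
    (t : Tw (sys C)) (Φ : SL n F → SL n F → SL n F)
    (lam : Matrix n n F →ₗ[F] (W → Matrix n n F)) : Prop :=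
  ∀ A0 A1 : SL n F, t.γ.ev J (base A0 A1 y) = Φ A0 A1 ∧
    ∀ ξ w, t.tv J (base A0 A1 y) ξ (.inr w) = lam ξ w

/-- Enough twists to move the remaining variables. -/
def RT {K W O : Type} [CommRing O] (C : Word K W) (J : K → SL n O) (y : W → SL n O)
    (F : Type) [Field F] [Algebra O F] : Prop :=
  ∀ S : Submodule F (W → Matrix n n F),
    (∀ (t : Tw (sys C)) (q : SL n O) (lam : Matrix n n F →ₗ[F] (W → Matrix n n F)),
      Pr (cJ J F) (cJ y F) t (fun _ A1 => smap (algebraMap O F) q * A1) lam →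
      ∀ ξ : Matrix n n F, ξ.trace = 0 → lam ξ ∈ S) → slV W n F ≤ S

/-- A big algebraically closed field over `O`. -/
structure BigField (O : Type) [CommRing O] where
  Ω : Type
  [f : Field Ω]
  [ac : IsAlgClosed Ω]
  [cz : CharZero Ω]
  [unc : Uncountable Ω]
  [alg : Algebra O Ω]
  [fs : FaithfulSMul O Ω]

attribute [instance] BigField.f BigField.ac BigField.cz BigField.unc BigField.alg BigField.fs

/-- `r` times the traceless part -/
def tl0 {R : Type} [CommRing R] (X : Matrix n n R) : Matrix n n R :=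
  (Fintype.card n : R) • X - X.trace • (1 : Matrix n n R)

theorem trace_tl0 {R : Type} [CommRing R] (X : Matrix n n R) : (tl0 X).trace = 0 := by
  simp [tl0, mul_comm]

/-- a spanning family of traceless matrices defined over every ring -/
def eb {R : Type} [CommRing R] (i0 a b : n) : Matrix n n R :=
  Matrix.single a b 1 - if a = b then Matrix.single i0 i0 1 else 0

/-- non-degeneracy of the linear system for the column `i0` -/
def ND {F : Type} [Field F] (i0 : n) (A B : SL n F) : Prop :=
  ∀ w : n → F, w i0 = 0 →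
    (∀ k : ℕ, ((B ^ k).1 *ᵥ w) i0 = (((A * B * A⁻¹) ^ k).1 *ᵥ w) i0) → w = 0

/-- the free coordinates -/
def TI {W : Type} (i0 : n) (p : (Fin 4 ⊕ W) × n × n) : Prop :=
  p.1 ≠ .inl 0 ∧ (p.1 = .inl 1 → p.2.2 ≠ i0) ∧ (p.1 ≠ .inl 1 → p.2 ≠ (i0, i0))

/-- a single matrix is generic -/
def Gen1 (O : Type) [CommRing O] {R : Type} [CommRing R] [Algebra O R] (A : SL n R) : Prop :=
  ∀ α : Matrix n n R, α.trace = 0 → ∃ D : Derivation O R R, ld D A = α

/-- A deformation inside `WW` of the point `h`. -/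
structure Datum {K V O : Type} [CommRing O] (w : Word K V) (J : K → SL n O) {Ω : Type} [Field Ω]
    [Algebra O Ω] (h : V → SL n Ω) where
  R : Type
  [cr : CommRing R]
  [dom : IsDomain R]
  [unc : Uncountable R]
  [alg : Algebra O R]
  θ : R →ₐ[O] Ω
  ρ : V → SL n R
  hW : ρ ∈ WW w J R
  hθ : pm θ ρ = h

attribute [instance] Datum.cr Datum.dom Datum.unc Datum.alg

/-- tangent vectors at `h` coming from derivations of the datum -/
def Datum.Sp {K V O : Type} [CommRing O] {w : Word K V} {J : K → SL n O} {Ω : Type} [Field Ω]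
    [Algebra O Ω] {h : V → SL n Ω} (d : Datum w J h) : Submodule Ω (V → Matrix n n Ω) :=
  Submodule.span Ω {u | ∃ D : Derivation O d.R d.R, u = fun v => (ld D (d.ρ v)).map d.θ}

/-- the product of the further handles and of the punctures -/
def CW (m s : ℕ) : Word (Fin s) (Fin m ⊕ Fin m ⊕ Fin s) where
  ev J y := (List.ofFn fun i : Fin m => y (.inl i) * y (.inr (.inl i)) * (y (.inl i))⁻¹ *
      (y (.inr (.inl i)))⁻¹).prod *
    (List.ofFn fun k : Fin s => y (.inr (.inr k)) * J k * (y (.inr (.inr k)))⁻¹).prod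
  nat f J y := by
    simp only [map_mul, map_list_prod, List.map_ofFn, Function.comp_def, map_inv]

end Vale.Agent.P002
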