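import Vale.Agent.P002.St
import Vale.Agent.P002.Defs

/-! P002: definitions for the induction on the rank. -/

namespace Vale.Agent.P002

open Matrix

variable {n : Type} [Fintype n] [DecidableEq n]

/-- product of the commutators -/
def hprod {G : Type} [Group G] {g : ℕ} (ρ : Fin g ⊕ Fin g → G) : G :=
  (List.ofFn fun i : Fin g => ρ (.inl i) * ρ (.inr i) * (ρ (.inl i))⁻¹ * (ρ (.inr i))⁻¹).prod

theorem map_hprod {G H : Type} [Group G] [Group H] {g : ℕ} (f : G →* H)
    (ρ : Fin g ⊕ Fin g → G) : f (hprod ρ) = hprod fun v => f (ρ v) := by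
  simp only [hprod, map_list_prod, List.map_ofFn, Function.comp_def, map_mul, map_inv]

/-- handles in `SL`, boundary elements arbitrary matrices -/
abbrev Tup (g s n R : Type) [Fintype n] [DecidableEq n] [CommRing R] : Type :=
  (g ⊕ g → SL n R) × (s → Matrix n n R)

/-- the relation -/
def RepG (g s : ℕ) (n R : Type) [Fintype n] [DecidableEq n] [CommRing R] :
    Set (Tup (Fin g) (Fin s) n R) := {p | (hprod p.1).1 * (List.ofFn p.2).prod = 1}

/-- the underlying matrices -/
def raw {g s R : Type} [CommRing R] (p : Tup g s n R) : (g ⊕ g) ⊕ s → Matrix n n R :=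
  Sum.elim (fun v => (p.1 v).1) p.2

/-- `f` is invariant under conjugation -/
def Inv (g s : ℕ) (c : Fin s → Matrix n n ℂ) (f : MvPolynomial (Gen g s × n × n) ℂ) : Prop :=
  ∀ p ∈ RepG g s n ℂ, (∀ k, (p.2 k).det = (c k).det) →
    ∀ P : SL n ℂ, val f (fun v => Ad P (raw p v)) = val f (raw p)

/-- semisimple integral points with boundary elements conjugate to the `c k` -/
def IntP (g s : ℕ) (O : Type) [CommRing O] [Algebra O ℂ] (c : Fin s → Matrix n n ℂ) :
    Set (Gen g s → Matrix n n ℂ) :=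
  {M | (∃ p ∈ RepG g s n O, M = fun v => (raw p v).map (algebraMap O ℂ)) ∧ SS M ∧
    ∀ k, ∃ P : SL n ℂ, M (.inr k) = Ad P (c k)}

/-- the statement proved by induction on the rank -/
def QQ (g s N : ℕ) (O : Type) [CommRing O] [Algebra O ℂ] (r : ℕ) : Prop :=
  ∀ p ∈ RepG g s (Fin r) ℂ, SS (raw p) → (∀ k x, (p.2 k).charpoly.IsRoot x → x ^ N = 1) →
    ∀ f : MvPolynomial (Gen g s × Fin r × Fin r) ℂ, Inv g s p.2 f →
      (∀ M ∈ IntP g s O p.2, val f M = 0) → val f (raw p) = 0

/-- no proper invariant subspace -/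
def Irr {ι : Type} (M : ι → Matrix n n ℂ) : Prop := ∀ U, Invt M U → U = ⊥ ∨ U = ⊤

/-- polynomial functions of matrix families -/
def IsP {ι : Type} (F : (ι → Matrix n n ℂ) → ℂ) : Prop :=
  ∃ f : MvPolynomial (ι × n × n) ℂ, ∀ M, F M = val f M

/-- The properties of the ring of integers that are used. -/
structure OK (O : Type) [CommRing O] [Algebra O ℂ] (s N R : ℕ) : Prop where
  root : ∀ ω : ℂ, ω ^ (N * R.factorial) = 1 → ∃ u : O, algebraMap O ℂ u = ω
  inf : (Set.range fun u : Oˣ => algebraMap O ℂ u).Infinite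
  comm : ∀ r ≤ R, ∀ T : Fin s → Matrix (Fin r) (Fin r) ℂ, (∀ k i j, j < i → T k i j = 0) →
    (∀ k i j, T k i j ^ N = 1 ∨ T k i j = 0) → (List.ofFn T).prod.det = 1 →
    ∃ A B : SL (Fin r) O,
      (A * B * A⁻¹ * B⁻¹).1.map (algebraMap O ℂ) * (List.ofFn T).prod = 1

/-- block diagonal matrices -/
def blk {n₁ n₂ R : Type} [Zero R] (e : n₁ ⊕ n₂ ≃ n) (X : Matrix n₁ n₁ R) (Z : Matrix n₂ n₂ R) :
    Matrix n n R := Matrix.reindex e e (Matrix.fromBlocks X 0 0 Z)

end Vale.Agent.P002
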