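import Vale.Agent.P002.BDefs

/-! P002, task Burn: irreducible families.

* `schur`: an eigenspace of `ζ` is invariant and nonzero.
* `burnside`: `A = Algebra.adjoin ℂ (range M)` acts on `n → ℂ` by `mulVec`
  (`Module.compHom` along `A →+* Module.End ℂ (n → ℂ)`, on a type synonym if needed); the module is
  simple, `End_A` consists of the scalars (`schur`), so the density theorem
  (`Module.Finite.toModuleEnd_moduleEnd_surjective`, or `jacobson_density`) shows `A = ⊤`;
  `Algebra.adjoin_eq_span`, `Submonoid.closure` elements are products of lists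
  (`Submonoid.exists_list_of_mem_closure`). A direct proof is also fine.
* `irr_of_span`, `irr_open`: choose lists `l p` (`p : n × n`) with `wd M (l p)` a basis
  (`exists_linearIndependent`, cardinality `finrank = card (n × n)`); `q` is the determinant of the
  `(n × n) × (n × n)` matrix of the entries of the words in the generic matrices. -/

namespace Vale.Agent.P002

open Matrix

variable {n ι : Type} [Fintype n] [DecidableEq n]

theorem schur (M : ι → Matrix n n ℂ) (h : Irr M) (ζ : Matrix n n ℂ)
    (hζ : ∀ i, M i * ζ = ζ * M i) : ∃ c : ℂ, ζ = c • (1 : Matrix n n ℂ) := by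
  rcases isEmpty_or_nonempty n with hn | hn
  · exact ⟨0, Subsingleton.elim _ _⟩
  obtain ⟨c, hc⟩ := Module.End.exists_eigenvalue (K := ℂ) (V := n → ℂ) (Matrix.toLin' ζ)
  refine ⟨c, ?_⟩
  have hinv : Invt M (Module.End.eigenspace (Matrix.toLin' ζ) c) := by
    intro i v hv
    rw [Module.End.mem_eigenspace_iff] at hv ⊢
    rw [Matrix.toLin'_apply] at hv ⊢
    rw [Matrix.mulVec_mulVec, ← hζ, ← Matrix.mulVec_mulVec, hv, Matrix.mulVec_smul]
  rcases h _ hinv with h0 | h1
  · exact absurd h0 hc
  · apply Matrix.toLin'.injective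
    refine LinearMap.ext fun v => ?_
    have hv : v ∈ Module.End.eigenspace (Matrix.toLin' ζ) c := h1 ▸ Submodule.mem_top
    rw [Module.End.mem_eigenspace_iff] at hv
    rw [hv, Matrix.toLin'_apply, Matrix.smul_mulVec, Matrix.one_mulVec]

/-- the product of a word -/
def wd {R : Type} [CommRing R] (M : ι → Matrix n n R) (l : List ι) : Matrix n n R :=
  (l.map M).prod

theorem burn_closure (M : ι → Matrix n n ℂ) :
    (Submonoid.closure (Set.range M) : Set (Matrix n n ℂ)) ⊆ Set.range (wd M) := by
  intro x hx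
  induction hx using Submonoid.closure_induction with
  | mem x hx =>
    obtain ⟨i, rfl⟩ := hx
    exact ⟨[i], by simp [wd]⟩
  | one => exact ⟨[], by simp [wd]⟩
  | mul x y _ _ hx hy =>
    obtain ⟨l, rfl⟩ := hx
    obtain ⟨l', rfl⟩ := hy
    exact ⟨l ++ l', by simp [wd]⟩

theorem burn_adjoin (M : ι → Matrix n n ℂ) (h : Irr M) :
    Algebra.adjoin ℂ (Set.range M) = ⊤ := by
  classical
  set A := Algebra.adjoin ℂ (Set.range M) with hA
  have hM : ∀ i, M i ∈ A := fun i => Algebra.subset_adjoin ⟨i, rfl⟩
  have hsm : ∀ (a : A) (v : n → ℂ), a • v = (a : Matrix n n ℂ) *ᵥ v := fun a v => rfl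
  have hc : ∀ (c : ℂ) (v : n → ℂ), (algebraMap ℂ A c) • v = c • v := by
    intro c v
    rw [hsm, Subalgebra.coe_algebraMap, Algebra.algebraMap_eq_smul_one, Matrix.smul_mulVec,
      Matrix.one_mulVec]
  have hsub : ∀ U : Submodule A (n → ℂ), U = ⊥ ∨ U = ⊤ := by
    intro U
    let U' : Submodule ℂ (n → ℂ) :=
      { carrier := U
        add_mem' := fun ha hb => U.add_mem ha hb
        zero_mem' := U.zero_mem
        smul_mem' := fun c v hv => by
          rw [← hc]; exact U.smul_mem _ hv }
    have hU : Invt M U' := fun i v hv => U.smul_mem (⟨M i, hM i⟩ : A) hv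
    rcases h U' hU with h0 | h1
    · left
      refine (Submodule.eq_bot_iff _).2 fun v hv => ?_
      have : v ∈ U' := hv
      rwa [h0, Submodule.mem_bot] at this
    · right
      refine Submodule.eq_top_iff'.2 fun v => ?_
      have : v ∈ U' := h1 ▸ Submodule.mem_top
      exact this
  have : IsSemisimpleModule A (n → ℂ) := by
    refine (isSemisimpleModule_iff _ _).2 ⟨fun U => ?_⟩
    rcases hsub U with rfl | rfl
    · exact ⟨⊤, isCompl_bot_top⟩
    · exact ⟨⊥, isCompl_top_bot⟩
  have hend : ∀ g : Module.End A (n → ℂ), ∃ c : ℂ, ∀ v, g v = c • v := by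
    intro g
    let g' : (n → ℂ) →ₗ[ℂ] (n → ℂ) :=
      { toFun := g
        map_add' := g.map_add
        map_smul' := fun c v => by
          rw [← hc, map_smul, hc]; rfl }
    obtain ⟨c, hcg⟩ := schur M h (LinearMap.toMatrix' g') (fun i => by
      apply Matrix.toLin'.injective
      refine LinearMap.ext fun v => ?_
      rw [Matrix.toLin'_mul, Matrix.toLin'_mul, Matrix.toLin'_toMatrix']
      exact (g.map_smul (⟨M i, hM i⟩ : A) v).symm)
    refine ⟨c, fun v => ?_⟩
    have : g' v = Matrix.toLin' (LinearMap.toMatrix' g') v := by rw [Matrix.toLin'_toMatrix']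
    rw [hcg, Matrix.toLin'_apply, Matrix.smul_mulVec, Matrix.one_mulVec] at this
    exact this
  refine eq_top_iff.2 fun X _ => ?_
  let f : Module.End (Module.End A (n → ℂ)) (n → ℂ) :=
    { toFun := fun v => X *ᵥ v
      map_add' := fun v w => Matrix.mulVec_add X v w
      map_smul' := fun g v => by
        obtain ⟨c, hcg⟩ := hend g
        change X *ᵥ (g v) = g (X *ᵥ v)
        rw [hcg, hcg, Matrix.mulVec_smul] }
  obtain ⟨r, hr⟩ := jacobson_density f (Finset.univ.image fun j : n => Pi.single j (1 : ℂ))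
  have hX : X = (r : Matrix n n ℂ) := by
    ext i j
    have := hr (Pi.single j 1) (Finset.mem_image.2 ⟨j, Finset.mem_univ _, rfl⟩)
    rw [hsm] at this
    have h2 : (X *ᵥ Pi.single j 1) i = ((r : Matrix n n ℂ) *ᵥ Pi.single j 1) i := congrFun this i
    simpa using h2
  rw [hX]
  exact r.2

theorem burnside (M : ι → Matrix n n ℂ) (h : Irr M) :
    Submodule.span ℂ (Set.range (wd M)) = ⊤ := by
  have h1 := Algebra.adjoin_eq_span ℂ (Set.range M)
  rw [burn_adjoin M h] at h1
  refine eq_top_iff.2 ?_
  refine le_trans ?_ (Submodule.span_mono (burn_closure M))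
  rw [← h1]
  exact fun x _ => trivial

theorem burn_wd_mem (M : ι → Matrix n n ℂ) (U : Submodule ℂ (n → ℂ)) (hU : Invt M U)
    (l : List ι) : ∀ v ∈ U, wd M l *ᵥ v ∈ U := by
  induction l with
  | nil => intro v hv; simpa [wd] using hv
  | cons i l ih =>
    intro v hv
    have : wd M (i :: l) = M i * wd M l := by simp [wd]
    rw [this, ← Matrix.mulVec_mulVec]
    exact hU i _ (ih v hv)

theorem irr_of_span (M : ι → Matrix n n ℂ) (h : Submodule.span ℂ (Set.range (wd M)) = ⊤) :
    Irr M := by
  intro U hU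
  have hall : ∀ X : Matrix n n ℂ, ∀ v ∈ U, X *ᵥ v ∈ U := by
    intro X
    have hX : X ∈ Submodule.span ℂ (Set.range (wd M)) := h ▸ Submodule.mem_top
    induction hX using Submodule.span_induction with
    | mem x hx =>
      obtain ⟨l, rfl⟩ := hx
      exact burn_wd_mem M U hU l
    | zero => intro v _; simp
    | add x y _ _ hx hy =>
      intro v hv
      rw [Matrix.add_mulVec]
      exact U.add_mem (hx v hv) (hy v hv)
    | smul c x _ hx =>
      intro v hv
      rw [Matrix.smul_mulVec]
      exact U.smul_mem c (hx v hv)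
  by_cases h0 : U = ⊥
  · exact Or.inl h0
  right
  obtain ⟨v, hv, hv0⟩ := Submodule.exists_mem_ne_zero_of_ne_bot h0
  obtain ⟨j, hj⟩ := Function.ne_iff.1 hv0
  have hj' : v j ≠ 0 := hj
  refine Submodule.eq_top_iff'.2 fun w => ?_
  have := hall (Matrix.of fun a b => if b = j then w a / v j else 0) v hv
  have h2 : (Matrix.of fun a b => if b = j then w a / v j else 0) *ᵥ v = w := by
    ext a
    simp [Matrix.mulVec, dotProduct, hj']
  rwa [h2] at this

theorem burn_wd_map {R S : Type} [CommRing R] [CommRing S] (f : R →+* S) (M : ι → Matrix n n R)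
    (l : List ι) : (wd M l).map f = wd (fun i => (M i).map f) l := by
  induction l with
  | nil => simp [wd]
  | cons i l ih =>
    have h1 : wd M (i :: l) = M i * wd M l := by simp [wd]
    have h2 : wd (fun i => (M i).map f) (i :: l) = (M i).map f * wd (fun i => (M i).map f) l := by
      simp [wd]
    rw [h1, h2, Matrix.map_mul, ih]

theorem burn_li (v : n × n → Matrix n n ℂ) :
    LinearIndependent ℂ v ↔ (Matrix.of fun p r : n × n => v p r.1 r.2).det ≠ 0 := by
  let e : Matrix n n ℂ ≃ₗ[ℂ] (n × n → ℂ) :=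
    { toFun := fun X r => X r.1 r.2
      invFun := fun F => Matrix.of fun a b => F (a, b)
      map_add' := fun _ _ => rfl
      map_smul' := fun _ _ => rfl
      left_inv := fun _ => rfl
      right_inv := fun _ => rfl }
  rw [← LinearMap.linearIndependent_iff_of_injOn e.toLinearMap e.injective.injOn,
    ← isUnit_iff_ne_zero, ← Matrix.isUnit_iff_isUnit_det, ← Matrix.linearIndependent_rows_iff_isUnit]
  rfl

theorem irr_open (M : ι → Matrix n n ℂ) (h : Irr M) :
    ∃ q : MvPolynomial (ι × n × n) ℂ, val q M ≠ 0 ∧ ∀ M', val q M' ≠ 0 → Irr M' := by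
  classical
  obtain ⟨κ, a, _, hsp, hli⟩ := exists_linearIndependent' ℂ (wd M)
  rw [burnside M h] at hsp
  let b : Module.Basis κ ℂ (Matrix n n ℂ) := Module.Basis.mk hli hsp.ge
  let e : κ ≃ n × n := b.indexEquiv (Matrix.stdBasis ℂ n n)
  let l : n × n → List ι := fun p => a (e.symm p)
  let G : ι → Matrix n n (MvPolynomial (ι × n × n) ℂ) :=
    fun i => Matrix.of fun x y => MvPolynomial.X (i, x, y)
  let q : MvPolynomial (ι × n × n) ℂ := (Matrix.of fun p r : n × n => wd G (l p) r.1 r.2).det
  have hq : ∀ M' : ι → Matrix n n ℂ,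
      val q M' = (Matrix.of fun p r : n × n => wd M' (l p) r.1 r.2).det := by
    intro M'
    have hG : (fun i => (G i).map (MvPolynomial.eval fun p : ι × n × n => M' p.1 p.2.1 p.2.2))
        = M' := by
      funext i
      ext x y
      simp [G]
    unfold val
    rw [RingHom.map_det]
    refine congrArg Matrix.det ?_
    ext p r
    have := burn_wd_map (MvPolynomial.eval fun p : ι × n × n => M' p.1 p.2.1 p.2.2) G (l p)
    rw [hG] at this
    have h2 := congrFun (congrFun this r.1) r.2
    simpa using h2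
  refine ⟨q, ?_, fun M' hM' => ?_⟩
  · rw [hq, ← burn_li]
    exact hli.comp e.symm e.symm.injective
  · rw [hq, ← burn_li] at hM'
    apply irr_of_span
    have h1 := hM'.span_eq_top_of_card_eq_finrank' (by simp [Module.finrank_matrix])
    refine eq_top_iff.2 (h1.ge.trans (Submodule.span_mono ?_))
    rintro _ ⟨p, rfl⟩
    exact ⟨l p, rfl⟩

theorem Irr.ss {M : ι → Matrix n n ℂ} (h : Irr M) : SS M := by
  intro U hU
  rcases h U hU with rfl | rfl
  · exact ⟨⊤, isCompl_bot_top, fun _ _ _ => Submodule.mem_top⟩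
  · refine ⟨⊥, isCompl_top_bot, fun i v hv => ?_⟩
    rw [Submodule.mem_bot] at hv ⊢
    rw [hv, Matrix.mulVec_zero]

end Vale.Agent.P002
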