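import Vale.Agent.P002.Defs

/-! P002, task Comm: a triangular matrix is one commutator.

* `krylov_unit`: for `M` strictly upper triangular with unit superdiagonal, `e` the last basis
  vector, `(M ^ j *ᵥ e) i` vanishes if `r < i + j` and is a unit if `i + j = r`, so the Krylov
  matrix has unit determinant.
* `conj_of_krylov`: `M K = K C` with `C` the companion matrix of the characteristic polynomial.
* `exists_comm`: `d i = c i i`, `μ i = ∏_{j < i} d j`, `B' = N + s • diagonal μ` with `N` the
  shift, `B = c * B'`. The product `G s` of the two Krylov determinants is a polynomial in `s`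
  with `G 0` a unit; a root `s` of `X ^ m - G` is a unit and `G s` is a unit. -/

namespace Vale.Agent.P002

open Matrix

variable {R : Type} [CommRing R]

/-- the Krylov matrix of the last basis vector -/
def krylov {r : ℕ} (M : Matrix (Fin (r + 1)) (Fin (r + 1)) R) :
    Matrix (Fin (r + 1)) (Fin (r + 1)) R := Matrix.of fun i j => (M ^ (j : ℕ)) i (Fin.last r)

theorem krylov_map {S : Type} [CommRing S] (f : R →+* S) {r : ℕ}
    (M : Matrix (Fin (r + 1)) (Fin (r + 1)) R) :
    f (krylov M).det = (krylov (M.map f)).det := by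
  rw [RingHom.map_det]
  refine congrArg Matrix.det ?_
  ext i j
  have : (M ^ (j : ℕ)).map f = (M.map f) ^ (j : ℕ) := map_pow f.mapMatrix M j
  simp only [krylov, RingHom.mapMatrix_apply, Matrix.map_apply, Matrix.of_apply, ← this]

theorem krylov_aux {r : ℕ} (M : Matrix (Fin (r + 1)) (Fin (r + 1)) R)
    (h : ∀ i j, j ≤ i → M i j = 0) (hu : ∀ i : Fin r, IsUnit (M i.castSucc i.succ)) (j : ℕ) :
    ∀ i : Fin (r + 1), (r < (i : ℕ) + j → (M ^ j) i (Fin.last r) = 0) ∧
      ((i : ℕ) + j = r → IsUnit ((M ^ j) i (Fin.last r))) := by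
  induction j with
  | zero =>
    intro i
    refine ⟨fun hi => absurd i.2 (by omega), fun hi => ?_⟩
    have : i = Fin.last r := Fin.ext (by simpa using hi)
    simp [this]
  | succ j ih =>
    intro i
    rw [pow_succ', Matrix.mul_apply]
    refine ⟨fun hi => Finset.sum_eq_zero fun k _ => ?_, fun hi => ?_⟩
    · rcases le_or_gt k i with hk | hk
      · rw [h i k hk, zero_mul]
      · rw [(ih k).1 (by have : (i : ℕ) < k := hk; omega), mul_zero]
    · have hir : (i : ℕ) < r := by omega
      have hi' : i = (⟨i, hir⟩ : Fin r).castSucc := Fin.ext rfl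
      rw [Finset.sum_eq_single (⟨i, hir⟩ : Fin r).succ]
      · refine IsUnit.mul ?_ ((ih _).2 (by simp only [Fin.val_succ]; omega))
        have := hu ⟨i, hir⟩
        rwa [← hi'] at this
      · intro k _ hk
        rcases le_or_gt k i with hk' | hk'
        · rw [h i k hk', zero_mul]
        · have h1 : (i : ℕ) < k := hk'
          have h2 : (k : ℕ) ≠ i + 1 := fun h3 => hk (Fin.ext (by simpa using h3))
          rw [(ih k).1 (by omega), mul_zero]
      · intro hk
        exact absurd (Finset.mem_univ _) hk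

theorem krylov_unit {r : ℕ} (M : Matrix (Fin (r + 1)) (Fin (r + 1)) R)
    (h : ∀ i j, j ≤ i → M i j = 0) (hu : ∀ i : Fin r, IsUnit (M i.castSucc i.succ)) :
    IsUnit (krylov M).det := by
  have h1 := Matrix.det_permute' Fin.revPerm (krylov M)
  have h2 : IsUnit ((krylov M).submatrix id Fin.revPerm).det := by
    rw [Matrix.det_of_isUpperTriangular]
    · refine IsUnit.prod_iff.2 fun i _ => ?_
      refine (krylov_aux M h hu _ i).2 ?_
      have := i.2
      simp only [Fin.revPerm_apply, Fin.val_rev]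
      omega
    · intro i j hij
      refine (krylov_aux M h hu _ i).1 ?_
      have h3 : (j : ℕ) < i := hij
      have := i.2
      simp only [Fin.revPerm_apply, Fin.val_rev]
      omega
  rw [h1] at h2
  exact isUnit_of_mul_isUnit_right h2

/-- the companion matrix -/
def compan (r : ℕ) (p : Polynomial R) : Matrix (Fin (r + 1)) (Fin (r + 1)) R :=
  Matrix.of fun i j => if j = Fin.last r then - p.coeff i else if (i : ℕ) = j + 1 then 1 else 0

theorem mul_krylov {r : ℕ} (M : Matrix (Fin (r + 1)) (Fin (r + 1)) R) :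
    M * krylov M = krylov M * compan r M.charpoly := by
  nontriviality R
  ext i j
  have h0 : (M * krylov M) i j = (M ^ ((j : ℕ) + 1)) i (Fin.last r) := by
    rw [pow_succ', Matrix.mul_apply, Matrix.mul_apply]; rfl
  rw [h0, Matrix.mul_apply]
  by_cases hj : j = Fin.last r
  · subst hj
    have h1 := Matrix.aeval_self_charpoly M
    have hd : M.charpoly.natDegree = r + 1 := by simp
    have hl : M.charpoly.coeff (r + 1) = 1 := by
      have := (Matrix.charpoly_monic M).coeff_natDegree
      rwa [hd] at this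
    rw [Polynomial.aeval_eq_sum_range, hd, Finset.sum_range_succ, hl, one_smul,
      ← Fin.sum_univ_eq_sum_range (fun k => M.charpoly.coeff k • M ^ k) (r + 1)] at h1
    rw [Fin.val_last, eq_neg_of_add_eq_zero_right h1, Matrix.neg_apply, Matrix.sum_apply, ← Finset.sum_neg_distrib]
    refine Finset.sum_congr rfl fun k _ => ?_
    simp [krylov, compan, mul_comm]
  · have hjr : (j : ℕ) < r := Fin.val_lt_last hj
    rw [Finset.sum_eq_single (⟨j + 1, by omega⟩ : Fin (r + 1))]
    · simp [krylov, compan, hj]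
    · intro k _ hk
      have : (k : ℕ) ≠ j + 1 := fun h3 => hk (Fin.ext h3)
      simp [compan, hj, this]
    · intro hk
      exact absurd (Finset.mem_univ _) hk

theorem conj_of_krylov {r : ℕ} (M M' : Matrix (Fin (r + 1)) (Fin (r + 1)) R)
    (h : IsUnit (krylov M).det) (h' : IsUnit (krylov M').det) (hc : M.charpoly = M'.charpoly) :
    ∃ A : Matrix (Fin (r + 1)) (Fin (r + 1)) R, IsUnit A.det ∧ M * A = A * M' := by
  refine ⟨krylov M * (krylov M')⁻¹, ?_, ?_⟩
  · rw [Matrix.det_mul]
    exact h.mul (Matrix.isUnit_nonsing_inv_det _ h')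
  · have h1 : (krylov M')⁻¹ * M' = compan r M'.charpoly * (krylov M')⁻¹ := by
      have h2 := mul_krylov M'
      calc (krylov M')⁻¹ * M' = (krylov M')⁻¹ * (M' * krylov M') * (krylov M')⁻¹ := by
            rw [Matrix.mul_assoc, Matrix.mul_assoc, Matrix.mul_nonsing_inv _ h', Matrix.mul_one]
        _ = compan r M'.charpoly * (krylov M')⁻¹ := by
            rw [h2, ← Matrix.mul_assoc, Matrix.nonsing_inv_mul _ h', Matrix.one_mul]
    rw [← Matrix.mul_assoc, mul_krylov, hc, Matrix.mul_assoc, Matrix.mul_assoc, h1]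

theorem comm_scale (h3 : ∀ f : Polynomial R, f.Monic → 0 < f.natDegree → ∃ t, f.eval t = 0)
    {r : ℕ} (M : Matrix (Fin (r + 1)) (Fin (r + 1)) R) (h : IsUnit M.det) :
    ∃ v : R, (v • M).det = 1 := by
  nontriviality R
  obtain ⟨u, hu⟩ := h.exists_left_inv
  obtain ⟨v, hv⟩ := h3 (Polynomial.X ^ (r + 1) - Polynomial.C u)
    (Polynomial.monic_X_pow_sub_C u (by omega)) (by rw [Polynomial.natDegree_X_pow_sub_C]; omega)
  refine ⟨v, ?_⟩
  have hv' : v ^ (r + 1) = u := by simpa [sub_eq_zero] using hv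
  rw [Matrix.det_smul, Fintype.card_fin, hv', hu]

theorem comm_root (h3 : ∀ f : Polynomial R, f.Monic → 0 < f.natDegree → ∃ t, f.eval t = 0)
    (G : Polynomial R) (hG : IsUnit (G.eval 0)) : ∃ s, IsUnit s ∧ IsUnit (G.eval s) := by
  nontriviality R
  have hd : G.degree < ((G.natDegree + 1 : ℕ) : WithBot ℕ) :=
    lt_of_le_of_lt Polynomial.degree_le_natDegree (by exact_mod_cast Nat.lt_succ_self _)
  have hm := Polynomial.monic_X_pow_sub hd
  obtain ⟨s, hs⟩ := h3 _ hm (by
    rw [Polynomial.natDegree_sub_eq_left_of_natDegree_lt] <;> simp)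
  have hs' : s ^ (G.natDegree + 1) = G.eval s := by simpa [sub_eq_zero] using hs
  have h1 : s ∣ G.eval s - G.eval 0 := by simpa using Polynomial.sub_dvd_eval_sub s 0 G
  have h2 : s ∣ G.eval s := hs' ▸ dvd_pow_self s (by omega)
  have h4 : s ∣ G.eval 0 := by
    have := dvd_sub h2 h1
    simpa using this
  have h5 : IsUnit s := isUnit_of_dvd_unit h4 hG
  exact ⟨s, h5, hs' ▸ h5.pow _⟩

/-- the shift matrix -/
def shiftN (r : ℕ) (S : Type) [CommRing S] : Matrix (Fin (r + 1)) (Fin (r + 1)) S :=
  Matrix.of fun i j => if (j : ℕ) = i + 1 then 1 else 0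

theorem comm_tri {r : ℕ} (c B : Matrix (Fin r) (Fin r) R) (hc : ∀ i j, j < i → c i j = 0)
    (hB : ∀ i j, j < i → B i j = 0) :
    (∀ i j, j < i → (c * B) i j = 0) ∧ ∀ i, (c * B) i i = c i i * B i i := by
  refine ⟨fun i j hij => ?_, fun i => ?_⟩
  · rw [Matrix.mul_apply]
    refine Finset.sum_eq_zero fun k _ => ?_
    rcases lt_or_ge k i with hk | hk
    · rw [hc i k hk, zero_mul]
    · rw [hB k j (lt_of_lt_of_le hij hk), mul_zero]
  · rw [Matrix.mul_apply, Finset.sum_eq_single i]
    · intro k _ hk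
      rcases lt_or_gt_of_ne hk with hk | hk
      · rw [hc i k hk, zero_mul]
      · rw [hB k i hk, mul_zero]
    · intro hk
      exact absurd (Finset.mem_univ _) hk

theorem comm_shift {r : ℕ} (c : Matrix (Fin (r + 1)) (Fin (r + 1)) R)
    (hc : ∀ i j, j < i → c i j = 0) (hu : ∀ i, IsUnit (c i i)) :
    IsUnit (krylov (c * shiftN r R)).det := by
  apply krylov_unit
  · intro i j hij
    rw [Matrix.mul_apply]
    refine Finset.sum_eq_zero fun k _ => ?_
    rcases lt_or_ge k i with hk | hk
    · rw [hc i k hk, zero_mul]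
    · have h1 : (j : ℕ) ≤ i := hij
      have h2 : (i : ℕ) ≤ k := hk
      have : (j : ℕ) ≠ k + 1 := by omega
      simp [shiftN, this]
  · intro i
    rw [Matrix.mul_apply, Finset.sum_eq_single i.castSucc]
    · simpa [shiftN] using hu _
    · intro k _ hk
      have : (i : ℕ) ≠ k := fun h3 => hk (Fin.ext (by simpa using h3.symm))
      simp [shiftN, this]
    · intro hk
      exact absurd (Finset.mem_univ _) hk

theorem exists_comm (h3 : ∀ f : Polynomial R, f.Monic → 0 < f.natDegree → ∃ t, f.eval t = 0)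
    {r : ℕ} (c : SL (Fin r) R) (hc : ∀ i j, j < i → c.1 i j = 0) :
    ∃ A B : SL (Fin r) R, A * B * A⁻¹ * B⁻¹ * c = 1 := by
  rcases r with _ | r
  · exact ⟨1, 1, Subtype.ext (Subsingleton.elim _ _)⟩
  let d : ℕ → R := fun k => if h : k < r + 1 then c.1 ⟨k, h⟩ ⟨k, h⟩ else 1
  have hd : ∀ i : Fin (r + 1), d i = c.1 i i := fun i => dif_pos i.2
  have hprod : ∏ i : Fin (r + 1), c.1 i i = 1 := by
    rw [← Matrix.det_of_isUpperTriangular (M := c.1) (fun i j hij => hc i j hij)]
    exact c.2
  have hu : ∀ i, IsUnit (c.1 i i) := fun i =>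
    isUnit_of_dvd_one
      ((Finset.dvd_prod_of_mem (fun i => c.1 i i) (Finset.mem_univ i)).trans hprod.dvd)
  let μ : Fin (r + 1) → R := fun i => ∏ k ∈ Finset.range i, d k
  have hμu : ∀ i, IsUnit (μ i) := fun i => IsUnit.prod_iff.2 fun k hk => by
    have h1 : k < r + 1 := lt_trans (Finset.mem_range.1 hk) i.2
    have := hd ⟨k, h1⟩
    rw [show d k = c.1 ⟨k, h1⟩ ⟨k, h1⟩ from this]
    exact hu _
  have hμ : ∀ i, c.1 i i * μ i = μ (finRotate (r + 1) i) := by
    intro i
    have h1 : c.1 i i * μ i = ∏ k ∈ Finset.range (i + 1), d k := by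
      rw [Finset.prod_range_succ, hd, mul_comm]
    rw [h1]
    by_cases hi : i = Fin.last r
    · subst hi
      rw [finRotate_last, Fin.val_last, ← Fin.prod_univ_eq_prod_range]
      simp only [hd, hprod]
      simp [μ]
    · have h2 : ((finRotate (r + 1) i : Fin (r + 1)) : ℕ) = i + 1 := coe_finRotate_of_ne_last hi
      simp only [μ, h2]
  let P : Matrix (Fin (r + 1)) (Fin (r + 1)) (Polynomial R) :=
    shiftN r (Polynomial R) + Matrix.diagonal fun i => Polynomial.X * Polynomial.C (μ i)
  let Bs : R → Matrix (Fin (r + 1)) (Fin (r + 1)) R :=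
    fun s => shiftN r R + Matrix.diagonal fun i => s * μ i
  have hP : ∀ s, P.map (Polynomial.evalRingHom s) = Bs s := by
    intro s
    ext i j
    simp only [P, Bs, shiftN, Matrix.map_apply, Matrix.add_apply, Matrix.of_apply,
      Matrix.diagonal_apply, map_add]
    refine congrArg₂ (· + ·) ?_ ?_
    · split_ifs
      · exact map_one _
      · exact map_zero _
    · split_ifs
      · rw [map_mul, Polynomial.coe_evalRingHom, Polynomial.eval_X, Polynomial.eval_C]
      · exact map_zero _
  have hC : ∀ s, (c.1.map Polynomial.C).map (Polynomial.evalRingHom s) = c.1 := by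
    intro s
    ext i j
    simp
  let G : Polynomial R := (krylov P).det * (krylov (c.1.map Polynomial.C * P)).det
  have hG : ∀ s, G.eval s = (krylov (Bs s)).det * (krylov (c.1 * Bs s)).det := by
    intro s
    have h1 := krylov_map (Polynomial.evalRingHom s) P
    have h2 := krylov_map (Polynomial.evalRingHom s) (c.1.map Polynomial.C * P)
    rw [Matrix.map_mul, hC, hP] at h2
    rw [hP] at h1
    rw [← h1, ← h2, ← map_mul]
    rfl
  have hB0 : Bs 0 = shiftN r R := by simp [Bs]
  obtain ⟨s, hs, hGs⟩ := comm_root h3 G (by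
    rw [hG, hB0]
    refine IsUnit.mul ?_ (comm_shift c.1 hc hu)
    have := comm_shift (1 : Matrix (Fin (r + 1)) (Fin (r + 1)) R)
      (fun i j hij => Matrix.one_apply_ne hij.ne') (fun i => by simp)
    rwa [Matrix.one_mul] at this)
  rw [hG] at hGs
  have hBt : ∀ i j, j < i → Bs s i j = 0 := by
    intro i j hij
    have h1 : (j : ℕ) < i := hij
    have h2 : (j : ℕ) ≠ i + 1 := by omega
    simp [Bs, shiftN, h2, hij.ne']
  have hBd : ∀ i, Bs s i i = s * μ i := fun i => by simp [Bs, shiftN]
  obtain ⟨ht, hdg⟩ := comm_tri c.1 (Bs s) hc hBt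
  have hch : (Bs s).charpoly = (c.1 * Bs s).charpoly := by
    rw [Matrix.charpoly_of_isUpperTriangular _ (fun i j hij => hBt i j hij),
      Matrix.charpoly_of_isUpperTriangular _ (fun i j hij => ht i j hij),
      ← Equiv.prod_comp (finRotate (r + 1))]
    refine Finset.prod_congr rfl fun i _ => ?_
    rw [hdg, hBd, hBd, ← hμ, mul_left_comm]
  obtain ⟨A0, hA0, hAB⟩ := conj_of_krylov _ _ (isUnit_of_mul_isUnit_left hGs)
    (isUnit_of_mul_isUnit_right hGs) hch
  have hBu : IsUnit (Bs s).det := by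
    rw [Matrix.det_of_isUpperTriangular (fun i j hij => hBt i j hij)]
    exact IsUnit.prod_iff.2 fun i _ => by rw [hBd]; exact hs.mul (hμu i)
  obtain ⟨v, hv⟩ := comm_scale h3 A0 hA0
  obtain ⟨w, hw⟩ := comm_scale h3 (Bs s) hBu
  let a : SL (Fin (r + 1)) R := ⟨v • A0, hv⟩
  let b : SL (Fin (r + 1)) R := ⟨w • Bs s, hw⟩
  have hab : b * a = a * c * b := by
    apply Subtype.ext
    change (w • Bs s) * (v • A0) = (v • A0) * c.1 * (w • Bs s)
    simp only [Matrix.smul_mul, Matrix.mul_smul, hAB, Matrix.mul_assoc]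
    exact smul_comm _ _ _
  refine ⟨b, a⁻¹, ?_⟩
  have hc' : c = a⁻¹ * (b * a) * b⁻¹ := by rw [hab]; group
  rw [hc']
  group

end Vale.Agent.P002
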