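import Vale.Agent.P002.St1

/-! P002, task Conc: the concrete surface relation.

`pre f k = ((List.ofFn f).take k).prod`; `prod_update` from `List.prod_set'`-type lemmas or by
induction on `m` (`List.ofFn_succ`, `Fin.cases`).
* `CW_RT`: three kinds of twists. Let `y1 = b1 a1⁻¹ b1⁻¹`, let `P` be the product of the pieces
  before the piece considered (for a puncture this includes all further handles), `x'` a hole of
  the piece, `γ = P x'⁻¹ P⁻¹ * y1⁻¹`, `z' = P⁻¹ z P`, and always `b1 ↦ z b1`:
  (a) handle `(x, y)`, hole `x' = x y x⁻¹`: `x ↦ z' x`;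
  (b) handle, hole `x' = x`: `x ↦ z' x z'⁻¹`, `y ↦ y z'⁻¹`;
  (c) puncture, hole `x' = w J w⁻¹`: `w ↦ z' w`.
  At the base family `γ = q * A1` with `q = P x'⁻¹ P⁻¹` defined over `O` (`cJ`, `map_list_prod`), and
  `lam ξ` is `Pi.single x (Ad P⁻¹ ξ)`, resp. `Pi.single x (ξ' - Ad x ξ') - Pi.single y (Ad y ξ')`,
  resp. `Pi.single w (Ad P⁻¹ ξ)`. Hence all `Pi.single v ξ` with `ξ` traceless lie in `S`.
* `CW_sm`: `sl_le_of_ann` for `U = (slV).map Lin`. An annihilating `ζ` commutes with `a0, b0`
  (`Lin_sys`, `ann_comm`), then with `a1, b1` (`trace_mul_Ad`), then with the further pieces by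
  strong induction on the position: for `u` supported on one piece the product in `TG` is
  `zs pre * piece * zs post` (`prod_update`), whose `u`-part is `Ad pre (piece.u)`;
  for a puncture `piece.u = ω - Ad (w J w⁻¹) ω` (`scalar_of_ann`). -/

namespace Vale.Agent.P002

variable {n : Type} [Fintype n] [DecidableEq n]

/-- product of the earlier factors -/
def pre {G : Type} [Group G] {m : ℕ} (f : Fin m → G) (k : Fin m) : G :=
  ((List.ofFn f).take k).prod

theorem map_pre {G H : Type} [Group G] [Group H] (φ : G →* H) {m : ℕ} (f : Fin m → G)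
    (k : Fin m) : φ (pre f k) = pre (fun i => φ (f i)) k := by
  simp only [pre, map_list_prod, List.map_take, List.map_ofFn, Function.comp_def]

theorem pre_zero {G : Type} [Group G] {m : ℕ} (f : Fin (m + 1) → G) : pre f 0 = 1 := by
  simp [pre]

theorem pre_succ {G : Type} [Group G] {m : ℕ} (f : Fin (m + 1) → G) (k : Fin m) :
    pre f k.succ = f 0 * pre (fun i => f i.succ) k := by
  simp only [pre, List.ofFn_succ, Fin.val_succ, List.take_succ_cons, List.prod_cons]

theorem prod_update {G : Type} [Group G] {m : ℕ} (f : Fin m → G) (k : Fin m) (x : G) :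
    (List.ofFn (Function.update f k x)).prod =
      pre f k * x * (f k)⁻¹ * (pre f k)⁻¹ * (List.ofFn f).prod := by
  induction m with
  | zero => exact k.elim0
  | succ m ih =>
    refine Fin.cases ?_ (fun k => ?_) k
    · have e : (fun i : Fin m => Function.update f 0 x i.succ) = fun i => f i.succ := by
        funext i; rw [Function.update_of_ne (Fin.succ_ne_zero i)]
      rw [List.ofFn_succ, List.ofFn_succ, List.prod_cons, List.prod_cons, pre_zero, e,
        Function.update_self]
      group
    · have e : (fun i : Fin m => Function.update f k.succ x i.succ) =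
          Function.update (fun i => f i.succ) k x := by
        funext i
        by_cases h : i = k
        · subst h; rw [Function.update_self, Function.update_self]
        · rw [Function.update_of_ne h, Function.update_of_ne (fun h' => h (Fin.succ_inj.1 h'))]
      rw [List.ofFn_succ, List.ofFn_succ, List.prod_cons, List.prod_cons, pre_succ, e, ih,
        Function.update_of_ne (Fin.succ_ne_zero k).symm]
      group

theorem pre_mem {G : Type} [Group G] {m : ℕ} (H : Subgroup G) (f : Fin m → G) (k : Fin m)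
    (h : ∀ i, i < k → f i ∈ H) : pre f k ∈ H := by
  induction m with
  | zero => exact k.elim0
  | succ m ih =>
    revert h
    refine Fin.cases ?_ (fun k => ?_) k
    · intro _; rw [pre_zero]; exact H.one_mem
    · intro h
      rw [pre_succ]
      exact H.mul_mem (h 0 (Fin.succ_pos k))
        (ih _ k fun i hi => h _ (Fin.succ_lt_succ_iff.2 hi))

/-- A hole of the word `C`: a conjugation of one boundary element realised on the variables. -/
structure Hole {K W : Type} (C : Word K W) where
  P : Word K W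
  X : Word K W
  up : ∀ {G : Type} [Group G], (W → G) → G → W → G
  nat : ∀ {G H : Type} [Group G] [Group H] (f : G →* H) (y : W → G) (z : G) (v : W),
    f (up y z v) = up (fun v => f (y v)) (f z) v
  one : ∀ {G : Type} [Group G] (y : W → G), up y 1 = y
  ev : ∀ {G : Type} [Group G] (J : K → G) (y : W → G) (z : G),
    C.ev J (up y z) = P.ev J y * (z * X.ev J y * z⁻¹ * (X.ev J y)⁻¹) * (P.ev J y)⁻¹ * C.ev J y

/-- the twist attached to a hole -/
def Hole.tw {K W : Type} {C : Word K W} (h : Hole C) : Tw (sys C) where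
  γ := ⟨fun J ρ => h.P.ev J (fun w => ρ (.inr w)) * (h.X.ev J (fun w => ρ (.inr w)))⁻¹ *
      (h.P.ev J (fun w => ρ (.inr w)))⁻¹ * (ρ (.inl 3) * ρ (.inl 2) * (ρ (.inl 3))⁻¹),
    fun f J ρ => by simp only [map_mul, map_inv, Word.nat]⟩
  τ J ρ z := Sum.elim ![ρ (.inl 0), ρ (.inl 1), ρ (.inl 2), z * ρ (.inl 3)]
    (h.up (fun w => ρ (.inr w))
      ((h.P.ev J (fun w => ρ (.inr w)))⁻¹ * z * h.P.ev J (fun w => ρ (.inr w))))
  nat f J ρ z v := by
    rcases v with v | v
    · fin_cases v <;> simp
    · simp only [Sum.elim_inr, h.nat, map_mul, map_inv, Word.nat]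
  one J ρ := by
    funext v
    rcases v with v | v
    · fin_cases v <;> simp
    · simp [h.one]
  pres J ρ z hz := by
    have hz' := hz.eq
    simp only at hz'
    simp only [sys, Sum.elim_inl, Sum.elim_inr, h.ev, Matrix.cons_val_zero, Matrix.cons_val_one,
      Matrix.cons_val]
    generalize h.P.ev J (fun w => ρ (.inr w)) = P at *
    generalize h.X.ev J (fun w => ρ (.inr w)) = X at *
    generalize C.ev J (fun w => ρ (.inr w)) = c at *
    generalize ρ (.inl 0) = a0 at *
    generalize ρ (.inl 1) = b0 at *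
    generalize ρ (.inl 2) = a1 at *
    generalize ρ (.inl 3) = b1 at *
    have e : z * (P * X⁻¹ * P⁻¹ * (b1 * a1 * b1⁻¹))⁻¹ * z⁻¹ =
        (P * X⁻¹ * P⁻¹ * (b1 * a1 * b1⁻¹))⁻¹ := by
      rw [(Commute.inv_right (show Commute _ _ from hz')).eq, mul_inv_cancel_right]
    calc _ = a0 * b0 * a0⁻¹ * b0⁻¹ * a1 * (z * (P * X⁻¹ * P⁻¹ * (b1 * a1 * b1⁻¹))⁻¹ * z⁻¹) *
          (P * X⁻¹ * P⁻¹ * c) := by group
      _ = _ := by rw [e]; group

theorem Hole.mem {K W O F : Type} [CommRing O] [Field F] [Algebra O F] {C : Word K W}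
    (h : Hole C) (J : K → SL n O) (y : W → SL n O)
    (lam : Matrix n n F →ₗ[F] (W → Matrix n n F))
    (hl : ∀ ξ w, (h.up (fun w => TG.zs (cJ y F w)) (⟨ξ, 1⟩ : TG n F) w).u = lam ξ w)
    (S : Submodule F (W → Matrix n n F))
    (hS : ∀ (t : Tw (sys C)) (q : SL n O) (lam : Matrix n n F →ₗ[F] (W → Matrix n n F)),
      Pr (cJ J F) (cJ y F) t (fun _ A1 => smap (algebraMap O F) q * A1) lam →
      ∀ ξ : Matrix n n F, ξ.trace = 0 → lam ξ ∈ S)
    (ξ : Matrix n n F) (hξ : ξ.trace = 0) : lam ξ ∈ S := by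
  have key := hS h.tw (h.P.ev J y * (h.X.ev J y)⁻¹ * (h.P.ev J y)⁻¹)
    (lam.comp (Ad (h.P.ev (cJ J F) (cJ y F))⁻¹)) ?_ (Ad (h.P.ev (cJ J F) (cJ y F)) ξ)
    (by rw [trace_Ad, hξ])
  · simpa using key
  · intro A0 A1
    constructor
    · simp only [Hole.tw, base, Sum.elim_inl, Sum.elim_inr, Matrix.cons_val, map_mul, map_inv,
        Word.nat, one_mul, inv_one, mul_one]
      rfl
    · intro η w
      rw [LinearMap.comp_apply, ← hl]
      simp only [Tw.tv, Hole.tw, base, Sum.elim_inr]
      rw [← h.P.nat TG.zs]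
      congr 2
      ext1 <;> simp

section Holes
variable (m s : ℕ)

/-- the commutators of the further handles -/
def hpc {G : Type} [Group G] (y : Fin m ⊕ Fin m ⊕ Fin s → G) : Fin m → G :=
  fun i => y (.inl i) * y (.inr (.inl i)) * (y (.inl i))⁻¹ * (y (.inr (.inl i)))⁻¹

/-- the boundary elements -/
def ppc {G : Type} [Group G] (J : Fin s → G) (y : Fin m ⊕ Fin m ⊕ Fin s → G) : Fin s → G :=
  fun k => y (.inr (.inr k)) * J k * (y (.inr (.inr k)))⁻¹

theorem CW_ev {G : Type} [Group G] (J : Fin s → G) (y : Fin m ⊕ Fin m ⊕ Fin s → G) :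
    (CW m s).ev J y = (List.ofFn (hpc m s y)).prod * (List.ofFn (ppc m s J y)).prod := rfl

theorem map_hpc {G H : Type} [Group G] [Group H] (f : G →* H) (y : Fin m ⊕ Fin m ⊕ Fin s → G) :
    (fun i => f (hpc m s y i)) = hpc m s (fun v => f (y v)) := by
  funext i; simp only [hpc, map_mul, map_inv]

theorem map_ppc {G H : Type} [Group G] [Group H] (f : G →* H) (J : Fin s → G)
    (y : Fin m ⊕ Fin m ⊕ Fin s → G) :
    (fun i => f (ppc m s J y i)) = ppc m s (fun k => f (J k)) (fun v => f (y v)) := by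
  funext i; simp only [ppc, map_mul, map_inv]

theorem map_ofFn_prod {G H : Type} [Group G] [Group H] (f : G →* H) {k : ℕ} (g : Fin k → G) :
    f (List.ofFn g).prod = (List.ofFn fun i => f (g i)).prod := by
  simp only [map_list_prod, List.map_ofFn, Function.comp_def]

/-- the product of the handles before the `i`-th one -/
def preH (i : Fin m) : Word (Fin s) (Fin m ⊕ Fin m ⊕ Fin s) :=
  ⟨fun _ y => pre (hpc m s y) i, fun f J y => by rw [map_pre, map_hpc]⟩

/-- first hole of a handle -/
def holeA (i : Fin m) : Hole (CW m s) where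
  P := preH m s i
  X := ⟨fun _ y => y (.inl i) * y (.inr (.inl i)) * (y (.inl i))⁻¹,
    fun f J y => by simp only [map_mul, map_inv]⟩
  up y z v := if v = .inl i then z * y v else y v
  nat f y z v := by split_ifs <;> simp
  one y := by funext v; simp
  ev J y z := by
    have e1 : hpc m s (fun v => if v = .inl i then z * y v else y v) =
        Function.update (hpc m s y) i (z * y (.inl i) * y (.inr (.inl i)) * (z * y (.inl i))⁻¹ *
          (y (.inr (.inl i)))⁻¹) := by
      funext j
      by_cases h : j = i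
      · subst h; simp [hpc]
      · rw [Function.update_of_ne h]; simp [hpc, h]
    have e2 : ppc m s J (fun v => if v = .inl i then z * y v else y v) = ppc m s J y := by
      funext k; simp [ppc]
    rw [CW_ev, CW_ev, e1, e2, prod_update]
    simp only [preH, hpc]
    group

/-- second hole of a handle -/
def holeB (i : Fin m) : Hole (CW m s) where
  P := preH m s i
  X := ⟨fun _ y => y (.inl i), fun f J y => rfl⟩
  up y z v := if v = .inl i then z * y v * z⁻¹ else if v = .inr (.inl i) then y v * z⁻¹ else y v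
  nat f y z v := by split_ifs <;> simp
  one y := by funext v; simp
  ev J y z := by
    have e1 : hpc m s (fun v => if v = .inl i then z * y v * z⁻¹ else
        if v = .inr (.inl i) then y v * z⁻¹ else y v) =
        Function.update (hpc m s y) i (z * y (.inl i) * z⁻¹ * (y (.inr (.inl i)) * z⁻¹) *
          (z * y (.inl i) * z⁻¹)⁻¹ * (y (.inr (.inl i)) * z⁻¹)⁻¹) := by
      funext j
      by_cases h : j = i
      · subst h; simp [hpc]
      · rw [Function.update_of_ne h]; simp [hpc, h]
    have e2 : ppc m s J (fun v => if v = .inl i then z * y v * z⁻¹ else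
        if v = .inr (.inl i) then y v * z⁻¹ else y v) = ppc m s J y := by
      funext k; simp [ppc]
    rw [CW_ev, CW_ev, e1, e2, prod_update]
    simp only [preH, hpc]
    group

/-- the hole of a puncture -/
def holeC (k : Fin s) : Hole (CW m s) where
  P := ⟨fun J y => (List.ofFn (hpc m s y)).prod * pre (ppc m s J y) k, fun f J y => by
    rw [map_mul, map_pre, map_ppc, map_ofFn_prod, map_hpc]⟩
  X := ⟨fun J y => y (.inr (.inr k)) * J k * (y (.inr (.inr k)))⁻¹,
    fun f J y => by simp only [map_mul, map_inv]⟩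
  up y z v := if v = .inr (.inr k) then z * y v else y v
  nat f y z v := by split_ifs <;> simp
  one y := by funext v; simp
  ev J y z := by
    have e1 : hpc m s (fun v => if v = .inr (.inr k) then z * y v else y v) = hpc m s y := by
      funext j; simp [hpc]
    have e2 : ppc m s J (fun v => if v = .inr (.inr k) then z * y v else y v) =
        Function.update (ppc m s J y) k (z * y (.inr (.inr k)) * J k *
          (z * y (.inr (.inr k)))⁻¹) := by
      funext j
      by_cases h : j = k
      · subst h; simp [ppc]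
      · rw [Function.update_of_ne h]; simp [ppc, h]
    rw [CW_ev, CW_ev, e1, e2, prod_update]
    simp only [ppc]
    group

end Holes

theorem CW_RT {O F : Type} [CommRing O] [Field F] [Algebra O F] (m s : ℕ) (J : Fin s → SL n O)
    (y : Fin m ⊕ Fin m ⊕ Fin s → SL n O) : RT (CW m s) J y F := by
  intro S hS
  have hA : ∀ (i : Fin m) (ξ : Matrix n n F), ξ.trace = 0 →
      (Pi.single (.inl i) ξ : Fin m ⊕ Fin m ⊕ Fin s → Matrix n n F) ∈ S := by
    intro i ξ hξ
    refine (holeA m s i).mem J y (LinearMap.single F (fun _ => Matrix n n F) (.inl i)) ?_ S hS ξ hξ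
    intro η w
    by_cases h : w = .inl i
    · subst h; simp [holeA]
    · simp [holeA, h]
  have hB : ∀ (i : Fin m) (ξ : Matrix n n F), ξ.trace = 0 →
      (Pi.single (.inr (.inl i)) ξ : Fin m ⊕ Fin m ⊕ Fin s → Matrix n n F) ∈ S := by
    intro i ξ hξ
    have h1 := (holeB m s i).mem J y
      ((LinearMap.single F (fun _ => Matrix n n F) (.inl i)).comp
          (LinearMap.id - Ad (cJ y F (.inl i))) -
        (LinearMap.single F (fun _ => Matrix n n F) (.inr (.inl i))).comp
          (Ad (cJ y F (.inr (.inl i))))) ?_ S hS (Ad (cJ y F (.inr (.inl i)))⁻¹ ξ)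
      (by rw [trace_Ad, hξ])
    · have h2 := hA i (Ad (cJ y F (.inr (.inl i)))⁻¹ ξ -
        Ad (cJ y F (.inl i)) (Ad (cJ y F (.inr (.inl i)))⁻¹ ξ)) (by simp)
      have h3 := S.sub_mem h2 h1
      simpa using h3
    · intro η w
      by_cases h : w = .inl i
      · subst h; simp [holeB, sub_eq_add_neg]
      · by_cases h' : w = .inr (.inl i)
        · subst h'; simp [holeB]
        · simp [holeB, h, h']
  have hC : ∀ (k : Fin s) (ξ : Matrix n n F), ξ.trace = 0 →
      (Pi.single (.inr (.inr k)) ξ : Fin m ⊕ Fin m ⊕ Fin s → Matrix n n F) ∈ S := by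
    intro k ξ hξ
    refine (holeC m s k).mem J y (LinearMap.single F (fun _ => Matrix n n F) (.inr (.inr k))) ?_
      S hS ξ hξ
    intro η w
    by_cases h : w = .inr (.inr k)
    · subst h; simp [holeC]
    · simp [holeC, h]
  intro u hu
  rw [mem_slV] at hu
  rw [← Finset.univ_sum_single u]
  refine S.sum_mem fun v _ => ?_
  rcases v with i | i | k
  exacts [hA i _ (hu _), hB i _ (hu _), hC k _ (hu _)]

/-- the stabiliser of a matrix -/
def stabAd {R : Type} [CommRing R] (ζ : Matrix n n R) : Subgroup (SL n R) where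
  carrier := {g | Ad g ζ = ζ}
  mul_mem' := by
    intro a b ha hb
    simp only [Set.mem_ofPred_eq] at *
    rw [Ad_mul, hb, ha]
  one_mem' := Ad_one ζ
  inv_mem' := by
    intro a ha
    simp only [Set.mem_ofPred_eq] at *
    conv_lhs => rw [← ha]
    exact Ad_inv_Ad a ζ

theorem trace_stab {R : Type} [CommRing R] {ζ : Matrix n n R} {g : SL n R} (hg : g ∈ stabAd ζ)
    (X : Matrix n n R) : (ζ * Ad g X).trace = (ζ * X).trace := by
  have : Ad g⁻¹ ζ = ζ := (stabAd ζ).inv_mem hg
  rw [trace_mul_Ad, this]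

theorem stab_of_ann {F : Type} [Field F] [CharZero F] (A B : SL n F) (ζ : Matrix n n F)
    (h0 : ζ.trace = 0) (h : ∀ α β : Matrix n n F, α.trace = 0 → β.trace = 0 →
      (ζ * Lc A B α β).trace = 0) : A ∈ stabAd ζ ∧ B ∈ stabAd ζ := by
  obtain ⟨-, h1, h2⟩ := ann_comm A B ζ h0 h
  exact ⟨(Ad_eq_self_iff A ζ).2 h1, (Ad_eq_self_iff B ζ).2 h2⟩

theorem comm_mem {G : Type} [Group G] {H : Subgroup G} {a b : G} (ha : a ∈ H) (hb : b ∈ H) :
    a * b * a⁻¹ * b⁻¹ ∈ H :=
  H.mul_mem (H.mul_mem (H.mul_mem ha hb) (H.inv_mem ha)) (H.inv_mem hb)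

theorem u_update {R : Type} [CommRing R] {m : ℕ} (f : Fin m → SL n R) (k : Fin m) (x : TG n R) :
    ((List.ofFn (Function.update (fun i => TG.zs (f i)) k x)).prod).u = Ad (pre f k) x.u := by
  rw [prod_update, ← map_pre, ← map_ofFn_prod]
  simp

theorem Lc_zero {R : Type} [CommRing R] (A B : SL n R) : Lc A B 0 0 = 0 := by
  simp [Lc]

theorem Lin_handle {R : Type} [CommRing R] (m s : ℕ) (J : Fin s → SL n R)
    (y : Fin m ⊕ Fin m ⊕ Fin s → SL n R) (i : Fin m) (α β : Matrix n n R) :
    Lin (CW m s) J y (fun v => if v = .inl i then α else if v = .inr (.inl i) then β else 0) =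
      Ad (pre (hpc m s y) i) (Lc (y (.inl i)) (y (.inr (.inl i))) α β) := by
  rw [Lin_apply, CW_ev]
  have e1 : hpc m s (fun v => (⟨if v = .inl i then α else if v = .inr (.inl i) then β else 0,
      y v⟩ : TG n R)) = Function.update (fun j => TG.zs (hpc m s y j)) i
        ((⟨α, y (.inl i)⟩ : TG n R) * ⟨β, y (.inr (.inl i))⟩ * (⟨α, y (.inl i)⟩ : TG n R)⁻¹ *
          (⟨β, y (.inr (.inl i))⟩ : TG n R)⁻¹) := by
    funext j
    by_cases h : j = i
    · subst h; rw [Function.update_self]; simp only [hpc, if_true, reduceCtorEq, if_false]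
    · rw [Function.update_of_ne h]
      ext1 <;> simp [hpc, h]
  have e2 : ppc m s (fun k => TG.zs (J k))
      (fun v => (⟨if v = .inl i then α else if v = .inr (.inl i) then β else 0,
      y v⟩ : TG n R)) = fun k => TG.zs (ppc m s J y k) := by
    funext k
    ext1 <;> simp [ppc]
  rw [e1, e2, ← map_ofFn_prod, TG.mul_u, u_update, comm_u]
  simp

theorem Lin_punct {R : Type} [CommRing R] (m s : ℕ) (J : Fin s → SL n R)
    (y : Fin m ⊕ Fin m ⊕ Fin s → SL n R) (k : Fin s) (ω : Matrix n n R) :
    Lin (CW m s) J y (fun v => if v = .inr (.inr k) then ω else 0) =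
      Ad ((List.ofFn (hpc m s y)).prod * pre (ppc m s J y) k) (ω - Ad (ppc m s J y k) ω) := by
  rw [Lin_apply, CW_ev]
  have e1 : hpc m s (fun v => (⟨if v = .inr (.inr k) then ω else 0, y v⟩ : TG n R)) =
      fun j => TG.zs (hpc m s y j) := by
    funext j
    ext1 <;> simp [hpc]
  have e2 : ppc m s (fun k => TG.zs (J k))
      (fun v => (⟨if v = .inr (.inr k) then ω else 0, y v⟩ : TG n R)) =
      Function.update (fun j => TG.zs (ppc m s J y j)) k
        ⟨ω - Ad (ppc m s J y k) ω, ppc m s J y k⟩ := by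
    funext j
    by_cases h : j = k
    · subst h; rw [Function.update_self]
      ext1 <;> simp [ppc, Ad_mul, sub_eq_add_neg]
    · rw [Function.update_of_ne h]
      ext1 <;> simp [ppc, h]
  rw [e1, e2, ← map_ofFn_prod, TG.mul_u, u_update, Ad_mul]
  simp

theorem CW_sm {F : Type} [Field F] [CharZero F] [Nonempty n] (m s : ℕ) (J : Fin s → SL n F)
    (ρ : Fin 4 ⊕ (Fin m ⊕ Fin m ⊕ Fin s) → SL n F)
    (hb : ∀ ζ : Matrix n n F, ζ.trace = 0 → (∀ i, Ad (ρ (.inl i)) ζ = ζ) →
      (∀ i, Ad (ρ (.inr (.inl i))) ζ = ζ) → (∀ i, Ad (ρ (.inr (.inr (.inl i)))) ζ = ζ) →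
      (∀ k, Ad (ρ (.inr (.inr (.inr k))) * J k * (ρ (.inr (.inr (.inr k))))⁻¹) ζ = ζ) → ζ = 0) :
    Sm (sys (CW m s)) J ρ := by
  have key : sl n F ≤ (slV _ n F).map (Lin (sys (CW m s)) J ρ) := by
    refine sl_le_of_ann _ ?_ ?_
    · rintro _ ⟨u, hu, rfl⟩
      exact trace_Lin _ _ _ _ (mem_slV.1 hu)
    intro ζ h0 hζ
    have hz : ∀ u : Fin 4 ⊕ (Fin m ⊕ Fin m ⊕ Fin s) → Matrix n n F, (∀ v, (u v).trace = 0) →
        (ζ * Lin (sys (CW m s)) J ρ u).trace = 0 := fun u hu => hζ _ ⟨u, mem_slV.2 hu, rfl⟩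
    have z0 : (fun _ : Fin m ⊕ Fin m ⊕ Fin s => (0 : Matrix n n F)) = 0 := rfl
    have h01 : ρ (.inl 0) ∈ stabAd ζ ∧ ρ (.inl 1) ∈ stabAd ζ := by
      refine stab_of_ann _ _ ζ h0 fun α β hα hβ => ?_
      have := hz (Sum.elim ![α, β, 0, 0] fun _ => 0) (by
        rintro (v | v)
        · fin_cases v <;> simp [hα, hβ]
        · simp)
      rw [Lin_sys] at this
      simpa [Lc_zero, z0] using this
    have c0 := comm_mem h01.1 h01.2
    have h23 : ρ (.inl 2) ∈ stabAd ζ ∧ ρ (.inl 3) ∈ stabAd ζ := by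
      refine stab_of_ann _ _ ζ h0 fun α β hα hβ => ?_
      have := hz (Sum.elim ![0, 0, α, β] fun _ => 0) (by
        rintro (v | v)
        · fin_cases v <;> simp [hα, hβ]
        · simp)
      rw [Lin_sys] at this
      simpa [Lc_zero, z0, trace_stab c0] using this
    have c1 := comm_mem h23.1 h23.2
    have hC : ∀ u : Fin m ⊕ Fin m ⊕ Fin s → Matrix n n F, (∀ v, (u v).trace = 0) →
        (ζ * Lin (CW m s) J (fun w => ρ (.inr w)) u).trace = 0 := by
      intro u hu
      have := hz (Sum.elim (fun _ => 0) u) (by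
        rintro (v | v)
        · simp
        · exact hu v)
      rw [Lin_sys] at this
      simpa [Lc_zero, trace_stab c0, trace_stab c1] using this
    have hH : ∀ i : Fin m, ρ (.inr (.inl i)) ∈ stabAd ζ ∧ ρ (.inr (.inr (.inl i))) ∈ stabAd ζ := by
      intro i
      induction i using WellFoundedLT.induction with
      | ind i ih =>
        have hp : pre (hpc m s fun w => ρ (.inr w)) i ∈ stabAd ζ :=
          pre_mem _ _ _ fun j hj => comm_mem (ih j hj).1 (ih j hj).2
        refine stab_of_ann _ _ ζ h0 fun α β hα hβ => ?_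
        have := hC (fun v => if v = .inl i then α else if v = .inr (.inl i) then β else 0) (by
          intro v; split_ifs <;> simp [hα, hβ])
        rwa [Lin_handle, trace_stab hp] at this
    have hHp : (List.ofFn (hpc m s fun w => ρ (.inr w))).prod ∈ stabAd ζ := by
      refine Subgroup.list_prod_mem _ fun x hx => ?_
      obtain ⟨i, rfl⟩ := List.mem_ofFn.1 hx
      exact comm_mem (hH i).1 (hH i).2
    have hP : ∀ k : Fin s, ppc m s J (fun w => ρ (.inr w)) k ∈ stabAd ζ := by
      intro k
      induction k using WellFoundedLT.induction with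
      | ind k ih =>
        have hp := (stabAd ζ).mul_mem hHp (pre_mem _ _ k ih)
        have h1 : ζ - Ad (ppc m s J (fun w => ρ (.inr w)) k)⁻¹ ζ = 0 := by
          refine scalar_of_ann _ (by simp) fun ω hω => ?_
          have := hC (fun v => if v = .inr (.inr k) then ω else 0) (by
            intro v; split_ifs <;> simp [hω])
          rw [Lin_punct, trace_stab hp, Matrix.mul_sub, Matrix.trace_sub, trace_mul_Ad] at this
          rw [Matrix.sub_mul, Matrix.trace_sub, this]
        exact (stabAd ζ).inv_mem_iff.1 (sub_eq_zero.1 h1).symm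
    refine hb ζ h0 (fun i => ?_) (fun i => (hH i).1) (fun i => (hH i).2) hP
    fin_cases i
    exacts [h01.1, h01.2, h23.1, h23.2]
  intro Y hY
  obtain ⟨u, hu, rfl⟩ := key (mem_sl.2 hY)
  exact ⟨u, mem_slV.1 hu, rfl⟩

end Vale.Agent.P002
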