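import Mathlib

/-! P002, task Der: derivations of fields.

* `ext_der`: make `Ω` an `R`-algebra through `ι`, `K = FractionRing R`. `Ω` is formally smooth
  over `R` (`Algebra.FormallySmooth.of_isLocalization`, then a transcendence basis of `Ω / K`,
  `exists_isTranscendenceBasis`, `Algebra.FormallySmooth.of_algebraicIndependent_of_isSeparable`,
  char 0, and `.comp`). Give a type synonym `B` of `TrivSqZeroExt Ω Ω` the `R`-algebra structure
  `a ↦ inl (ι a) + inr (δ a)`, lift `AlgHom.id` along `fst`
  (`Algebra.FormallySmooth.liftOfSurjective`, kernel has square zero); `D x = snd (lift x)`.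
* `exists_transc`: `F = Algebra.adjoin O (range y)` is countable, so (`Algebraic.countable`) some
  `s` is transcendental over `F`; apply `ext_der` to `R = F[X]`, `ι = aeval s`,
  `δ = aeval s ∘ derivative`.
* `exists_transc_fam`: induction on `m` (`Fin.snoc` or `Fin.cons`; add the previous `s` to `y`).
* `algInd_of_der`: the set of `p` with `aeval t p = 0` is closed under `pderiv i`
  (`D (aeval t p) = ∑ aeval t (pderiv i p) * D (t i)`, by `MvPolynomial.induction_on`); show
  `coeff m p = 0` for all `p` in the set by induction on the degree of `m` (`coeff_pderiv`; for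
  `m = 0` first show that all other coefficients vanish), or induct on `totalDegree`.
* `der_minimal`: for `x ∈ P` there are `b ∉ P`, `k` with `b * x ^ k ∈ I`
  (`IsLocalization.AtPrime.radical_map_of_mem_minimalPrimes`). Induct on `k`: applying `D` and
  multiplying by `b` gives `(k+1) * b * b * D x * x ^ k ∈ I`. -/

namespace Vale.Agent.P002

theorem der_lift {R Ω B : Type} [CommRing R] [IsDomain R] [Field Ω] [CharZero Ω] [CommRing B]
    (ι : R →+* Ω) (hι : Function.Injective ι) (φ : R →+* B) (π : B →+* Ω)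
    (hπ : Function.Surjective π) (hn : IsNilpotent (RingHom.ker π)) (h : ∀ a, π (φ a) = ι a) :
    ∃ L : Ω →+* B, (∀ x, π (L x) = x) ∧ ∀ a, L (ι a) = φ a := by
  let := ι.toAlgebra
  let := φ.toAlgebra
  have : FaithfulSMul R Ω := (faithfulSMul_iff_algebraMap_injective R Ω).2 hι
  let : Algebra (FractionRing R) Ω := FractionRing.liftAlgebra R Ω
  have := FractionRing.isScalarTower_liftAlgebra R Ω
  have : CharZero (FractionRing R) := (algebraMap (FractionRing R) Ω).charZero
  have h1 : Algebra.FormallySmooth R (FractionRing R) := .of_isLocalization (nonZeroDivisors R)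
  obtain ⟨s, hs⟩ := exists_isTranscendenceBasis (FractionRing R) Ω
  have := hs.isAlgebraic_field
  have h2 : Algebra.FormallySmooth (FractionRing R) Ω :=
    .of_algebraicIndependent_of_isSeparable hs.1
  have h3 : Algebra.FormallySmooth R Ω := .comp R (FractionRing R) Ω
  let g : B →ₐ[R] Ω := ⟨π, h⟩
  exact ⟨(Algebra.FormallySmooth.liftOfSurjective (AlgHom.id R Ω) g hπ hn).toRingHom,
    Algebra.FormallySmooth.liftOfSurjective_apply (AlgHom.id R Ω) g hπ hn,
    (Algebra.FormallySmooth.liftOfSurjective (AlgHom.id R Ω) g hπ hn).commutes⟩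

theorem ext_der {O R Ω : Type} [CommRing O] [CommRing R] [IsDomain R] [Field Ω] [CharZero Ω]
    [Algebra O R] [Algebra O Ω] (ι : R →ₐ[O] Ω) (hι : Function.Injective ι) (δ : R →+ Ω)
    (hδ : ∀ a b, δ (a * b) = ι a * δ b + ι b * δ a) (h0 : ∀ o, δ (algebraMap O R o) = 0) :
    ∃ D : Derivation O Ω Ω, ∀ a, D (ι a) = δ a := by
  have h1 : δ 1 = 0 := by simpa using h0 1
  let φ : R →+* TrivSqZeroExt Ω Ω :=
    { toFun := fun a => (ι a, δ a)
      map_one' := TrivSqZeroExt.ext (map_one ι) h1
      map_mul' := fun a b => TrivSqZeroExt.ext (map_mul ι a b) ((hδ a b).trans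
        (congrArg (ι a * δ b + ·) (mul_comm _ _)))
      map_zero' := TrivSqZeroExt.ext (map_zero ι) (map_zero δ)
      map_add' := fun a b => TrivSqZeroExt.ext (map_add ι a b) (map_add δ a b) }
  obtain ⟨L, hL, hL'⟩ := der_lift ι.toRingHom hι φ (TrivSqZeroExt.fstHom Ω Ω Ω).toRingHom
    (fun x => ⟨TrivSqZeroExt.inl x, rfl⟩) ⟨2, by
      rw [pow_two, Ideal.zero_eq_bot, eq_bot_iff, Ideal.mul_le]
      intro x hx y hy
      have hx' : x.fst = 0 := hx
      have hy' : y.fst = 0 := hy
      exact TrivSqZeroExt.ext (by simp [hx']) (by simp [hx', hy'])⟩ fun _ => rfl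
  have hf : ∀ x, (L x).fst = x := hL
  have hm : ∀ x y, (L (x * y)).snd = x * (L y).snd + y * (L x).snd := fun x y => by
    rw [map_mul, TrivSqZeroExt.snd_mul, hf, hf]
    simp [mul_comm]
  have hs : ∀ a, (L (ι a)).snd = δ a := fun a => congrArg TrivSqZeroExt.snd (hL' a)
  refine ⟨Derivation.mk'
    { toFun := fun x => (L x).snd
      map_add' := fun x y => by rw [map_add, TrivSqZeroExt.snd_add]
      map_smul' := fun o x => ?_ } hm, hs⟩
  rw [Algebra.smul_def, hm, ← ι.commutes, hs, h0, ι.commutes, RingHom.id_apply, Algebra.smul_def,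
    mul_zero, add_zero]

theorem ext_der' {O R Ω : Type} [CommRing O] [CommRing R] [IsDomain R] [Field Ω] [CharZero Ω]
    [Algebra O R] [Algebra O Ω] (ι : R →ₐ[O] Ω) (hι : Function.Injective ι)
    (D : Derivation O R R) : ∃ D' : Derivation O Ω Ω, ∀ a, D' (ι a) = ι (D a) := by
  refine ext_der ι hι (ι.toRingHom.toAddMonoidHom.comp D.toLinearMap.toAddMonoidHom)
    (fun a b => ?_) fun o => ?_
  · change ι (D (a * b)) = ι a * ι (D b) + ι b * ι (D a)
    simp
  · change ι (D _) = 0
    simp

theorem exists_transc {O Ω σ : Type} [CommRing O] [Countable O] [Field Ω] [CharZero Ω]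
    [Uncountable Ω] [Algebra O Ω] [Finite σ] (y : σ → Ω) :
    ∃ (s : Ω) (D : Derivation O Ω Ω), (∀ i, D (y i) = 0) ∧ D s = 1 := by
  have hc : Countable (Algebra.adjoin O (Set.range y)) := by
    rw [← Cardinal.mk_le_aleph0_iff]
    refine (Algebra.cardinalMk_adjoin_le O _).trans (max_le (max_le ?_ ?_) le_rfl)
    · exact Cardinal.mk_le_aleph0
    · exact Cardinal.le_aleph0_iff_set_countable.2 (Set.countable_range y)
  obtain ⟨s, hs⟩ : ∃ s : Ω, Transcendental (Algebra.adjoin O (Set.range y)) s := by
    by_contra h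
    push Not at h
    refine Set.not_countable_univ (α := Ω)
      ((Algebraic.countable (Algebra.adjoin O (Set.range y)) Ω).mono fun x _ => ?_)
    exact not_not.1 (h x)
  let ι := (Polynomial.aeval (R := Algebra.adjoin O (Set.range y)) s).restrictScalars O
  obtain ⟨D, hD⟩ := ext_der' ι (transcendental_iff_injective.1 hs)
    ((Polynomial.derivative' (R := Algebra.adjoin O (Set.range y))).restrictScalars O)
  refine ⟨s, D, fun i => ?_, ?_⟩
  · simpa [ι] using hD (Polynomial.C ⟨y i, Algebra.subset_adjoin ⟨i, rfl⟩⟩)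
  · simpa [ι] using hD Polynomial.X

theorem exists_transc_fam {O Ω σ : Type} [CommRing O] [Countable O] [Field Ω] [CharZero Ω]
    [Uncountable Ω] [Algebra O Ω] [Finite σ] (y : σ → Ω) (m : ℕ) :
    ∃ s : Fin m → Ω, ∀ c : Fin m → Ω, ∃ D : Derivation O Ω Ω,
      (∀ i, D (y i) = 0) ∧ ∀ j, D (s j) = c j := by
  induction m with
  | zero => exact ⟨Fin.elim0, fun c => ⟨0, fun _ => rfl, fun j => j.elim0⟩⟩
  | succ m ih =>
    obtain ⟨s, hs⟩ := ih
    obtain ⟨t, E, hE, hE'⟩ := exists_transc (O := O) (Sum.elim y s)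
    refine ⟨Fin.cons t s, fun c => ?_⟩
    obtain ⟨D, h1, h2⟩ := hs fun j => c j.succ
    refine ⟨D + (c 0 - D t) • E, fun i => ?_, fun j => ?_⟩
    · have := hE (.inl i)
      simp only [Sum.elim_inl] at this
      simp [h1, this]
    · refine Fin.cases ?_ (fun j => ?_) j
      · simp [hE']
      · have := hE (.inr j)
        simp only [Sum.elim_inr] at this
        simp [h2, this]

theorem algInd_of_der {O Ω τ : Type} [CommRing O] [Field Ω] [CharZero Ω] [Algebra O Ω]
    [FaithfulSMul O Ω] [Finite τ] (t : τ → Ω)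
    (h : ∀ c : τ → Ω, ∃ D : Derivation O Ω Ω, ∀ i, D (t i) = c i) : AlgebraicIndependent O t := by
  classical
  have := Fintype.ofFinite τ
  have hO : CharZero O := (algebraMap O Ω).charZero
  have hd : IsDomain O := (FaithfulSMul.algebraMap_injective O Ω).isDomain _
  have h1 : ∀ (D : Derivation O Ω Ω) (p : MvPolynomial τ O), D (MvPolynomial.aeval t p) =
      ∑ i, MvPolynomial.aeval t (MvPolynomial.pderiv i p) * D (t i) := fun D p => by
    induction p using MvPolynomial.induction_on with
    | C a => simp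
    | add p q hp hq => simp [hp, hq, add_mul, Finset.sum_add_distrib]
    | mul_X p j hp =>
      simp only [map_mul, MvPolynomial.aeval_X, Derivation.leibniz, smul_eq_mul, hp, map_add,
        add_mul, Finset.sum_add_distrib, Finset.mul_sum, MvPolynomial.pderiv_X, mul_assoc]
      congr 1
      rw [Finset.sum_eq_single j (fun i _ hi => by simp [Pi.single_eq_of_ne' hi]) (by simp)]
      simp
  have h2 : ∀ (p : MvPolynomial τ O) (i : τ), MvPolynomial.aeval t p = 0 →
      MvPolynomial.aeval t (MvPolynomial.pderiv i p) = 0 := fun p i hp => by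
    obtain ⟨D, hD⟩ := h (Pi.single i 1)
    have := h1 D p
    rw [hp, map_zero, Finset.sum_eq_single i (fun j _ hj => by simp [hD, hj]) (by simp)] at this
    simpa [hD] using this.symm
  have h3 : ∀ (d : ℕ) (p : MvPolynomial τ O), (∀ m : τ →₀ ℕ, d ≤ m.degree → p.coeff m = 0) →
      MvPolynomial.aeval t p = 0 → p = 0 := fun d => by
    induction d with
    | zero => exact fun p hp _ => MvPolynomial.ext _ _ fun m => hp m (Nat.zero_le _)
    | succ d ih =>
      intro p hp hp0
      have h4 : ∀ i, MvPolynomial.pderiv i p = 0 := fun i => ih _ (fun m hm => by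
        rw [MvPolynomial.coeff_pderiv, hp _ (by simpa using hm), zero_mul]) (h2 p i hp0)
      have h5 : p = MvPolynomial.C (p.coeff 0) := by
        ext m
        rw [MvPolynomial.coeff_C]
        split_ifs with hm
        · rw [hm]
        · obtain ⟨i, hi⟩ : ∃ i, m i ≠ 0 := by
            by_contra h6
            push Not at h6
            exact hm (Finsupp.ext fun i => (h6 i).symm)
          have h6 := MvPolynomial.coeff_pderiv (i := i) p (m - Finsupp.single i 1)
          rw [h4, MvPolynomial.coeff_zero, tsub_add_cancel_of_le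
            (Finsupp.single_le_iff.2 (Nat.one_le_iff_ne_zero.2 hi))] at h6
          exact (mul_eq_zero.1 h6.symm).resolve_right (Nat.cast_add_one_ne_zero _)
      rw [h5, MvPolynomial.aeval_C, FaithfulSMul.algebraMap_eq_zero_iff] at hp0
      rw [h5, hp0, map_zero]
  refine algebraicIndependent_iff.2 fun p hp => h3 (p.totalDegree + 1) p (fun m hm => ?_) hp
  exact MvPolynomial.coeff_eq_zero_of_totalDegree_lt hm

theorem der_minimal {O A : Type} [CommRing O] [CommRing A] [Algebra O A] [Algebra ℚ A]
    (D : Derivation O A A) (I P : Ideal A) (hP : P ∈ I.minimalPrimes) (hI : ∀ x ∈ I, D x ∈ I) :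
    ∀ x ∈ P, D x ∈ P := by
  intro x hx
  have hp : P.IsPrime := hP.1.1
  obtain ⟨b, hb, k, hk⟩ : ∃ b ∉ P, ∃ k : ℕ, b * x ^ k ∈ I := by
    have h1 := IsLocalization.AtPrime.radical_map_of_mem_minimalPrimes (Localization.AtPrime P)
      P I hP
    obtain ⟨k, hk⟩ : algebraMap A (Localization.AtPrime P) x ∈
        (I.map (algebraMap A (Localization.AtPrime P))).radical :=
      h1 ▸ Ideal.mem_map_of_mem _ hx
    rw [← map_pow, IsLocalization.algebraMap_mem_map_algebraMap_iff P.primeCompl] at hk
    obtain ⟨b, hb, hk⟩ := hk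
    exact ⟨b, hb, k, hk⟩
  by_contra hD
  induction k generalizing b with
  | zero => exact hb (hP.1.2 (by simpa using hk))
  | succ k ih =>
    have hu : ((k + 1 : ℕ) : A) ∉ P := fun h => hp.ne_top (P.eq_top_of_isUnit_mem h (by
      have : IsUnit ((k + 1 : ℕ) : ℚ) := (Nat.cast_ne_zero.2 k.succ_ne_zero).isUnit
      simpa using this.map (algebraMap ℚ A)))
    refine ih (((k + 1 : ℕ) : A) * b * b * D x) (fun h => ?_) ?_
    · rcases hp.mem_or_mem h with h | h
      · rcases hp.mem_or_mem h with h | h
        · exact (hp.mem_or_mem h).elim hu hb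
        · exact hb h
      · exact hD h
    · have h1 := I.sub_mem (I.mul_mem_left b (hI _ hk)) (I.mul_mem_left (D b) hk)
      rw [Derivation.leibniz, Derivation.leibniz_pow] at h1
      convert h1 using 1
      simp only [smul_eq_mul, nsmul_eq_mul, Nat.add_sub_cancel]
      ring

end Vale.Agent.P002
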