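import Vale.Agent.P002.Wlem
import Vale.Agent.P002.Der

/-! P002, task Datum: deforming inside `WW` along twists.

* `psDer`: a derivation of `R` acts coefficientwise on `R⟦X⟧` (`PowerSeries.coeff_mul`).
* `exists_z`: `N = 1 + X • g.map C`, `det N` has constant coefficient `1`, so is a unit `δ`;
  `z = δ⁻¹ • N ^ card n` has determinant `1`, commutes with everything commuting with `g`,
  has constant coefficient `1`. Its coefficient of `X`: from `δ • z = N ^ r`,
  `coeff 1 z + coeff 1 δ • 1 = r • g`; `coeff 1 δ = trace g` (`Matrix.det_one_add_smul`, or since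
  `ld (d/dX) z` is traceless).
* `Datum.step`: `R' = d.R⟦X⟧`, `θ' = θ ∘ constantCoeff`, `ρc = pm C ρ`, `g = (γ ρ ^ k).1`,
  `ρ' = t.τ (cJ J R') ρc z`. `ρ' ∈ WW`: `exists_big` for `R'` (char 0 and faithfulness come from
  `θ'`), `good_of_spec`, `WW_pm`, `WW_twist`, `WW_of_inj`. For a derivation `D'` of `R'` apply
  `t.nat` to the homomorphism `(TG.tmap θ').comp (jet D')`. For `D' = psDer D` it sends `z` to `1`,
  `ρc v` to `⟨(ld D (ρ v)).map θ, h v⟩` and `t.one` applies; for `D' = d/dX`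
  (`PowerSeries.derivative`, `restrictScalars`) it sends `ρc v` to `TG.zs (h v)` and `z` to
  `⟨tl0 (γ h ^ k), 1⟩`.
* `Datum.exists_max`: start from `R = Ω`, `θ = id`; among the data whose `Sp` contains the
  initial one choose one with maximal `finrank Sp` (bounded); use `step`.
* `Datum.Sp_le`: `trace_ld`, `ld_ev`, `Lin_map`. -/

namespace Vale.Agent.P002

open PowerSeries

variable {n : Type} [Fintype n] [DecidableEq n] {K V O : Type} [CommRing O]

theorem exists_psDer {R : Type} [CommRing R] [Algebra O R] (D : Derivation O R R) :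
    ∃ D' : Derivation O R⟦X⟧ R⟦X⟧, ∀ f m, coeff m (D' f) = D (coeff m f) := by
  refine ⟨Derivation.mk'
    { toFun := fun f => PowerSeries.mk fun m => D (coeff m f)
      map_add' := fun f g => PowerSeries.ext fun m => by simp
      map_smul' := fun o f => PowerSeries.ext fun m => ?_ } fun f g => PowerSeries.ext fun m => ?_,
    fun f m => coeff_mk m fun m => D (coeff m f)⟩
  · rw [RingHom.id_apply, coeff_smul, coeff_mk, coeff_mk, coeff_smul, D.map_smul]
  · change coeff m (PowerSeries.mk fun m => D (coeff m (f * g))) =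
      coeff m (f * (PowerSeries.mk fun m => D (coeff m g)) +
        g * PowerSeries.mk fun m => D (coeff m f))
    rw [mul_comm g]
    simp only [map_add, coeff_mk, coeff_mul, map_sum, Derivation.leibniz, smul_eq_mul,
      ← Finset.sum_add_distrib]
    exact Finset.sum_congr rfl fun p _ => by ring

omit [DecidableEq n] in
theorem dt_c1_mul {R : Type} [CommRing R] (M N : Matrix n n R⟦X⟧) :
    (M * N).map (coeff 1) = M.map (coeff 1) * N.map (constantCoeff : R⟦X⟧ →+* R) +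
      M.map (constantCoeff : R⟦X⟧ →+* R) * N.map (coeff 1) := by
  ext i j
  simp only [Matrix.map_apply, Matrix.mul_apply, Matrix.add_apply, map_sum, coeff_one_mul,
    ← Finset.sum_add_distrib]
  exact Finset.sum_congr rfl fun k _ => by ring

theorem dt_c1_pow {R : Type} [CommRing R] {N : Matrix n n R⟦X⟧}
    (h0 : N.map (constantCoeff : R⟦X⟧ →+* R) = 1) (k : ℕ) :
    (N ^ k).map (constantCoeff : R⟦X⟧ →+* R) = 1 ∧
      (N ^ k).map (coeff 1) = (k : R) • N.map (coeff 1) := by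
  induction k with
  | zero =>
    refine ⟨by rw [pow_zero, Matrix.map_one _ (map_zero _) (map_one _)], ?_⟩
    ext i j
    by_cases h : i = j <;> simp [h, coeff_one]
  | succ k ih =>
    refine ⟨by rw [pow_succ, Matrix.map_mul, ih.1, h0, mul_one], ?_⟩
    rw [pow_succ, dt_c1_mul, ih.1, ih.2, h0, mul_one, one_mul, Nat.cast_succ, add_smul, one_smul]

theorem exists_z {R : Type} [CommRing R] (g : Matrix n n R) :
    ∃ z : SL n R⟦X⟧, z.1.map (coeff 0) = 1 ∧ z.1.map (coeff 1) = tl0 g ∧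
      ∀ M : Matrix n n R, M * g = g * M →
        z.1 * M.map (C : R →+* R⟦X⟧) = M.map (C : R →+* R⟦X⟧) * z.1 := by
  obtain ⟨N, hN⟩ : ∃ N : Matrix n n R⟦X⟧,
      N = 1 + (X : R⟦X⟧) • g.map (C : R →+* R⟦X⟧) := ⟨_, rfl⟩
  have h0 : N.map (constantCoeff : R⟦X⟧ →+* R) = 1 := by
    rw [hN]
    ext i j
    by_cases h : i = j <;> simp [Matrix.one_apply, h]
  have h1 : N.map (coeff 1) = g := by
    rw [hN]
    ext i j
    by_cases h : i = j <;> simp [h, coeff_one]
  have hd0 : constantCoeff N.det = 1 := by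
    rw [RingHom.map_det, RingHom.mapMatrix_apply, h0, Matrix.det_one]
  have hd1 : coeff 1 N.det = g.trace := by
    have h := der_det (constantCoeff : R⟦X⟧ →+* R) (coeff (R := R) 1).toAddMonoidHom
      (fun a b => by
        change coeff 1 (a * b) = constantCoeff a * coeff 1 b + constantCoeff b * coeff 1 a
        rw [coeff_one_mul]
        ring) N 1 h0
    rw [inv_one, val_one, mul_one] at h
    exact h.trans (congrArg Matrix.trace h1)
  obtain ⟨u, hu⟩ : IsUnit N.det := isUnit_iff_constantCoeff.2 (hd0 ▸ isUnit_one)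
  have hv : (↑u⁻¹ : R⟦X⟧) * N.det = 1 := by rw [← hu, Units.inv_mul]
  have hv0 : constantCoeff (↑u⁻¹ : R⟦X⟧) = 1 := by
    have h := congrArg constantCoeff hv
    rwa [map_mul, hd0, mul_one, map_one] at h
  have hv1 : coeff 1 (↑u⁻¹ : R⟦X⟧) = -g.trace := by
    have h := congrArg (coeff 1) hv
    rw [coeff_one_mul, hd0, hd1, hv0, coeff_one, if_neg one_ne_zero] at h
    linear_combination h
  obtain ⟨p0, p1⟩ := dt_c1_pow h0 (Fintype.card n)
  refine ⟨⟨(↑u⁻¹ : R⟦X⟧) • N ^ Fintype.card n, ?_⟩, ?_, ?_, fun M hM => ?_⟩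
  · rw [Matrix.det_smul, Matrix.det_pow, ← mul_pow, hv, one_pow]
  · ext i j
    have h := congrFun (congrFun p0 i) j
    rw [Matrix.map_apply] at h
    change coeff 0 ((↑u⁻¹ : R⟦X⟧) * (N ^ Fintype.card n) i j) = _
    rw [coeff_zero_eq_constantCoeff_apply, map_mul, hv0, h, one_mul]
  · ext i j
    have h := congrFun (congrFun p0 i) j
    have h' := congrFun (congrFun p1 i) j
    rw [Matrix.map_apply] at h h'
    change coeff 1 ((↑u⁻¹ : R⟦X⟧) * (N ^ Fintype.card n) i j) = _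
    rw [coeff_one_mul, hv0, hv1, h, h', h1]
    simp only [tl0, Matrix.sub_apply, Matrix.smul_apply, smul_eq_mul]
    ring
  · have hc : Commute (M.map (C : R →+* R⟦X⟧)) N := by
      rw [hN]
      refine (Commute.one_right _).add_right (Commute.smul_right ?_ _)
      change _ * _ = _ * _
      rw [← Matrix.map_mul, ← Matrix.map_mul, hM]
    exact ((hc.pow_right _).smul_right _).symm

theorem dt_ld_map {R S : Type} [CommRing R] [CommRing S] [Algebra O R] (D : Derivation O R R)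
    (π : R →+* S) (A : SL n R) :
    (ld D A).map π = (A.1.map fun a => π (D a)) * ((smap π A)⁻¹).1 := by
  rw [ld, Matrix.map_mul, ← map_inv]
  rfl

theorem dt_tl0_map {R S : Type} [CommRing R] [CommRing S] (π : R →+* S) (g : Matrix n n R) :
    (tl0 g).map π = tl0 (g.map π) := by
  ext i j
  by_cases h : i = j <;> simp [tl0, h, Matrix.trace]

/-- the constant coefficient as an algebra map -/
noncomputable def dtCC (O R : Type) [CommRing O] [CommRing R] [Algebra O R] : R⟦X⟧ →ₐ[O] R :=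
  { (constantCoeff : R⟦X⟧ →+* R) with
    commutes' := fun o => by simp [PowerSeries.algebraMap_apply] }

/-- the inclusion of constants as an algebra map -/
noncomputable def dtC (O R : Type) [CommRing O] [CommRing R] [Algebra O R] : R →ₐ[O] R⟦X⟧ :=
  { (C : R →+* R⟦X⟧) with
    commutes' := fun o => by simp [PowerSeries.algebraMap_apply] }

theorem dt_nat {w : Word K V} (t : Tw w) (J : K → SL n O) {R S : Type} [CommRing R] [CommRing S]
    [Algebra O R] [Algebra O S] (θ : R →ₐ[O] S) (ρ : V → SL n R) (z : SL n R) :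
    pm θ (t.τ (cJ J R) ρ z) = t.τ (cJ J S) (pm θ ρ) (smap (θ : R →+* S) z) := by
  funext v
  rw [← pm_cJ θ J]
  exact t.nat (smap (θ : R →+* S)) _ _ _ v

theorem dt_jet {w : Word K V} (t : Tw w) (J : K → SL n O) {R S : Type} [CommRing R] [CommRing S]
    [Algebra O R] [Algebra O S] (θ : R →ₐ[O] S) (D : Derivation O R R) (ρ : V → SL n R)
    (z : SL n R) (v : V) :
    (ld D (t.τ (cJ J R) ρ z v)).map θ = (t.τ (fun k => TG.zs (cJ J S k))
      (fun v => (⟨(ld D (ρ v)).map θ, pm θ ρ v⟩ : TG n S))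
      ⟨(ld D z).map θ, smap (θ : R →+* S) z⟩ v).u := by
  have h := t.nat ((TG.tmap (θ : R →+* S)).comp (jet D)) (cJ J R) ρ z v
  have e : (fun k => (TG.tmap (θ : R →+* S)).comp (jet D) (cJ J R k)) =
      fun k => TG.zs (cJ J S k) := by
    funext k
    ext1
    · change (ld D (cJ J R k)).map _ = 0
      rw [ld_cJ, Matrix.map_zero _ (map_zero _)]
    · exact congrFun (pm_cJ θ J) k
  rw [e] at h
  exact congrArg TG.u h

variable {w : Word K V} {J : K → SL n O}

theorem Datum.step {B : BigField O} {h : V → SL n B.Ω} (d : Datum w J h) (t : Tw w)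
    (hg : Good (t.γ.ev (cJ J B.Ω) h)) (k : ℕ) :
    ∃ d' : Datum w J h, d.Sp ≤ d'.Sp ∧
      t.tv (cJ J B.Ω) h (tl0 ((t.γ.ev (cJ J B.Ω) h) ^ k).1) ∈ d'.Sp := by
  obtain ⟨z, z0, z1, zc⟩ := exists_z ((t.γ.ev (cJ J d.R) d.ρ) ^ k).1
  let θ' : d.R⟦X⟧ →ₐ[O] B.Ω := d.θ.comp (dtCC O d.R)
  have hθ' : ∀ f, θ' f = d.θ (coeff 0 f) := fun f => by
    rw [coeff_zero_eq_constantCoeff_apply]
    rfl
  let ρc : V → SL n d.R⟦X⟧ := pm (dtC O d.R) d.ρ
  have hρc : pm θ' ρc = h := by
    refine Eq.trans ?_ d.hθ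
    funext v
    ext i j
    change θ' (C ((d.ρ v).1 i j)) = d.θ ((d.ρ v).1 i j)
    rw [hθ', coeff_zero_C]
  have hz : smap (θ' : d.R⟦X⟧ →+* B.Ω) z = 1 := by
    ext i j
    change θ' (z.1 i j) = (1 : Matrix n n B.Ω) i j
    have e : coeff 0 (z.1 i j) = (1 : Matrix n n d.R) i j := congrFun (congrFun z0 i) j
    rw [hθ', e]
    by_cases hij : i = j <;> simp [Matrix.one_apply, hij]
  have hcomm : Commute z (t.γ.ev (cJ J d.R⟦X⟧) ρc) := by
    rw [ev_pm]
    exact Subtype.ext (zc _ (congrArg Subtype.val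
      ((Commute.refl (t.γ.ev (cJ J d.R) d.ρ)).pow_right k).eq))
  have : Uncountable d.R⟦X⟧ := C_injective.uncountable
  have : CharZero d.R⟦X⟧ := (θ' : d.R⟦X⟧ →+* B.Ω).charZero
  have : FaithfulSMul O d.R⟦X⟧ := (faithfulSMul_iff_algebraMap_injective _ _).2 fun a b hab =>
    FaithfulSMul.algebraMap_injective O B.Ω (by rw [← θ'.commutes, ← θ'.commutes, hab])
  obtain ⟨B', ι, hι⟩ := exists_big (O := O) (R := d.R⟦X⟧)
  have hW : t.τ (cJ J d.R⟦X⟧) ρc z ∈ WW w J d.R⟦X⟧ := by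
    refine WW_of_inj ι hι ?_
    rw [dt_nat]
    refine WW_twist t (WW_pm ι (WW_pm _ d.hW)) ?_ _ ?_
    · rw [ev_pm]
      refine good_of_spec _ hι (θ' : d.R⟦X⟧ →+* B.Ω) _ ?_
      rw [← ev_pm, hρc]
      exact hg
    · rw [ev_pm]
      exact hcomm.map _
  have hθ : pm θ' (t.τ (cJ J d.R⟦X⟧) ρc z) = h := by rw [dt_nat, hz, t.one, hρc]
  refine ⟨⟨d.R⟦X⟧, θ', t.τ (cJ J d.R⟦X⟧) ρc z, hW, hθ⟩,
    Submodule.span_mono ?_, Submodule.subset_span ?_⟩
  · rintro _ ⟨D, rfl⟩
    obtain ⟨D', hD'⟩ := exists_psDer D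
    refine ⟨D', funext fun v => ?_⟩
    change (ld D (d.ρ v)).map d.θ = (ld D' (t.τ (cJ J d.R⟦X⟧) ρc z v)).map θ'
    have e1 : (ld D' z).map θ' = 0 := by
      refine (dt_ld_map D' (θ' : d.R⟦X⟧ →+* B.Ω) z).trans ?_
      rw [hz, inv_one, val_one, mul_one]
      ext i j
      change θ' (D' (z.1 i j)) = 0
      have e : coeff 0 (z.1 i j) = (1 : Matrix n n d.R) i j := congrFun (congrFun z0 i) j
      rw [hθ', hD', e]
      by_cases hij : i = j <;> simp [Matrix.one_apply, hij]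
    rw [dt_jet, e1, hz]
    change _ = (t.τ _ _ (1 : TG n B.Ω) v).u
    rw [t.one]
    change (ld D (d.ρ v)).map d.θ = (ld D' (ρc v)).map θ'
    refine (dt_ld_map D (d.θ : d.R →+* B.Ω) _).trans
      (Eq.trans ?_ (dt_ld_map D' (θ' : d.R⟦X⟧ →+* B.Ω) _).symm)
    have e2 : smap (θ' : d.R⟦X⟧ →+* B.Ω) (ρc v) = smap (d.θ : d.R →+* B.Ω) (d.ρ v) :=
      (congrFun hρc v).trans (congrFun d.hθ v).symm
    rw [e2]
    refine congrArg (· * _) ?_
    ext i j
    change d.θ (D ((d.ρ v).1 i j)) = θ' (D' (C ((d.ρ v).1 i j)))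
    rw [hθ', hD', coeff_zero_C]
  · refine ⟨(derivative d.R).restrictScalars O, funext fun v => ?_⟩
    change t.tv (cJ J B.Ω) h (tl0 ((t.γ.ev (cJ J B.Ω) h) ^ k).1) v =
      (ld ((derivative d.R).restrictScalars O) (t.τ (cJ J d.R⟦X⟧) ρc z v)).map θ'
    have e1 : (ld ((derivative d.R).restrictScalars O) z).map θ' =
        tl0 ((t.γ.ev (cJ J B.Ω) h) ^ k).1 := by
      refine (dt_ld_map _ (θ' : d.R⟦X⟧ →+* B.Ω) z).trans ?_
      have e : t.γ.ev (cJ J B.Ω) h = smap (d.θ : d.R →+* B.Ω) (t.γ.ev (cJ J d.R) d.ρ) := by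
        rw [← ev_pm, d.hθ]
      rw [hz, inv_one, val_one, mul_one, e, ← map_pow, smap_val, ← dt_tl0_map, ← z1]
      ext i j
      change θ' (derivative d.R (z.1 i j)) = d.θ (coeff 1 (z.1 i j))
      rw [hθ', coeff_derivative]
      simp
    have e2 : (fun v => (⟨(ld ((derivative d.R).restrictScalars O) (ρc v)).map θ',
        pm θ' ρc v⟩ : TG n B.Ω)) = fun v => TG.zs (h v) := by
      funext v
      ext1
      · refine (dt_ld_map _ (θ' : d.R⟦X⟧ →+* B.Ω) _).trans ?_
        have e : ((ρc v).1.map fun a => (θ' : d.R⟦X⟧ →+* B.Ω)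
            ((derivative d.R).restrictScalars O a)) = 0 := by
          ext i j
          change θ' (derivative d.R (C ((d.ρ v).1 i j))) = 0
          rw [derivative_C, map_zero]
        rw [e, Matrix.zero_mul]
        rfl
      · exact congrFun hρc v
    rw [dt_jet, e1, hz, e2]
    rfl

theorem Datum.exists_max [Finite V] {B : BigField O} {h : V → SL n B.Ω} (hh : h ∈ WW w J B.Ω) :
    ∃ d : Datum w J h, (∀ D : Derivation O B.Ω B.Ω, (fun v => ld D (h v)) ∈ d.Sp) ∧
      ∀ (t : Tw w) (k : ℕ), Good (t.γ.ev (cJ J B.Ω) h) →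
        t.tv (cJ J B.Ω) h (tl0 ((t.γ.ev (cJ J B.Ω) h) ^ k).1) ∈ d.Sp := by
  let d0 : Datum w J h := ⟨B.Ω, AlgHom.id O B.Ω, h, hh, rfl⟩
  obtain ⟨_, ⟨d, hd, rfl⟩, hmax⟩ :=
    (wellFounded_gt (α := Submodule B.Ω (V → Matrix n n B.Ω))).has_min
      {S | ∃ d : Datum w J h, d0.Sp ≤ d.Sp ∧ d.Sp = S} ⟨_, d0, le_rfl, rfl⟩
  refine ⟨d, fun D => hd (Submodule.subset_span ⟨D, rfl⟩), fun t k hg => ?_⟩
  obtain ⟨d', h1, h2⟩ := d.step t hg k
  rwa [h1.eq_of_not_lt (hmax _ ⟨d', hd.trans h1, rfl⟩)]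

theorem Datum.Sp_le {Ω : Type} [Field Ω] [Algebra O Ω] {h : V → SL n Ω} (d : Datum w J h) :
    d.Sp ≤ Z1 w (cJ J Ω) h := by
  refine Submodule.span_le.2 ?_
  rintro _ ⟨D, rfl⟩
  refine mem_Z1.2 ⟨fun v => ?_, ?_⟩
  · exact (AddMonoidHom.map_trace (d.θ : d.R →+* Ω) _).symm.trans
      (by rw [trace_ld, map_zero])
  · have h1 := Lin_map w (d.θ : d.R →+* Ω) (cJ J d.R) d.ρ fun v => ld D (d.ρ v)
    rw [← ld_ev w D _ (ld_cJ D J), show w.ev (cJ J d.R) d.ρ = 1 from WW_sub_XX d.hW, ld_one,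
      Matrix.map_zero _ (map_zero _)] at h1
    have e1 : (fun k => smap (d.θ : d.R →+* Ω) (cJ J d.R k)) = cJ J Ω := pm_cJ d.θ J
    have e2 : (fun v => smap (d.θ : d.R →+* Ω) (d.ρ v)) = h := d.hθ
    rw [e1, e2] at h1
    exact h1.symm

end Vale.Agent.P002
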