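import Vale.Agent.P002.Defs

/-! P002, task Jac: Jacobi's formula and universal families.

* `der_det`: `Φ a = inl (π a) + inr (δ a)` is a ring map `A → TrivSqZeroExt S S`;
  `M.map Φ = (1 + ε • N) * B.map inl` with `N = (M.map δ * B⁻¹).map inl`; `RingHom.map_det`,
  `Matrix.det_one_add_smul` with `ε ^ 2 = 0` (`DualNumber.eps`).
* `uT`, `uT_lift`: `Ideal.Quotient.liftₐ`.
* `spec_ring`: `I = RingHom.ker (aeval (ent x))` (prime as `Ω` is a domain), contains
  `det - 1`; `uT_lift` twice; injectivity from `Ideal.Quotient.eq_zero_iff_mem`.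
* `univ_sl`: `I = span (det - 1)`, `S` the quotient, `ρ = uT I _`. Given `u`, lift the matrix
  `u v * (ρ v).1` to polynomials `g`, `E0 = MvPolynomial.mkDerivation F g`; `E0 (det - 1) ∈ I` by
  `der_det` (with `π = mk`, `δ = mk ∘ E0`, trace of `u v * ρ * ρ⁻¹`), so `E0` preserves `I`;
  `Derivation.liftOfSurjective`. -/

namespace Vale.Agent.P002

variable {n : Type} [Fintype n] [DecidableEq n]

theorem der_det {A S : Type} [CommRing A] [CommRing S] (π : A →+* S) (δ : A →+ S)
    (hδ : ∀ a b, δ (a * b) = π a * δ b + π b * δ a) (M : Matrix n n A) (B : SL n S)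
    (hM : M.map π = B.1) : δ M.det = (M.map δ * (B⁻¹).1).trace := by
  have h1 : δ 1 = 0 := by
    have := hδ 1 1
    simp only [mul_one, map_one, one_mul] at this
    exact left_eq_add.mp this
  let Φ : A →+* DualNumber S :=
    { toFun := fun a => TrivSqZeroExt.inl (π a) + TrivSqZeroExt.inr (δ a)
      map_one' := by ext <;> simp [h1]
      map_mul' := fun a b => by
        ext
        · simp
        · simp [hδ, mul_comm]
      map_zero' := by ext <;> simp
      map_add' := fun a b => by ext <;> simp }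
  let ι : S →+* DualNumber S := TrivSqZeroExt.inlHom S S
  have hι : ∀ s, ι s = TrivSqZeroExt.inl s := fun _ => rfl
  have hΦ : ∀ a, Φ a = ι (π a) + DualNumber.eps * ι (δ a) := by
    intro a
    ext <;> simp [Φ, hι]
  set N : Matrix n n S := M.map δ * (B⁻¹).1 with hN
  have hNB : N * B.1 = M.map δ := by
    rw [hN, Matrix.mul_assoc, inv_mul_val, Matrix.mul_one]
  have key : M.map Φ = (1 + (DualNumber.eps : DualNumber S) • N.map ι) * B.1.map ι := by
    rw [Matrix.add_mul, Matrix.one_mul, Matrix.smul_mul, ← Matrix.map_mul, hNB, ← hM]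
    ext1 i j
    simp [hΦ]
  have hd : Φ M.det = 1 + (N.map ι).trace * DualNumber.eps := by
    rw [RingHom.map_det, RingHom.mapMatrix_apply, key, Matrix.det_mul, Matrix.det_one_add_smul,
      DualNumber.eps_pow_two, mul_zero, add_zero, ← RingHom.mapMatrix_apply ι B.1,
      ← RingHom.map_det, B.2, map_one, mul_one]
  have ht : (N.map ι).trace = ι N.trace := by
    simp [Matrix.trace, map_sum]
  rw [ht] at hd
  have := congrArg TrivSqZeroExt.snd hd
  simpa [Φ, hι] using this

theorem trace_ld {O R : Type} [CommRing O] [CommRing R] [Algebra O R] (D : Derivation O R R)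
    (A : SL n R) : (ld D A).trace = 0 := by
  have h := der_det (RingHom.id R) (D : R →ₗ[O] R).toAddMonoidHom
    (fun a b => by simp [Derivation.leibniz]) A.1 A (by ext; simp)
  rw [A.2] at h
  simp only [LinearMap.toAddMonoidHom_coe, Derivation.coeFn_coe, Derivation.map_one_eq_zero] at h
  exact h.symm

/-- the generic matrix -/
noncomputable def gM (O : Type) [CommRing O] {V : Type} (v : V) :
    Matrix n n (MvPolynomial (V × n × n) O) := Matrix.of fun a b => MvPolynomial.X (v, a, b)

theorem aeval_gM_det {O R V : Type} [CommRing O] [CommRing R] [Algebra O R] (ρ : V → SL n R)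
    (v : V) : MvPolynomial.aeval (ent ρ) ((gM O v : Matrix n n _).det - 1) = 0 := by
  rw [map_sub, map_one, AlgHom.map_det]
  have : (MvPolynomial.aeval (ent ρ) : MvPolynomial (V × n × n) O →ₐ[O] R).mapMatrix
      (gM O v : Matrix n n _) = (ρ v).1 := by
    ext a b
    simp [gM, ent]
  rw [this, (ρ v).2, sub_self]

/-- the universal family over a quotient -/
noncomputable def uT {O V : Type} [CommRing O] (I : Ideal (MvPolynomial (V × n × n) O))
    (hI : ∀ v, (gM O v : Matrix n n _).det - 1 ∈ I) : V → SL n (MvPolynomial (V × n × n) O ⧸ I) :=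
  fun v => ⟨(gM O v).map (Ideal.Quotient.mk I), by
    rw [← RingHom.mapMatrix_apply, ← RingHom.map_det, ← map_one (Ideal.Quotient.mk I),
      Ideal.Quotient.eq]
    exact hI v⟩

theorem aeval_uT {O V : Type} [CommRing O] (I : Ideal (MvPolynomial (V × n × n) O))
    (hI : ∀ v, (gM O v : Matrix n n _).det - 1 ∈ I) (f : MvPolynomial (V × n × n) O) :
    MvPolynomial.aeval (ent (uT I hI)) f = Ideal.Quotient.mk I f := by
  have : (MvPolynomial.aeval (ent (uT I hI)) : MvPolynomial (V × n × n) O →ₐ[O] _) =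
      Ideal.Quotient.mkₐ O I := by
    apply MvPolynomial.algHom_ext
    rintro ⟨v, a, b⟩
    simp [ent, uT, gM]
  rw [this]; rfl

theorem uT_lift {O V R : Type} [CommRing O] [CommRing R] [Algebra O R]
    (I : Ideal (MvPolynomial (V × n × n) O)) (hI : ∀ v, (gM O v : Matrix n n _).det - 1 ∈ I)
    (ρ : V → SL n R) (h : ∀ f ∈ I, MvPolynomial.aeval (ent ρ) f = 0) :
    ∃ θ : (MvPolynomial (V × n × n) O ⧸ I) →ₐ[O] R, pm θ (uT I hI) = ρ ∧
      ∀ f, θ (Ideal.Quotient.mk I f) = MvPolynomial.aeval (ent ρ) f := by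
  refine ⟨Ideal.Quotient.liftₐ I (MvPolynomial.aeval (ent ρ)) h, ?_, fun f => rfl⟩
  funext v
  ext a b
  exact MvPolynomial.aeval_X (ent ρ) (v, a, b)

theorem spec_ring {O κ Ω Ω' : Type} [CommRing O] [Field Ω] [Field Ω'] [Algebra O Ω] [Algebra O Ω']
    (x : κ → SL n Ω) (y : κ → SL n Ω')
    (h : ∀ f : MvPolynomial (κ × n × n) O, MvPolynomial.aeval (ent x) f = 0 →
      MvPolynomial.aeval (ent y) f = 0) :
    ∃ (S : Type) (_ : CommRing S) (_ : IsDomain S) (_ : Algebra O S) (ι : S →ₐ[O] Ω)
      (θ : S →ₐ[O] Ω') (z : κ → SL n S), Function.Injective ι ∧ pm ι z = x ∧ pm θ z = y := by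
  let φ : MvPolynomial (κ × n × n) O →ₐ[O] Ω := MvPolynomial.aeval (ent x)
  let I : Ideal (MvPolynomial (κ × n × n) O) := RingHom.ker φ
  have hI : ∀ v, (gM O v : Matrix n n _).det - 1 ∈ I := fun v => aeval_gM_det x v
  have : I.IsPrime := RingHom.ker_isPrime φ
  obtain ⟨ι, hι, hι'⟩ := uT_lift I hI x (fun f hf => hf)
  obtain ⟨θ, hθ, -⟩ := uT_lift I hI y (fun f hf => h f hf)
  refine ⟨_, inferInstance, inferInstance, inferInstance, ι, θ, uT I hI, ?_, hι, hθ⟩
  rw [injective_iff_map_eq_zero]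
  intro a ha
  obtain ⟨f, rfl⟩ := Ideal.Quotient.mk_surjective a
  rw [hι'] at ha
  exact Ideal.Quotient.eq_zero_iff_mem.mpr ha

theorem univ_sl (F V : Type) [Field F] :
    ∃ (S : Type) (_ : CommRing S) (_ : Algebra F S) (ρ : V → SL n S),
      (∀ ρ0 : V → SL n F, ∃ θ : S →ₐ[F] F, pm θ ρ = ρ0) ∧
      ∀ u : V → Matrix n n S, (∀ v, (u v).trace = 0) →
        ∃ E : Derivation F S S, ∀ v, ld E (ρ v) = u v := by
  let I : Ideal (MvPolynomial (V × n × n) F) :=
    Ideal.span (Set.range fun v => (gM F v : Matrix n n _).det - 1)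
  have hI : ∀ v, (gM F v : Matrix n n _).det - 1 ∈ I := fun v => Ideal.subset_span ⟨v, rfl⟩
  refine ⟨_, inferInstance, inferInstance, uT I hI, fun ρ0 => ?_, fun u hu => ?_⟩
  · have h : ∀ f ∈ I, MvPolynomial.aeval (ent ρ0) f = 0 := by
      intro f hf
      have : I ≤ RingHom.ker (MvPolynomial.aeval (ent ρ0) : MvPolynomial (V × n × n) F →ₐ[F] F) := by
        rw [Ideal.span_le]
        rintro _ ⟨v, rfl⟩
        exact aeval_gM_det ρ0 v
      exact this hf
    obtain ⟨θ, hθ, -⟩ := uT_lift I hI ρ0 h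
    exact ⟨θ, hθ⟩
  · choose g hg using fun p : V × n × n =>
      Ideal.Quotient.mk_surjective ((u p.1 * (uT I hI p.1).1) p.2.1 p.2.2)
    let E0 := MvPolynomial.mkDerivation F g
    let δ : MvPolynomial (V × n × n) F →+ MvPolynomial (V × n × n) F ⧸ I :=
      (Ideal.Quotient.mk I).toAddMonoidHom.comp (E0 : _ →ₗ[F] _).toAddMonoidHom
    have hδa : ∀ a, δ a = Ideal.Quotient.mk I (E0 a) := fun _ => rfl
    have hδ : ∀ a b, δ (a * b) = Ideal.Quotient.mk I a * δ b + Ideal.Quotient.mk I b * δ a := by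
      intro a b
      simp [hδa, Derivation.leibniz]
    have hmap : ∀ v, (gM F v : Matrix n n _).map δ = u v * (uT I hI v).1 := by
      intro v
      ext a b
      rw [Matrix.map_apply, hδa]
      simp only [gM, Matrix.of_apply, E0, MvPolynomial.mkDerivation_X]
      exact hg (v, a, b)
    have hdet : ∀ v, δ ((gM F v : Matrix n n _).det - 1) = 0 := by
      intro v
      rw [map_sub, der_det (Ideal.Quotient.mk I) δ hδ _ (uT I hI v) rfl, hmap, Matrix.mul_assoc,
        mul_inv_val, Matrix.mul_one, hu, hδa, Derivation.map_one_eq_zero, map_zero, sub_zero]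
    have hpres : ∀ x ∈ I, δ x = 0 := by
      intro x hx
      induction hx using Submodule.span_induction with
      | mem x hx => obtain ⟨v, rfl⟩ := hx; exact hdet v
      | zero => exact map_zero δ
      | add x y _ _ hx hy => rw [map_add, hx, hy, add_zero]
      | smul a x hx' hx =>
        rw [smul_eq_mul, hδ, hx, Ideal.Quotient.eq_zero_iff_mem.mpr hx']
        simp
    have hd : ∀ x, Ideal.Quotient.mkₐ F I x = 0 → Ideal.Quotient.mkₐ F I (E0 x) = 0 :=
      fun x hx => hpres x (Ideal.Quotient.eq_zero_iff_mem.mp hx)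
    refine ⟨Derivation.liftOfSurjective (Ideal.Quotient.mkₐ_surjective F I) hd, fun v => ?_⟩
    have : (uT I hI v).1.map
        (Derivation.liftOfSurjective (Ideal.Quotient.mkₐ_surjective F I) hd) =
        u v * (uT I hI v).1 := by
      rw [← hmap]
      ext a b
      exact Derivation.liftOfSurjective_apply (Ideal.Quotient.mkₐ_surjective F I) hd _
    rw [ld, this, Matrix.mul_assoc, mul_inv_val, Matrix.mul_one]

end Vale.Agent.P002
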