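import Vale.Agent.P002.Defs

/-! P002, task Rank: dimension lemmas.

* `finrank_span_le`: pick `j : Fin d → J` with `θ (f (j k))` linearly independent and
  `d` the left side (`exists_linearIndependent`, finite since the space is finite-dimensional).
  The rows of the `I × Fin d` matrix span `Fin d → S`, so there is `σ : Fin d → I` with the
  square minor of nonzero determinant (`exists_linearIndependent` again, or
  `Matrix.rank_eq_finrank_span_row` / `Matrix.rank_transpose`). The determinant over `R` has
  nonzero image under `θ`, so is nonzero, so has nonzero image under `ι` (`RingHom.map_det`); hence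
  `ι (f (j k))` are independent (`Matrix.linearIndependent_cols_of_det_ne_zero`-like lemmas and
  `LinearIndependent.of_comp` with the restriction `funLeft`).
  The two corollaries transport along the obvious linear equivalences (curry / `Matrix.of`).
* `finrank_range_prod`: rank-nullity for `fst` restricted to the range.
* `finrank_sl`: rank-nullity for the trace (onto).
* `finrank_ann`: the annihilator `U'` of `U` for the nondegenerate form `trace (X * Y)` on all
  matrices has dimension `card * card - finrank U` (`LinearMap.BilinForm.finrank_add_finrank_orthogonal`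
  or `Subspace.finrank_add_finrank_dualAnnihilator_eq` with `X ↦ trace (X * ·)` bijective onto the
  dual); `U' ⊓ sl ≤ Z` and `U' ⊓ sl` has codimension at most one in `U'`.
* `scalar_of_ann`: test against `single a b 1` (`a ≠ b`) and `single a a 1 - single b b 1`. -/

namespace Vale.Agent.P002

open Module Submodule

variable {n : Type} [Fintype n] [DecidableEq n]

theorem rank_aux_indep {R S Ω I κ : Type} [CommRing R] [Field S] [Field Ω] [Fintype I] [Fintype κ]
    (θ : R →+* S) (ι : R →+* Ω) (hι : Function.Injective ι) (g : κ → I → R)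
    (h : LinearIndependent S fun k i => θ (g k i)) :
    LinearIndependent Ω fun k i => ι (g k i) := by
  classical
  set M : Matrix κ I S := Matrix.of fun k i => θ (g k i) with hM
  have hr : M.rank = Fintype.card κ := LinearIndependent.rank_matrix (M := M) h
  obtain ⟨μ, a, ha, hsp, hli⟩ := exists_linearIndependent' S M.col
  haveI : Finite μ := Finite.of_injective a ha
  haveI := Fintype.ofFinite μ
  have hc : Fintype.card μ = Fintype.card κ := by
    rw [← finrank_span_eq_card hli, hsp, ← Matrix.rank_eq_finrank_span_cols, hr]
  obtain ⟨e⟩ := Fintype.card_eq.mp hc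
  let N : Matrix κ κ R := Matrix.of fun k l => g k (a (e.symm l))
  have h1 : LinearIndependent S (N.map θ).col := hli.comp e.symm e.symm.injective
  have h2 : (N.map θ).det ≠ 0 := by
    have := Matrix.linearIndependent_cols_iff_isUnit.mp h1
    rw [Matrix.isUnit_iff_isUnit_det] at this
    exact this.ne_zero
  have h3 : N.det ≠ 0 := by
    intro h0
    apply h2
    have := θ.map_det N
    rw [h0, map_zero] at this
    exact this.symm
  have h4 : (N.map ι).det ≠ 0 := by
    have := ι.map_det N
    intro h0
    apply h3
    apply hι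
    rw [map_zero, this]; exact h0
  have h5 := Matrix.linearIndependent_rows_of_det_ne_zero h4
  exact LinearIndependent.of_comp (LinearMap.funLeft Ω Ω (a ∘ e.symm)) h5

theorem rank_aux_inj {F M N J : Type} [Field F] [AddCommGroup M] [Module F M] [AddCommGroup N]
    [Module F N] (e : M →ₗ[F] N) (he : Function.Injective e) (x : J → M) :
    finrank F (span F (Set.range x)) = finrank F (span F (Set.range fun j => e (x j))) := by
  rw [(Submodule.equivMapOfInjective e he _).finrank_eq, Submodule.map_span, ← Set.range_comp]
  rfl

/-- flattening of a matrix -/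
def rankFlat1 (n F : Type) [Field F] : Matrix n n F →ₗ[F] (n × n → F) where
  toFun u p := u p.1 p.2
  map_add' _ _ := rfl
  map_smul' _ _ := rfl

theorem rankFlat1_inj (n F : Type) [Field F] : Function.Injective (rankFlat1 n F) := by
  intro u v h
  ext a b
  exact congrFun h (a, b)

/-- flattening of a family of matrices -/
def rankFlat2 (V n F : Type) [Field F] : (V → Matrix n n F) →ₗ[F] (V × n × n → F) where
  toFun u p := u p.1 p.2.1 p.2.2
  map_add' _ _ := rfl
  map_smul' _ _ := rfl

theorem rankFlat2_inj (V n F : Type) [Field F] : Function.Injective (rankFlat2 V n F) := by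
  intro u v h
  ext x a b
  exact congrFun h (x, a, b)

theorem finrank_span_le {R S Ω I J : Type} [CommRing R] [Field S] [Field Ω] [Fintype I]
    (θ : R →+* S) (ι : R →+* Ω) (hι : Function.Injective ι) (f : J → I → R) :
    finrank S (span S (Set.range fun j i => θ (f j i))) ≤
      finrank Ω (span Ω (Set.range fun j i => ι (f j i))) := by
  obtain ⟨κ, a, _, hsp, hli⟩ := exists_linearIndependent' S (fun j i => θ (f j i))
  haveI : Finite κ := hli.finite
  haveI := Fintype.ofFinite κ
  have h1 := rank_aux_indep θ ι hι (fun k => f (a k)) hli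
  rw [← hsp, finrank_span_eq_card hli, ← finrank_span_eq_card h1]
  apply Submodule.finrank_mono
  apply span_mono
  rintro _ ⟨k, rfl⟩
  exact ⟨a k, rfl⟩

theorem finrank_span_le_mat {R S Ω J : Type} [CommRing R] [Field S] [Field Ω]
    (θ : R →+* S) (ι : R →+* Ω) (hι : Function.Injective ι) (f : J → Matrix n n R) :
    finrank S (span S (Set.range fun j => (f j).map θ)) ≤
      finrank Ω (span Ω (Set.range fun j => (f j).map ι)) := by
  rw [rank_aux_inj _ (rankFlat1_inj n S), rank_aux_inj _ (rankFlat1_inj n Ω)]
  exact finrank_span_le θ ι hι (fun j (p : n × n) => f j p.1 p.2)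

theorem finrank_span_le_fam {R S Ω J V : Type} [CommRing R] [Field S] [Field Ω] [Fintype V]
    (θ : R →+* S) (ι : R →+* Ω) (hι : Function.Injective ι) (f : J → V → Matrix n n R) :
    finrank S (span S (Set.range fun j v => (f j v).map θ)) ≤
      finrank Ω (span Ω (Set.range fun j v => (f j v).map ι)) := by
  rw [rank_aux_inj _ (rankFlat2_inj V n S), rank_aux_inj _ (rankFlat2_inj V n Ω)]
  exact finrank_span_le θ ι hι (fun j (p : V × n × n) => f j p.1 p.2.1 p.2.2)

theorem finrank_range_prod {F D E G : Type} [Field F] [AddCommGroup D] [Module F D]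
    [AddCommGroup E] [Module F E] [AddCommGroup G] [Module F G] [FiniteDimensional F E]
    [FiniteDimensional F G] (f : D →ₗ[F] E) (g : D →ₗ[F] G) :
    finrank F (LinearMap.range (f.prod g)) =
      finrank F (LinearMap.range f) + finrank F ((LinearMap.ker f).map g) := by
  set W := LinearMap.range (f.prod g) with hW
  have h := LinearMap.finrank_range_add_finrank_ker ((LinearMap.fst F E G).domRestrict W)
  have h1 : LinearMap.range ((LinearMap.fst F E G).domRestrict W) = LinearMap.range f := by
    ext x
    constructor
    · rintro ⟨⟨_, d, rfl⟩, rfl⟩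
      exact ⟨d, rfl⟩
    · rintro ⟨d, rfl⟩
      exact ⟨⟨_, d, rfl⟩, rfl⟩
  have h3 : (LinearMap.ker ((LinearMap.fst F E G).domRestrict W)).map W.subtype =
      ((LinearMap.ker f).map g).map (LinearMap.inr F E G) := by
    ext x
    constructor
    · rintro ⟨⟨_, d, rfl⟩, hd, rfl⟩
      have hd' : f d = 0 := hd
      refine ⟨g d, ⟨d, hd', rfl⟩, ?_⟩
      ext <;> simp [hd']
    · rintro ⟨_, ⟨d, hd, rfl⟩, rfl⟩
      have hd' : f d = 0 := hd
      refine ⟨⟨_, d, rfl⟩, hd', ?_⟩
      ext <;> simp [hd']
  have h2 : finrank F (LinearMap.ker ((LinearMap.fst F E G).domRestrict W)) =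
      finrank F ((LinearMap.ker f).map g) := by
    rw [← Submodule.finrank_map_subtype_eq,
      (Submodule.equivMapOfInjective (LinearMap.inr F E G) LinearMap.inr_injective
        ((LinearMap.ker f).map g)).finrank_eq, h3]
  rw [← h, h1, h2]

theorem finrank_sl {F : Type} [Field F] [Nonempty n] :
    finrank F (sl n F) + 1 = Fintype.card n * Fintype.card n := by
  have h := LinearMap.finrank_range_add_finrank_ker (Matrix.traceLinearMap n F F)
  have h1 : LinearMap.range (Matrix.traceLinearMap n F F) = ⊤ :=
    LinearMap.range_eq_top.mpr Matrix.trace_surjective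
  rw [h1, finrank_top, finrank_self, Module.finrank_matrix, finrank_self, mul_one] at h
  rw [← h, add_comm]
  rfl

theorem finrank_slV {F V : Type} [Field F] [Fintype V] :
    finrank F (slV V n F) = Fintype.card V * finrank F (sl n F) := by
  let e : slV V n F ≃ₗ[F] (V → sl n F) :=
    { toFun := fun u v => ⟨u.1 v, mem_slV.mp u.2 v⟩
      map_add' := fun _ _ => rfl
      map_smul' := fun _ _ => rfl
      invFun := fun w => ⟨fun v => (w v).1, mem_slV.mpr fun v => (w v).2⟩
      left_inv := fun _ => rfl
      right_inv := fun _ => rfl }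
  rw [e.finrank_eq, Module.finrank_pi_fintype]
  simp

theorem finrank_ann {F : Type} [Field F] [Nonempty n] (U Z : Submodule F (Matrix n n F))
    (hZ : ∀ ζ : Matrix n n F, ζ.trace = 0 → (∀ X ∈ U, (ζ * X).trace = 0) → ζ ∈ Z) :
    finrank F (sl n F) ≤ finrank F U + finrank F Z := by
  let B : LinearMap.BilinForm F (Matrix n n F) :=
    (LinearMap.mul F (Matrix n n F)).compr₂ (Matrix.traceLinearMap n F F)
  have h1 := LinearMap.BilinForm.finrank_add_finrank_orthogonal' (B := B) U
  have h2 := Submodule.finrank_sup_add_finrank_inf_eq (B.orthogonal U) (sl n F)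
  have h3 : finrank F ↥(B.orthogonal U ⊔ sl n F) ≤ finrank F (Matrix n n F) :=
    Submodule.finrank_le _
  have h4 : finrank F ↥(B.orthogonal U ⊓ sl n F) ≤ finrank F Z := by
    apply Submodule.finrank_mono
    rintro ζ ⟨hζ1, hζ2⟩
    refine hZ ζ hζ2 fun X hX => ?_
    have h5 : (X * ζ).trace = 0 := hζ1 X hX
    rw [Matrix.trace_mul_comm]
    exact h5
  omega

theorem scalar_of_ann {F : Type} [Field F] [CharZero F] (η : Matrix n n F) (h0 : η.trace = 0)
    (h : ∀ α : Matrix n n F, α.trace = 0 → (η * α).trace = 0) : η = 0 := by
  have hoff : ∀ a b, a ≠ b → η a b = 0 := by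
    intro a b hab
    have := h (Matrix.single b a 1) (Matrix.trace_single_eq_of_ne _ _ _ hab.symm)
    simpa [Matrix.trace_mul_single] using this
  have hdiag : ∀ a b, η a a = η b b := by
    intro a b
    have := h (Matrix.single a a 1 - Matrix.single b b 1) (by simp)
    rw [Matrix.mul_sub, Matrix.trace_sub, Matrix.trace_mul_single, Matrix.trace_mul_single] at this
    simpa [sub_eq_zero] using this
  ext a b
  by_cases hab : a = b
  · subst hab
    have h1 : η.trace = (Fintype.card n : F) * η a a := by
      simp only [Matrix.trace, Matrix.diag]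
      rw [Finset.sum_congr rfl fun b _ => hdiag b a]
      simp
    have h2 : (Fintype.card n : F) ≠ 0 := by
      haveI : Nonempty n := ⟨a⟩
      exact_mod_cast Fintype.card_ne_zero
    rw [h0] at h1
    simpa [h2] using h1.symm
  · simpa using hoff a b hab

theorem trace_eb {R : Type} [CommRing R] (i0 a b : n) : (eb i0 a b : Matrix n n R).trace = 0 := by
  unfold eb
  by_cases hab : a = b
  · subst hab; simp
  · simp [hab, Matrix.trace_single_eq_of_ne _ _ _ hab]

theorem eb_map {R S : Type} [CommRing R] [CommRing S] (f : R →+* S) (i0 a b : n) :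
    (eb i0 a b : Matrix n n R).map f = eb i0 a b := by
  ext c d
  unfold eb
  by_cases hab : a = b
  · subst hab
    simp [Matrix.single, apply_ite f]
  · simp [hab, Matrix.single, apply_ite f]

theorem eq_sum_eb {R : Type} [CommRing R] (i0 : n) (X : Matrix n n R) (h : X.trace = 0) :
    X = ∑ a, ∑ b, X a b • eb i0 a b := by
  have h1 : ∀ a, ∑ b, X a b • (eb i0 a b : Matrix n n R) =
      ∑ b, Matrix.single a b (X a b) - X a a • Matrix.single i0 i0 (1 : R) := by
    intro a
    simp only [eb, smul_sub, Finset.sum_sub_distrib, Matrix.smul_single, smul_eq_mul, mul_one,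
      smul_ite, smul_zero, Finset.sum_ite_eq, Finset.mem_univ, if_true]
  simp only [h1, Finset.sum_sub_distrib]
  rw [← Finset.sum_smul, ← Matrix.matrix_eq_sum_single X]
  have h2 : ∑ a, X a a = 0 := h
  rw [h2, zero_smul, sub_zero]

/-- A subspace of `sl` containing no nonzero annihilator is everything. -/
theorem sl_le_of_ann {F : Type} [Field F] [Nonempty n] (U : Submodule F (Matrix n n F))
    (hU : U ≤ sl n F)
    (hZ : ∀ ζ : Matrix n n F, ζ.trace = 0 → (∀ X ∈ U, (ζ * X).trace = 0) → ζ = 0) :
    sl n F ≤ U := by
  have h := finrank_ann U ⊥ fun ζ h1 h2 => (Submodule.mem_bot F).mpr (hZ ζ h1 h2)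
  rw [finrank_bot, add_zero] at h
  exact (Submodule.eq_of_le_of_finrank_le hU h).ge

end Vale.Agent.P002
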