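import Vale.Agent.P002.Defs

/-! P002, task Spec: specialisation lemmas.

* `spec_exists`: let `τ = {i // T i}`, `A = MvPolynomial τ O` (a domain), `F = FractionRing A`.
  `aeval x|τ` and `aeval t|τ` are injective, so extend to ring maps `F → Ω`, `F → Ω'`
  (`IsFractionRing.lift`); use them as algebra structures. `I = ker (aeval x : MvPolynomial σ F → Ω)`
  is proper, so by the Nullstellensatz (`MvPolynomial.vanishingIdeal_zeroLocus_eq_radical`, or a
  maximal ideal, `finite_of_finite_type_of_isJacobsonRing` and `IsAlgClosed.lift`) it has a zero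
  `x'` in `Ω'`. `X i - C (X ⟨i, _⟩)` lies in `I` for `T i`; for `f` over `O` use
  `MvPolynomial.map (algebraMap O F) f`.
* `ext_hom_integral`: `p = ker θ` is prime, take a prime `q` of `T` over it
  (`Ideal.exists_ideal_over_prime_of_isIntegral` or `Algebra.IsIntegral.comap_surjective`), then
  `T ⧸ q` is integral over `S ⧸ p` which embeds in `Ω'`; `IsAlgClosed.lift`.
* `exists_big`: `AlgebraicClosure (FractionRing R)`.
* `coeff_ext`: `K = FractionRing O` maps to `F`; take a basis `b` of `F` over `K`
  (`Module.Basis.ofVectorSpace`). For a basis index `j`, `f_j = ∑ monomial m (b.repr (coeff m f) j)`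
  has coefficients in `K`, vanishes on `Y`, and a nonzero multiple of it comes from `O`
  (`IsLocalization.exist_integer_multiples_of_finset`); `f = ∑ b j • f_j` (finite sum). -/

namespace Vale.Agent.P002

theorem zero_exists {F Ω Ω' σ : Type} [Field F] [Field Ω] [Field Ω'] [IsAlgClosed Ω'] [Algebra F Ω]
    [Algebra F Ω'] [Finite σ] (x : σ → Ω) : ∃ x' : σ → Ω', ∀ g : MvPolynomial σ F,
      MvPolynomial.aeval x g = 0 → MvPolynomial.aeval x' g = 0 := by
  obtain ⟨m, hm, hI⟩ := Ideal.exists_le_maximal
    (RingHom.ker (MvPolynomial.aeval (R := F) x)) (RingHom.ker_ne_top _)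
  let _ := Ideal.Quotient.field m
  have : Module.Finite F (MvPolynomial σ F ⧸ m) := finite_of_finite_type_of_isJacobsonRing _ _
  have : FaithfulSMul F (MvPolynomial σ F ⧸ m) :=
    (faithfulSMul_iff_algebraMap_injective _ _).2 (algebraMap F _).injective
  let ψ : (MvPolynomial σ F ⧸ m) →ₐ[F] Ω' := IsAlgClosed.lift
  refine ⟨fun i => ψ (Ideal.Quotient.mk m (MvPolynomial.X i)), fun g hg => ?_⟩
  have h1 : MvPolynomial.aeval (fun i => ψ (Ideal.Quotient.mk m (MvPolynomial.X i))) =
      ψ.comp (Ideal.Quotient.mkₐ F m) := MvPolynomial.algHom_ext fun i => by simp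
  rw [h1, AlgHom.comp_apply, Ideal.Quotient.mkₐ_eq_mk, Ideal.Quotient.eq_zero_iff_mem.2 (hI hg),
    map_zero]

theorem spec_exists {O Ω Ω' σ : Type} [CommRing O] [IsDomain O] [Field Ω] [Field Ω']
    [IsAlgClosed Ω'] [Algebra O Ω] [Algebra O Ω'] [Finite σ] (x : σ → Ω) (T : σ → Prop)
    (t : σ → Ω') (hx : AlgebraicIndependent O fun i : {i // T i} => x i)
    (ht : AlgebraicIndependent O fun i : {i // T i} => t i) :
    ∃ x' : σ → Ω', (∀ i, T i → x' i = t i) ∧
      ∀ f : MvPolynomial σ O, MvPolynomial.aeval x f = 0 → MvPolynomial.aeval x' f = 0 := by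
  classical
  let A := MvPolynomial {i // T i} O
  let F := FractionRing A
  let φ : F →+* Ω := IsFractionRing.lift
    (g := (MvPolynomial.aeval (R := O) fun i : {i // T i} => x i).toRingHom) hx
  let φ' : F →+* Ω' := IsFractionRing.lift
    (g := (MvPolynomial.aeval (R := O) fun i : {i // T i} => t i).toRingHom) ht
  let _ := φ.toAlgebra
  let _ := φ'.toAlgebra
  have e1 : ∀ a : A, algebraMap F Ω (algebraMap A F a) =
      MvPolynomial.aeval (fun i : {i // T i} => x i) a := fun a => IsFractionRing.lift_algebraMap _ a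
  have e2 : ∀ a : A, algebraMap F Ω' (algebraMap A F a) =
      MvPolynomial.aeval (fun i : {i // T i} => t i) a := fun a => IsFractionRing.lift_algebraMap _ a
  have : IsScalarTower O F Ω := IsScalarTower.of_algebraMap_eq fun a => by
    rw [IsScalarTower.algebraMap_apply O A F, e1, AlgHom.commutes]
  have : IsScalarTower O F Ω' := IsScalarTower.of_algebraMap_eq fun a => by
    rw [IsScalarTower.algebraMap_apply O A F, e2, AlgHom.commutes]
  obtain ⟨x', key⟩ := zero_exists (F := F) (Ω' := Ω') x
  refine ⟨x', fun i hi => ?_, fun f hf => ?_⟩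
  · have h1 := key (MvPolynomial.X i - MvPolynomial.C (algebraMap A F (MvPolynomial.X ⟨i, hi⟩))) (by
      rw [map_sub, MvPolynomial.aeval_X, MvPolynomial.aeval_C, e1, MvPolynomial.aeval_X, sub_self])
    rwa [map_sub, MvPolynomial.aeval_X, MvPolynomial.aeval_C, e2, MvPolynomial.aeval_X,
      sub_eq_zero] at h1
  · have h1 := key (MvPolynomial.map (algebraMap O F) f) (by
      rwa [MvPolynomial.aeval_map_algebraMap])
    rwa [MvPolynomial.aeval_map_algebraMap] at h1

theorem lift_dom {S T Ω' : Type} [CommRing S] [CommRing T] [IsDomain S] [IsDomain T] [Algebra S T]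
    [Algebra.IsIntegral S T] [Field Ω'] [IsAlgClosed Ω'] (h : Function.Injective (algebraMap S T))
    (θ : S →+* Ω') (hθ : Function.Injective θ) :
    ∃ θ' : T →+* Ω', ∀ a, θ' (algebraMap S T a) = θ a := by
  let _ := θ.toAlgebra
  have : FaithfulSMul S Ω' := (faithfulSMul_iff_algebraMap_injective _ _).2 hθ
  have : FaithfulSMul S T := (faithfulSMul_iff_algebraMap_injective _ _).2 h
  let ψ : T →ₐ[S] Ω' := IsAlgClosed.lift
  exact ⟨ψ.toRingHom, ψ.commutes⟩

theorem ext_hom_integral {S T Ω' : Type} [CommRing S] [CommRing T] [Algebra S T]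
    [Algebra.IsIntegral S T] [FaithfulSMul S T] [Field Ω'] [IsAlgClosed Ω'] (θ : S →+* Ω') :
    ∃ θ' : T →+* Ω', ∀ a, θ' (algebraMap S T a) = θ a := by
  have hp : (RingHom.ker θ).IsPrime := RingHom.ker_isPrime θ
  obtain ⟨q, -, hq, hc⟩ := Ideal.exists_ideal_over_prime_of_isIntegral (S := T) (RingHom.ker θ) ⊥
    (by
      rw [Ideal.comap_bot_of_injective _ (FaithfulSMul.algebraMap_injective S T)]
      exact bot_le)
  let φ : (S ⧸ q.comap (algebraMap S T)) →+* Ω' :=
    Ideal.Quotient.lift _ θ fun a ha => by rwa [hc] at ha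
  have hφ : Function.Injective φ := RingHom.lift_injective_of_ker_le_ideal _ _ hc.ge
  obtain ⟨ψ, hψ⟩ := lift_dom (T := T ⧸ q) Ideal.algebraMap_quotient_injective φ hφ
  exact ⟨ψ.comp (Ideal.Quotient.mk q), fun a => hψ (Ideal.Quotient.mk _ a)⟩

theorem exists_big {O R : Type} [CommRing O] [CommRing R] [IsDomain R] [CharZero R]
    [Uncountable R] [Algebra O R] [FaithfulSMul O R] :
    ∃ (B : BigField O) (ι : R →ₐ[O] B.Ω), Function.Injective ι := by
  let Ω := AlgebraicClosure (FractionRing R)
  have h1 : Function.Injective (algebraMap R Ω) := by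
    rw [IsScalarTower.algebraMap_eq R (FractionRing R) Ω]
    exact (algebraMap (FractionRing R) Ω).injective.comp (IsFractionRing.injective R _)
  have : CharZero Ω := charZero_of_injective_algebraMap h1
  have : Uncountable Ω := h1.uncountable
  have : FaithfulSMul O Ω := (faithfulSMul_iff_algebraMap_injective _ _).2 (by
    rw [IsScalarTower.algebraMap_eq O R Ω]
    exact h1.comp (FaithfulSMul.algebraMap_injective O R))
  exact ⟨⟨Ω⟩, IsScalarTower.toAlgHom O R Ω, h1⟩

theorem coeff_ext {O F σ : Type} [CommRing O] [IsDomain O] [Field F] [Algebra O F]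
    [FaithfulSMul O F] (Y : Set (σ → O)) (x : σ → F)
    (hx : ∀ g : MvPolynomial σ O, (∀ y ∈ Y, MvPolynomial.aeval y g = 0) →
      MvPolynomial.aeval x g = 0)
    (f : MvPolynomial σ F)
    (hf : ∀ y ∈ Y, MvPolynomial.aeval (fun i => algebraMap O F (y i)) f = 0) :
    MvPolynomial.aeval x f = 0 := by
  classical
  let K := FractionRing O
  let _ : Algebra K F := FractionRing.liftAlgebra O F
  have : IsScalarTower O K F := FractionRing.isScalarTower_liftAlgebra O F
  let b := Module.Basis.ofVectorSpace K F
  have h1 : ∀ (z : σ → F) (l : F →ₗ[K] K) (w : σ → K), (∀ i, z i = algebraMap K F (w i)) →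
      l (MvPolynomial.aeval z f) =
        ∑ m ∈ f.support, l (f.coeff m) * ∏ i ∈ m.support, w i ^ m i := by
    intro z l w hz
    rw [MvPolynomial.aeval_def, MvPolynomial.eval₂_eq, map_sum]
    refine Finset.sum_congr rfl fun m _ => ?_
    rw [mul_comm (l _), ← smul_eq_mul (∏ i ∈ m.support, w i ^ m i), ← map_smul, Algebra.smul_def,
      mul_comm]
    simp [hz]
  have h2 : ∀ l : F →ₗ[K] K,
      ∑ m ∈ f.support, algebraMap K F (l (f.coeff m)) * ∏ i ∈ m.support, x i ^ m i = 0 := by
    intro l
    obtain ⟨c, hc⟩ := IsLocalization.exist_integer_multiples (nonZeroDivisors O) f.support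
      fun m => l (f.coeff m)
    choose! a ha using hc
    have e : ∀ {B : Type} [CommRing B] [Algebra O B] (z : σ → B),
        MvPolynomial.aeval z (∑ m ∈ f.support, MvPolynomial.monomial m (a m)) =
          ∑ m ∈ f.support, algebraMap O B (a m) * ∏ i ∈ m.support, z i ^ m i := by
      intro B _ _ z
      simp [MvPolynomial.aeval_monomial, Finsupp.prod]
    have h3 := hx (∑ m ∈ f.support, MvPolynomial.monomial m (a m)) fun y hy => by
      apply IsFractionRing.injective O K
      have h4 := h1 _ l (fun i => algebraMap O K (y i)) fun i =>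
        IsScalarTower.algebraMap_apply O K F (y i)
      rw [hf y hy, map_zero] at h4
      have h5 := congrArg (fun r => (c : O) • r) h4
      simp only [smul_zero, Finset.smul_sum] at h5
      rw [e, map_zero, map_sum, h5]
      refine Finset.sum_congr rfl fun m hm => ?_
      rw [← smul_mul_assoc, ← ha m hm]
      simp
    have h4 : algebraMap O F c ≠ 0 := fun h => nonZeroDivisors.coe_ne_zero c
      (FaithfulSMul.algebraMap_injective O F (h.trans (map_zero _).symm))
    refine (mul_eq_zero.1 ?_).resolve_left h4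
    rw [← h3, e, Finset.mul_sum]
    refine Finset.sum_congr rfl fun m hm => ?_
    rw [IsScalarTower.algebraMap_apply O K F (a m), ha m hm, Algebra.smul_def, map_mul,
      ← IsScalarTower.algebraMap_apply, mul_assoc]
  let J := f.support.biUnion fun m => (b.repr (f.coeff m)).support
  have h3 : ∀ m ∈ f.support, f.coeff m = ∑ j ∈ J, b j * algebraMap K F (b.coord j (f.coeff m)) := by
    intro m hm
    conv_lhs => rw [← b.linearCombination_repr (f.coeff m)]
    rw [Finsupp.linearCombination_apply, Finsupp.sum_of_support_subset _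
      (Finset.subset_biUnion_of_mem (fun m => (b.repr (f.coeff m)).support) hm)
        (fun i a => a • b i) fun i _ => zero_smul _ _]
    refine Finset.sum_congr rfl fun j _ => ?_
    rw [Algebra.smul_def, mul_comm, Module.Basis.coord_apply]
  rw [MvPolynomial.aeval_def, MvPolynomial.eval₂_eq, Finset.sum_congr rfl fun m hm => by
    rw [h3 m hm, Algebra.algebraMap_self_apply, Finset.sum_mul], Finset.sum_comm]
  refine Finset.sum_eq_zero fun j _ => ?_
  simp only [mul_assoc]
  rw [← Finset.mul_sum, h2, mul_zero]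

end Vale.Agent.P002
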