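import Vale.Agent.P002.Der
import Vale.Agent.P002.Rank
import Vale.Agent.P002.Jac
import Vale.Agent.P002.Spec

/-! P002, task Smooth: generic points.

* `full_of_lift`: fix `i0`. `T = LinearMap.range (LinearMap.pi fun v => ldL (pm ι ρ v))` is
  contained in `Z1` over `Ω` (`trace_ld`, `ld_ev`, `ld_cJ`, `ld_one`, `ev_pm`). By `ext_der'` it contains
  `fun v => (ld D (ρ v)).map ι`, so by `finrank_span_le_fam` (indexed by the derivations of `R`)
  and `hsp`, `finrank T ≥ finrank Z1(θ)`. Rank-nullity for `Lin` restricted to `slV`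
  (`LinearMap.domRestrict`): `finrank Z1 + finrank ((slV).map Lin) = finrank slV` over both
  fields (`finrank_slV`, `finrank_sl`). `(slV).map Lin` is spanned by the images of
  `Pi.single v (eb i0 a b)` (`eq_sum_eb`), which are defined over `R` (`Lin_map`, `eb_map`), so by
  `finrank_span_le_mat` and `hsm` its dimension over `Ω` is at least `finrank sl`. Hence
  `T = Z1` (`Submodule.eq_of_le_of_finrank_le`).
* `smooth_lift`: `univ_sl ℂ V` gives `S, ρS, θ0`; `S` is an `O`-algebra through `ℂ`.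
  `F = (w.ev (cJ J S) ρS).1 - 1`, `I` the ideal spanned by its entries, `P ∈ I.minimalPrimes`,
  `P ≤ ker θ0` (`Ideal.exists_minimalPrimes_le`), `R = S ⧸ P`. Given `u0 ∈ Z1`, construct a
  traceless `u` over `S` with `θ0 u = u0` and `Lin u = 0`: index `j ∈ {p : n × n // p ≠ (i0, i0)}`,
  `σ j` traceless over `ℂ` with `Lin σ j = eb i0 j.1 j.2` (`hsm`), lifted to `S` by `algebraMap`;
  `G i j = (Lin (σ j)) i`, `G.map θ0 = 1`, `Δ = det G`,
  `u = Δ • k - ∑ j, (adjugate G *ᵥ (Lin k)) j • σ j` with `k` the lift of `u0`; a traceless matrix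
  vanishing off `(i0, i0)` is zero. `E` with `ld E ρS = u` kills the entries of `F` (`ld_ev`,
  `ld_mul_val`), preserves `I`, `P` (`der_minimal`), descends (`Derivation.liftOfSurjective`);
  `Derivation.restrictScalars`.
* `generic_sl`: `univ_sl ℂ κ`, `P` a minimal prime of `⊥` inside `ker θ0` (`ρ0 = 1`),
  `exists_big`, `ext_der'`; the realised families form a submodule (range of a linear map)
  containing all `Pi.single v (eb i0 a b)`. -/

namespace Vale.Agent.P002

variable {n : Type} [Fintype n] [DecidableEq n] {K V O : Type} [CommRing O]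

theorem sm_ld_smap {R R' : Type} [CommRing R] [CommRing R'] [Algebra O R] [Algebra O R']
    (φ : R →ₐ[O] R') (D : Derivation O R R) (D' : Derivation O R' R')
    (h : ∀ a, D' (φ a) = φ (D a)) (A : SL n R) :
    ld D' (smap (φ : R →+* R') A) = (ld D A).map φ := by
  have e : (smap (φ : R →+* R') A).1.map D' = (A.1.map D).map (φ : R →+* R') := by
    ext i j
    simp [h]
  have e2 : (ld D A).map φ = (ld D A).map (φ : R →+* R') := rfl
  rw [e2, ld, ld, e, ← map_inv, smap_val, Matrix.map_mul]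

theorem sm_slV_eq_span [Fintype V] [DecidableEq V] {R : Type} [CommRing R] (i0 : n) :
    slV V n R = Submodule.span R
      (Set.range fun j : V × n × n => (Pi.single j.1 (eb i0 j.2.1 j.2.2) : V → Matrix n n R)) := by
  apply le_antisymm
  · intro u hu
    rw [mem_slV] at hu
    have e : u = ∑ v, ∑ a, ∑ b, u v a b • (Pi.single v (eb i0 a b) : V → Matrix n n R) := by
      funext v
      rw [Finset.sum_apply, Finset.sum_eq_single v]
      · simp only [Finset.sum_apply, Pi.smul_apply, Pi.single_eq_same]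
        exact eq_sum_eb i0 (u v) (hu v)
      · intro v' _ hv
        simp only [Finset.sum_apply, Pi.smul_apply, Pi.single_eq_of_ne (Ne.symm hv), smul_zero,
          Finset.sum_const_zero]
      · simp
    rw [e]
    refine Submodule.sum_mem _ fun v _ => Submodule.sum_mem _ fun a _ =>
      Submodule.sum_mem _ fun b _ => Submodule.smul_mem _ _ (Submodule.subset_span ⟨(v, a, b), rfl⟩)
  · rw [Submodule.span_le]
    rintro _ ⟨j, rfl⟩
    refine mem_slV.2 fun v => ?_
    by_cases hv : v = j.1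
    · subst hv
      simp only [Pi.single_eq_same]
      exact trace_eb _ _ _
    · simp only [Pi.single_eq_of_ne hv, Matrix.trace_zero]

theorem sm_single_eb_map [DecidableEq V] {R S : Type} [CommRing R] [CommRing S] (f : R →+* S)
    (i0 a b : n) (v : V) :
    (fun v' => ((Pi.single v (eb i0 a b) : V → Matrix n n R) v').map f) =
      (Pi.single v (eb i0 a b) : V → Matrix n n S) := by
  funext v'
  by_cases hv : v' = v
  · subst hv
    simp only [Pi.single_eq_same]
    exact eb_map f _ _ _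
  · simp only [Pi.single_eq_of_ne hv]
    exact Matrix.map_zero _ (map_zero f)

theorem sm_finrank_Z1_add [Fintype V] {F : Type} [Field F] (w : Word K V) (J : K → SL n F)
    (ρ : V → SL n F) :
    Module.finrank F ((slV V n F).map (Lin w J ρ)) + Module.finrank F (Z1 w J ρ) =
      Module.finrank F (slV V n F) := by
  have h := LinearMap.finrank_range_add_finrank_ker ((Lin w J ρ).domRestrict (slV V n F))
  rw [LinearMap.range_domRestrict, LinearMap.ker_domRestrict,
    ← Submodule.finrank_map_subtype_eq, Submodule.map_comap_subtype] at h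
  exact h

theorem sm_map_slV_eq [Fintype V] [DecidableEq V] {R F : Type} [CommRing R] [Algebra O R] [Field F]
    [Algebra O F] (θ : R →ₐ[O] F) (w : Word K V) (J : K → SL n O) (ρ : V → SL n R) (i0 : n) :
    (slV V n F).map (Lin w (cJ J F) (pm θ ρ)) = Submodule.span F (Set.range fun j : V × n × n =>
      (Lin w (cJ J R) ρ (Pi.single j.1 (eb i0 j.2.1 j.2.2))).map (θ : R →+* F)) := by
  rw [sm_slV_eq_span i0, Submodule.map_span, ← Set.range_comp]
  congr 2
  funext j
  rw [Lin_map, sm_single_eb_map, ← pm_cJ θ J]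
  rfl

theorem full_of_lift [Nonempty n] [Fintype V] (w : Word K V) (J : K → SL n O) {R S Ω : Type}
    [CommRing R] [IsDomain R] [Algebra O R] [Field S] [Algebra O S] [Field Ω] [CharZero Ω]
    [Algebra O Ω] (θ : R →ₐ[O] S) (ι : R →ₐ[O] Ω) (hι : Function.Injective ι) (ρ : V → SL n R)
    (hρ : ρ ∈ XX w J R) (hsm : Sm w (cJ J S) (pm θ ρ))
    (hsp : Z1 w (cJ J S) (pm θ ρ) ≤ Submodule.span S
      {u | ∃ D : Derivation O R R, u = fun v => (ld D (ρ v)).map θ}) :
    Full w J (pm ι ρ) := by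
  classical
  obtain ⟨i0⟩ := ‹Nonempty n›
  let T : Submodule Ω (V → Matrix n n Ω) :=
    LinearMap.range (LinearMap.pi fun v => (ldL (pm ι ρ v) : Derivation O Ω Ω →ₗ[Ω] _))
  have hT : T ≤ Z1 w (cJ J Ω) (pm ι ρ) := by
    rintro _ ⟨D, rfl⟩
    refine mem_Z1.2 ⟨fun v => trace_ld D _, ?_⟩
    have h1 := ld_ev w D (cJ J Ω) (ld_cJ D J) (pm ι ρ)
    have h2 : w.ev (cJ J R) ρ = 1 := hρ
    rw [ev_pm, h2, map_one, ld_one] at h1
    exact h1.symm
  have h1 : Submodule.span Ω (Set.range fun (D : Derivation O R R) v =>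
      (ld D (ρ v)).map (ι : R →+* Ω)) ≤ T := by
    rw [Submodule.span_le]
    rintro _ ⟨D, rfl⟩
    obtain ⟨D', hD'⟩ := ext_der' ι hι D
    exact ⟨D', funext fun v => sm_ld_smap ι D D' hD' (ρ v)⟩
  have h2 := finrank_span_le_fam (θ : R →+* S) (ι : R →+* Ω) hι
    (fun (D : Derivation O R R) v => ld D (ρ v))
  have h3 : Z1 w (cJ J S) (pm θ ρ) ≤ Submodule.span S (Set.range fun (D : Derivation O R R) v =>
      (ld D (ρ v)).map (θ : R →+* S)) := by
    refine hsp.trans (Submodule.span_mono ?_)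
    rintro _ ⟨D, rfl⟩
    exact ⟨D, rfl⟩
  have h4 : Module.finrank S (Z1 w (cJ J S) (pm θ ρ)) ≤ Module.finrank Ω T :=
    (Submodule.finrank_mono h3).trans (h2.trans (Submodule.finrank_mono h1))
  have h5 := sm_finrank_Z1_add w (cJ J S) (pm θ ρ)
  have h6 := sm_finrank_Z1_add w (cJ J Ω) (pm ι ρ)
  have h7 := finrank_span_le_mat (θ : R →+* S) (ι : R →+* Ω) hι
    (fun j : V × n × n => Lin w (cJ J R) ρ (Pi.single j.1 (eb i0 j.2.1 j.2.2)))
  rw [← sm_map_slV_eq θ w J ρ i0, ← sm_map_slV_eq ι w J ρ i0] at h7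
  have h8 : Module.finrank S (slV V n S) = Module.finrank Ω (slV V n Ω) := by
    have a1 := finrank_sl (F := S) (n := n)
    have a2 := finrank_sl (F := Ω) (n := n)
    rw [finrank_slV, finrank_slV]
    congr 1
    omega
  have h9 : T = Z1 w (cJ J Ω) (pm ι ρ) := Submodule.eq_of_le_of_finrank_le hT (by omega)
  intro u hu
  rw [← h9] at hu
  obtain ⟨D, rfl⟩ := hu
  exact ⟨D, fun v => rfl⟩

theorem sm_eb_apply {R : Type} [CommRing R] (i0 a b c d : n) (h : (c, d) ≠ (i0, i0)) :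
    (eb i0 a b : Matrix n n R) c d = if (c, d) = (a, b) then 1 else 0 := by
  have e : ((if a = b then Matrix.single i0 i0 1 else 0 : Matrix n n R)) c d = 0 := by
    split_ifs
    · apply Matrix.single_apply_of_ne
      rintro ⟨rfl, rfl⟩
      exact h rfl
    · rfl
  rw [eb, Matrix.sub_apply, e, sub_zero]
  split_ifs with h1
  · obtain ⟨rfl, rfl⟩ := Prod.mk.inj h1
    exact Matrix.single_apply_same _ _ _
  · apply Matrix.single_apply_of_ne
    rintro ⟨rfl, rfl⟩
    exact h1 rfl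

theorem sm_eq_zero_of_off {R : Type} [CommRing R] (i0 : n) (X : Matrix n n R) (h0 : X.trace = 0)
    (h : ∀ c d, (c, d) ≠ (i0, i0) → X c d = 0) : X = 0 := by
  have e : X i0 i0 = 0 := by
    rw [Matrix.trace, Finset.sum_eq_single i0] at h0
    · exact h0
    · intro b _ hb
      exact h b b fun hh => hb (Prod.mk.inj hh).1
    · simp
  ext c d
  by_cases hh : (c, d) = (i0, i0)
  · obtain ⟨rfl, rfl⟩ := Prod.mk.inj hh
    exact e
  · exact h c d hh

theorem sm_trace_map_hom {R S : Type} [CommRing R] [CommRing S] (f : R →+* S) (X : Matrix n n R) :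
    (X.map f).trace = f X.trace := by
  simp [Matrix.trace, map_sum]

theorem sm_lift_cocycle [Nonempty n] {S F : Type} [CommRing S] [CommRing F] (θ : S →+* F)
    (s : F →+* S) (hs : ∀ a, θ (s a) = a) (w : Word K V) (J : K → SL n S) (ρ : V → SL n S)
    (hsm : Sm w (fun k => smap θ (J k)) (fun v => smap θ (ρ v))) (u0 : V → Matrix n n F)
    (hu : u0 ∈ Z1 w (fun k => smap θ (J k)) (fun v => smap θ (ρ v))) :
    ∃ u : V → Matrix n n S, (∀ v, (u v).trace = 0) ∧ Lin w J ρ u = 0 ∧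
      ∀ v, (u v).map θ = u0 v := by
  classical
  obtain ⟨i0⟩ := ‹Nonempty n›
  obtain ⟨hu1, hu2⟩ := mem_Z1.1 hu
  have hms : ∀ X : Matrix n n F, (X.map s).map θ = X := fun X => by
    ext i j
    exact hs _
  choose σ hσ1 hσ2 using fun j : {p : n × n // p ≠ (i0, i0)} =>
    hsm (eb i0 j.1.1 j.1.2) (trace_eb _ _ _)
  let σ' : {p : n × n // p ≠ (i0, i0)} → V → Matrix n n S := fun j v => (σ j v).map s
  let k : V → Matrix n n S := fun v => (u0 v).map s
  let G : Matrix {p : n × n // p ≠ (i0, i0)} {p : n × n // p ≠ (i0, i0)} S :=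
    Matrix.of fun i j => Lin w J ρ (σ' j) i.1.1 i.1.2
  let y : {p : n × n // p ≠ (i0, i0)} → S := fun i => Lin w J ρ k i.1.1 i.1.2
  let c := G.adjugate.mulVec y
  have hG : G.map θ = 1 := by
    ext i j
    have h1 := Lin_map w θ J ρ (σ' j)
    simp only [σ', hms] at h1
    rw [hσ2] at h1
    have h2 : θ (Lin w J ρ (σ' j) i.1.1 i.1.2) = (eb i0 j.1.1 j.1.2 : Matrix n n F) i.1.1 i.1.2 :=
      congrFun (congrFun h1 i.1.1) i.1.2
    rw [sm_eb_apply _ _ _ _ _ i.2] at h2
    rw [Matrix.map_apply, Matrix.one_apply]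
    refine h2.trans ?_
    simp only [Prod.mk.eta, Subtype.val_inj]
  have hΔ : θ G.det = 1 := by
    rw [RingHom.map_det, RingHom.mapMatrix_apply, hG, Matrix.det_one]
  have hy : ∀ i, θ (y i) = 0 := by
    intro i
    have h1 := Lin_map w θ J ρ k
    simp only [k, hms] at h1
    rw [hu2] at h1
    exact congrFun (congrFun h1 i.1.1) i.1.2
  have hc : ∀ j, θ (c j) = 0 := by
    intro j
    simp only [c, Matrix.mulVec, dotProduct, map_sum, map_mul, hy, mul_zero, Finset.sum_const_zero]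
  have htr : ∀ v, ((G.det • k - ∑ j, c j • σ' j) v).trace = 0 := by
    intro v
    simp only [Pi.sub_apply, Pi.smul_apply, Finset.sum_apply, Matrix.trace_sub, Matrix.trace_smul,
      Matrix.trace_sum, k, σ', sm_trace_map_hom, hu1, hσ1, map_zero, smul_zero, Finset.sum_const_zero,
      sub_zero]
  refine ⟨G.det • k - ∑ j, c j • σ' j, htr, ?_, ?_⟩
  · refine sm_eq_zero_of_off i0 _ (trace_Lin w J ρ _ htr) fun a b hab => ?_
    have h1 : G.mulVec c = G.det • y := by
      simp only [c, Matrix.mulVec_mulVec, Matrix.mul_adjugate, Matrix.smul_mulVec,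
        Matrix.one_mulVec]
    have h2 : ∑ j, G ⟨(a, b), hab⟩ j * c j = G.det * y ⟨(a, b), hab⟩ := congrFun h1 ⟨(a, b), hab⟩
    rw [map_sub, map_smul, map_sum]
    simp only [map_smul, Matrix.sub_apply, Matrix.smul_apply, Matrix.sum_apply, smul_eq_mul]
    rw [sub_eq_zero]
    refine Eq.trans h2.symm (Finset.sum_congr rfl fun j _ => mul_comm _ _)
  · intro v
    ext a b
    simp only [Matrix.map_apply, Pi.sub_apply, Pi.smul_apply, Finset.sum_apply, Matrix.sub_apply,
      Matrix.smul_apply, Matrix.sum_apply, smul_eq_mul, map_sub, map_mul, map_sum, hΔ, hc, k, hs,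
      zero_mul, Finset.sum_const_zero, one_mul, sub_zero]

theorem sm_descend_der {S : Type} [CommRing S] [Algebra O S] [Algebra ℂ S] (E : Derivation O S S)
    (I P : Ideal S) (hP : P ∈ I.minimalPrimes) (hI : ∀ x ∈ I, E x ∈ I) :
    ∃ D : Derivation O (S ⧸ P) (S ⧸ P),
      ∀ a, D (Ideal.Quotient.mkₐ O P a) = Ideal.Quotient.mkₐ O P (E a) := by
  let _inst : Algebra ℚ S := ((algebraMap ℂ S).comp (algebraMap ℚ ℂ)).toAlgebra
  have h := der_minimal E I P hP hI
  have hd : ∀ x, Ideal.Quotient.mkₐ O P x = 0 → Ideal.Quotient.mkₐ O P (E x) = 0 := by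
    intro x hx
    rw [Ideal.Quotient.mkₐ_eq_mk, Ideal.Quotient.eq_zero_iff_mem] at *
    exact h x hx
  exact ⟨Derivation.liftOfSurjective (Ideal.Quotient.mkₐ_surjective O P) hd,
    fun a => Derivation.liftOfSurjective_apply _ hd a⟩

theorem smooth_lift [Nonempty n] [Algebra O ℂ] (w : Word K V) (J : K → SL n O)
    (ρ0 : V → SL n ℂ) (h : ρ0 ∈ XX w J ℂ) (hsm : Sm w (cJ J ℂ) ρ0) :
    ∃ (R : Type) (_ : CommRing R) (_ : IsDomain R) (_ : Uncountable R) (_ : Algebra O R)
      (θ : R →ₐ[O] ℂ) (ρ : V → SL n R), ρ ∈ XX w J R ∧ pm θ ρ = ρ0 ∧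
      ∀ u ∈ Z1 w (cJ J ℂ) ρ0, ∃ D : Derivation O R R, u = fun v => (ld D (ρ v)).map θ := by
  have : Uncountable ℂ := Complex.ofReal_injective.uncountable
  obtain ⟨S, _, _, ρ, h1, h2⟩ := univ_sl (n := n) ℂ V
  obtain ⟨θ0, hθ0⟩ := h1 ρ0
  let _inst : Algebra O S := ((algebraMap ℂ S).comp (algebraMap O ℂ)).toAlgebra
  have : IsScalarTower O ℂ S := IsScalarTower.of_algebraMap_eq' rfl
  let θ1 : S →ₐ[O] ℂ := θ0.restrictScalars O
  have hθ1 : pm θ1 ρ = ρ0 := hθ0
  let Fm : Matrix n n S := (w.ev (cJ J S) ρ).1 - 1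
  let I : Ideal S := Ideal.span (Set.range fun p : n × n => Fm p.1 p.2)
  have hI : I ≤ RingHom.ker (θ1 : S →+* ℂ) := by
    rw [Ideal.span_le]
    rintro _ ⟨p, rfl⟩
    have e := ev_pm θ1 w J ρ
    have h' : w.ev (cJ J ℂ) ρ0 = 1 := h
    rw [hθ1, h'] at e
    have e2 : Fm.map (θ1 : S →+* ℂ) = 0 := by
      simp only [Fm]
      rw [Matrix.map_sub _ (map_sub _), ← smap_val, ← e, val_one,
        Matrix.map_one _ (map_zero _) (map_one _), sub_self]
    exact congrFun (congrFun e2 p.1) p.2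
  have : (RingHom.ker (θ1 : S →+* ℂ)).IsPrime := RingHom.ker_isPrime _
  obtain ⟨P, hP, hPk⟩ := Ideal.exists_minimalPrimes_le hI
  have : P.IsPrime := hP.1.1
  have hIP : I ≤ P := hP.1.2
  let π : S →ₐ[O] S ⧸ P := Ideal.Quotient.mkₐ O P
  let θ : (S ⧸ P) →ₐ[O] ℂ := Ideal.Quotient.liftₐ P θ1 fun a ha => hPk ha
  have hθπ : ∀ a, θ (π a) = θ1 a := fun a => rfl
  refine ⟨S ⧸ P, inferInstance, inferInstance,
    (algebraMap ℂ (S ⧸ P)).injective.uncountable, inferInstance, θ, pm π ρ, ?_, ?_, ?_⟩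
  · change w.ev (cJ J (S ⧸ P)) (pm π ρ) = 1
    rw [ev_pm]
    ext a b
    have e : π (Fm a b) = 0 :=
      Ideal.Quotient.eq_zero_iff_mem.2 (hIP (Ideal.subset_span ⟨(a, b), rfl⟩))
    simp only [Fm, Matrix.sub_apply, map_sub, sub_eq_zero] at e
    refine e.trans ?_
    rw [val_one, Matrix.one_apply, Matrix.one_apply]
    split_ifs <;> simp
  · rw [← hθ1]
    rfl
  · intro u0 hu0
    have hJ : (fun k => smap (θ1 : S →+* ℂ) (cJ J S k)) = cJ J ℂ := pm_cJ θ1 J
    have hr : (fun v => smap (θ1 : S →+* ℂ) (ρ v)) = ρ0 := hθ1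
    obtain ⟨u, hu1, hu2, hu3⟩ := sm_lift_cocycle (θ1 : S →+* ℂ) (algebraMap ℂ S)
      (fun a => θ0.commutes a) w (cJ J S) ρ (by rw [hJ, hr]; exact hsm) u0
      (by rw [hJ, hr]; exact hu0)
    obtain ⟨E, hE⟩ := h2 u hu1
    let E' : Derivation O S S := E.restrictScalars O
    have hE' : ∀ v, ld E' (ρ v) = u v := hE
    have h3 := ld_ev w E' (cJ J S) (ld_cJ E' J) ρ
    simp only [hE'] at h3
    have h4 := ld_mul_val E' (w.ev (cJ J S) ρ)
    have hu2' : Lin w (cJ J S) ρ (fun v => u v) = 0 := hu2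
    rw [h3, hu2', Matrix.zero_mul] at h4
    have h5 : ∀ a b, E' (Fm a b) = 0 := by
      intro a b
      have e1 : E' ((w.ev (cJ J S) ρ).1 a b) = 0 := (congrFun (congrFun h4 a) b).symm
      have e2 : E' ((1 : Matrix n n S) a b) = 0 := congrFun (congrFun (map_der_one E') a) b
      simp only [Fm, Matrix.sub_apply, map_sub, e1, e2, sub_self]
    have h6 : ∀ x ∈ I, E' x ∈ I := by
      intro x hx
      induction hx using Submodule.span_induction with
      | mem x hx =>
        obtain ⟨p, rfl⟩ := hx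
        rw [h5]
        exact I.zero_mem
      | zero => rw [map_zero]; exact I.zero_mem
      | add x y _ _ hx hy => rw [map_add]; exact I.add_mem hx hy
      | smul a x hx0 hx =>
        rw [smul_eq_mul, Derivation.leibniz, smul_eq_mul, smul_eq_mul]
        exact I.add_mem (I.mul_mem_left _ hx) (I.mul_mem_right _ hx0)
    obtain ⟨D, hD⟩ := sm_descend_der E' I P hP h6
    refine ⟨D, funext fun v => ?_⟩
    have h7 : ld D (pm π ρ v) = (ld E' (ρ v)).map π := sm_ld_smap π E' D hD (ρ v)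
    rw [h7, hE', ← hu3]
    rfl

theorem generic_sl [Nonempty n] [Algebra O ℂ] [FaithfulSMul O ℂ] (κ : Type) [Fintype κ] :
    ∃ (B : BigField O) (x : κ → SL n B.Ω), DGen O x := by
  classical
  obtain ⟨i0⟩ := ‹Nonempty n›
  have : Uncountable ℂ := Complex.ofReal_injective.uncountable
  obtain ⟨S, _, _, ρ, h1, h2⟩ := univ_sl (n := n) ℂ κ
  obtain ⟨θ0, -⟩ := h1 1
  let _inst : Algebra O S := ((algebraMap ℂ S).comp (algebraMap O ℂ)).toAlgebra
  have : IsScalarTower O ℂ S := IsScalarTower.of_algebraMap_eq' rfl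
  have : (RingHom.ker (θ0 : S →+* ℂ)).IsPrime := RingHom.ker_isPrime _
  obtain ⟨P, hP, -⟩ := Ideal.exists_minimalPrimes_le
    (bot_le : (⊥ : Ideal S) ≤ RingHom.ker (θ0 : S →+* ℂ))
  have : P.IsPrime := hP.1.1
  let π : S →ₐ[O] S ⧸ P := Ideal.Quotient.mkₐ O P
  have : Uncountable (S ⧸ P) := (algebraMap ℂ (S ⧸ P)).injective.uncountable
  have : CharZero (S ⧸ P) :=
    (RingHom.charZero_iff (algebraMap ℂ (S ⧸ P)).injective).1 inferInstance
  have : FaithfulSMul O (S ⧸ P) := by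
    rw [faithfulSMul_iff_algebraMap_injective, IsScalarTower.algebraMap_eq O ℂ (S ⧸ P)]
    exact (algebraMap ℂ (S ⧸ P)).injective.comp (FaithfulSMul.algebraMap_injective O ℂ)
  obtain ⟨B, ι, hι⟩ := exists_big (O := O) (R := S ⧸ P)
  refine ⟨B, pm ι (pm π ρ), ?_⟩
  let T : Submodule B.Ω (κ → Matrix n n B.Ω) := LinearMap.range
    (LinearMap.pi fun v => (ldL (pm ι (pm π ρ) v) : Derivation O B.Ω B.Ω →ₗ[B.Ω] _))
  have hT : slV κ n B.Ω ≤ T := by
    rw [sm_slV_eq_span i0, Submodule.span_le]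
    rintro _ ⟨j, rfl⟩
    have hj : (Pi.single j.1 (eb i0 j.2.1 j.2.2) : κ → Matrix n n S) ∈ slV κ n S := by
      rw [sm_slV_eq_span i0]
      exact Submodule.subset_span ⟨j, rfl⟩
    obtain ⟨E, hE⟩ := h2 _ (mem_slV.1 hj)
    let E' : Derivation O S S := E.restrictScalars O
    have hE' : ∀ v, ld E' (ρ v) = (Pi.single j.1 (eb i0 j.2.1 j.2.2) : κ → Matrix n n S) v := hE
    obtain ⟨D, hD⟩ := sm_descend_der E' ⊥ P hP (by
      intro x hx
      rw [Ideal.mem_bot] at *
      rw [hx, map_zero])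
    obtain ⟨D', hD'⟩ := ext_der' ι hι D
    refine ⟨D', funext fun v => ?_⟩
    have h7 : ld D (pm π ρ v) = (ld E' (ρ v)).map π := sm_ld_smap π E' D hD (ρ v)
    have h8 : ld D' (pm ι (pm π ρ) v) = (ld D (pm π ρ v)).map ι := sm_ld_smap ι D D' hD' _
    have h9 := congrFun (sm_single_eb_map ((ι : S ⧸ P →+* B.Ω).comp (π : S →+* S ⧸ P)) i0 j.2.1 j.2.2
      j.1) v
    change ld D' (pm ι (pm π ρ) v) = _
    rw [h8, h7, hE']
    exact h9
  intro u hu
  obtain ⟨D, rfl⟩ := hT (mem_slV.2 hu)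
  exact ⟨D, fun v => rfl⟩

end Vale.Agent.P002
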