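import Vale.Agent.P002.Good
import Vale.Agent.P002.Rank

/-! P002, task GenE: consequences of genericity.

* `gen_entry_ne`: if `M i j = 0` then `(α * M) i j = D (M i j) = 0` for all traceless `α`
  (`ld_mul_val`); `α = single i k 1` (`k ≠ i`) gives `M k j = 0`; a zero column contradicts
  `det = 1`.
* `gen_inv`: `ld_inv`, `Ad` is onto the traceless matrices.
* `gen_tau_ne`: take `δ = single i j 1 - c • single i i 1` with `c` such that
  `α = δ * M⁻¹` is traceless (`(M⁻¹) i i ≠ 0`); `D (M p q) = δ p q`; differentiate the equation: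
  `M j k * M k i = 0`.
* `gen_conj`: `ld D (q * M * q') = Ad q (ld D M)` when `D` kills `q`, `q'` (`ld_mul`).
* `nd_iff_span`-type argument for `nd_of_spec`: the family of rows
  `f none = e_{i0}`, `f (some k) = row i0 of (B ^ k) - row i0 of ((A B A⁻¹) ^ k)` over `S`;
  `ND` holds iff these rows span `n → F` (no nonzero vector is orthogonal to all of them;
  dual annihilator / `Submodule.exists_le_ker_of_lt_top`); use `finrank_span_le`.
* `nd_example`: `Λ = diagonal lam` from `good_example` (take the diagonal part; `inj_of_indep`),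
  `P = 1 + ∑_{j ≠ i0} single i0 j 1` (determinant `1`, row `i0` is all ones), `B = P Λ P⁻¹`,
  `A = P⁻¹`, so `A B A⁻¹ = Λ`. If `w i0 = 0` the condition reads `∑ lam i ^ k * (P⁻¹ w) i = 0` for
  all `k`; Vandermonde.
* `nd_of_dgen`: `spec_of_dgen`, `spec_ring` with `κ = Fin 2`. -/

namespace Vale.Agent.P002

variable {n : Type} [Fintype n] [DecidableEq n]

theorem gen_entry_ne {O F : Type} [CommRing O] [Field F] [Algebra O F] (M : SL n F)
    (h : Gen1 O M) (i j : n) : M.1 i j ≠ 0 := by
  intro h0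
  have hcol : ∀ k, M.1 k j = 0 := by
    intro k
    by_cases hk : k = i
    · rw [hk, h0]
    · obtain ⟨D, hD⟩ := h (Matrix.single i k 1)
        (Matrix.trace_single_eq_of_ne i k 1 (fun e => hk e.symm))
      have h1 := congrFun (congrFun (ld_mul_val D M) i) j
      rw [hD, Matrix.single_mul_apply_same, Matrix.map_apply, h0, map_zero, one_mul] at h1
      exact h1
  have := Matrix.det_eq_zero_of_column_eq_zero j hcol
  rw [M.2] at this
  exact one_ne_zero this

theorem gen_inv {O F : Type} [CommRing O] [Field F] [Algebra O F] (M : SL n F) (h : Gen1 O M) :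
    Gen1 O M⁻¹ := by
  intro α hα
  obtain ⟨D, hD⟩ := h (-Ad M α) (by simp [hα])
  exact ⟨D, by rw [ld_inv, hD]; simp⟩

theorem gen_tau_ne {O F : Type} [CommRing O] [Field F] [Algebra O F] (M : SL n F) (h : Gen1 O M)
    (i j k : n) (hij : i ≠ j) (hjk : j ≠ k) (hik : i ≠ k) :
    M.1 i j * M.1 j k * M.1 k i ≠ M.1 i k * M.1 k j * M.1 j i := by
  intro he
  have hN : (M⁻¹).1 i i ≠ 0 := gen_entry_ne _ (gen_inv M h) i i
  set c : F := (M⁻¹).1 j i / (M⁻¹).1 i i with hc
  set δ : Matrix n n F := Matrix.single i j 1 - Matrix.single i i c with hδ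
  obtain ⟨D, hD⟩ := h (δ * (M⁻¹).1) (by
    rw [hδ, Matrix.sub_mul, Matrix.trace_sub, Matrix.trace_single_mul, Matrix.trace_single_mul,
      hc, smul_eq_mul, smul_eq_mul, div_mul_cancel₀ _ hN, one_mul, sub_self])
  have h1 : ∀ p q, D (M.1 p q) = δ p q := by
    intro p q
    have h2 := congrFun (congrFun (ld_mul_val D M) p) q
    rw [hD, Matrix.mul_assoc, inv_mul_val, Matrix.mul_one, Matrix.map_apply] at h2
    exact h2.symm
  have e1 : δ i j = 1 := by simp [hδ, hij]
  have e2 : δ j k = 0 := by simp [hδ, hij]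
  have e3 : δ k i = 0 := by simp [hδ, hik]
  have e4 : δ i k = 0 := by simp [hδ, hik, hjk]
  have e5 : δ k j = 0 := by simp [hδ, hik]
  have e6 : δ j i = 0 := by simp [hδ, hij]
  have h3 := congrArg D he
  simp only [Derivation.leibniz, h1, e1, e2, e3, e4, e5, e6, smul_eq_mul, mul_zero, mul_one,
    zero_add, add_zero] at h3
  exact mul_ne_zero (gen_entry_ne M h k i) (gen_entry_ne M h j k) h3

theorem gen_conj {O F : Type} [CommRing O] [Field F] [Algebra O F] (M q q' : SL n F)
    (h : ∀ α : Matrix n n F, α.trace = 0 →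
      ∃ D : Derivation O F F, ld D M = α ∧ ld D q = 0 ∧ ld D q' = 0) : Gen1 O (q * M * q') := by
  intro α hα
  obtain ⟨D, h1, h2, h3⟩ := h (Ad q⁻¹ α) (by simp [hα])
  exact ⟨D, by rw [ld_mul, ld_mul, h1, h2, h3]; simp⟩


theorem span_top_iff {F J : Type} [Field F] (g : J → n → F) :
    Submodule.span F (Set.range g) = ⊤ ↔ ∀ w : n → F, (∀ j, g j ⬝ᵥ w = 0) → w = 0 := by
  constructor
  · intro h w hw
    have : ∀ v ∈ Submodule.span F (Set.range g), v ⬝ᵥ w = 0 := by
      intro v hv
      induction hv using Submodule.span_induction with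
      | mem x hx => obtain ⟨j, rfl⟩ := hx; exact hw j
      | zero => exact zero_dotProduct w
      | add x y _ _ hx hy => rw [add_dotProduct, hx, hy, add_zero]
      | smul a x _ hx => rw [smul_dotProduct, hx, smul_zero]
    funext i
    have h1 := this (Pi.single i 1) (h ▸ Submodule.mem_top)
    simpa using h1
  · intro h
    by_contra hne
    obtain ⟨φ, hφ, hle⟩ := Submodule.exists_le_ker_of_lt_top _ (lt_top_iff_ne_top.mpr hne)
    have hφv : ∀ v : n → F, φ v = v ⬝ᵥ fun i => φ (Pi.single i 1) := by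
      intro v
      conv_lhs => rw [pi_eq_sum_univ' v]
      simp [map_sum, dotProduct]
    have := h (fun i => φ (Pi.single i 1)) (fun j => by
      rw [← hφv]; exact hle (Submodule.subset_span ⟨j, rfl⟩))
    apply hφ
    apply LinearMap.ext
    intro v
    rw [hφv, this]; simp

/-- the rows of the linear system -/
def ndRow {S : Type} [CommRing S] (i0 : n) (A B : SL n S) : Option ℕ → n → S
  | none => Pi.single i0 1
  | some k => fun j => (B ^ k).1 i0 j - ((A * B * A⁻¹) ^ k).1 i0 j

theorem ndRow_map {S T : Type} [CommRing S] [CommRing T] (f : S →+* T) (i0 : n) (A B : SL n S) :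
    (fun o j => f (ndRow i0 A B o j)) = ndRow i0 (smap f A) (smap f B) := by
  funext o j
  cases o with
  | none => by_cases h : j = i0 <;> simp [ndRow, h]
  | some k =>
    simp only [ndRow, map_sub]
    rw [← map_inv, ← map_mul, ← map_mul, ← map_pow, ← map_pow]
    rfl

theorem nd_iff_span {F : Type} [Field F] (i0 : n) (A B : SL n F) :
    ND i0 A B ↔ Submodule.span F (Set.range (ndRow i0 A B)) = ⊤ := by
  rw [span_top_iff]
  have e : ∀ (w : n → F) k, ndRow i0 A B (some k) ⬝ᵥ w =
      Matrix.mulVec (B ^ k).1 w i0 - Matrix.mulVec ((A * B * A⁻¹) ^ k).1 w i0 := by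
    intro w k
    simp only [ndRow, Matrix.mulVec, dotProduct, sub_mul, Finset.sum_sub_distrib]
  have e0 : ∀ w : n → F, ndRow i0 A B none ⬝ᵥ w = w i0 := by
    intro w; simp [ndRow]
  constructor
  · intro h w hw
    exact h w ((e0 w).symm.trans (hw none)) (fun k => by
      have := hw (some k)
      rwa [e, sub_eq_zero] at this)
  · intro h w h0 hk
    refine h w fun o => ?_
    cases o with
    | none => rw [e0, h0]
    | some k => rw [e, hk, sub_self]

theorem nd_of_spec {S Ω Ω' : Type} [CommRing S] [Field Ω] [Field Ω'] (ι : S →+* Ω)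
    (hι : Function.Injective ι) (θ : S →+* Ω') (i0 : n) (A B : SL n S)
    (h : ND i0 (smap θ A) (smap θ B)) : ND i0 (smap ι A) (smap ι B) := by
  rw [nd_iff_span] at h ⊢
  have h1 := finrank_span_le θ ι hι (ndRow i0 A B)
  rw [ndRow_map, ndRow_map, h, finrank_top] at h1
  apply Submodule.eq_top_of_finrank_eq
  refine le_antisymm (Submodule.finrank_le _) ?_
  simpa using h1


omit [DecidableEq n] in
theorem eq_zero_of_pow_sum {F : Type} [Field F] (lam w : n → F) (hl : Function.Injective lam)
    (h : ∀ k : ℕ, ∑ j, w j * lam j ^ k = 0) : w = 0 := by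
  let e := (Fintype.equivFin n).symm
  have := Matrix.eq_zero_of_forall_pow_sum_mul_pow_eq_zero (f := lam ∘ e) (v := w ∘ e)
    (hl.comp e.injective) (fun i => by
      rw [← h i]
      exact e.sum_comp (fun j => w j * lam j ^ (i : ℕ)))
  funext j
  have h1 := congrFun this (e.symm j)
  simpa using h1

theorem nd_example (F : Type) [Field F] [CharZero F] (i0 : n) : ∃ A B : SL n F, ND i0 A B := by
  obtain ⟨B0, P0, Q0, lam, hPQ, -, hB0, hind⟩ := good_example (n := n) F
  have hinj : Function.Injective fun i => (lam i : F) :=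
    Units.val_injective.comp (inj_of_indep lam hind)
  have hdet : (Matrix.diagonal fun i => (lam i : F)).det = 1 := by
    have h1 := B0.2
    have h2 := congrArg Matrix.det hPQ
    rw [Matrix.det_mul, Matrix.det_one] at h2
    rw [hB0, Matrix.det_mul, Matrix.det_mul, mul_right_comm, h2, one_mul] at h1
    exact h1
  let Λ : SL n F := ⟨_, hdet⟩
  have hP : ((1 : Matrix n n F).updateRow i0 fun _ => 1).det = 1 := by
    have h1 := Matrix.det_updateRow_sum (1 : Matrix n n F) i0 (fun _ => 1)
    have h2 : (∑ k, (1 : F) • (1 : Matrix n n F) k) = fun _ => 1 := by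
      funext j
      rw [Finset.sum_apply]
      simp [Matrix.one_apply]
    rw [h2] at h1
    simpa using h1
  let P : SL n F := ⟨_, hP⟩
  refine ⟨P⁻¹, P * Λ * P⁻¹, fun w h0 hk => ?_⟩
  have e1 : P⁻¹ * (P * Λ * P⁻¹) * P⁻¹⁻¹ = Λ := by group
  have e2 : ∀ k : ℕ, (Λ ^ k).1 = Matrix.diagonal fun i => (lam i : F) ^ k := by
    intro k
    rw [Matrix.SpecialLinearGroup.coe_pow]
    exact Matrix.diagonal_pow _ k
  have h3 : Matrix.mulVec (P⁻¹).1 w = 0 := by
    refine eq_zero_of_pow_sum _ _ hinj fun k => ?_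
    have h4 := hk k
    rw [e1, conj_pow, val_mul, val_mul, e2, Matrix.mulVec_diagonal, h0, mul_zero,
      ← Matrix.mulVec_mulVec, ← Matrix.mulVec_mulVec] at h4
    rw [← h4]
    generalize Matrix.mulVec (P⁻¹).1 w = w'
    simp only [P, Matrix.mulVec, dotProduct, Matrix.updateRow_self, one_mul]
    refine Finset.sum_congr rfl fun j _ => ?_
    have := Matrix.mulVec_diagonal (fun i => (lam i : F) ^ k) w' j
    simp only [Matrix.mulVec, dotProduct] at this
    rw [this, mul_comm]
  have h5 := congrArg (Matrix.mulVec P.1) h3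
  rwa [Matrix.mulVec_mulVec, mul_inv_val, Matrix.one_mulVec, Matrix.mulVec_zero] at h5

theorem nd_of_dgen {O F : Type} [CommRing O] [Field F] [CharZero F] [Algebra O F] (i0 : n)
    (A B : SL n F) (h : DGen O ![A, B]) : ND i0 A B := by
  obtain ⟨A', B', h'⟩ := nd_example F i0
  obtain ⟨S, _, _, _, ι, θ, z, hι, hx, hy⟩ := spec_ring (O := O) ![A, B] ![A', B']
    (fun f hf => spec_of_dgen _ h _ f hf)
  have a0 : smap (ι : S →+* F) (z 0) = A := congrFun hx 0
  have a1 : smap (ι : S →+* F) (z 1) = B := congrFun hx 1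
  have b0 : smap (θ : S →+* F) (z 0) = A' := congrFun hy 0
  have b1 : smap (θ : S →+* F) (z 1) = B' := congrFun hy 1
  rw [← a0, ← a1]
  refine nd_of_spec (ι : S →+* F) hι (θ : S →+* F) i0 _ _ ?_
  rw [b0, b1]
  exact h'

end Vale.Agent.P002
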