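import Vale.Agent.P002.GoodD

/-! P002, task K1: two spanning statements (pure linear algebra, use `extract`).

* `k2`: for fixed `m`, `diagonal (mu ^ l) * Y = ∑ i, mu i ^ l • (single i i 1 * Y)`, so
  `single i i 1 * Y_m` is in the span; `single i i 1 * Y_m = ∑ j, (mu i / mu j) ^ m • single i j (M i j)`.
* `k1`: let `S` be the span, `NN = S.comap (· * M)`. Every `N ∈ NN` satisfies
  `(M * N) i i = (N * M) i i` (each generator `X` commutes with `diagonal (mu ^ l) * M`, hence
  `M X M' = diag⁻¹ X diag` has the same diagonal as `X`). Writing the powers `1, 2, 3` as sums over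
  `p`, `(p, s)`, `(p, q, s)` with coefficients `(mu p) ^ l`, `(mu p * mu s) ^ l`,
  `(mu p * mu q * mu s) ^ l`, `extract` gives elements of `NN`: `single i i 1`;
  `N2 i j = single i j (M i j) + single j i (M j i)` for `i ≠ j`; and `N3 o j k` (distinct), the sum
  of `single p s (M p q * M q s)` over the `(p, q, s)` with `mu p * mu q * mu s = mu o * mu j * mu k`
  (by `hmu`, `Pi.single p 1 + Pi.single q 1 + Pi.single s 1` equals the same for `o, j, k`: the
  difference is constant with sum zero). Put `a N p s = M s p * N p s - M p s * N s p`.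
  For `p ≠ s` both different from `o`: `a (N3 o j k) p s = 0` unless `{p, s} = {j, k}`, and
  `a (N3 o j k) j k = M k j * M j o * M o k - M j k * M k o * M o j ≠ 0`.
  Let `N = β * M'`. Subtract `∑_{j ≠ k, both ≠ o} (a N j k / (2 * a (N3 o j k) j k)) • N3 o j k`; the
  result `N'` has `a N' p s = 0` off `o`, and `∑ s, a N' p s = 0`, so `a N' = 0`; then
  `N' = ∑ N' i i • single i i 1 + ∑_{i ≠ j} (N' i j / (2 * M i j)) • N2 i j`. -/

namespace Vale.Agent.P002

variable {n : Type} [Fintype n] [DecidableEq n]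

open Matrix Finset in
theorem k1_ex1 {F E ι : Type} [Field F] [AddCommGroup E] [Module F E]
    [Fintype ι] (S : Submodule F E) (a : ι → F) (ha : Function.Injective a) (v : ι → E)
    (h : ∀ m : ℕ, ∑ i, a i ^ m • v i ∈ S) (i : ι) : v i ∈ S := by
  classical
  have h1 := extract S a v h (a i)
  rwa [show univ.filter (fun j => a j = a i) = {i} by ext j; simp [ha.eq_iff],
    sum_singleton] at h1

theorem k1_sum {F : Type} [Field F] (c M : Matrix n n F) :
    ∑ i, ∑ j, c i j • Matrix.single i j (M i j) = Matrix.of fun i j => c i j * M i j := by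
  rw [Matrix.matrix_eq_sum_single (Matrix.of fun i j => c i j * M i j)]
  simp only [Matrix.smul_single, smul_eq_mul, Matrix.of_apply]

theorem k2 {F : Type} [Field F] (mu : n → Fˣ) (hmu : Function.Injective mu) (M : Matrix n n F)
    (h1 : ∀ i j, M i j ≠ 0) :
    Submodule.span F (Set.range fun p : ℕ × ℕ =>
      Matrix.diagonal (fun i => (mu i : F) ^ p.1) *
        (Matrix.diagonal (fun i => (mu i : F) ^ p.2) * M *
          Matrix.diagonal (fun i => (((mu i)⁻¹ : Fˣ) : F) ^ p.2))) = ⊤ := by
  have hi : Function.Injective fun i => (mu i : F) := fun i j h => hmu (Units.ext h)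
  rw [eq_top_iff]
  intro X _
  have key : ∀ i j, Matrix.single i j (M i j) ∈ Submodule.span F (Set.range fun p : ℕ × ℕ =>
      Matrix.diagonal (fun i => (mu i : F) ^ p.1) *
        (Matrix.diagonal (fun i => (mu i : F) ^ p.2) * M *
          Matrix.diagonal (fun i => (((mu i)⁻¹ : Fˣ) : F) ^ p.2))) := by
    intro i
    refine k1_ex1 _ (fun j => (mu i : F) * (((mu j)⁻¹ : Fˣ) : F))
      (fun j k h => hmu (inv_injective (Units.ext (mul_left_cancel₀ (mu i).ne_zero h))))
      (fun j => Matrix.single i j (M i j)) fun m => ?_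
    refine k1_ex1 _ (fun i => (mu i : F)) hi
      (fun i => ∑ j, ((mu i : F) * (((mu j)⁻¹ : Fˣ) : F)) ^ m • Matrix.single i j (M i j))
      (fun l => ?_) i
    refine Submodule.subset_span ⟨(l, m), ?_⟩
    simp only [Finset.smul_sum, smul_smul]
    refine Eq.trans ?_ (k1_sum (Matrix.of fun i j =>
      (mu i : F) ^ l * ((mu i : F) * (((mu j)⁻¹ : Fˣ) : F)) ^ m) M).symm
    ext p s
    simp only [Matrix.diagonal_mul, Matrix.mul_diagonal, Matrix.of_apply]
    ring
  have e : X = ∑ i, ∑ j, (X i j / M i j) • Matrix.single i j (M i j) := by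
    refine Eq.trans ?_ (k1_sum (Matrix.of fun i j => X i j / M i j) M).symm
    ext p s
    simp only [Matrix.of_apply, div_mul_cancel₀ _ (h1 p s)]
  rw [e]
  exact Submodule.sum_mem _ fun i _ => Submodule.sum_mem _ fun j _ =>
    Submodule.smul_mem _ _ (key i j)

theorem k1_cnt {F : Type} [Field F] (mu : n → Fˣ)
    (hmu : ∀ m : n → ℤ, ∏ i, mu i ^ m i = 1 → ∀ i j, m i = m j) (u v : Multiset n)
    (hc : u.card = v.card) (h : (u.map mu).prod = (v.map mu).prod) : u = v := by
  have hp : ∀ w : Multiset n, ∏ i, mu i ^ w.count i = (w.map mu).prod := fun w => by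
    rw [Finset.prod_multiset_map_count]
    exact (Finset.prod_subset (Finset.subset_univ _) fun i _ hi => by
      rw [Multiset.count_eq_zero.2 (by simpa using hi), pow_zero]).symm
  have hs : ∀ w : Multiset n, ∑ i, w.count i = w.card := fun w =>
    Multiset.sum_count_eq_card fun _ _ => Finset.mem_univ _
  have h1 := hmu (fun i => (u.count i : ℤ) - v.count i) (by
    simp only [zpow_sub, zpow_natCast, Finset.prod_mul_distrib, Finset.prod_inv_distrib, hp, h,
      mul_inv_cancel])
  ext i
  have h2 : ∑ j, ((u.count j : ℤ) - v.count j) = 0 := by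
    rw [Finset.sum_sub_distrib, ← Nat.cast_sum, ← Nat.cast_sum, hs, hs, hc, sub_self]
  rw [Finset.sum_congr rfl fun j _ => h1 j i, Finset.sum_const, nsmul_eq_mul] at h2
  have h3 : ((Finset.univ : Finset n).card : ℤ) ≠ 0 := by
    exact_mod_cast (Finset.card_pos.2 ⟨i, Finset.mem_univ i⟩).ne'
  have := (mul_eq_zero.1 h2).resolve_left h3
  omega

/-- the antisymmetric defect -/
def k1a {F : Type} [Field F] (M : Matrix n n F) : Matrix n n F →ₗ[F] Matrix n n F where
  toFun N := Matrix.of fun p s => M s p * N p s - M p s * N s p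
  map_add' N N' := by ext p s; simp only [Matrix.of_apply, Matrix.add_apply]; ring
  map_smul' c N := by
    ext p s; simp only [Matrix.of_apply, Matrix.smul_apply, smul_eq_mul, RingHom.id_apply]; ring

omit [Fintype n] [DecidableEq n] in
theorem k1a_apply {F : Type} [Field F] (M N : Matrix n n F) (p s : n) :
    k1a M N p s = M s p * N p s - M p s * N s p := rfl

omit [Fintype n] in
theorem k1a_single {F : Type} [Field F] (M : Matrix n n F) (a b : n) (x : F) :
    k1a M (Matrix.single a b x) =
      (M b a * x) • (Matrix.single a b (1 : F) - Matrix.single b a (1 : F)) := by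
  ext p s
  simp only [k1a_apply, Matrix.smul_apply, Matrix.sub_apply, Matrix.single_apply, smul_eq_mul,
    mul_sub]
  congr 1
  · split_ifs with h
    · rw [h.1, h.2, mul_one]
    · simp
  · by_cases h : a = s ∧ b = p
    · rw [if_pos h, if_pos h.symm, h.1, h.2, mul_one]
    · rw [if_neg h, if_neg fun h' => h h'.symm]; simp

/-- the oriented triangle -/
def k1c (F : Type) [Field F] (o j k : n) : Matrix n n F :=
  (Matrix.single j k 1 - Matrix.single k j 1) + (Matrix.single k o 1 - Matrix.single o k 1) +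
    (Matrix.single o j 1 - Matrix.single j o 1)

theorem k1c_sum {F : Type} [Field F] [CharZero F] (A : Matrix n n F) (h : ∀ p s, A s p = -A p s)
    (h0 : ∀ p, ∑ s, A p s = 0) (o : n) : A = ∑ j, ∑ k, (A j k / 2) • k1c F o j k := by
  have h0' : ∀ s, ∑ p, A p s = 0 := fun s => by
    rw [Finset.sum_congr rfl fun p _ => h s p, Finset.sum_neg_distrib, h0, neg_zero]
  have e1 : ∑ j, ∑ k, (A j k / 2) • (Matrix.single k o (1 : F) - Matrix.single o k 1) = 0 := by
    rw [Finset.sum_comm]
    refine Finset.sum_eq_zero fun k _ => ?_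
    rw [← Finset.sum_smul, ← Finset.sum_div, h0', zero_div, zero_smul]
  have e2 : ∑ j, ∑ k, (A j k / 2) • (Matrix.single o j (1 : F) - Matrix.single j o 1) = 0 := by
    refine Finset.sum_eq_zero fun j _ => ?_
    rw [← Finset.sum_smul, ← Finset.sum_div, h0, zero_div, zero_smul]
  have e3 := k1_sum (Matrix.of fun j k => A j k / 2) (Matrix.of fun _ _ => (1 : F))
  have e4 := k1_sum (Matrix.of fun k j => A j k / 2) (Matrix.of fun _ _ => (1 : F))
  rw [Finset.sum_comm] at e4
  simp only [Matrix.of_apply] at e3 e4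
  simp only [k1c, smul_add, Finset.sum_add_distrib, e1, e2, add_zero]
  simp only [smul_sub, Finset.sum_sub_distrib, e3, e4]
  ext p s
  simp only [Matrix.sub_apply, Matrix.of_apply, h p s]
  ring

theorem k1 {F : Type} [Field F] [CharZero F] (mu : n → Fˣ)
    (hmu : ∀ m : n → ℤ, ∏ i, mu i ^ m i = 1 → ∀ i j, m i = m j) (M M' : Matrix n n F)
    (hM : M * M' = 1) (hM' : M' * M = 1) (h1 : ∀ i j, M i j ≠ 0)
    (h2 : ∀ i j k, i ≠ j → j ≠ k → i ≠ k → M i j * M j k * M k i ≠ M i k * M k j * M j i)
    (β : Matrix n n F) (hβ : ∀ i, (M * β * M') i i = β i i) :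
    β ∈ Submodule.span F (Set.range fun p : ℕ × ℕ =>
      (Matrix.diagonal (fun i => (mu i : F) ^ p.1) * M) ^ p.2) := by
  classical
  rcases isEmpty_or_nonempty n with hn | ⟨⟨o⟩⟩
  · rw [Subsingleton.elim β 0]; exact Submodule.zero_mem _
  set S := Submodule.span F (Set.range fun p : ℕ × ℕ =>
    (Matrix.diagonal (fun i => (mu i : F) ^ p.1) * M) ^ p.2) with hS
  let NN : Submodule F (Matrix n n F) := S.comap (LinearMap.mulRight F M)
  have g2 : ∀ l : ℕ, ∑ x : n × n, ((mu x.1 * mu x.2 : Fˣ) : F) ^ l •
      Matrix.single x.1 x.2 (M x.1 x.2) ∈ NN := fun l => by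
    refine Submodule.subset_span ⟨(l, 2), ?_⟩
    rw [Fintype.sum_prod_type, LinearMap.mulRight_apply,
      show ∑ p, ∑ s, ((mu p * mu s : Fˣ) : F) ^ l • Matrix.single p s (M p s) = _ from
        k1_sum (Matrix.of fun p s => ((mu p * mu s : Fˣ) : F) ^ l) M]
    show (_ * M) ^ 2 = _
    rw [pow_two, ← Matrix.mul_assoc]
    congr 1
    ext p s
    simp only [Matrix.diagonal_mul, Matrix.mul_diagonal, Matrix.of_apply, Units.val_mul]
    ring
  have g3 : ∀ l : ℕ, ∑ x : n × n × n, ((mu x.1 * mu x.2.1 * mu x.2.2 : Fˣ) : F) ^ l •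
      Matrix.single x.1 x.2.2 (M x.1 x.2.1 * M x.2.1 x.2.2) ∈ NN := fun l => by
    refine Submodule.subset_span ⟨(l, 3), ?_⟩
    rw [LinearMap.mulRight_apply]
    show (_ * M) ^ 3 = _
    rw [pow_succ, pow_two, ← Matrix.mul_assoc]
    congr 1
    refine (Matrix.matrix_eq_sum_single _).trans ?_
    simp only [Fintype.sum_prod_type]
    refine Finset.sum_congr rfl fun p _ => ?_
    rw [Finset.sum_comm]
    refine Finset.sum_congr rfl fun s _ => ?_
    rw [Matrix.mul_diagonal, Matrix.mul_apply, Finset.sum_mul]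
    refine (map_sum (Matrix.singleLinearMap F p s) _ _).trans (Finset.sum_congr rfl fun q _ => ?_)
    simp only [Matrix.singleLinearMap_apply, Matrix.smul_single, Matrix.diagonal_mul,
      Units.val_mul, smul_eq_mul]
    congr 1
    ring
  have n2 : ∀ i j, Matrix.single i j (M i j) + Matrix.single j i (M j i) ∈ NN := by
    intro i j
    have h := extract NN _ _ g2 ((mu i * mu j : Fˣ) : F)
    have hf : Finset.univ.filter (fun x : n × n => ((mu x.1 * mu x.2 : Fˣ) : F) =
        ((mu i * mu j : Fˣ) : F)) = {(i, j), (j, i)} := by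
      ext ⟨p, s⟩
      simp only [Finset.mem_filter, Finset.mem_univ, true_and, Units.val_inj, Finset.mem_insert,
        Finset.mem_singleton, Prod.mk.injEq]
      constructor
      · intro h
        have h3 := k1_cnt mu hmu {p, s} {i, j} rfl (by simpa using h)
        rcases Multiset.cons_eq_cons.1 h3 with h4 | ⟨-, t, h4, h5⟩
        · exact Or.inl ⟨h4.1, Multiset.singleton_inj.1 h4.2⟩
        · exact Or.inr ⟨(Multiset.singleton_eq_cons_iff _).1 h5 |>.1.symm,
            (Multiset.singleton_eq_cons_iff _).1 h4 |>.1⟩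
      · rintro (⟨rfl, rfl⟩ | ⟨rfl, rfl⟩)
        · rfl
        · exact mul_comm _ _
    rw [hf] at h
    by_cases hij : i = j
    · subst hij
      rw [Finset.pair_eq_singleton, Finset.sum_singleton] at h
      exact NN.add_mem h h
    · rwa [Finset.sum_pair fun h' => hij (congrArg Prod.fst h')] at h
  have n3 : ∀ j k, k1c F o j k ∈ NN.map (k1a M) := by
    intro j k
    by_cases hjk : j = k
    · subst hjk
      rw [show k1c F o j j = 0 by unfold k1c; abel]; exact Submodule.zero_mem _
    by_cases hjo : j = o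
    · subst hjo
      rw [show k1c F j j k = 0 by unfold k1c; abel]; exact Submodule.zero_mem _
    by_cases hko : k = o
    · subst hko
      rw [show k1c F k j k = 0 by unfold k1c; abel]; exact Submodule.zero_mem _
    have hkj : k ≠ j := Ne.symm hjk
    have hoj : o ≠ j := Ne.symm hjo
    have hok : o ≠ k := Ne.symm hko
    have h := extract NN _ _ g3 ((mu o * mu j * mu k : Fˣ) : F)
    have hf : Finset.univ.filter (fun x : n × n × n =>
        ((mu x.1 * mu x.2.1 * mu x.2.2 : Fˣ) : F) = ((mu o * mu j * mu k : Fˣ) : F)) =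
        {(o, j, k), (o, k, j), (j, o, k), (j, k, o), (k, o, j), (k, j, o)} := by
      ext ⟨p, q, s⟩
      simp only [Finset.mem_filter, Finset.mem_univ, true_and, Units.val_inj, Finset.mem_insert,
        Finset.mem_singleton, Prod.mk.injEq]
      constructor
      · intro h
        have h3 := k1_cnt mu hmu {p, q, s} {o, j, k} rfl (by simpa [mul_assoc] using h)
        have h4 : o ∈ ({p, q, s} : Multiset n) := by rw [h3]; simp
        have h5 : j ∈ ({p, q, s} : Multiset n) := by rw [h3]; simp
        have h6 : k ∈ ({p, q, s} : Multiset n) := by rw [h3]; simp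
        simp only [Multiset.insert_eq_cons, Multiset.mem_cons, Multiset.mem_singleton] at h4 h5 h6
        rcases h4 with rfl | rfl | rfl <;> rcases h5 with rfl | rfl | rfl <;>
          rcases h6 with rfl | rfl | rfl <;> simp_all
      · rintro (⟨rfl, rfl, rfl⟩ | ⟨rfl, rfl, rfl⟩ | ⟨rfl, rfl, rfl⟩ | ⟨rfl, rfl, rfl⟩ |
          ⟨rfl, rfl, rfl⟩ | ⟨rfl, rfl, rfl⟩) <;> simp only [mul_comm, mul_left_comm]
    rw [hf, Finset.sum_insert (by simp [*]), Finset.sum_insert (by simp [*]),
      Finset.sum_insert (by simp [*]), Finset.sum_insert (by simp [*]),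
      Finset.sum_insert (by simp [*]), Finset.sum_singleton] at h
    have hc : M k j * M j o * M o k - M k o * M o j * M j k ≠ 0 :=
      sub_ne_zero.2 (h2 k j o hkj hjo hko)
    refine ⟨_, NN.smul_mem (M k j * M j o * M o k - M k o * M o j * M j k)⁻¹ h, ?_⟩
    rw [map_smul, inv_smul_eq_iff₀ hc]
    simp only [map_add, k1a_single, k1c]
    module
  have hker : ∀ N, k1a M N = 0 → N ∈ NN := by
    intro N hN
    have e : N = ∑ i, ∑ j, (N i j / (2 * M i j)) •
        (Matrix.single i j (M i j) + Matrix.single j i (M j i)) := by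
      have e3 := k1_sum (Matrix.of fun i j => N i j / (2 * M i j)) M
      have e4 := k1_sum (Matrix.of fun j i => N i j / (2 * M i j)) M
      rw [Finset.sum_comm] at e4
      simp only [Matrix.of_apply] at e3 e4
      simp only [smul_add, Finset.sum_add_distrib, e3, e4]
      ext p s
      have h3 : M s p * N p s - M p s * N s p = 0 := congrFun (congrFun hN p) s
      have := h1 p s
      have := h1 s p
      simp only [Matrix.add_apply, Matrix.of_apply]
      field_simp
      linear_combination h3
    rw [e]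
    exact Submodule.sum_mem _ fun i _ => Submodule.sum_mem _ fun j _ => NN.smul_mem _ (n2 i j)
  have hA : k1a M (β * M') ∈ NN.map (k1a M) := by
    rw [k1c_sum (k1a M (β * M')) (fun p s => by rw [k1a_apply, k1a_apply]; ring) (fun p => ?_) o]
    · exact Submodule.sum_mem _ fun j _ => Submodule.sum_mem _ fun k _ =>
        Submodule.smul_mem _ _ (n3 j k)
    · have e1 : (β * M' * M) p p = β p p := by rw [Matrix.mul_assoc, hM', Matrix.mul_one]
      have e2 : (M * (β * M')) p p = β p p := by rw [← Matrix.mul_assoc, hβ]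
      rw [Matrix.mul_apply] at e1 e2
      simp only [k1a_apply, Finset.sum_sub_distrib, e2]
      rw [← e1, sub_eq_zero]
      exact Finset.sum_congr rfl fun s _ => mul_comm _ _
  obtain ⟨N', hN', e⟩ := hA
  have h3 : β * M' ∈ NN := by
    have := NN.add_mem (hker (β * M' - N') (by rw [map_sub, e, sub_self])) hN'
    rwa [sub_add_cancel] at this
  have h4 : β * M' * M ∈ S := h3
  rwa [Matrix.mul_assoc, hM', Matrix.mul_one] at h4

end Vale.Agent.P002
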