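import Vale.Agent.P002.Kac

/-! P002, task St1: both special handles of a full point have trivial centraliser.

* `ann_comm`: `β = 0`: `trace (ζ * (α - Ad B' α)) = trace ((ζ - Ad B'⁻¹ ζ) * α)` (`trace_mul_Ad`),
  so by `scalar_of_ann` `Ad B'⁻¹ ζ = ζ` with `B' = A B A⁻¹`; `α = 0` gives `Ad A⁻¹ ζ = Ad c⁻¹ ζ`,
  `c = A B A⁻¹ B⁻¹`. The set of `g` with `Ad g ζ = ζ` is a subgroup `H` containing `B'` and
  `c A⁻¹ = B' (B⁻¹ A⁻¹)`; so `A B ∈ H`, `A = B'⁻¹ (A B)`, `B ∈ H`. Finish with `Ad_eq_self_iff`.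
* `LcL` is `Lc` as a linear map; `RLc A B` is the image of `sl × sl`; it lies in `sl`.
  `finrank_RLc`: `finrank_ann` and `ann_comm`. `Lc_surj`: `sl_le_of_ann`.
* `both_brick`: write `c0` for the first commutator. For `(α, β) ∈ sl × sl` with
  `Ad c0 (Lc A1 B1 α β) ∈ RLc A0 B0` there is a cocycle `(α0, β0, α, β, 0)` (`Lin_sys`, `map_zero`),
  so by fullness `(α, β)` is in the range of `(ldL A1).prod (ldL B1)`. The subspace of such pairs
  has dimension `≥ 2 d - (d - finrank (RLc A0 B0)) ≥ 2 d - finrank (Z0 A0 B0)` (`finrank_comap_ge`).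
  With `kac`: `Z0 A1 B1 ≠ ⊥` implies `finrank (Z0 A1 B1) < finrank (Z0 A0 B0)`. Symmetrically
  (using `(RLc A1 B1).map (Ad c0)`), so both are `⊥`.
* `full_gen0`, `full_gen_rest`: complete the data to a cocycle with `Lc_surj` (`trace_Lin`). -/

namespace Vale.Agent.P002

open Module

variable {n : Type} [Fintype n] [DecidableEq n]

theorem ann_comm {F : Type} [Field F] [CharZero F] (A B : SL n F) (ζ : Matrix n n F)
    (h0 : ζ.trace = 0) (h : ∀ α β : Matrix n n F, α.trace = 0 → β.trace = 0 →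
      (ζ * Lc A B α β).trace = 0) : ζ ∈ Z0 A B := by
  let H : Subgroup (SL n F) :=
    { carrier := {g | Ad g ζ = ζ}
      mul_mem' := by
        intro a b ha hb
        simp only [Set.mem_ofPred_eq] at *
        rw [Ad_mul, hb, ha]
      one_mem' := Ad_one ζ
      inv_mem' := by
        intro a ha
        simp only [Set.mem_ofPred_eq] at *
        conv_lhs => rw [← ha, Ad_inv_Ad] }
  have h1 : ζ - Ad (A * B * A⁻¹)⁻¹ ζ = 0 := by
    refine scalar_of_ann _ (by simp [h0]) fun α hα => ?_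
    have := h α 0 hα (Matrix.trace_zero n F)
    rw [Lc, map_zero, map_zero, add_zero, sub_zero, Matrix.mul_sub, Matrix.trace_sub,
      trace_mul_Ad] at this
    rwa [Matrix.sub_mul, Matrix.trace_sub]
  have h2 : Ad A⁻¹ ζ - Ad (A * B * A⁻¹ * B⁻¹)⁻¹ ζ = 0 := by
    refine scalar_of_ann _ (by simp) fun β hβ => ?_
    have := h 0 β (Matrix.trace_zero n F) hβ
    rw [Lc, map_zero, zero_add, sub_zero, Matrix.mul_sub, Matrix.trace_sub,
      trace_mul_Ad, trace_mul_Ad] at this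
    rwa [Matrix.sub_mul, Matrix.trace_sub]
  have k1 : (A * B * A⁻¹)⁻¹ ∈ H := (sub_eq_zero.1 h1).symm
  have k2 : A * B * A⁻¹ * B⁻¹ * A⁻¹ ∈ H := by
    change Ad _ ζ = ζ
    rw [Ad_mul, sub_eq_zero.1 h2, Ad_Ad_inv]
  have k3 : A * B ∈ H := by
    have := H.inv_mem (H.mul_mem k1 k2)
    rwa [show ((A * B * A⁻¹)⁻¹ * (A * B * A⁻¹ * B⁻¹ * A⁻¹))⁻¹ = A * B by group] at this
  have kA : A ∈ H := by
    have := H.mul_mem k1 k3
    rwa [show (A * B * A⁻¹)⁻¹ * (A * B) = A by group] at this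
  have kB : B ∈ H := by
    have := H.mul_mem (H.inv_mem kA) k3
    rwa [show A⁻¹ * (A * B) = B by group] at this
  exact ⟨h0, (Ad_eq_self_iff A ζ).1 kA, (Ad_eq_self_iff B ζ).1 kB⟩

theorem trace_Lc {R : Type} [CommRing R] (A B : SL n R) (α β : Matrix n n R) :
    (Lc A B α β).trace = 0 := by
  simp [Lc]

/-- `Lc` as a linear map -/
def LcL {R : Type} [CommRing R] (A B : SL n R) :
    (Matrix n n R × Matrix n n R) →ₗ[R] Matrix n n R :=
  LinearMap.fst R _ _ + (Ad A).comp (LinearMap.snd R _ _) -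
    (Ad (A * B * A⁻¹)).comp (LinearMap.fst R _ _) -
    (Ad (A * B * A⁻¹ * B⁻¹)).comp (LinearMap.snd R _ _)

theorem LcL_apply {R : Type} [CommRing R] (A B : SL n R) (p : Matrix n n R × Matrix n n R) :
    LcL A B p = Lc A B p.1 p.2 := rfl

/-- the image of the traceless pairs -/
def RLc {R : Type} [CommRing R] (A B : SL n R) : Submodule R (Matrix n n R) :=
  ((sl n R).prod (sl n R)).map (LcL A B)

theorem RLc_le {R : Type} [CommRing R] (A B : SL n R) : RLc A B ≤ sl n R := by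
  rintro _ ⟨p, -, rfl⟩
  exact trace_Lc A B p.1 p.2

theorem finrank_RLc {F : Type} [Field F] [CharZero F] [Nonempty n] (A B : SL n F) :
    finrank F (sl n F) ≤ finrank F (RLc A B) + finrank F (Z0 A B) := by
  exact finrank_ann _ _ fun ζ h0 h => ann_comm A B ζ h0 fun α β hα hβ =>
    h _ ⟨(α, β), ⟨hα, hβ⟩, rfl⟩

theorem Lc_surj {F : Type} [Field F] [CharZero F] [Nonempty n] (A B : SL n F) (h : Z0 A B = ⊥)
    (Y : Matrix n n F) (hY : Y.trace = 0) :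
    ∃ α β : Matrix n n F, α.trace = 0 ∧ β.trace = 0 ∧ Lc A B α β = Y := by
  have h1 : sl n F ≤ RLc A B := by
    refine sl_le_of_ann _ (RLc_le A B) fun ζ h0 hz => ?_
    have := ann_comm A B ζ h0 fun α β hα hβ => hz _ ⟨(α, β), ⟨hα, hβ⟩, rfl⟩
    rwa [h, Submodule.mem_bot] at this
  obtain ⟨p, hp, hY'⟩ := h1 hY
  exact ⟨p.1, p.2, hp.1, hp.2, hY'⟩

theorem finrank_comap_ge {F E G : Type} [Field F] [AddCommGroup E] [Module F E] [AddCommGroup G]
    [Module F G] [FiniteDimensional F E] [FiniteDimensional F G] (f : E →ₗ[F] G)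
    (P : Submodule F E) (U Q : Submodule F G) (hU : U ≤ Q) (hP : P.map f ≤ Q) :
    finrank F P + finrank F U ≤ finrank F (P ⊓ U.comap f : Submodule F E) + finrank F Q := by
  have h1 := LinearMap.finrank_range_add_finrank_ker (U.mkQ ∘ₗ f ∘ₗ P.subtype)
  have h2 := LinearMap.finrank_range_add_finrank_ker (U.mkQ ∘ₗ Q.subtype)
  have h3 : (LinearMap.ker (U.mkQ ∘ₗ f ∘ₗ P.subtype)).map P.subtype = P ⊓ U.comap f := by
    rw [LinearMap.ker_comp, Submodule.ker_mkQ, Submodule.comap_comp, Submodule.map_comap_subtype]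
  have h4 : (LinearMap.ker (U.mkQ ∘ₗ Q.subtype)).map Q.subtype = U := by
    rw [LinearMap.ker_comp, Submodule.ker_mkQ, Submodule.map_comap_subtype, inf_eq_right.2 hU]
  have h5 : LinearMap.range (U.mkQ ∘ₗ f ∘ₗ P.subtype) ≤ LinearMap.range (U.mkQ ∘ₗ Q.subtype) := by
    rintro _ ⟨x, rfl⟩
    exact ⟨⟨f x, hP ⟨x, x.2, rfl⟩⟩, rfl⟩
  have h6 := Submodule.finrank_mono h5
  have h7 := Submodule.finrank_map_subtype_eq P (LinearMap.ker (U.mkQ ∘ₗ f ∘ₗ P.subtype))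
  have h8 := Submodule.finrank_map_subtype_eq Q (LinearMap.ker (U.mkQ ∘ₗ Q.subtype))
  rw [h3] at h7
  rw [h4] at h8
  omega

omit [DecidableEq n] in
theorem finrank_sl_prod {F : Type} [Field F] :
    finrank F ((sl n F).prod (sl n F)) = 2 * finrank F (sl n F) := by
  let e : ((sl n F).prod (sl n F)) ≃ₗ[F] sl n F × sl n F :=
    { toFun := fun p => (⟨p.1.1, p.2.1⟩, ⟨p.1.2, p.2.2⟩)
      invFun := fun q => ⟨(q.1.1, q.2.1), q.1.2, q.2.2⟩
      map_add' := fun _ _ => rfl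
      map_smul' := fun _ _ => rfl
      left_inv := fun _ => rfl
      right_inv := fun _ => rfl }
  rw [e.finrank_eq, finrank_prod, two_mul]

theorem brick_step {O Ω : Type} [CommRing O] [Countable O] [Field Ω] [IsAlgClosed Ω] [CharZero Ω]
    [Uncountable Ω] [Algebra O Ω] [Nonempty n] (A B A' B' g : SL n Ω)
    (h : ∀ p ∈ (sl n Ω).prod (sl n Ω), ∀ q ∈ (sl n Ω).prod (sl n Ω),
      LcL A' B' q = Ad g (LcL A B p) → ∃ D : Derivation O Ω Ω, ld D A = p.1 ∧ ld D B = p.2)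
    (hZ : Z0 A B ≠ ⊥) : finrank Ω (Z0 A B) < finrank Ω (Z0 A' B') := by
  have h1 := kac (O := O) A B hZ
  have h2 := finrank_RLc A' B'
  have h3 := finrank_comap_ge ((Ad g).comp (LcL A B)) ((sl n Ω).prod (sl n Ω)) (RLc A' B')
    (sl n Ω) (RLc_le A' B') (by
      rintro _ ⟨p, -, rfl⟩
      rw [mem_sl, LinearMap.comp_apply, trace_Ad]
      exact trace_Lc A B p.1 p.2)
  have h4 : (sl n Ω).prod (sl n Ω) ⊓ (RLc A' B').comap ((Ad g).comp (LcL A B)) ≤
      LinearMap.range ((ldL (O := O) A).prod (ldL (O := O) B)) := by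
    rintro p ⟨hp, q, hq, hpq⟩
    obtain ⟨D, hA, hB⟩ := h p hp q hq hpq
    exact ⟨D, Prod.ext hA hB⟩
  have h5 := Submodule.finrank_mono h4
  rw [finrank_sl_prod] at h3
  omega

omit [DecidableEq n] in
theorem trace_four {W R : Type} [CommRing R] {a b c d : Matrix n n R} (ha : a.trace = 0)
    (hb : b.trace = 0) (hc : c.trace = 0) (hd : d.trace = 0) (v : Fin 4 ⊕ W) :
    ((Sum.elim ![a, b, c, d] 0 : Fin 4 ⊕ W → Matrix n n R) v).trace = 0 := by
  rcases v with i | w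
  · fin_cases i
    · exact ha
    · exact hb
    · exact hc
    · exact hd
  · exact Matrix.trace_zero n R

theorem Lin_four {K W R : Type} [CommRing R] (C : Word K W) (J : K → SL n R)
    (ρ : Fin 4 ⊕ W → SL n R) (a b c d : Matrix n n R) :
    Lin (sys C) J ρ (Sum.elim ![a, b, c, d] 0) = Lc (ρ (.inl 0)) (ρ (.inl 1)) a b +
      Ad (ρ (.inl 0) * ρ (.inl 1) * (ρ (.inl 0))⁻¹ * (ρ (.inl 1))⁻¹)
        (Lc (ρ (.inl 2)) (ρ (.inl 3)) c d) := by
  rw [Lin_sys]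
  have : (fun w : W => (Sum.elim ![a, b, c, d] 0 : Fin 4 ⊕ W → Matrix n n R) (.inr w)) = 0 := rfl
  rw [this, map_zero, map_zero, add_zero]
  rfl

theorem full_four {K W O R : Type} [CommRing O] [CommRing R] [Algebra O R] {C : Word K W}
    {J : K → SL n O} {ρ : Fin 4 ⊕ W → SL n R} (hF : Full (sys C) J ρ) (a b c d : Matrix n n R)
    (ha : a.trace = 0) (hb : b.trace = 0) (hc : c.trace = 0) (hd : d.trace = 0)
    (h : Lc (ρ (.inl 0)) (ρ (.inl 1)) a b +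
      Ad (ρ (.inl 0) * ρ (.inl 1) * (ρ (.inl 0))⁻¹ * (ρ (.inl 1))⁻¹)
        (Lc (ρ (.inl 2)) (ρ (.inl 3)) c d) = 0) :
    ∃ D : Derivation O R R, ld D (ρ (.inl 0)) = a ∧ ld D (ρ (.inl 1)) = b ∧
      ld D (ρ (.inl 2)) = c ∧ ld D (ρ (.inl 3)) = d := by
  obtain ⟨D, hD⟩ := hF (Sum.elim ![a, b, c, d] 0)
    (mem_Z1.2 ⟨trace_four ha hb hc hd, by rw [Lin_four, h]⟩)
  exact ⟨D, hD _, hD _, hD _, hD _⟩

variable {K W O Ω : Type} [CommRing O] [Countable O] [Field Ω] [IsAlgClosed Ω] [CharZero Ω]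
  [Uncountable Ω] [Algebra O Ω] [Nonempty n] {C : Word K W} {J : K → SL n O}
  {ρ : Fin 4 ⊕ W → SL n Ω}

theorem both_brick (hF : Full (sys C) J ρ) :
    Z0 (ρ (.inl 0)) (ρ (.inl 1)) = ⊥ ∧ Z0 (ρ (.inl 2)) (ρ (.inl 3)) = ⊥ := by
  set c0 := ρ (.inl 0) * ρ (.inl 1) * (ρ (.inl 0))⁻¹ * (ρ (.inl 1))⁻¹ with hc0
  have h1 : Z0 (ρ (.inl 2)) (ρ (.inl 3)) ≠ ⊥ →
      finrank Ω (Z0 (ρ (.inl 2)) (ρ (.inl 3))) < finrank Ω (Z0 (ρ (.inl 0)) (ρ (.inl 1))) := by
    refine brick_step (O := O) _ _ _ _ c0 fun p hp q hq hpq => ?_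
    obtain ⟨D, -, -, h2, h3⟩ := full_four hF (-q.1) (-q.2) p.1 p.2 ((sl n Ω).neg_mem hq.1)
      ((sl n Ω).neg_mem hq.2) hp.1 hp.2 (by
        have : Lc (ρ (.inl 0)) (ρ (.inl 1)) (-q.1) (-q.2) =
            -LcL (ρ (.inl 0)) (ρ (.inl 1)) q := by
          rw [← map_neg]; rfl
        rw [this, hpq, ← hc0, LcL_apply, neg_add_cancel])
    exact ⟨D, h2, h3⟩
  have h2 : Z0 (ρ (.inl 0)) (ρ (.inl 1)) ≠ ⊥ →
      finrank Ω (Z0 (ρ (.inl 0)) (ρ (.inl 1))) < finrank Ω (Z0 (ρ (.inl 2)) (ρ (.inl 3))) := by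
    refine brick_step (O := O) _ _ _ _ c0⁻¹ fun p hp q hq hpq => ?_
    obtain ⟨D, h2, h3, -, -⟩ := full_four hF p.1 p.2 (-q.1) (-q.2) hp.1 hp.2
      ((sl n Ω).neg_mem hq.1) ((sl n Ω).neg_mem hq.2) (by
        have : Lc (ρ (.inl 2)) (ρ (.inl 3)) (-q.1) (-q.2) =
            -LcL (ρ (.inl 2)) (ρ (.inl 3)) q := by
          rw [← map_neg]; rfl
        rw [this, hpq, ← hc0, map_neg, Ad_Ad_inv, LcL_apply, add_neg_cancel])
    exact ⟨D, h2, h3⟩
  by_cases k1 : Z0 (ρ (.inl 0)) (ρ (.inl 1)) = ⊥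
  · refine ⟨k1, ?_⟩
    by_contra k2
    have := h1 k2
    rw [k1, finrank_bot] at this
    omega
  · have k3 := h2 k1
    by_cases k2 : Z0 (ρ (.inl 2)) (ρ (.inl 3)) = ⊥
    · rw [k2, finrank_bot] at k3
      omega
    · have := h1 k2
      omega

theorem full_gen0 (hF : Full (sys C) J ρ) : DGen O ![ρ (.inl 0), ρ (.inl 1)] := by
  intro u hu
  set c0 := ρ (.inl 0) * ρ (.inl 1) * (ρ (.inl 0))⁻¹ * (ρ (.inl 1))⁻¹ with hc0
  obtain ⟨α, β, hα, hβ, h⟩ := Lc_surj _ _ (both_brick hF).2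
    (-Ad c0⁻¹ (Lc (ρ (.inl 0)) (ρ (.inl 1)) (u 0) (u 1))) (by simp [trace_Lc])
  obtain ⟨D, h0, h1, -, -⟩ := full_four hF (u 0) (u 1) α β (hu 0) (hu 1) hα hβ
    (by rw [h, ← hc0, map_neg, Ad_Ad_inv, add_neg_cancel])
  refine ⟨D, fun v => ?_⟩
  fin_cases v
  · exact h0
  · exact h1

theorem full_gen_rest (hF : Full (sys C) J ρ) (v : Fin 4 ⊕ W) : Gen1 O (ρ v) := by
  classical
  intro α hα
  have hu : ∀ v', ((Pi.single v α : Fin 4 ⊕ W → Matrix n n Ω) v').trace = 0 := by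
    intro v'
    by_cases h : v' = v
    · rw [h, Pi.single_eq_same, hα]
    · rw [Pi.single_eq_of_ne h, Matrix.trace_zero]
  have hY := trace_Lin (sys C) (cJ J Ω) ρ _ hu
  set Y := Lin (sys C) (cJ J Ω) ρ (Pi.single v α) with hYdef
  set c0 := ρ (.inl 0) * ρ (.inl 1) * (ρ (.inl 0))⁻¹ * (ρ (.inl 1))⁻¹ with hc0
  have key : ∀ u : Fin 4 ⊕ W → Matrix n n Ω, (∀ v', (u v').trace = 0) → u v = 0 →
      Lin (sys C) (cJ J Ω) ρ u = -Y → ∃ D : Derivation O Ω Ω, ld D (ρ v) = α := by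
    intro u h1 h2 h3
    obtain ⟨D, hD⟩ := hF (u + Pi.single v α) (mem_Z1.2 ⟨fun v' => by simp [h1 v', hu v'], by
      rw [map_add, h3, neg_add_cancel]⟩)
    exact ⟨D, by rw [hD v, Pi.add_apply, h2, zero_add, Pi.single_eq_same]⟩
  by_cases hv : v = .inl 0 ∨ v = .inl 1
  · obtain ⟨a, b, ha, hb, h⟩ := Lc_surj _ _ (both_brick hF).2 (-Ad c0⁻¹ Y) (by simp [hY])
    refine key (Sum.elim ![0, 0, a, b] 0) (trace_four (by simp) (by simp) ha hb) ?_ ?_
    · rcases hv with rfl | rfl <;> rfl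
    · rw [Lin_four, h, ← hc0, map_neg, Ad_Ad_inv]
      simp [Lc]
  · obtain ⟨a, b, ha, hb, h⟩ := Lc_surj _ _ (both_brick hF).1 (-Y) (by simp [hY])
    refine key (Sum.elim ![a, b, 0, 0] 0) (trace_four ha hb (by simp) (by simp)) ?_ ?_
    · rcases v with i | w
      · fin_cases i
        · exact absurd (Or.inl rfl) hv
        · exact absurd (Or.inr rfl) hv
        · rfl
        · rfl
      · rfl
    · rw [Lin_four, h]
      simp [Lc]

end Vale.Agent.P002
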