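import Vale.Agent.P002.Moves
import Vale.Agent.P002.K1
import Vale.Agent.P002.St1
import Vale.Agent.P002.GenE

/-! P002, task Span: the twist vectors span the tangent space at the base family.

`A0` is good (`good_of_gen`), with frame `P, Q, lam` from `good_frame`; `M = Q A1 P` as an element
of `SL` is `Gen1` (take `D` with `ld D A0 = 0`, `ld D A1 = P α Q`), so `gen_entry_ne`, `gen_tau_ne`
apply. `mu = lam⁻¹`. `frame` packages this.
* `span_T1`: `k2` in the frame (multiply by `q`, `P`, `Q`): the matrices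
  `q A0⁻¹ ^ l (A0⁻¹ ^ m A1 A0 ^ m)` span everything, so every traceless `ξ` is a combination of
  their `tl0` (`tl0` is linear and `tl0 ξ = card n • ξ`).
* `span_T2`: the same with `k1`: if `Ad A1 β - β = X - Ad A0 X` for some `X` then in the frame
  `M β' M⁻¹ - β'` has zero diagonal.
* `span_full`: let `u ∈ Z1`. By `RT` applied to `S.map (restriction to the further variables)`
  (`Pr.iter`, goodness by `gen_conj` + `good_of_gen`, `span_T1`) subtract an element of `S` to
  kill the further components; then `Lin_sys` gives `Ad A0 β0 - β0 + Ad A1 β1 - β1 = 0`;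
  `span_T2` and `exists_twA1` kill `β1`; `good_centralizer` and `exists_twB0` kill `β0`
  (`tv` is explicit); what remains is `(α0, 0, α1, 0, 0) = fun v => ld D (base … v)`.
* `sm_base`: `sl_le_of_ann` for `U = (slV).map Lin`: an annihilating `ζ` commutes with `A0`, `A1`
  (`scalar_of_ann`), so is diagonal in the frame and commutes with `M`, so is scalar. -/

namespace Vale.Agent.P002

variable {n : Type} [Fintype n] [DecidableEq n] {K W O Ω : Type} [CommRing O] [Field Ω]
  [IsAlgClosed Ω] [CharZero Ω] [Algebra O Ω]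

section Aux

omit [IsAlgClosed Ω] [CharZero Ω] in
theorem span_dgen (A0 A1 : SL n Ω) (hg : DGen O ![A0, A1]) (α β : Matrix n n Ω)
    (hα : α.trace = 0) (hβ : β.trace = 0) :
    ∃ D : Derivation O Ω Ω, ld D A0 = α ∧ ld D A1 = β := by
  obtain ⟨D, hD⟩ := hg ![α, β] (by
    intro v
    fin_cases v
    · exact hα
    · exact hβ)
  exact ⟨D, hD 0, hD 1⟩

theorem span_good0 (A0 A1 : SL n Ω) (hg : DGen O ![A0, A1]) : Good A0 :=
  good_of_gen (O := O) A0 fun α hα => by
    obtain ⟨D, h, -⟩ := span_dgen A0 A1 hg α 0 hα (Matrix.trace_zero _ _)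
    exact ⟨D, h⟩

theorem span_ld_mul {R : Type} [CommRing R] [Algebra O R] (D : Derivation O R R) {A B : SL n R}
    (hA : ld D A = 0) (hB : ld D B = 0) : ld D (A * B) = 0 := by
  rw [ld_mul, hA, hB, map_zero, add_zero]

theorem span_ld_inv {R : Type} [CommRing R] [Algebra O R] (D : Derivation O R R) {A : SL n R}
    (hA : ld D A = 0) : ld D A⁻¹ = 0 := by
  rw [ld_inv, hA, map_zero, neg_zero]

theorem span_ld_pow {R : Type} [CommRing R] [Algebra O R] (D : Derivation O R R) {A : SL n R}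
    (hA : ld D A = 0) (k : ℕ) : ld D (A ^ k) = 0 := by
  induction k with
  | zero => rw [pow_zero, ld_one]
  | succ k ih => rw [pow_succ]; exact span_ld_mul D ih hA

/-- `q A1 q'` is good when every derivation killing `A0` kills `q` and `q'` -/
theorem span_good1 (A0 A1 q q' : SL n Ω) (hg : DGen O ![A0, A1])
    (h : ∀ D : Derivation O Ω Ω, ld D A0 = 0 → ld D q = 0 ∧ ld D q' = 0) :
    Good (q * A1 * q') :=
  good_of_gen (O := O) _ (gen_conj A1 q q' fun α hα => by
    obtain ⟨D, h0, h1⟩ := span_dgen A0 A1 hg 0 α (Matrix.trace_zero _ _) hα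
    exact ⟨D, h1, h D h0⟩)

variable {R : Type} [CommRing R]

theorem span_conj_mul {P Q : Matrix n n R} (hQP : Q * P = 1) (X Y : Matrix n n R) :
    P * X * Q * (P * Y * Q) = P * (X * Y) * Q := by
  calc P * X * Q * (P * Y * Q) = P * X * (Q * P) * Y * Q := by simp only [Matrix.mul_assoc]
    _ = P * (X * Y) * Q := by rw [hQP, Matrix.mul_one, Matrix.mul_assoc P X Y]

theorem span_conj_pow {P Q : Matrix n n R} (hPQ : P * Q = 1) (hQP : Q * P = 1)
    (X : Matrix n n R) (k : ℕ) : (P * X * Q) ^ k = P * X ^ k * Q := by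
  induction k with
  | zero => rw [pow_zero, pow_zero, Matrix.mul_one, hPQ]
  | succ k ih => rw [pow_succ, ih, span_conj_mul hQP, pow_succ]

theorem span_conj_conj {P Q : Matrix n n R} (hPQ : P * Q = 1) (X : Matrix n n R) :
    P * (Q * X * P) * Q = X := by
  calc P * (Q * X * P) * Q = (P * Q) * X * (P * Q) := by simp only [Matrix.mul_assoc]
    _ = X := by rw [hPQ, Matrix.one_mul, Matrix.mul_one]

theorem span_conj_trace {P Q : Matrix n n R} (hQP : Q * P = 1) (X : Matrix n n R) :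
    (P * X * Q).trace = X.trace := by
  rw [Matrix.trace_mul_comm, ← Matrix.mul_assoc, hQP, Matrix.one_mul]

theorem span_conj_inv {P Q : Matrix n n R} (hPQ : P * Q = 1) (hQP : Q * P = 1) (A : SL n R)
    {X Y : Matrix n n R} (hA : A.1 = P * X * Q) (hXY : X * Y = 1) : (A⁻¹).1 = P * Y * Q := by
  have h : A.1 * (P * Y * Q) = 1 := by
    rw [hA, span_conj_mul hQP, hXY, Matrix.mul_one, hPQ]
  calc (A⁻¹).1 = (A⁻¹).1 * (A.1 * (P * Y * Q)) := by rw [h, Matrix.mul_one]
    _ = P * Y * Q := by rw [← Matrix.mul_assoc, inv_mul_val, Matrix.one_mul]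

theorem span_val_pow (A : SL n R) (k : ℕ) : (A ^ k).1 = A.1 ^ k :=
  Matrix.SpecialLinearGroup.coe_pow A k

theorem span_diag_pow (d : n → R) (k : ℕ) :
    Matrix.diagonal d ^ k = Matrix.diagonal fun i => d i ^ k := by
  rw [Matrix.diagonal_pow]
  rfl

theorem span_diag_inv (lam : n → Rˣ) : Matrix.diagonal (fun i => (lam i : R)) *
    Matrix.diagonal (fun i => (((lam i)⁻¹ : Rˣ) : R)) = 1 := by
  rw [Matrix.diagonal_mul_diagonal, ← Matrix.diagonal_one]
  congr 1
  funext i
  exact Units.mul_inv _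

/-- `tl0 (P X Q)` as a linear map of `X` -/
def spanL (P Q : Matrix n n R) : Matrix n n R →ₗ[R] Matrix n n R where
  toFun X := tl0 (P * X * Q)
  map_add' X Y := by
    simp only [tl0, Matrix.mul_add, Matrix.add_mul, Matrix.trace_add, smul_add, add_smul]
    abel
  map_smul' c X := by
    simp only [tl0, Matrix.mul_smul, Matrix.smul_mul, Matrix.trace_smul, RingHom.id_apply,
      smul_sub, smul_smul, smul_eq_mul, mul_comm c]

theorem spanL_apply (P Q X : Matrix n n R) : spanL P Q X = tl0 (P * X * Q) := rfl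

theorem span_tl0 {X : Matrix n n R} (hX : X.trace = 0) : tl0 X = (Fintype.card n : R) • X := by
  rw [tl0, hX, zero_smul, sub_zero]

theorem span_map_mem {ι E E' : Type} [AddCommGroup E] [Module R E] [AddCommGroup E']
    [Module R E'] (L : E →ₗ[R] E') (f : ι → E) (T : Submodule R E') (h : ∀ i, L (f i) ∈ T)
    {x : E} (hx : x ∈ Submodule.span R (Set.range f)) : L x ∈ T := by
  have h1 : Submodule.span R (Set.range f) ≤ T.comap L := by
    rw [Submodule.span_le]
    rintro _ ⟨i, rfl⟩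
    exact h i
  exact h1 hx

omit [DecidableEq n] [IsAlgClosed Ω] in
theorem span_of_card [Nonempty n] {E : Type} [AddCommGroup E] [Module Ω E] (T : Submodule Ω E)
    {x : E} (h : (Fintype.card n : Ω) • x ∈ T) : x ∈ T :=
  (T.smul_mem_iff (Nat.cast_ne_zero.2 Fintype.card_ne_zero)).1 h

theorem span_lin_base (C : Word K W) (J : K → SL n R) (y : W → SL n R) (A0 A1 : SL n R)
    (u : Fin 4 ⊕ W → Matrix n n R) (hu : ∀ w, u (.inr w) = 0) :
    Lin (sys C) J (base A0 A1 y) u =
      (Ad A0 (u (.inl 1)) - u (.inl 1)) + (Ad A1 (u (.inl 3)) - u (.inl 3)) := by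
  have h0 : (fun w => u (.inr w)) = 0 := funext hu
  have e0 : base A0 A1 y (.inl 0) = A0 := rfl
  have e1 : base A0 A1 y (.inl 1) = 1 := rfl
  have e2 : base A0 A1 y (.inl 2) = A1 := rfl
  have e3 : base A0 A1 y (.inl 3) = 1 := rfl
  rw [Lin_sys, h0, e0, e1, e2, e3]
  simp only [Lc, map_zero, mul_one, mul_inv_cancel, inv_one, Ad_one, add_zero]
  abel

theorem span_zs_base (A0 A1 : SL n R) (y : W → SL n R) :
    (fun v => TG.zs (base A0 A1 y v)) = base (TG.zs A0) (TG.zs A1) (fun w => TG.zs (y w)) := by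
  funext v
  rcases v with v | w
  · fin_cases v
    · rfl
    · exact map_one TG.zs
    · rfl
    · exact map_one TG.zs
  · rfl

end Aux

theorem frame (A0 A1 : SL n Ω) (hg : DGen O ![A0, A1]) :
    ∃ (P Q : Matrix n n Ω) (lam : n → Ωˣ) (M : SL n Ω), P * Q = 1 ∧ Q * P = 1 ∧
      A0.1 = P * Matrix.diagonal (fun i => (lam i : Ω)) * Q ∧
      (∀ m : n → ℤ, ∏ i, lam i ^ m i = 1 → ∀ i j, m i = m j) ∧ A1.1 = P * M.1 * Q ∧ Gen1 O M := by
  obtain ⟨P, Q, lam, hPQ, hQP, hA0, hlam, hD⟩ := good_frame (O := O) A0 (span_good0 A0 A1 hg)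
  have hdet : (Q * A1.1 * P).det = 1 := by
    have h := congrArg Matrix.det hQP
    rw [Matrix.det_mul, Matrix.det_one] at h
    rw [Matrix.det_mul, Matrix.det_mul, A1.2, mul_one, h]
  refine ⟨P, Q, lam, ⟨Q * A1.1 * P, hdet⟩, hPQ, hQP, hA0, hlam, (span_conj_conj hPQ _).symm, ?_⟩
  intro α hα
  obtain ⟨D, h0, h1⟩ := span_dgen A0 A1 hg 0 (P * α * Q) (Matrix.trace_zero _ _)
    (by rw [span_conj_trace hQP, hα])
  obtain ⟨hP, hQ⟩ := hD D h0
  refine ⟨D, ?_⟩
  set M : SL n Ω := ⟨Q * A1.1 * P, hdet⟩ with hM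
  have hM1 : M.1 = Q * A1.1 * P := rfl
  have h2 : M.1.map D = α * M.1 := by
    rw [hM1, map_der_mul, map_der_mul, hP, hQ, ← ld_mul_val, h1, Matrix.zero_mul, zero_add,
      Matrix.mul_zero, add_zero]
    calc Q * (P * α * Q * A1.1) * P = (Q * P) * α * (Q * A1.1 * P) := by
          simp only [Matrix.mul_assoc]
      _ = α * (Q * A1.1 * P) := by rw [hQP, Matrix.one_mul]
  rw [ld, h2, Matrix.mul_assoc, mul_inv_val, Matrix.mul_one]

theorem span_T1 [Nonempty n] (A0 A1 q : SL n Ω) (hg : DGen O ![A0, A1]) (ξ : Matrix n n Ω)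
    (hξ : ξ.trace = 0) : ξ ∈ Submodule.span Ω (Set.range fun p : ℕ × ℕ =>
      tl0 (q * (A0⁻¹ ^ p.1 * (A0⁻¹ ^ p.2 * A1 * A0 ^ p.2))).1) := by
  obtain ⟨P, Q, lam, M, hPQ, hQP, hA0, hlam, hA1, hM⟩ := frame A0 A1 hg
  have hinj : Function.Injective fun i => (lam i)⁻¹ := fun i j h =>
    inj_of_indep lam hlam (inv_injective h)
  have hk := k2 (fun i => (lam i)⁻¹) hinj M.1 (gen_entry_ne M hM)
  have hA0' := span_conj_inv hPQ hQP A0 hA0 (span_diag_inv lam)
  refine span_of_card (n := n) _ ?_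
  have hx : spanL (q.1 * P) Q (Q * ((q⁻¹).1 * ξ) * P) = (Fintype.card n : Ω) • ξ := by
    rw [spanL_apply, Matrix.mul_assoc q.1 P, Matrix.mul_assoc q.1, span_conj_conj hPQ,
      ← Matrix.mul_assoc, mul_inv_val, Matrix.one_mul, span_tl0 hξ]
  rw [← hx]
  refine span_map_mem _ _ _ ?_ (hk ▸ Submodule.mem_top)
  intro p
  refine Submodule.subset_span ⟨p, ?_⟩
  simp only [spanL_apply, val_mul, span_val_pow, inv_inv]
  rw [hA0', hA0, hA1, span_conj_pow hPQ hQP, span_conj_pow hPQ hQP, span_conj_pow hPQ hQP,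
    span_conj_mul hQP, span_conj_mul hQP, span_conj_mul hQP, span_diag_pow, span_diag_pow,
    span_diag_pow]
  simp only [Matrix.mul_assoc]

theorem span_T2 [Nonempty n] (A0 A1 : SL n Ω) (hg : DGen O ![A0, A1]) (β X : Matrix n n Ω)
    (hβ : β.trace = 0) (h : Ad A1 β - β = X - Ad A0 X) :
    β ∈ Submodule.span Ω (Set.range fun p : ℕ × ℕ => tl0 ((A0⁻¹ ^ p.1 * A1) ^ p.2).1) := by
  obtain ⟨P, Q, lam, M, hPQ, hQP, hA0, hlam, hA1, hM⟩ := frame A0 A1 hg
  have hA0' := span_conj_inv hPQ hQP A0 hA0 (span_diag_inv lam)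
  have hA1' := span_conj_inv hPQ hQP A1 hA1 (mul_inv_val M)
  have hmu : ∀ m : n → ℤ, ∏ i, (lam i)⁻¹ ^ m i = 1 → ∀ i j, m i = m j := by
    intro m hm i j
    have h1 := hlam (fun i => -m i) (by simpa only [zpow_neg, inv_zpow] using hm) i j
    exact neg_injective h1
  have hdiag : ∀ i, (M.1 * (Q * β * P) * (M⁻¹).1) i i = (Q * β * P) i i := by
    intro i
    have e1 : Ad A1 β = P * (M.1 * (Q * β * P) * (M⁻¹).1) * Q := by
      rw [Ad_apply, hA1', hA1, ← span_conj_mul hQP, ← span_conj_mul hQP, span_conj_conj hPQ]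
    have e2 : Ad A0 X = P * (Matrix.diagonal (fun i => (lam i : Ω)) * (Q * X * P) *
        Matrix.diagonal (fun i => (((lam i)⁻¹ : Ωˣ) : Ω))) * Q := by
      rw [Ad_apply, hA0', hA0, ← span_conj_mul hQP, ← span_conj_mul hQP, span_conj_conj hPQ]
    have e3 := congrArg (fun Y => (Q * Y * P) i i) h
    simp only [Matrix.mul_sub, Matrix.sub_mul, Matrix.sub_apply] at e3
    rw [e1, e2, span_conj_conj hQP, span_conj_conj hQP, Matrix.mul_diagonal,
      Matrix.diagonal_mul, mul_right_comm, Units.mul_inv, one_mul, sub_self] at e3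
    exact sub_eq_zero.1 e3
  have hk := k1 (fun i => (lam i)⁻¹) hmu M.1 (M⁻¹).1 (mul_inv_val M) (inv_mul_val M)
    (gen_entry_ne M hM) (gen_tau_ne M hM) (Q * β * P) hdiag
  refine span_of_card (n := n) _ ?_
  have hx : spanL P Q (Q * β * P) = (Fintype.card n : Ω) • β := by
    rw [spanL_apply, span_conj_conj hPQ, span_tl0 hβ]
  rw [← hx]
  refine span_map_mem _ _ _ ?_ hk
  intro p
  refine Submodule.subset_span ⟨p, ?_⟩
  simp only [spanL_apply, val_mul, span_val_pow]
  rw [hA0', hA1, span_conj_pow hPQ hQP, span_conj_mul hQP, span_conj_pow hPQ hQP, span_diag_pow]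

theorem span_full [Nonempty n] (C : Word K W) (J : K → SL n O) (y : W → SL n O)
    (hRT : RT C J y Ω) (A0 A1 : SL n Ω) (hg : DGen O ![A0, A1])
    (S : Submodule Ω (Fin 4 ⊕ W → Matrix n n Ω))
    (hS : S ≤ Z1 (sys C) (cJ J Ω) (base A0 A1 (cJ y Ω)))
    (hD : ∀ D : Derivation O Ω Ω, (fun v => ld D (base A0 A1 (cJ y Ω) v)) ∈ S)
    (hT : ∀ (t : Tw (sys C)) (k : ℕ), Good (t.γ.ev (cJ J Ω) (base A0 A1 (cJ y Ω))) →
      t.tv (cJ J Ω) (base A0 A1 (cJ y Ω))
        (tl0 ((t.γ.ev (cJ J Ω) (base A0 A1 (cJ y Ω))) ^ k).1) ∈ S) :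
    Z1 (sys C) (cJ J Ω) (base A0 A1 (cJ y Ω)) ≤ S := by
  -- step 4: only the components at `a0`, `a1`
  have st4 : ∀ u ∈ Z1 (sys C) (cJ J Ω) (base A0 A1 (cJ y Ω)), (∀ w, u (.inr w) = 0) →
      u (.inl 3) = 0 → u (.inl 1) = 0 → u ∈ S := by
    intro u hu hw h3 h1
    obtain ⟨D, e0, e2⟩ := span_dgen A0 A1 hg (u (.inl 0)) (u (.inl 2)) ((mem_Z1.1 hu).1 _)
      ((mem_Z1.1 hu).1 _)
    have e : u = fun v => ld D (base A0 A1 (cJ y Ω) v) := by
      funext v
      rcases v with v | w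
      · fin_cases v
        · exact e0.symm
        · exact h1.trans (ld_one D).symm
        · exact e2.symm
        · exact h3.trans (ld_one D).symm
      · exact (hw w).trans (ld_cJ D y w).symm
    rw [e]
    exact hD D
  -- step 3: kill the component at `b0`
  have st3 : ∀ u ∈ Z1 (sys C) (cJ J Ω) (base A0 A1 (cJ y Ω)), (∀ w, u (.inr w) = 0) →
      u (.inl 3) = 0 → u ∈ S := by
    intro u hu hw h3
    have hl := (mem_Z1.1 hu).2
    rw [span_lin_base _ _ _ _ _ u hw, h3, map_zero, sub_self, add_zero, sub_eq_zero,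
      Ad_eq_self_iff] at hl
    have hc := good_centralizer A0 (span_good0 A0 A1 hg) _ hl
    let T : Submodule Ω (Matrix n n Ω) :=
      (S ⊓ Submodule.pi {v | v ≠ .inl 1} fun _ => ⊥).map (LinearMap.proj (.inl 1))
    obtain ⟨t, ht⟩ := exists_twB0 C
    have hmem : u (.inl 1) ∈ T := by
      refine span_of_card (n := n) T ?_
      rw [← span_tl0 ((mem_Z1.1 hu).1 _), ← Matrix.one_mul (u (.inl 1)),
        ← Matrix.mul_one (1 * u (.inl 1)), ← spanL_apply]
      refine span_map_mem _ _ T (fun k => ?_) hc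
      have hγ : t.γ.ev (cJ J Ω) (base A0 A1 (cJ y Ω)) = A0 := (ht _ _).1
      have h1 := hT t k (by rw [hγ]; exact span_good0 A0 A1 hg)
      rw [hγ] at h1
      refine ⟨_, ⟨h1, fun v hv => ?_⟩, ?_⟩
      · exact congrArg TG.u (((ht _ _).2 _).2 v hv)
      · rw [spanL_apply, Matrix.one_mul, Matrix.mul_one]
        refine (congrArg TG.u ((ht _ _).2 _).1).trans ?_
        have e1 : base A0 A1 (cJ y Ω) (.inl 1) = 1 := rfl
        rw [TG.mul_u, TG.zs_u, TG.zs_a, e1, Ad_one, zero_add]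
    obtain ⟨s, ⟨hs, hs0⟩, hs1⟩ := hmem
    have hs1' : s (.inl 1) = u (.inl 1) := hs1
    have hs0' : ∀ v, v ≠ .inl 1 → s v = 0 := fun v hv => hs0 v hv
    have h := st4 (u - s) (sub_mem hu (hS hs))
      (fun w => by rw [Pi.sub_apply, hw, hs0' _ (by simp), sub_zero])
      (by rw [Pi.sub_apply, h3, hs0' _ (by simp), sub_zero])
      (by rw [Pi.sub_apply, hs1', sub_self])
    simpa using add_mem h hs
  -- step 2: kill the component at `b1`
  have st2 : ∀ u ∈ Z1 (sys C) (cJ J Ω) (base A0 A1 (cJ y Ω)), (∀ w, u (.inr w) = 0) →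
      u ∈ S := by
    intro u hu hw
    have hl := (mem_Z1.1 hu).2
    rw [span_lin_base _ _ _ _ _ u hw] at hl
    have hc := span_T2 A0 A1 hg (u (.inl 3)) (u (.inl 1)) ((mem_Z1.1 hu).1 _)
      (by rw [← neg_sub (Ad A0 _)]; exact eq_neg_of_add_eq_zero_right hl)
    let T : Submodule Ω (Matrix n n Ω) :=
      (S ⊓ Submodule.pi (Set.range Sum.inr) fun _ => ⊥).map (LinearMap.proj (.inl 3))
    have hmem : u (.inl 3) ∈ T := by
      refine span_map_mem LinearMap.id _ T (fun p => ?_) hc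
      obtain ⟨t, ht⟩ := exists_twA1 C p.1
      have hγ : t.γ.ev (cJ J Ω) (base A0 A1 (cJ y Ω)) = A0⁻¹ ^ p.1 * A1 := (ht _ _ _ _).1
      have hgood : Good (A0⁻¹ ^ p.1 * A1) := by
        have h1 := span_good1 A0 A1 (A0⁻¹ ^ p.1) 1 hg fun D h0 =>
          ⟨span_ld_pow D (span_ld_inv D h0) _, ld_one D⟩
        rwa [mul_one] at h1
      have h1 := hT t p.2 (by rw [hγ]; exact hgood)
      rw [hγ] at h1
      refine ⟨_, ⟨h1, ?_⟩, ?_⟩
      · rintro _ ⟨w, rfl⟩
        refine (Submodule.mem_bot Ω).2 ?_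
        rw [Tw.tv, span_zs_base]
        exact congrArg TG.u (((ht _ _ _ _).2 _).2 w)
      · rw [LinearMap.proj_apply, LinearMap.id_apply, Tw.tv, span_zs_base]
        exact congrArg TG.u ((ht _ _ _ _).2 _).1
    obtain ⟨s, ⟨hs, hs0⟩, hs1⟩ := hmem
    have hs1' : s (.inl 3) = u (.inl 3) := hs1
    have hs0' : ∀ w, s (.inr w) = 0 := fun w => hs0 _ ⟨w, rfl⟩
    have h := st3 (u - s) (sub_mem hu (hS hs))
      (fun w => by rw [Pi.sub_apply, hw, hs0', sub_zero])
      (by rw [Pi.sub_apply, hs1', sub_self])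
    simpa using add_mem h hs
  -- step 1: kill the further components
  intro u hu
  have hR := hRT (S.map (LinearMap.funLeft Ω (Matrix n n Ω) Sum.inr)) (by
    intro t q lam hPr ξ hξ
    refine span_map_mem lam _ _ (fun p => ?_) (span_T1 A0 A1 (smap (algebraMap O Ω) q) hg ξ hξ)
    obtain ⟨t', ht'⟩ := hPr.iter p.1 p.2
    obtain ⟨hγ, htv⟩ := ht' A0 A1
    have hgood : Good (smap (algebraMap O Ω) q *
        (A0⁻¹ ^ p.1 * (A0⁻¹ ^ p.2 * A1 * A0 ^ p.2))) := by
      have h1 := span_good1 A0 A1 (smap (algebraMap O Ω) q * (A0⁻¹ ^ p.1 * A0⁻¹ ^ p.2))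
        (A0 ^ p.2) hg fun D h0 =>
          ⟨span_ld_mul D (ld_const D q) (span_ld_mul D (span_ld_pow D (span_ld_inv D h0) _)
            (span_ld_pow D (span_ld_inv D h0) _)), span_ld_pow D h0 _⟩
      simpa only [mul_assoc] using h1
    have h1 := hT t' 1 (by rw [hγ]; exact hgood)
    rw [hγ, pow_one] at h1
    exact ⟨_, h1, funext fun w => htv _ w⟩)
  obtain ⟨s, hs, hs1⟩ := hR (x := fun w => u (.inr w)) (mem_slV.2 fun w => (mem_Z1.1 hu).1 _)
  have h := st2 (u - s) (sub_mem hu (hS hs)) fun w => by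
    have e : s (.inr w) = u (.inr w) := congrFun hs1 w
    rw [Pi.sub_apply, e, sub_self]
  simpa using add_mem h hs

theorem sm_base [Nonempty n] (C : Word K W) (J : K → SL n Ω) (y : W → SL n Ω) (A0 A1 : SL n Ω)
    (hg : DGen O ![A0, A1]) : Sm (sys C) J (base A0 A1 y) := by
  obtain ⟨P, Q, lam, M, hPQ, hQP, hA0, hlam, hA1, hM⟩ := frame A0 A1 hg
  have key := sl_le_of_ann ((slV (Fin 4 ⊕ W) n Ω).map (Lin (sys C) J (base A0 A1 y))) (by
    rintro _ ⟨u, hu, rfl⟩
    exact trace_Lin _ _ _ u (mem_slV.1 hu)) (by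
    intro ζ hζ hann
    have hcomm : ∀ A : SL n Ω, (∀ β : Matrix n n Ω, β.trace = 0 →
        (ζ * (Ad A β - β)).trace = 0) → A.1 * ζ = ζ * A.1 := by
      intro A hA
      have h1 := scalar_of_ann (Ad A⁻¹ ζ - ζ) (by rw [Matrix.trace_sub, trace_Ad, sub_self])
        fun β hβ => by
          have h2 := hA β hβ
          rwa [Matrix.mul_sub, Matrix.trace_sub, trace_mul_Ad, ← Matrix.trace_sub,
            ← Matrix.sub_mul] at h2
      rw [sub_eq_zero] at h1
      rw [← Ad_eq_self_iff]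
      conv_lhs => rw [← h1]
      exact Ad_Ad_inv A ζ
    have c0 := hcomm A0 fun β hβ => hann _ ⟨Sum.elim ![0, β, 0, 0] 0, mem_slV.2 (by
      rintro (v | w)
      · fin_cases v
        · exact Matrix.trace_zero _ _
        · exact hβ
        · exact Matrix.trace_zero _ _
        · exact Matrix.trace_zero _ _
      · exact Matrix.trace_zero _ _), by
      rw [span_lin_base _ _ _ _ _ _ fun _ => rfl]
      change Ad A0 β - β + (Ad A1 0 - 0) = _
      rw [map_zero, sub_self, add_zero]⟩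
    have c1 := hcomm A1 fun β hβ => hann _ ⟨Sum.elim ![0, 0, 0, β] 0, mem_slV.2 (by
      rintro (v | w)
      · fin_cases v
        · exact Matrix.trace_zero _ _
        · exact Matrix.trace_zero _ _
        · exact Matrix.trace_zero _ _
        · exact hβ
      · exact Matrix.trace_zero _ _), by
      rw [span_lin_base _ _ _ _ _ _ fun _ => rfl]
      change Ad A0 0 - 0 + (Ad A1 β - β) = _
      rw [map_zero, sub_self, zero_add]⟩
    have fr : ∀ X : Matrix n n Ω, P * X * Q * ζ = ζ * (P * X * Q) →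
        X * (Q * ζ * P) = Q * ζ * P * X := by
      intro X hX
      rw [← span_conj_conj hPQ ζ, span_conj_mul hQP, span_conj_mul hQP] at hX
      have h1 := congrArg (fun Y => Q * Y * P) hX
      simpa only [span_conj_conj hQP] using h1
    rw [hA0] at c0
    rw [hA1] at c1
    have d0 := comm_diag _ (fun i j h => inj_of_indep lam hlam (Units.ext h)) _ (fr _ c0)
    have d1 := fr _ c1
    have htr : (Q * ζ * P).trace = 0 := by rw [span_conj_trace hPQ, hζ]
    set Z := Q * ζ * P with hZ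
    have hcst : ∀ i j, Z i i = Z j j := by
      intro i j
      have h1 := congrFun (congrFun d1 i) j
      rw [d0, Matrix.mul_diagonal, Matrix.diagonal_mul, mul_comm] at h1
      exact (mul_right_cancel₀ (gen_entry_ne M hM i j) h1).symm
    have hz : ∀ i, Z i i = 0 := by
      intro i
      have h1 : Z.trace = (Fintype.card n : Ω) * Z i i := by
        rw [Matrix.trace, Finset.sum_congr rfl fun j _ => (show Z.diag j = Z i i from hcst j i),
          Finset.sum_const, Finset.card_univ, nsmul_eq_mul]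
      rw [htr] at h1
      exact (mul_eq_zero.1 h1.symm).resolve_left (Nat.cast_ne_zero.2 Fintype.card_ne_zero)
    have hZ0 : Z = 0 := by
      rw [d0]
      simp only [hz, Matrix.diagonal_zero]
    rw [← span_conj_conj hPQ ζ, ← hZ, hZ0, Matrix.mul_zero, Matrix.zero_mul])
  intro Y hY
  obtain ⟨u, hu, e⟩ := key (x := Y) hY
  exact ⟨u, mem_slV.1 hu, e⟩

end Vale.Agent.P002
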