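import Vale.Agent.P002.Uniq
import Vale.Agent.P002.Smooth
import Vale.Agent.P002.Datum
import Vale.Agent.P002.Span

/-! P002: smooth points lie in the closure of the integral points. -/

namespace Vale.Agent.P002

variable {n : Type} [Fintype n] [DecidableEq n] [Nonempty n] {K W O : Type} [Fintype W]
  [CommRing O] [IsDomain O] [CharZero O] [Countable O] [Algebra O ℂ] [FaithfulSMul O ℂ]

theorem big_of_hom {R : Type} [CommRing R] [IsDomain R] [Uncountable R] [Algebra O R] {Ω : Type}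
    [Field Ω] [CharZero Ω] [Algebra O Ω] [FaithfulSMul O Ω] (θ : R →ₐ[O] Ω) :
    ∃ (B : BigField O) (ι : R →ₐ[O] B.Ω), Function.Injective ι := by
  have : CharZero R := (θ : R →+* Ω).charZero
  have : FaithfulSMul O R := (faithfulSMul_iff_algebraMap_injective O R).2 fun a b h => by
    apply FaithfulSMul.algebraMap_injective O Ω
    rw [← θ.commutes, ← θ.commutes, h]
  exact exists_big

theorem exists_full (C : Word K W) (J : K → SL n O) (y : W → SL n O) (hy : C.ev J y = 1)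
    (hRT : ∀ B : BigField O, RT C J y B.Ω) :
    ∃ (B : BigField O) (ρ : Fin 4 ⊕ W → SL n B.Ω), ρ ∈ WW (sys C) J B.Ω ∧ Full (sys C) J ρ := by
  obtain ⟨B, x, hx⟩ := generic_sl (n := n) (O := O) (Fin 2)
  have hg : DGen O ![x 0, x 1] := by
    have : ![x 0, x 1] = x := by funext i; fin_cases i <;> rfl
    rwa [this]
  obtain ⟨d, h1, h2⟩ := Datum.exists_max (WW_base C J y hy (x 0) (x 1))
  have h3 := span_full C J y (hRT B) (x 0) (x 1) hg d.Sp d.Sp_le h1 h2
  obtain ⟨B', ι, hι⟩ := big_of_hom d.θ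
  refine ⟨B', pm ι d.ρ, WW_pm ι d.hW, full_of_lift _ J d.θ ι hι d.ρ (WW_sub_XX d.hW) ?_ ?_⟩
  · rw [d.hθ]; exact sm_base C _ _ _ _ hg
  · rw [d.hθ]; exact h3

theorem core (C : Word K W) (J : K → SL n O) (y : W → SL n O) (hy : C.ev J y = 1)
    (hRT : ∀ B : BigField O, RT C J y B.Ω) (ρ0 : Fin 4 ⊕ W → SL n ℂ)
    (h : ρ0 ∈ XX (sys C) J ℂ) (hsm : Sm (sys C) (cJ J ℂ) ρ0) : ρ0 ∈ WW (sys C) J ℂ := by
  obtain ⟨B, ρt, ht, htF⟩ := exists_full C J y hy hRT
  obtain ⟨R, _, _, _, _, θ, ρ, hρ, hθ, hD⟩ := smooth_lift (sys C) J ρ0 h hsm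
  obtain ⟨B', ι, hι⟩ := big_of_hom θ
  have hF : Full (sys C) J (pm ι ρ) := by
    refine full_of_lift _ J θ ι hι ρ hρ (by rwa [hθ]) ?_
    rw [hθ]
    exact fun u hu => Submodule.subset_span (hD u hu)
  rw [← hθ]
  exact WW_pm θ (WW_of_inj ι hι (core1 B B' ht htF (XX_pm ι hρ) hF))

end Vale.Agent.P002
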