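import Vale.Agent.P002.Irr

/-! P002: the induction on the rank and the translation to the final form. -/

namespace Vale.Agent.P002

open Matrix NumberField

theorem qq_all {O : Type} [CommRing O] [IsDomain O] [CharZero O] [Countable O] [Algebra O ℂ]
    [FaithfulSMul O ℂ] {g s N R : ℕ} (hO : OK O s N R) (hg : s = 0 ∨ 3 ≤ g) :
    ∀ r, r ≤ R → QQ g s N O r := by
  intro r
  induction r using Nat.strong_induction_on with
  | _ r ih =>
    intro hr p hp hs hq f hf h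
    by_cases hi : Irr (raw p)
    · exact irr_case hO hr hg p hp hi hq f h
    · exact red_case hO hr (fun r' h' => ih r' h' (by omega)) p hp hs hi hq f hf h

theorem exists_N {s r : ℕ} (c : Fin s → SL (Fin r) ℂ)
    (hc : ∀ k x, (c k).1.charpoly.IsRoot x → ∃ m, 0 < m ∧ x ^ m = 1) :
    ∃ N, 0 < N ∧ ∀ k x, (c k).1.charpoly.IsRoot x → x ^ N = 1 := by
  classical
  have key : ∀ T : Finset ℂ, (∀ x ∈ T, ∃ m, 0 < m ∧ x ^ m = 1) →
      ∃ N, 0 < N ∧ ∀ x ∈ T, x ^ N = 1 := by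
    intro T
    induction T using Finset.induction_on with
    | empty => exact fun _ => ⟨1, one_pos, by simp⟩
    | insert a T _ ih =>
      intro h
      obtain ⟨N, hN, h1⟩ := ih fun x hx => h x (Finset.mem_insert_of_mem hx)
      obtain ⟨m, hm, h2⟩ := h a (Finset.mem_insert_self _ _)
      refine ⟨m * N, Nat.mul_pos hm hN, fun x hx => ?_⟩
      rcases Finset.mem_insert.1 hx with rfl | hx
      · rw [pow_mul, h2, one_pow]
      · rw [mul_comm, pow_mul, h1 x hx, one_pow]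
  have hm : ∀ k x, x ∈ (c k).1.charpoly.roots.toFinset ↔ (c k).1.charpoly.IsRoot x := fun k x => by
    rw [Multiset.mem_toFinset, Polynomial.mem_roots (Matrix.charpoly_monic _).ne_zero]
  obtain ⟨N, hN, h⟩ := key (Finset.univ.biUnion fun k => (c k).1.charpoly.roots.toFinset) (by
    intro x hx
    obtain ⟨k, -, hk⟩ := Finset.mem_biUnion.1 hx
    exact hc k x ((hm k x).1 hk))
  exact ⟨N, hN, fun k x hx => h x (Finset.mem_biUnion.2 ⟨k, Finset.mem_univ _, (hm k x).2 hx⟩)⟩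

/-- from families in `SL` to tuples -/
def toTup {g s r : ℕ} {R : Type} [CommRing R] (ρ : Gen g s → SL (Fin r) R) :
    Tup (Fin g) (Fin s) (Fin r) R := (fun v => ρ (.inl v), fun k => (ρ (.inr k)).1)

theorem raw_toTup {g s r : ℕ} {R : Type} [CommRing R] (ρ : Gen g s → SL (Fin r) R) :
    raw (toTup ρ) = fun v => (ρ v).1 := by
  funext v; rcases v with v | k <;> rfl

theorem toTup_mem {g s r : ℕ} {R : Type} [CommRing R] (ρ : Gen g s → SL (Fin r) R) :
    toTup ρ ∈ RepG g s (Fin r) R ↔ ρ ∈ Rep g s r R := by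
  have e : (hprod (toTup ρ).1).1 * (List.ofFn (toTup ρ).2).prod =
      (hprod (toTup ρ).1 * (List.ofFn fun k => ρ (.inr k)).prod).1 := by
    rw [val_mul, val_list_prod]; rfl
  constructor
  · intro h
    exact Subtype.ext (e.symm.trans h)
  · intro h
    exact e.trans (congrArg Subtype.val h)

theorem exists_toTup {g s r : ℕ} {R : Type} [CommRing R] (p : Tup (Fin g) (Fin s) (Fin r) R)
    (h : ∀ k, (p.2 k).det = 1) : ∃ ρ : Gen g s → SL (Fin r) R, toTup ρ = p :=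
  ⟨Sum.elim p.1 fun k => ⟨p.2 k, h k⟩, rfl⟩

theorem final (g s r : ℕ) (hg : s = 0 ∨ 3 ≤ g) (c : Fin s → SpecialLinearGroup (Fin r) ℂ)
    (hc : ∀ k x, (c k).1.charpoly.IsRoot x → ∃ m, 0 < m ∧ x ^ m = 1) :
    ∃ L : IntermediateField ℚ ℂ, FiniteDimensional ℚ L ∧
      ∀ f : MvPolynomial (Gen g s × Fin r × Fin r) ℂ,
        (∀ ρ ∈ Rep g s r ℂ, ∀ P : SpecialLinearGroup (Fin r) ℂ,
          val f (fun v => (P * ρ v * P⁻¹).1) = val f (fun v => (ρ v).1)) →
        (∀ ρ ∈ Rep g s r (𝓞 L),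
          (fun v => SpecialLinearGroup.map (algebraMap (𝓞 L) ℂ) (ρ v)) ∈ YY g s r c →
          val f (fun v => (SpecialLinearGroup.map (algebraMap (𝓞 L) ℂ) (ρ v)).1) = 0) →
        ∀ ρ ∈ YY g s r c, val f (fun v => (ρ v).1) = 0 := by
  obtain ⟨N, hN, hcN⟩ := exists_N c hc
  obtain ⟨L, hL, hO, hcount, hfaith⟩ := exists_OK s N r hN
  refine ⟨L, hL, fun f hf h ρ hρ => ?_⟩
  obtain ⟨hρ1, hρ2, hρ3⟩ := hρ
  have hconj : ∀ k, ∃ P : SL (Fin r) ℂ, ρ (.inr k) = P * c k * P⁻¹ := fun k => by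
    obtain ⟨P, hP⟩ := isConj_iff.1 (hρ3 k)
    exact ⟨P, hP.symm⟩
  rw [← raw_toTup]
  refine qq_all hO hg r le_rfl (toTup ρ) ((toTup_mem ρ).2 hρ1) (by rwa [raw_toTup]) ?_ f ?_ ?_
  · intro k x hx
    obtain ⟨P, hP⟩ := hconj k
    have e : (toTup ρ).2 k = Ad P (c k).1 := congrArg Subtype.val hP
    rw [e, charpoly_Ad'] at hx
    exact hcN k x hx
  · intro p hp hd P
    obtain ⟨ρ', rfl⟩ := exists_toTup p fun k => (hd k).trans (ρ (.inr k)).2
    rw [raw_toTup]
    exact hf ρ' ((toTup_mem ρ').1 hp) P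
  · rintro M ⟨⟨p, hp, rfl⟩, hs, hcl⟩
    obtain ⟨ρ', rfl⟩ := exists_toTup p fun k => by
      obtain ⟨P, hP⟩ := hcl k
      have e := congrArg Matrix.det hP
      rw [det_Ad'] at e
      have e2 : ((raw p (.inr k)).map (algebraMap (𝓞 L) ℂ)).det = 1 := e.trans (ρ (.inr k)).2
      apply FaithfulSMul.algebraMap_injective (𝓞 L) ℂ
      rw [RingHom.map_det, map_one]
      exact e2
    rw [raw_toTup] at hs hcl ⊢
    have hrep := (toTup_mem ρ').1 hp
    refine h ρ' hrep ⟨?_, hs, fun k => ?_⟩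
    · have := congrArg (smap (algebraMap (𝓞 L) ℂ)) hrep
      simpa only [Rep, Set.mem_setOf_eq, map_mul, map_list_prod, List.map_ofFn, Function.comp_def,
        map_inv, map_one] using this
    · obtain ⟨P, hP⟩ := hcl k
      obtain ⟨P', hP'⟩ := hconj k
      refine isConj_iff.2 ⟨P * P', Subtype.ext ?_⟩
      have e : (toTup ρ).2 k = Ad P' (c k).1 := congrArg Subtype.val hP'
      rw [e, ← Ad_mul] at hP
      exact hP.symm

end Vale.Agent.P002
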