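import Mathlib

/-! P002, task Jordan: Jordan normal form.

* `jordan_tri`: `V = Module.AEval' (Matrix.toLin' M)` is a finite torsion `F[X]`-module
  (Cayley-Hamilton / `Module.AEval.isTorsion_of_finiteDimensional`), so
  `Module.equiv_directSum_of_isTorsion` gives `V ≃ ⨁ i, F[X] ⧸ (p i ^ e i)`; `p i` is associated to
  `X - C (μ i)` (`IsAlgClosed.degree_eq_one_of_irreducible`). In each summand the classes of
  `(X - C μ) ^ (e - 1 - j)`, `j < e`, form an `F`-basis (for example `AdjoinRoot.powerBasis'` of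
  `X ^ e` composed with the Taylor shift, or a direct argument) on which `X` acts by an upper
  triangular matrix with diagonal `μ` and off-diagonal entries `0`, `1`. Index by
  `Σ i : Fin m, Fin (e i)` ordered by `finSigmaFinEquiv` (`finSigmaFinEquiv_apply`), cast to
  `Fin r` with the dimension count. The diagonal entries are roots of the characteristic
  polynomial since `M` and `T` are similar (`Matrix.charpoly_of_upperTriangular`).
  Any other proof is fine (for example induction on the dimension).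
* `jordan_der`: reindex by `Fintype.equivFin`, `η = P T Q`, `D` kills all entries of `T`, and
  `P Q = 1` gives `P * D Q = - D P * Q`; take `ν = D P * Q`.
* `exists_eig`: `IsAlgClosed.splits`, `Polynomial.Splits.eq_prod_roots_of_monic`,
  the roots form a multiset of cardinality `card n`; enumerate it. -/

namespace Vale.Agent.P002

open Polynomial

theorem jordan_set {F V : Type} [Field F] [IsAlgClosed F] [AddCommGroup V] [Module F V]
    [FiniteDimensional F V] (f : V →ₗ[F] V) (d : ℕ) :
    ∀ W : Submodule F V, Module.finrank F W ≤ d → (∀ x ∈ W, f x ∈ W) →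
      ∃ (B : Set V) (μ : V → F) (rk : V → ℕ), LinearIndepOn F id B ∧ Submodule.span F B = W ∧
        ∀ b ∈ B, rk b < d ∧ (f b = μ b • b ∨ ∃ c ∈ B, rk c < rk b ∧ f b = μ b • b + c) := by
  classical
  induction d with
  | zero =>
    intro W hW _
    exact ⟨∅, 0, 0, linearIndepOn_empty F id, by
      rw [Submodule.span_empty, Submodule.finrank_eq_zero.1 (Nat.le_zero.1 hW)], by simp⟩
  | succ d ih =>
    intro W hW hf
    by_cases h0 : W = ⊥
    · exact ⟨∅, 0, 0, linearIndepOn_empty F id, by rw [Submodule.span_empty, h0], by simp⟩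
    have : Nontrivial W := Submodule.nontrivial_iff_ne_bot.2 h0
    obtain ⟨l, hl⟩ := Module.End.exists_eigenvalue (f.restrict hf)
    obtain ⟨v, hv⟩ := hl.exists_hasEigenvector
    obtain ⟨N, hN⟩ : ∃ N : V →ₗ[F] V, ∀ x, N x = f x - l • x :=
      ⟨f - l • LinearMap.id, fun _ => rfl⟩
    have hNW : W.map N ≤ W := by
      rintro _ ⟨x, hx, rfl⟩
      rw [hN]
      exact W.sub_mem (hf x hx) (W.smul_mem l hx)
    have hlt : Module.finrank F (W.map N) ≤ d := by
      have h1 := (N.domRestrict W).finrank_range_add_finrank_ker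
      rw [LinearMap.range_domRestrict] at h1
      have h2 : LinearMap.ker (N.domRestrict W) ≠ ⊥ := (Submodule.ne_bot_iff _).2 ⟨v, by
        have : f v = l • (v : V) := congrArg Subtype.val hv.apply_eq_smul
        change N v = 0
        rw [hN, this, sub_self], hv.2⟩
      have h3 := mt Submodule.finrank_eq_zero.1 h2
      omega
    obtain ⟨B, μ, rk, h1, h2, h3⟩ := ih (W.map N) hlt (by
      rintro _ ⟨x, hx, rfl⟩
      exact ⟨f x, hf x hx, by simp [hN]⟩)
    have hBW : B ⊆ W := fun b hb => hNW (h2 ▸ Submodule.subset_span hb)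
    obtain ⟨C, hC1, hC2, hC3, hC4⟩ := exists_linearIndepOn_id_extension h1
      (Set.subset_union_left (t := {x | x ∈ W ∧ (N x = 0 ∨ N x ∈ B)}))
    refine ⟨C, fun x => if x ∈ B then μ x else l, fun x => if x ∈ B then rk x else d, hC4,
      le_antisymm (Submodule.span_le.2 fun x hx => (hC1 hx).elim (@hBW x) fun h => h.1)
        fun x hx => ?_, fun b hb => ?_⟩
    · have h4 : W.map N ≤ (W ⊓ Submodule.span F C).map N := by
        rw [← h2, Submodule.span_le]
        intro b hb
        obtain ⟨y, hy, rfl⟩ : b ∈ W.map N := h2 ▸ Submodule.subset_span hb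
        exact ⟨y, ⟨hy, hC3 (.inr ⟨hy, .inr hb⟩)⟩, rfl⟩
      obtain ⟨y, hy, e⟩ := h4 ⟨x, hx, rfl⟩
      have h5 : x - y ∈ Submodule.span F C :=
        hC3 (.inr ⟨W.sub_mem hx hy.1, .inl (by rw [map_sub, e, sub_self])⟩)
      simpa using Submodule.add_mem _ h5 hy.2
    · by_cases h : b ∈ B
      · obtain ⟨h4, h5⟩ := h3 b h
        simp only [if_pos h]
        refine ⟨h4.trans d.lt_succ_self, h5.imp id ?_⟩
        rintro ⟨c, hc, h6, h7⟩
        exact ⟨c, hC2 hc, by rwa [if_pos hc], h7⟩
      · simp only [if_neg h]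
        refine ⟨d.lt_succ_self, ((hC1 hb).resolve_left h).2.imp (fun h4 => ?_) fun h4 => ?_⟩
        · rwa [hN, sub_eq_zero] at h4
        · exact ⟨N b, hC2 h4, by rw [if_pos h4]; exact (h3 _ h4).1, by rw [hN]; abel⟩

theorem jordan_tri {F : Type} [Field F] [IsAlgClosed F] {r : ℕ} (M : Matrix (Fin r) (Fin r) F) :
    ∃ P Q T : Matrix (Fin r) (Fin r) F, P * Q = 1 ∧ Q * P = 1 ∧ M = P * T * Q ∧
      (∀ i j, j < i → T i j = 0) ∧ (∀ i, M.charpoly.IsRoot (T i i)) ∧
      ∀ i j, i ≠ j → T i j = 0 ∨ T i j = 1 := by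
  classical
  obtain ⟨B, μ, rk, h1, h2, h3⟩ := jordan_set (Matrix.toLin' M) _ ⊤ le_rfl fun _ _ => trivial
  have h1' : LinearIndependent F (fun x : B => (x : Fin r → F)) := h1
  let b0 : Module.Basis B F (Fin r → F) := Module.Basis.mk h1' (by simp [h2])
  have := h1'.finite
  have := Fintype.ofFinite B
  have hc : Fintype.card B = r := by rw [← Module.finrank_eq_card_basis b0]; simp
  let e0 := (Fintype.equivFinOfCardEq hc).symm
  let e : Fin r ≃ B := (Tuple.sort fun i => rk (e0 i)).trans e0
  have he : Monotone fun i => rk (e i) := Tuple.monotone_sort fun i => rk (e0 i)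
  let b := b0.reindex e.symm
  have hb : ∀ i, b i = e i := fun i => by simp [b, b0]
  have hT : ∀ i j, i ≠ j → LinearMap.toMatrix b b (Matrix.toLin' M) i j = 0 ∨
      (LinearMap.toMatrix b b (Matrix.toLin' M) i j = 1 ∧ rk (e i) < rk (e j)) := fun i j hij => by
    rw [LinearMap.toMatrix_apply, hb]
    rcases (h3 _ (e j).2).2 with h | ⟨c, hc, h4, h⟩
    · rw [h, ← hb]
      simp [hij]
    · obtain ⟨k, hk⟩ := e.surjective ⟨c, hc⟩
      obtain rfl : (e k : Fin r → F) = c := congrArg Subtype.val hk
      rw [h, ← hb, ← hb]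
      by_cases h5 : i = k
      · subst h5
        exact .inr ⟨by simp [hij], by rwa [hb]⟩
      · simp [hij, h5]
  have hU : ∀ i j, j < i → LinearMap.toMatrix b b (Matrix.toLin' M) i j = 0 := fun i j hij =>
    (hT i j hij.ne').resolve_right fun h => (he hij.le).not_gt h.2
  refine ⟨(Pi.basisFun F _).toMatrix b, b.toMatrix (Pi.basisFun F _),
    LinearMap.toMatrix b b (Matrix.toLin' M), Module.Basis.toMatrix_mul_toMatrix_flip _ _,
    Module.Basis.toMatrix_mul_toMatrix_flip _ _, ?_, hU, fun i => ?_,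
    fun i j hij => (hT i j hij).imp id And.left⟩
  · rw [basis_toMatrix_mul_linearMap_toMatrix_mul_basis_toMatrix, LinearMap.toMatrix_eq_toMatrix',
      LinearMap.toMatrix'_toLin']
  · rw [← Matrix.charpoly_toLin', ← LinearMap.charpoly_toMatrix _ b,
      Matrix.charpoly_of_isUpperTriangular _ fun i j h => hU i j h, isRoot_prod]
    exact ⟨i, Finset.mem_univ _, by simp⟩

theorem jordan_der {O Ω n : Type} [CommRing O] [Field Ω] [IsAlgClosed Ω] [Algebra O Ω]
    [Fintype n] [DecidableEq n] (D : Derivation O Ω Ω) (η : Matrix n n Ω)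
    (h : ∀ x, η.charpoly.IsRoot x → D x = 0) :
    ∃ ν : Matrix n n Ω, η.map D = ν * η - η * ν := by
  have hm : ∀ M N : Matrix n n Ω, (M * N).map D = M.map D * N + M * N.map D := fun M N => by
    ext i j
    simp only [Matrix.map_apply, Matrix.mul_apply, Matrix.add_apply, map_sum, Derivation.leibniz,
      smul_eq_mul, ← Finset.sum_add_distrib]
    exact Finset.sum_congr rfl fun k _ => by ring
  let e := Fintype.equivFin n
  obtain ⟨P, Q, T, h1, h2, h3, -, h4, h5⟩ := jordan_tri (Matrix.reindex e e η)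
  rw [Matrix.charpoly_reindex] at h4
  obtain ⟨P, Q, T, h1, h2, h3, hT⟩ : ∃ P Q T : Matrix n n Ω, P * Q = 1 ∧ Q * P = 1 ∧
      η = P * T * Q ∧ T.map D = 0 := by
    refine ⟨P.submatrix e e, Q.submatrix e e, T.submatrix e e, ?_, ?_, ?_, ?_⟩
    · rw [Matrix.submatrix_mul_equiv, h1, Matrix.submatrix_one_equiv]
    · rw [Matrix.submatrix_mul_equiv, h2, Matrix.submatrix_one_equiv]
    · rw [Matrix.submatrix_mul_equiv, Matrix.submatrix_mul_equiv, ← h3]
      simp
    · ext i j
      change D (T (e i) (e j)) = 0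
      by_cases hij : e i = e j
      · rw [hij]
        exact h _ (h4 _)
      · rcases h5 _ _ hij with h6 | h6 <;> simp [h6]
  have h6 : P * Q.map D = -(P.map D * Q) := by
    have h7 : (1 : Matrix n n Ω).map D = 0 := by
      ext i j
      by_cases hij : i = j <;> simp [hij]
    have := hm P Q
    rw [h1, h7] at this
    exact eq_neg_of_add_eq_zero_right this.symm
  refine ⟨P.map D * Q, ?_⟩
  have h8 : Q.map D = -(Q * (P.map D * Q)) := by
    rw [← Matrix.mul_neg, ← h6, ← Matrix.mul_assoc, h2, Matrix.one_mul]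
  rw [h3, hm, hm, hT, h8]
  simp only [Matrix.mul_assoc, Matrix.mul_zero, add_zero, Matrix.mul_neg, sub_eq_add_neg]
  rw [← Matrix.mul_assoc Q P, h2, Matrix.one_mul]

theorem exists_eig {F n : Type} [Field F] [IsAlgClosed F] [Fintype n] [DecidableEq n]
    (M : Matrix n n F) : ∃ lam : n → F, M.charpoly = ∏ i, (X - C (lam i)) := by
  have h1 : M.charpoly.roots.toList.length = Fintype.card n := by
    rw [Multiset.length_toList, IsAlgClosed.card_roots_eq_natDegree,
      Matrix.charpoly_natDegree_eq_dim]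
  let e := Fintype.equivFinOfCardEq h1.symm
  refine ⟨fun i => M.charpoly.roots.toList.get (e i), ?_⟩
  rw [e.prod_comp fun i => X - C (M.charpoly.roots.toList.get i), ← List.prod_ofFn]
  conv_lhs => rw [(IsAlgClosed.splits M.charpoly).eq_prod_roots_of_monic M.charpoly_monic,
    ← M.charpoly.roots.coe_toList, Multiset.map_coe, Multiset.prod_coe,
    ← List.ofFn_get M.charpoly.roots.toList, List.map_ofFn]
  rfl

end Vale.Agent.P002
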