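import Vale.Agent.P002.Jac

/-! P002, task Trans: transvections.

* `sl_induction`: the set of `g` with `∀ A, P A → P (g * A)` is closed under products and contains
  the transvections. If `n` is a subsingleton the group is trivial; otherwise use
  `Matrix.SpecialLinearGroup.diagonal_transvection_induction'`, writing `diag2n hij c hc` as a
  product of six transvections as in `Matrix.SpecialLinearGroup.diag2_decompose`
  (`t_ij(a) t_ji(-a⁻¹) t_ij(a) t_ij(-1) t_ji(1) t_ij(-1)`; expand with `single_mul_single_same`,
  `single_mul_single_of_ne`, or check on entries).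
* `line_der`: both sides are derivations along `aeval`; `MvPolynomial.induction_on`.
* `vanish_of_stable`: for `y` a common zero, the polynomials `g f = aeval (line y v i j) f`, `f ∈ PP`,
  vanish at `0` and the family is closed under `derivative`; so all coefficients vanish
  (`Polynomial.coeff_derivative`, char 0). Evaluate at `c` (`line_eval`). Then `sl_induction` on one
  coordinate `v` at a time (`Function.update`, induction on a `Finset` of coordinates; every `y v`
  is `(y v * (x v)⁻¹) * x v`).
* `spec_of_dgen`: `PP = {f | aeval (ent x) f = 0}`; take `D` with `ld D (x ·) = Pi.single v (single i j 1)`;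
  `D (aeval (ent x) f) = aeval (ent x) (rinv v i j f)`.
* `dense_int`: `PP` = polynomials vanishing on all integral points; `aeval (line y v i j) f` has the
  infinitely many roots `(k : O)`, so is zero; take its derivative at `0`. -/

namespace Vale.Agent.P002

open Matrix.SpecialLinearGroup

variable {n : Type} [Fintype n] [DecidableEq n]

theorem tv_apply {R : Type} [CommRing R] {i j : n} (hij : i ≠ j) (c : R) (A : SL n R) (k l : n) :
    (transvection hij c * A).1 k l = A.1 k l + if k = i then c * A.1 j l else 0 := by
  rw [val_mul, transvection_coe, Matrix.add_mul, Matrix.one_mul, Matrix.add_apply]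
  congr 1
  split_ifs with h
  · subst h
    exact Matrix.single_mul_apply_same _ _ _ _ _
  · exact Matrix.single_mul_apply_of_ne _ _ _ _ _ h _

theorem tv_diag {F : Type} [Field F] {i j : n} (hij : i ≠ j) {a : F} (ha : a ≠ 0) :
    (diag2n hij a ha : SL n F) = transvection hij a * (transvection hij.symm (-a⁻¹) *
      (transvection hij a * (transvection hij (-1) * (transvection hij.symm 1 *
        (transvection hij (-1) * 1))))) := by
  refine Subtype.ext (Matrix.ext fun k l => ?_)
  have hji := hij.symm
  simp only [tv_apply, diag2n_coe, val_one, if_true, if_neg hij, if_neg hji, Matrix.diagonal_apply,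
    Matrix.one_apply]
  by_cases h1 : k = i
  · subst h1
    by_cases h2 : k = l
    · subst h2
      simp [hij, hji, ha]
    · by_cases h3 : j = l
      · subst h3
        simp [hij, ha]
      · simp [h2, h3]
  · by_cases h4 : k = j
    · subst h4
      by_cases h2 : k = l
      · subst h2
        simp [hij, hji]
      · by_cases h3 : i = l
        · subst h3
          simp [hji, ha]
        · simp [h2, h3]
    · simp [h1, h4]

theorem sl_induction {F : Type} [Field F] (P : SL n F → Prop) (h1 : P 1)
    (h : ∀ (i j : n) (hij : i ≠ j) (c : F) (A : SL n F), P A → P (transvection hij c * A)) :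
    ∀ A, P A := by
  have key : ∀ g : SL n F, ∀ A, P A → P (g * A) := by
    intro g
    rcases subsingleton_or_nontrivial n with hn | hn
    · have e : g = 1 := by
        refine Subtype.ext (Matrix.ext fun k l => ?_)
        obtain rfl : k = l := Subsingleton.elim _ _
        have h2 := g.2
        rw [Matrix.det_eq_elem_of_subsingleton _ k] at h2
        rw [h2, val_one, Matrix.one_apply_eq]
      intro A hA
      rwa [e, one_mul]
    · refine diagonal_transvection_induction' (fun g : SL n F => ∀ A, P A → P (g * A)) g ?_ ?_ ?_
      · intro i j hij c hc A hA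
        rw [tv_diag hij hc]
        simp only [mul_assoc, one_mul]
        exact h _ _ _ _ _ (h _ _ _ _ _ (h _ _ _ _ _ (h _ _ _ _ _ (h _ _ _ _ _ (h _ _ _ _ _ hA)))))
      · intro i j hij c A hA
        exact h i j hij c A hA
      · intro g1 g2 h1 h2 A hA
        rw [mul_assoc]
        exact h1 _ (h2 A hA)
  intro A
  have h2 := key A 1 h1
  rwa [mul_one] at h2

/-- the right invariant vector field `single i j 1` on the coordinate `v` -/
noncomputable def rinv (O : Type) [CommRing O] {κ : Type} [DecidableEq κ] (v : κ) (i j : n) :
    Derivation O (MvPolynomial (κ × n × n) O) (MvPolynomial (κ × n × n) O) :=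
  MvPolynomial.mkDerivation O fun p =>
    if p.1 = v ∧ p.2.1 = i then MvPolynomial.X (v, j, p.2.2) else 0

/-- the entries of `transvection t * y v` as polynomials in `t` -/
noncomputable def line {R κ : Type} [CommRing R] [DecidableEq κ] (y : κ → SL n R) (v : κ)
    (i j : n) : κ × n × n → Polynomial R := fun p =>
  Polynomial.C (ent y p) +
    if p.1 = v ∧ p.2.1 = i then Polynomial.X * Polynomial.C (ent y (v, j, p.2.2)) else 0

theorem line_der {O R κ : Type} [CommRing O] [CommRing R] [Algebra O R] [DecidableEq κ]
    (y : κ → SL n R) (v : κ) (i j : n) (hij : i ≠ j) (f : MvPolynomial (κ × n × n) O) :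
    Polynomial.derivative (MvPolynomial.aeval (line y v i j) f) =
      MvPolynomial.aeval (line y v i j) (rinv O v i j f) := by
  induction f using MvPolynomial.induction_on with
  | C a =>
    rw [MvPolynomial.algHom_C, ← MvPolynomial.algebraMap_eq, Derivation.map_algebraMap, map_zero,
      Polynomial.algebraMap_apply, Polynomial.derivative_C]
  | add f g hf hg => simp only [map_add, hf, hg]
  | mul_X f p hf =>
    have hp : Polynomial.derivative (line y v i j p) =
        MvPolynomial.aeval (line y v i j) (rinv O v i j (MvPolynomial.X p)) := by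
      rw [rinv, MvPolynomial.mkDerivation_X]
      by_cases h : p.1 = v ∧ p.2.1 = i
      · simp [line, h, hij.symm]
      · simp [line, h]
    rw [map_mul, MvPolynomial.aeval_X, Polynomial.derivative_mul, hf, hp, Derivation.leibniz,
      smul_eq_mul, smul_eq_mul, map_add, map_mul, map_mul, MvPolynomial.aeval_X]
    ring

theorem line_eval {O R κ : Type} [CommRing O] [CommRing R] [Algebra O R] [DecidableEq κ]
    (y : κ → SL n R) (v : κ) (i j : n) (hij : i ≠ j) (f : MvPolynomial (κ × n × n) O) (c : R) :
    Polynomial.eval c (MvPolynomial.aeval (line y v i j) f) =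
      MvPolynomial.aeval (ent (Function.update y v (transvection hij c * y v))) f := by
  have h : (fun p => Polynomial.eval c (line y v i j p)) =
      ent (Function.update y v (transvection hij c * y v)) := by
    funext p
    obtain ⟨u, k, l⟩ := p
    by_cases hu : u = v
    · subst hu
      simp only [ent, Function.update_self, tv_apply, line, true_and]
      split_ifs
      · rw [Polynomial.eval_add, Polynomial.eval_mul, Polynomial.eval_X, Polynomial.eval_C,
          Polynomial.eval_C]
      · rw [add_zero, add_zero, Polynomial.eval_C]
    · simp [ent, line, hu]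
  rw [← h]
  induction f using MvPolynomial.induction_on with
  | C a =>
    rw [MvPolynomial.algHom_C, MvPolynomial.algHom_C, Polynomial.algebraMap_apply, Polynomial.eval_C]
  | add f g hf hg => simp only [map_add, Polynomial.eval_add, hf, hg]
  | mul_X f p hf => simp only [map_mul, Polynomial.eval_mul, hf, MvPolynomial.aeval_X]

theorem line_zero {O R κ : Type} [CommRing O] [CommRing R] [Algebra O R] [DecidableEq κ]
    (y : κ → SL n R) (v : κ) (i j : n) (hij : i ≠ j) (f : MvPolynomial (κ × n × n) O) :
    Polynomial.eval 0 (MvPolynomial.aeval (line y v i j) f) = MvPolynomial.aeval (ent y) f := by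
  rw [line_eval y v i j hij, transvection_coeff_zero, one_mul, Function.update_eq_self]

theorem vanish_step {O F κ : Type} [CommRing O] [Field F] [CharZero F] [Algebra O F]
    [DecidableEq κ] (PP : Set (MvPolynomial (κ × n × n) O))
    (h : ∀ f ∈ PP, ∀ v i j, i ≠ j → rinv O v i j f ∈ PP) (y : κ → SL n F)
    (hy : ∀ f ∈ PP, MvPolynomial.aeval (ent y) f = 0) (v : κ) (i j : n) (hij : i ≠ j) (c : F) :
    ∀ f ∈ PP, MvPolynomial.aeval (ent (Function.update y v (transvection hij c * y v))) f = 0 := by
  have key : ∀ k : ℕ, ∀ f ∈ PP, (MvPolynomial.aeval (line y v i j) f).coeff k = 0 := by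
    intro k
    induction k with
    | zero =>
      intro f hf
      rw [Polynomial.coeff_zero_eq_eval_zero, line_zero y v i j hij, hy f hf]
    | succ k ih =>
      intro f hf
      have h1 := ih _ (h f hf v i j hij)
      rw [← line_der y v i j hij, Polynomial.coeff_derivative] at h1
      exact (mul_eq_zero.1 h1).resolve_right (Nat.cast_add_one_ne_zero k)
  intro f hf
  have h0 : MvPolynomial.aeval (line y v i j) f = 0 := Polynomial.ext fun k => key k f hf
  rw [← line_eval y v i j hij, h0, Polynomial.eval_zero]

theorem vanish_upd {O F κ : Type} [CommRing O] [Field F] [CharZero F] [Algebra O F]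
    [DecidableEq κ] (PP : Set (MvPolynomial (κ × n × n) O))
    (h : ∀ f ∈ PP, ∀ v i j, i ≠ j → rinv O v i j f ∈ PP) (y : κ → SL n F)
    (hy : ∀ f ∈ PP, MvPolynomial.aeval (ent y) f = 0) (v : κ) (B : SL n F) :
    ∀ f ∈ PP, MvPolynomial.aeval (ent (Function.update y v B)) f = 0 := by
  have key := sl_induction (fun A : SL n F =>
    ∀ f ∈ PP, MvPolynomial.aeval (ent (Function.update y v (A * y v))) f = 0)
    (by rwa [one_mul, Function.update_eq_self]) (fun i j hij c A hA => by
      have h1 := vanish_step PP h _ hA v i j hij c
      rwa [Function.update_idem, Function.update_self, ← mul_assoc] at h1) (B * (y v)⁻¹)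
  rwa [inv_mul_cancel_right] at key

theorem vanish_of_stable {O F κ : Type} [CommRing O] [Field F] [CharZero F] [Algebra O F]
    [Fintype κ] [DecidableEq κ] (PP : Set (MvPolynomial (κ × n × n) O))
    (h : ∀ f ∈ PP, ∀ v i j, i ≠ j → rinv O v i j f ∈ PP) (x : κ → SL n F)
    (hx : ∀ f ∈ PP, MvPolynomial.aeval (ent x) f = 0) (y : κ → SL n F) :
    ∀ f ∈ PP, MvPolynomial.aeval (ent y) f = 0 := by
  have key : ∀ s : Finset κ, ∀ f ∈ PP, MvPolynomial.aeval (ent (s.piecewise y x)) f = 0 := by
    intro s
    induction s using Finset.induction_on with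
    | empty => rwa [Finset.piecewise_empty]
    | insert v s hv ih =>
      rw [Finset.piecewise_insert]
      exact vanish_upd PP h _ ih v (y v)
  have h1 := key Finset.univ
  rwa [Finset.piecewise_univ] at h1

theorem spec_of_dgen {O F κ : Type} [CommRing O] [Field F] [CharZero F] [Algebra O F]
    [Fintype κ] (x : κ → SL n F) (hx : DGen O x) (y : κ → SL n F)
    (f : MvPolynomial (κ × n × n) O) (hf : MvPolynomial.aeval (ent x) f = 0) :
    MvPolynomial.aeval (ent y) f = 0 := by
  classical
  refine vanish_of_stable {f | MvPolynomial.aeval (ent x) f = 0} ?_ x (fun f hf => hf) y f hf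
  intro f hf v i j hij
  obtain ⟨D, hD⟩ := hx (Pi.single v (Matrix.single i j 1)) (fun u => by
    by_cases hu : u = v
    · subst hu
      rw [Pi.single_eq_same, Matrix.trace_single_eq_of_ne _ _ _ hij]
    · rw [Pi.single_eq_of_ne hu, Matrix.trace_zero])
  have hp : ∀ p : κ × n × n,
      D (ent x p) = MvPolynomial.aeval (ent x) (rinv O v i j (MvPolynomial.X p)) := by
    rintro ⟨u, k, l⟩
    have h1 := congrFun (congrFun (ld_mul_val D (x u)) k) l
    rw [hD, Matrix.map_apply] at h1
    rw [rinv, MvPolynomial.mkDerivation_X]
    change D ((x u).1 k l) = _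
    rw [← h1]
    by_cases hu : u = v
    · subst hu
      rw [Pi.single_eq_same]
      by_cases hk : k = i
      · subst hk
        rw [Matrix.single_mul_apply_same, one_mul, if_pos ⟨rfl, rfl⟩, MvPolynomial.aeval_X]
        rfl
      · rw [Matrix.single_mul_apply_of_ne _ _ _ _ _ hk, if_neg fun h => hk h.2, map_zero]
    · rw [Pi.single_eq_of_ne hu, Matrix.zero_mul, Matrix.zero_apply, if_neg fun h => hu h.1,
        map_zero]
  have key : ∀ g : MvPolynomial (κ × n × n) O,
      D (MvPolynomial.aeval (ent x) g) = MvPolynomial.aeval (ent x) (rinv O v i j g) := by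
    intro g
    induction g using MvPolynomial.induction_on with
    | C a =>
      rw [MvPolynomial.algHom_C, ← MvPolynomial.algebraMap_eq, Derivation.map_algebraMap,
        Derivation.map_algebraMap, map_zero]
    | add f g hf hg => simp only [map_add, hf, hg]
    | mul_X f p hf =>
      rw [map_mul, MvPolynomial.aeval_X, Derivation.leibniz, hf, hp, Derivation.leibniz,
        smul_eq_mul, smul_eq_mul, smul_eq_mul, smul_eq_mul, map_add, map_mul, map_mul,
        MvPolynomial.aeval_X]
  have hf' : MvPolynomial.aeval (ent x) f = 0 := hf
  change MvPolynomial.aeval (ent x) (rinv O v i j f) = 0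
  rw [← key, hf', map_zero]

theorem dense_int {O F κ : Type} [CommRing O] [IsDomain O] [CharZero O] [Field F] [CharZero F]
    [Algebra O F] [Fintype κ] (f : MvPolynomial (κ × n × n) O)
    (hf : ∀ y : κ → SL n O, MvPolynomial.aeval (ent y) f = 0) (y : κ → SL n F) :
    MvPolynomial.aeval (ent y) f = 0 := by
  classical
  refine vanish_of_stable {f | ∀ y : κ → SL n O, MvPolynomial.aeval (ent y) f = 0} ?_
    (cJ (fun _ => (1 : SL n O)) F) (fun g hg => ?_) y f hf
  · intro g hg v i j hij z
    have h0 : MvPolynomial.aeval (line z v i j) g = 0 := by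
      refine Polynomial.eq_zero_of_infinite_isRoot _ ?_
      have e : {c | (MvPolynomial.aeval (line z v i j) g).IsRoot c} = Set.univ := by
        refine Set.eq_univ_of_forall fun c => ?_
        change Polynomial.eval c _ = 0
        rw [line_eval z v i j hij]
        exact hg _
      rw [e]
      exact Set.infinite_univ
    rw [← line_zero z v i j hij, ← line_der z v i j hij, h0, Polynomial.derivative_zero,
      Polynomial.eval_zero]
  · have h1 := aeval_ent_pm (Algebra.ofId O F) (fun _ : κ => (1 : SL n O)) g
    rw [hg, map_zero] at h1
    exact h1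

end Vale.Agent.P002
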