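import Vale.Agent.P002.Spec
import Vale.Agent.P002.Trans
import Vale.Agent.P002.Jordan

/-! P002, task Good: matrices with multiplicatively independent eigenvalues.

* `inj_of_indep`: test the independence with `m = Pi.single i 1 - Pi.single j 1`.
* `diag_of_charpoly`: each `lam i` is an eigenvalue (`Matrix.mem_spectrum_iff_isRoot_charpoly`,
  or `det (lam i • 1 - M) = 0` and `Matrix.exists_mulVec_eq_zero_iff`); the eigenvectors are
  independent (`Module.End.eigenvectors_linearIndependent'`), `P` has them as columns,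
  `M P = P diag`.
* `good_of_spec`: `lam` from `exists_eig` for `smap ι B`. Make `Ω` an `S`-algebra through `ι`,
  `T = Algebra.adjoin S (range lam)` is integral over `S` (each `lam i` is a root of the monic
  `B.charpoly`); `ext_hom_integral` gives `θ'`. In `T[X]`, `B.charpoly.map = ∏ (X - C (lam i))`
  (injectivity of `T → Ω`), so `∏ (X - C (θ' (lam i))) = (smap θ B).charpoly = ∏ (X - C (μ i))`
  (`Matrix.charpoly_map`, similarity invariance, `charpoly_of_upperTriangular` or
  `Matrix.charpoly_diagonal`); comparing roots gives a permutation `e` with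
  `θ' (lam i) = μ (e i)` (`μ` is injective: every `μ j` is some `θ' (lam i)`, so the map is a
  surjection between finite sets of the same size). The `lam i` are nonzero (`μ` is); a relation
  `∏ lam i ^ m i = 1` is rewritten as `∏ lam i ^ (m i).toNat = ∏ lam i ^ (-m i).toNat`, which holds
  in `T` and is mapped by `θ'`.
* `good_example`: fix `i0`; `lam i = p i` (distinct primes, `Nat.nth Nat.Prime` of an
  enumeration) for `i ≠ i0`, `lam i0 = (∏ others)⁻¹`; check in `ℚ` with `padicValRat`.
  (Or `lam i = 2 ^ (…)` is not enough: all exponents are allowed.)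
* `good_of_gen`: `spec_of_dgen` (`κ = Unit`), `spec_ring`, `good_example`, `good_of_spec`. -/

namespace Vale.Agent.P002

open Polynomial

variable {n : Type} [Fintype n] [DecidableEq n]

theorem inj_of_indep {F : Type} [Field F] (lam : n → Fˣ)
    (h : ∀ m : n → ℤ, ∏ i, lam i ^ m i = 1 → ∀ i j, m i = m j) : Function.Injective lam := by
  intro i j hij
  by_contra hne
  have h1 := h (Pi.single i 1 - Pi.single j 1) (by
    have e : ∀ k : n, ∏ l, lam l ^ (Pi.single k (1 : ℤ) : n → ℤ) l = lam k := fun k => by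
      rw [Finset.prod_eq_single k (fun l _ hl => by rw [Pi.single_eq_of_ne hl, zpow_zero])
        (fun hk => absurd (Finset.mem_univ k) hk), Pi.single_eq_same, zpow_one]
    simp only [Pi.sub_apply, zpow_sub, Finset.prod_mul_distrib, Finset.prod_inv_distrib, e, hij,
      mul_inv_cancel]) i j
  simp [Pi.single_eq_of_ne hne, Pi.single_eq_of_ne' hne] at h1

theorem diag_of_charpoly {F : Type} [Field F] (M : Matrix n n F) (lam : n → F)
    (h : M.charpoly = ∏ i, (X - C (lam i))) (hinj : Function.Injective lam) :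
    ∃ P Q : Matrix n n F, P * Q = 1 ∧ Q * P = 1 ∧ M = P * Matrix.diagonal lam * Q := by
  have h1 : ∀ i, ∃ v : n → F, v ≠ 0 ∧ M.mulVec v = lam i • v := fun i => by
    have h2 : (Matrix.scalar n (lam i) - M).det = 0 := by
      rw [← Matrix.eval_charpoly, h, eval_prod]
      exact Finset.prod_eq_zero (Finset.mem_univ i) (by simp)
    obtain ⟨v, hv, hv0⟩ := Matrix.exists_mulVec_eq_zero_iff.2 h2
    refine ⟨v, hv, ?_⟩
    rw [Matrix.sub_mulVec, sub_eq_zero] at hv0
    rw [← hv0]
    ext k
    simp [Matrix.mulVec_diagonal]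
  choose v hv0 hv using h1
  have h2 : LinearIndependent F v :=
    Module.End.eigenvectors_linearIndependent' (Matrix.toLin' M) lam hinj v fun i =>
      ⟨Module.End.mem_eigenspace_iff.2 (hv i), hv0 i⟩
  obtain ⟨u, hu⟩ := Matrix.linearIndependent_cols_iff_isUnit.1
    (show LinearIndependent F (Matrix.of fun k i => v i k).col from h2)
  refine ⟨u.val, u.inv, u.val_inv, u.inv_val, ?_⟩
  have h3 : M * u.val = u.val * Matrix.diagonal lam := by
    ext k i
    rw [Matrix.mul_diagonal, hu, mul_comm]
    exact congrFun (hv i) k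
  rw [← h3, Matrix.mul_assoc, u.val_inv, Matrix.mul_one]

theorem good_of_spec {S Ω Ω' : Type} [CommRing S] [Field Ω] [IsAlgClosed Ω] [Field Ω']
    [IsAlgClosed Ω'] (ι : S →+* Ω) (hι : Function.Injective ι) (θ : S →+* Ω') (B : SL n S)
    (h : Good (smap θ B)) : Good (smap ι B) := by
  obtain ⟨P, Q, μ, hPQ, hQP, hB, hμ⟩ := h
  obtain ⟨lam, hlam⟩ := exists_eig (smap ι B).1
  let : Algebra S Ω := ι.toAlgebra
  let T := integralClosure S Ω
  have hmem : ∀ i, lam i ∈ T := fun i => by
    refine ⟨B.1.charpoly, B.1.charpoly_monic, ?_⟩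
    rw [eval₂_eq_eval_map, ← Matrix.charpoly_map]
    show eval (lam i) (smap ι B).1.charpoly = 0
    rw [hlam, eval_prod]
    exact Finset.prod_eq_zero (Finset.mem_univ i) (by simp)
  let l : n → T := fun i => ⟨lam i, hmem i⟩
  have hv : Function.Injective (T.val : T →+* Ω) := Subtype.val_injective
  have : FaithfulSMul S T := (faithfulSMul_iff_algebraMap_injective S T).2 fun a b hab =>
    hι (congrArg Subtype.val hab)
  obtain ⟨θ', hθ'⟩ := ext_hom_integral (T := T) θ
  have e1 : B.1.charpoly.map (algebraMap S T) = ∏ i, (X - C (l i)) := by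
    apply Polynomial.map_injective _ hv
    rw [Polynomial.map_map, Polynomial.map_prod]
    simp only [Polynomial.map_sub, map_X, map_C]
    exact (Matrix.charpoly_map B.1 ι).symm.trans hlam
  have e2 : ∏ i, (X - C (θ' (l i))) = ∏ i, (X - C (μ i : Ω')) := by
    have h1 := congrArg (Polynomial.map θ') e1
    rw [Polynomial.map_map, Polynomial.map_prod,
      show θ'.comp (algebraMap S T) = θ from RingHom.ext hθ', ← Matrix.charpoly_map] at h1
    simp only [Polynomial.map_sub, map_X, map_C] at h1
    rw [← h1, ← smap_val, hB, Matrix.charpoly_mul_comm, ← Matrix.mul_assoc, hQP, Matrix.one_mul,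
      Matrix.charpoly_diagonal]
  have h1 : ∀ j, ∃ i, θ' (l i) = μ j := fun j => by
    have h2 : eval (μ j : Ω') (∏ i, (X - C (θ' (l i)))) = 0 := by
      rw [e2, eval_prod]
      exact Finset.prod_eq_zero (Finset.mem_univ j) (by simp)
    rw [eval_prod, Finset.prod_eq_zero_iff] at h2
    obtain ⟨i, -, hi⟩ := h2
    refine ⟨i, ?_⟩
    rw [eval_sub, eval_X, eval_C, sub_eq_zero] at hi
    exact hi.symm
  choose g hg using h1
  have hgi : Function.Injective g := fun j k hjk =>
    inj_of_indep μ hμ (Units.ext (by rw [← hg, ← hg, hjk]))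
  let e : n ≃ n := Equiv.ofBijective g (Finite.injective_iff_bijective.1 hgi)
  have hu : ∀ i, IsUnit (l i) := fun i => by
    have h2 := congrArg (eval 0) e1
    rw [← Matrix.charpoly_map, Matrix.eval_charpoly, eval_prod, map_zero, zero_sub,
      Matrix.det_neg] at h2
    have h3 : (B.1.map (algebraMap S T)).det = 1 := (smap (algebraMap S T) B).2
    rw [h3, mul_one] at h2
    have h4 : IsUnit (∏ j, eval 0 (X - C (l j))) := h2 ▸ (isUnit_one.neg).pow _
    have h5 := isUnit_of_dvd_unit (Finset.dvd_prod_of_mem _ (Finset.mem_univ i)) h4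
    rwa [eval_sub, eval_X, eval_C, zero_sub, IsUnit.neg_iff] at h5
  choose u hu using hu
  have hind : ∀ m : n → ℤ, ∏ i, Units.map ((T.val : T →+* Ω) : T →* Ω) (u i) ^ m i = 1 →
      ∀ i j, m i = m j := by
    intro m hm
    have h2 : ∏ i, u i ^ m i = 1 := by
      apply Units.map_injective (f := ((T.val : T →+* Ω) : T →* Ω)) hv
      simpa only [map_prod, map_zpow, map_one] using hm
    have h3 := congrArg (Units.map (θ' : T →* Ω')) h2
    rw [map_prod, map_one, ← e.prod_comp] at h3
    have h4 := hμ (fun j => m (e j)) (by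
      rw [← h3]
      refine Finset.prod_congr rfl fun j _ => ?_
      rw [map_zpow]
      congr 1
      refine Units.ext ?_
      rw [← hg, Units.coe_map, hu]
      rfl)
    intro i j
    simpa only [e.apply_symm_apply] using h4 (e.symm i) (e.symm j)
  have hval : (fun i => ((Units.map ((T.val : T →+* Ω) : T →* Ω) (u i) : Ωˣ) : Ω)) = lam := by
    funext i
    rw [Units.coe_map, hu]
    rfl
  obtain ⟨P', Q', k1, k2, k3⟩ := diag_of_charpoly _ lam hlam
    (hval ▸ Units.val_injective.comp (inj_of_indep _ hind))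
  exact ⟨P', Q', _, k1, k2, by rw [hval]; exact k3, hind⟩

omit [DecidableEq n] in
theorem good_primes (F : Type) [Field F] [CharZero F] :
    ∃ u : n → Fˣ, ∀ k : n → ℤ, ∏ i, u i ^ k i = 1 → ∀ i, k i = 0 := by
  classical
  let p : n → ℕ := fun i => Nat.nth Nat.Prime (Fintype.equivFin n i)
  have hp : ∀ i, (p i).Prime := fun i => Nat.prime_nth_prime _
  have hinj : Function.Injective p := fun i j h => (Fintype.equivFin n).injective
    (Fin.ext (Nat.nth_injective Nat.infinite_setOfPred_prime h))
  refine ⟨fun i => Units.mk0 (p i : F) (Nat.cast_ne_zero.2 (hp i).ne_zero), fun k hk i => ?_⟩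
  have h1 : ∏ j, (p j : ℚ) ^ k j = 1 := by
    apply Rat.cast_injective (α := F)
    have := congrArg Units.val hk
    simp only [Units.coe_prod, Units.val_zpow_eq_zpow_val, Units.val_mk0, Units.val_one] at this
    push_cast
    exact this
  have := Fact.mk (hp i)
  have h0 : ∀ j, (p j : ℚ) ^ k j ≠ 0 := fun j => zpow_ne_zero _ (Nat.cast_ne_zero.2 (hp j).ne_zero)
  have h2 : ∀ s : Finset n, padicValRat (p i) (∏ j ∈ s, (p j : ℚ) ^ k j) =
      ∑ j ∈ s, padicValRat (p i) ((p j : ℚ) ^ k j) := fun s => by
    induction s using Finset.induction_on with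
    | empty => simp
    | insert a s ha ih =>
      rw [Finset.prod_insert ha, Finset.sum_insert ha,
        padicValRat.mul (h0 a) (Finset.prod_ne_zero_iff.2 fun j _ => h0 j), ih]
  have h3 := h2 Finset.univ
  rw [h1, padicValRat.one, Finset.sum_eq_single i (fun j _ hj => ?_)
    (fun h => absurd (Finset.mem_univ i) h), padicValRat.zpow, padicValRat.self (hp i).one_lt,
    mul_one] at h3
  · exact h3.symm
  · have := Fact.mk (hp j)
    rw [padicValRat.zpow, padicValRat.of_nat, padicValNat_primes fun h => hj (hinj h).symm]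
    simp

theorem good_example (F : Type) [Field F] [CharZero F] : ∃ B : SL n F, Good B := by
  obtain ⟨u, hu⟩ := good_primes (n := n) F
  let lam : n → Fˣ := fun i => u i ^ (Fintype.card n : ℤ) * (∏ j, u j)⁻¹
  have h1 : ∏ i, lam i = 1 := by
    simp only [lam, Finset.prod_mul_distrib, Finset.prod_const, Finset.card_univ,
      zpow_natCast, Finset.prod_pow, inv_pow, mul_inv_cancel]
  refine ⟨⟨Matrix.diagonal fun i => (lam i : F), ?_⟩, 1, 1, lam, by simp, by simp, by simp,
    fun m hm i j => ?_⟩
  · rw [Matrix.det_diagonal, ← Units.coe_prod, h1, Units.val_one]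
  · have h2 : ∀ x : Fˣ, ∏ k, x ^ m k = x ^ ∑ k, m k := fun x =>
      (map_prod (zpowersHom Fˣ x) (fun k => Multiplicative.ofAdd (m k)) Finset.univ).symm
    have h3 := hu (fun k => Fintype.card n * m k - ∑ l, m l) (by
      rw [← hm]
      simp only [lam, zpow_sub, zpow_mul, mul_zpow, Finset.prod_mul_distrib, h2,
        Finset.prod_inv_distrib, Finset.prod_zpow, inv_zpow])
    have h4 : (Fintype.card n : ℤ) ≠ 0 := by
      exact_mod_cast (Fintype.card_pos_iff.2 ⟨i⟩).ne'
    exact mul_left_cancel₀ h4 (by linarith [h3 i, h3 j])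

theorem good_of_gen {O Ω : Type} [CommRing O] [Field Ω] [IsAlgClosed Ω] [CharZero Ω]
    [Algebra O Ω] (B : SL n Ω) (h : Gen1 O B) : Good B := by
  obtain ⟨A, hA⟩ := good_example (n := n) Ω
  have hx : DGen O fun _ : Unit => B := fun u hu => by
    obtain ⟨D, hD⟩ := h (u ()) (hu ())
    exact ⟨D, fun _ => hD⟩
  obtain ⟨S, _, _, _, ι, θ, z, hι, h1, h2⟩ := spec_ring (O := O) (fun _ : Unit => B) (fun _ => A)
    (spec_of_dgen _ hx _)
  have e1 : smap (ι : S →+* Ω) (z ()) = B := congrFun h1 ()
  have e2 : smap (θ : S →+* Ω) (z ()) = A := congrFun h2 ()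
  rw [← e1]
  exact good_of_spec _ hι (θ : S →+* Ω) _ (e2 ▸ hA)

end Vale.Agent.P002
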