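import Vale.Agent.P002.Good

/-! P002, task GoodD: centralisers of good matrices.

* `comm_diag`: a matrix commuting with `diagonal lam`, `lam` injective, is diagonal.
* `extract`: the set of polynomials `p` with `∑ p.eval (a i) • v i ∈ S` is everything (span of
  the monomials); take `p = ∏ (X - C b) / (c - b)` over the values `b ≠ c` of `a`
  (or `Lagrange.interpolate`).
* `good_dense`: `γ = P diag(lam) Q`, `Q z P = diagonal μ` with `∏ μ = 1`, `∏ lam = 1`.
  `φ0 : Multiplicative (n → ℤ) →* Fˣ`, `m ↦ ∏ lam i ^ m i`, `Λ` the quotient by its kernel (or its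
  range), `T = MonoidAlgebra F Λ`, `y i = of [e_i]`, `zT = P diag(y) Q` (determinant `∏ y i = 1`).
  `φ k` is `MonoidAlgebra.lift` of `a ↦ (φ0 a) ^ k`; `ψ` the lift of `m ↦ ∏ μ i ^ m i`, which kills
  the kernel (constant `m`). If `∑ c a * (φ0 a) ^ k = 0` for all `k` then `c = 0` (`extract` with
  `S = ⊥`, or `linearIndependent_monoidHom`), so `t = 0`.
* `good_centralizer`: in the frame, `diagonal (lam ^ k)` span the diagonal matrices (`extract`).
* `good_frame`: rescale the columns of `P` so that each has an entry `1`. If `ld D B = 0` then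
  `B.map D = 0`; differentiating `B P = P Λ` gives with `N = Q * D P`: `Λ N - N Λ = D Λ`, so `N` is
  diagonal, `D P = P N`, and the normalised entries give `N = 0`. -/

namespace Vale.Agent.P002

variable {n : Type} [Fintype n] [DecidableEq n]

theorem comm_diag {F : Type} [Field F] (lam : n → F) (h : Function.Injective lam)
    (Z : Matrix n n F) (hZ : Matrix.diagonal lam * Z = Z * Matrix.diagonal lam) :
    Z = Matrix.diagonal fun i => Z i i := by
  ext i j
  by_cases hij : i = j
  · subst hij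
    rw [Matrix.diagonal_apply_eq]
  · rw [Matrix.diagonal_apply_ne _ hij]
    have h1 := congrFun (congrFun hZ i) j
    rw [Matrix.diagonal_mul, Matrix.mul_diagonal, mul_comm] at h1
    by_contra hne
    exact hij (h (mul_left_cancel₀ hne h1))

theorem gd_fun {F E ι : Type} [Field F] [AddCommGroup E] [Module F E]
    [Fintype ι] (S : Submodule F E) (a : ι → F) (v : ι → E)
    (h : ∀ m : ℕ, ∑ i, a i ^ m • v i ∈ S) (g : F → F) : ∑ i, g (a i) • v i ∈ S := by
  classical
  have hp : ∀ p : Polynomial F, ∑ i, p.eval (a i) • v i ∈ S := fun p => by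
    induction p using Polynomial.induction_on' with
    | add p q hp hq =>
      simp only [Polynomial.eval_add, add_smul, Finset.sum_add_distrib]
      exact S.add_mem hp hq
    | monomial m c =>
      simp only [Polynomial.eval_monomial, mul_smul, ← Finset.smul_sum]
      exact S.smul_mem c (h m)
  have h1 := hp (Lagrange.interpolate (Finset.univ.image a) id g)
  refine (congrArg (· ∈ S) (Finset.sum_congr rfl fun i _ => ?_)).mp h1
  have h2 := Lagrange.eval_interpolate_at_node (s := Finset.univ.image a) (v := id) g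
    (Set.injOn_id _) (Finset.mem_image_of_mem a (Finset.mem_univ i))
  exact congrArg (· • v i) h2

theorem gd_fun' {F E ι : Type} [Field F] [AddCommGroup E] [Module F E]
    [Fintype ι] (S : Submodule F E) (a b : ι → F) (v : ι → E)
    (h : ∀ m : ℕ, ∑ i, a i ^ m • v i ∈ S) (hab : ∀ i j, a i = a j → b i = b j) :
    ∑ i, b i • v i ∈ S := by
  have h1 := gd_fun S a v h (Function.extend a b 0)
  simpa only [Function.FactorsThrough.extend_apply (fun i j e => hab i j e : b.FactorsThrough a)]
    using h1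

theorem extract {F E ι : Type} [Field F] [DecidableEq F] [AddCommGroup E] [Module F E]
    [Fintype ι] (S : Submodule F E) (a : ι → F) (v : ι → E)
    (h : ∀ m : ℕ, ∑ i, a i ^ m • v i ∈ S) (c : F) :
    ∑ i ∈ Finset.univ.filter (fun i => a i = c), v i ∈ S := by
  have h1 := gd_fun S a v h fun x => if x = c then 1 else 0
  simpa only [Finset.sum_filter, ite_smul, one_smul, zero_smul] using h1

theorem gd_pow {F : Type} [Field F] (B : SL n F) (P Q : Matrix n n F) (lam : n → F)
    (h1 : P * Q = 1) (h2 : Q * P = 1) (hB : B.1 = P * Matrix.diagonal lam * Q) (k : ℕ) :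
    (B ^ k).1 = P * Matrix.diagonal (fun i => lam i ^ k) * Q := by
  induction k with
  | zero => simp [h1]
  | succ k ih =>
    rw [pow_succ, val_mul, ih, hB]
    simp only [Matrix.mul_assoc]
    rw [← Matrix.mul_assoc Q, h2, Matrix.one_mul, ← Matrix.mul_assoc (Matrix.diagonal _),
      Matrix.diagonal_mul_diagonal]
    simp only [pow_succ]

theorem gd_comm {F : Type} [Field F] (P Q : Matrix n n F) (lam : n → F)
    (hl : Function.Injective lam) (h1 : P * Q = 1) (h2 : Q * P = 1) (ζ : Matrix n n F)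
    (h : P * Matrix.diagonal lam * Q * ζ = ζ * (P * Matrix.diagonal lam * Q)) :
    ∃ μ : n → F, ζ = P * Matrix.diagonal μ * Q := by
  have h3 : Matrix.diagonal lam * (Q * ζ * P) = Q * ζ * P * Matrix.diagonal lam := by
    have h4 := congrArg (fun X => Q * X * P) h
    simp only [Matrix.mul_assoc, h2, Matrix.mul_one] at h4 ⊢
    rwa [← Matrix.mul_assoc Q P, h2, Matrix.one_mul] at h4
  refine ⟨fun i => (Q * ζ * P) i i, ?_⟩
  rw [← comm_diag lam hl _ h3]
  simp only [Matrix.mul_assoc, h1, Matrix.mul_one]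
  rw [← Matrix.mul_assoc, h1, Matrix.one_mul]

theorem gd_det {R : Type} [CommRing R] (P Q : Matrix n n R) (μ : n → R) (h1 : P * Q = 1) :
    (P * Matrix.diagonal μ * Q).det = ∏ i, μ i := by
  rw [Matrix.det_mul, Matrix.det_mul, mul_right_comm, ← Matrix.det_mul, h1, Matrix.det_one,
    one_mul, Matrix.det_diagonal]

theorem gd_rel {F : Type} [Field F] (lam : n → Fˣ) (μ : n → F) (hμ : ∏ i, μ i = 1)
    (h : ∀ m : n → ℤ, ∏ i, lam i ^ m i = 1 → ∀ i j, m i = m j) (a b : n → ℕ)
    (hab : ∏ i, (lam i : F) ^ a i = ∏ i, (lam i : F) ^ b i) :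
    ∏ i, μ i ^ a i = ∏ i, μ i ^ b i := by
  have h0 : ∀ i, μ i ≠ 0 := fun i e => by
    rw [Finset.prod_eq_zero (Finset.mem_univ i) e] at hμ
    exact zero_ne_one hμ
  have h1 := h (fun i => (a i : ℤ) - b i) (by
    have h2 : ∏ i, lam i ^ a i = ∏ i, lam i ^ b i := Units.ext (by simpa using hab)
    simp only [zpow_sub, zpow_natCast, Finset.prod_mul_distrib, Finset.prod_inv_distrib, h2,
      mul_inv_cancel])
  rcases isEmpty_or_nonempty n with hn | ⟨⟨i0⟩⟩
  · simp
  have h3 : ∀ i, μ i ^ a i = μ i ^ ((a i0 : ℤ) - b i0) * μ i ^ b i := fun i => by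
    rw [← h1 i i0, ← zpow_natCast (μ i) (b i), ← zpow_add₀ (h0 i), sub_add_cancel, zpow_natCast]
  simp only [h3, Finset.prod_mul_distrib]
  rw [Finset.prod_zpow, hμ, one_zpow, one_mul]

theorem good_dense {F : Type} [Field F] (γ : SL n F) (hγ : Good γ) (z : SL n F)
    (hz : Commute z γ) :
    ∃ (T : Type) (_ : CommRing T) (_ : Algebra F T) (zT : SL n T) (φ : ℕ → T →ₐ[F] F)
      (ψ : T →ₐ[F] F), (∀ k, smap (φ k : T →+* F) zT = γ ^ k) ∧ smap (ψ : T →+* F) zT = z ∧
      ∀ t, (∀ k, φ k t = 0) → ψ t = 0 := by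
  obtain ⟨P, Q, lam, h1, h2, h3, h4⟩ := hγ
  have hl : Function.Injective fun i => (lam i : F) := Units.val_injective.comp (inj_of_indep lam h4)
  obtain ⟨μ, hμ⟩ := gd_comm P Q _ hl h1 h2 z.1 (by
    rw [← h3, ← val_mul, ← val_mul, hz.eq])
  have d1 : ∏ i, (lam i : F) = 1 := by rw [← gd_det P Q _ h1, ← h3, γ.2]
  have d2 : ∏ i, μ i = 1 := by rw [← gd_det P Q _ h1, ← hμ, z.2]
  let y : n → Option ℕ → F := fun i o => o.elim (μ i) fun k => (lam i : F) ^ k
  let T : Subalgebra F (Option ℕ → F) := (MvPolynomial.aeval y).range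
  let Y : n → T := fun i => ⟨y i, MvPolynomial.X i, MvPolynomial.aeval_X y i⟩
  let ev : Option ℕ → T →ₐ[F] F := fun o => (Pi.evalAlgHom F (fun _ => F) o).comp T.val
  have hY : ∏ i, Y i = 1 := by
    refine Subtype.ext (funext fun o => ?_)
    change ev o (∏ i, Y i) = 1
    rw [map_prod]
    cases o with
    | none => exact d2
    | some k =>
      change ∏ i, (lam i : F) ^ k = 1
      rw [Finset.prod_pow, d1, one_pow]
  let zT : SL n T := ⟨P.map (algebraMap F T) * Matrix.diagonal Y * Q.map (algebraMap F T), by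
    rw [gd_det _ _ _ (by rw [← Matrix.map_mul, h1, Matrix.map_one _ (map_zero _) (map_one _)]), hY]⟩
  have hz : ∀ o, (smap (ev o : T →+* F) zT).1 = P * Matrix.diagonal (fun i => y i o) * Q :=
    fun o => by
      have e : ∀ M : Matrix n n F, (M.map (algebraMap F T)).map (ev o : T →+* F) = M := fun M => by
        ext i j
        exact (ev o).commutes _
      change (P.map (algebraMap F T) * Matrix.diagonal Y * Q.map (algebraMap F T)).map
        (ev o : T →+* F) = _
      rw [Matrix.map_mul, Matrix.map_mul, e, e, Matrix.diagonal_map (map_zero _)]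
      rfl
  refine ⟨T, inferInstance, inferInstance, zT, fun k => ev (some k), ev none, fun k => ?_, ?_, ?_⟩
  · exact Subtype.ext ((hz (some k)).trans (gd_pow γ P Q _ h1 h2 h3 k).symm)
  · exact Subtype.ext ((hz none).trans hμ.symm)
  · rintro ⟨_, p, rfl⟩ hp
    have e : ∀ o, ev o ⟨_, p, rfl⟩ = ∑ d : p.support, (∏ i, y i o ^ d.1 i) • p.coeff d.1 :=
      fun o => by
        change (Pi.evalAlgHom F (fun _ => F) o) (MvPolynomial.aeval y p) = _
        rw [← AlgHom.comp_apply, MvPolynomial.comp_aeval, MvPolynomial.aeval_def,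
          MvPolynomial.eval₂_eq', ← Finset.sum_coe_sort]
        exact Finset.sum_congr rfl fun d _ => mul_comm _ _
    rw [e, ← Submodule.mem_bot F]
    refine gd_fun' ⊥ (fun d : p.support => ∏ i, (lam i : F) ^ d.1 i) _ _ (fun k => ?_)
      fun d d' hd => gd_rel lam μ d2 h4 _ _ hd
    rw [Submodule.mem_bot, ← hp k, e]
    refine Finset.sum_congr rfl fun d _ => congrArg (· • _) ?_
    rw [← Finset.prod_pow]
    exact Finset.prod_congr rfl fun i _ => pow_right_comm _ _ _

theorem good_centralizer {F : Type} [Field F] (B : SL n F) (hB : Good B) (ζ : Matrix n n F)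
    (h : B.1 * ζ = ζ * B.1) : ζ ∈ Submodule.span F (Set.range fun k : ℕ => (B ^ k).1) := by
  obtain ⟨P, Q, lam, h1, h2, h3, h4⟩ := hB
  have hl : Function.Injective fun i => (lam i : F) := Units.val_injective.comp (inj_of_indep lam h4)
  obtain ⟨μ, hμ⟩ := gd_comm P Q _ hl h1 h2 ζ (by rw [← h3, h])
  have e : ∀ d : n → F, P * Matrix.diagonal d * Q =
      ∑ i, d i • (P * Matrix.diagonal (Pi.single i 1) * Q) := fun d => by
    have e1 : Matrix.diagonal d = ∑ i, d i • Matrix.diagonal (Pi.single i (1 : F)) := by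
      ext i j
      by_cases hij : i = j
      · subst hij
        simp [Matrix.sum_apply, Pi.single_apply]
      · simp [Matrix.sum_apply, hij]
    rw [e1, Matrix.mul_sum, Matrix.sum_mul]
    simp only [Matrix.mul_smul, Matrix.smul_mul]
  rw [hμ, e]
  refine gd_fun' _ (fun i => (lam i : F)) _ _ (fun k => ?_) fun i j hij => by rw [hl hij]
  rw [← e, ← gd_pow B P Q _ h1 h2 h3 k]
  exact Submodule.subset_span ⟨k, rfl⟩

theorem gd_frame {O F : Type} [CommRing O] [Field F] [Algebra O F] (P Q : Matrix n n F)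
    (lam : n → F) (hl : Function.Injective lam) (h1 : P * Q = 1) (h2 : Q * P = 1)
    (hP : ∀ j, ∃ r, P r j = 1) (D : Derivation O F F)
    (h : (P * Matrix.diagonal lam * Q).map D = 0) : P.map D = 0 ∧ Q.map D = 0 := by
  have e1 : P * Matrix.diagonal lam * Q * P = P * Matrix.diagonal lam := by
    rw [Matrix.mul_assoc, h2, Matrix.mul_one]
  have e2 := map_der_mul D (P * Matrix.diagonal lam * Q) P
  rw [e1, h, Matrix.zero_mul, zero_add, map_der_mul] at e2
  have e3 : Q * P.map D * Matrix.diagonal lam + (Matrix.diagonal lam).map D =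
      Matrix.diagonal lam * (Q * P.map D) := by
    have h4 := congrArg (fun X => Q * X) e2
    simp only [Matrix.mul_add, ← Matrix.mul_assoc, h2, Matrix.one_mul] at h4 ⊢
    exact h4
  have e4 : ∀ i j, i ≠ j → (Q * P.map D) i j = 0 := fun i j hij => by
    have h5 := congrFun (congrFun e3 i) j
    rw [Matrix.add_apply, Matrix.mul_diagonal, Matrix.diagonal_mul, Matrix.map_apply,
      Matrix.diagonal_apply_ne _ hij, map_zero, add_zero, mul_comm] at h5
    by_contra hne
    exact hij (hl (mul_right_cancel₀ hne h5)).symm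
  have e5 : P * (Q * P.map D) = P.map D := by rw [← Matrix.mul_assoc, h1, Matrix.one_mul]
  have e6 : Q * P.map D = 0 := by
    ext i j
    by_cases hij : i = j
    · subst hij
      obtain ⟨r, hr⟩ := hP i
      have h5 := congrFun (congrFun e5 r) i
      rw [Matrix.mul_apply, Finset.sum_eq_single i (fun k _ hk => by rw [e4 k i hk, mul_zero])
        (fun hi => (hi (Finset.mem_univ i)).elim), hr, one_mul, Matrix.map_apply, hr,
        D.map_one_eq_zero] at h5
      exact h5
    · exact e4 i j hij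
  have e7 : P.map D = 0 := by rw [← e5, e6, Matrix.mul_zero]
  refine ⟨e7, ?_⟩
  have e8 := map_der_mul D Q P
  rw [h2, map_der_one, e6, add_zero] at e8
  rw [← Matrix.mul_one (Q.map D), ← h1, ← Matrix.mul_assoc, ← e8, Matrix.zero_mul]

theorem good_frame {O F : Type} [CommRing O] [Field F] [Algebra O F] (B : SL n F) (hB : Good B) :
    ∃ (P Q : Matrix n n F) (lam : n → Fˣ), P * Q = 1 ∧ Q * P = 1 ∧
      B.1 = P * Matrix.diagonal (fun i => (lam i : F)) * Q ∧
      (∀ m : n → ℤ, ∏ i, lam i ^ m i = 1 → ∀ i j, m i = m j) ∧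
      ∀ D : Derivation O F F, ld D B = 0 → P.map D = 0 ∧ Q.map D = 0 := by
  obtain ⟨P, Q, lam, h1, h2, h3, h4⟩ := hB
  have hl : Function.Injective fun i => (lam i : F) := Units.val_injective.comp (inj_of_indep lam h4)
  have h5 : ∀ j, ∃ r, P r j ≠ 0 := fun j => by
    by_contra hc
    push Not at hc
    have h6 := congrFun (congrFun h2 j) j
    simp [Matrix.mul_apply, hc] at h6
  choose r hr using h5
  have e1 : (Matrix.diagonal fun j => (P (r j) j)⁻¹) * (Matrix.diagonal fun j => P (r j) j) = 1 := by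
    rw [Matrix.diagonal_mul_diagonal, ← Matrix.diagonal_one]
    exact congrArg _ (funext fun j => inv_mul_cancel₀ (hr j))
  have a1 : P * (Matrix.diagonal fun j => (P (r j) j)⁻¹) *
      ((Matrix.diagonal fun j => P (r j) j) * Q) = 1 := by
    rw [Matrix.mul_assoc, ← Matrix.mul_assoc _ _ Q, e1, Matrix.one_mul, h1]
  have a2 := mul_eq_one_comm.1 a1
  have a3 : B.1 = P * (Matrix.diagonal fun j => (P (r j) j)⁻¹) *
      Matrix.diagonal (fun i => (lam i : F)) * ((Matrix.diagonal fun j => P (r j) j) * Q) := by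
    rw [h3]
    simp only [Matrix.mul_assoc]
    simp only [← Matrix.mul_assoc _ _ Q, Matrix.diagonal_mul_diagonal]
    congr 3
    funext j
    field_simp [hr j]
  refine ⟨_, _, lam, a1, a2, a3, h4, fun D hD => gd_frame _ _ _ hl a1 a2 (fun j => ⟨r j, ?_⟩) D ?_⟩
  · rw [Matrix.mul_diagonal, mul_inv_cancel₀ (hr j)]
  · rw [← a3, ← ld_mul_val, hD, Matrix.zero_mul]

end Vale.Agent.P002
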