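import Vale.Agent.P002.BDefs
import Vale.Agent.P002.Comm

/-! P002, task Num: the number field.

`Zb = integralClosure ℤ ℂ`. `zb_h1`: take a complex root `q` of `u X ^ 2 + y X - 1`; it is integral
over `Zb` (multiply by `u⁻¹`), so in `Zb` (`isIntegral_trans`), and `q (u q + y) = 1`. `zb_h2`
similarly. `exists_E`: for each `r ≤ R` the set of `T` with entries in the finite set
`{x | x ^ N = 1} ∪ {0}` is finite (`Set.Finite.pi'`); for an admissible `T` the product lifts to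
`SL (Fin r) Zb` (entries of a product of matrices with integral entries are integral; upper
triangularity is preserved by products), use `exists_comm`; `E` is the union of the entries.
`exists_OK`: `L = IntermediateField.adjoin ℚ (E ∪ {x | x ^ (N * R!) = 1} ∪ {ε})` with
`ε ^ 2 = 2 ε + 1`, `ε = 1 + √2` (`IntermediateField.finiteDimensional_adjoin`); the powers of
`ε` are distinct since `1 < ‖ε‖`. An element of `L` integral over `ℤ` comes from `𝓞 L`. -/

namespace Vale.Agent.P002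

open NumberField

theorem num_zb_root (p : Polynomial (integralClosure ℤ ℂ)) (hp : p.Monic) (hd : p.degree ≠ 0) :
    ∃ q : integralClosure ℤ ℂ, p.eval q = 0 := by
  obtain ⟨x, hx⟩ := IsAlgClosed.exists_aeval_eq_zero_of_injective ℂ
    (Subtype.val_injective : Function.Injective (algebraMap (integralClosure ℤ ℂ) ℂ)) p hd
  have h1 : IsIntegral (integralClosure ℤ ℂ) x := ⟨p, hp, by rwa [← Polynomial.aeval_def]⟩
  have h2 : IsIntegral ℤ x := isIntegral_trans x h1
  refine ⟨⟨x, h2⟩, Subtype.val_injective ?_⟩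
  have h3 := Polynomial.aeval_algebraMap_apply_eq_algebraMap_eval (A := ℂ)
    (⟨x, h2⟩ : integralClosure ℤ ℂ) p
  exact h3.symm.trans hx

theorem zb_h1 (u y : integralClosure ℤ ℂ) (hu : IsUnit u) :
    ∃ q, IsUnit q ∧ IsUnit (u * q + y) := by
  obtain ⟨u', hu'⟩ := hu.exists_right_inv
  let p : Polynomial (integralClosure ℤ ℂ) :=
    Polynomial.X ^ 2 + (Polynomial.C (u' * y) * Polynomial.X - Polynomial.C u')
  have hm : p.Monic := by
    simp only [p]
    monicity!
  have hd : p.degree = 2 := by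
    simp only [p]
    compute_degree!
  obtain ⟨q, hq⟩ := num_zb_root p hm (by rw [hd]; decide)
  simp only [p, Polynomial.eval_add, Polynomial.eval_sub, Polynomial.eval_pow, Polynomial.eval_mul,
    Polynomial.eval_X, Polynomial.eval_C] at hq
  have e : q * (u * q + y) = 1 := by
    linear_combination u * hq + (1 - q * y) * hu'
  exact ⟨q, IsUnit.of_mul_eq_one _ e, IsUnit.of_mul_eq_one_right _ e⟩

theorem zb_h2 (u : integralClosure ℤ ℂ) (m : ℕ) (hu : IsUnit u) (hm : 0 < m) :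
    ∃ v, v ^ m = u := by
  obtain ⟨v, hv⟩ := IsAlgClosed.exists_pow_nat_eq (u : ℂ) hm
  have h : IsIntegral ℤ v := IsIntegral.of_pow hm (by rw [hv]; exact u.2)
  exact ⟨⟨v, h⟩, Subtype.ext hv⟩

theorem num_int_root {N : ℕ} (hN : 0 < N) {x : ℂ} (hx : x ^ N = 1) : IsIntegral ℤ x :=
  IsIntegral.of_pow hN (by rw [hx]; exact isIntegral_one)

theorem num_fin_root {N : ℕ} (hN : 0 < N) : {x : ℂ | x ^ N = 1}.Finite :=
  (Polynomial.nthRootsFinset N (1 : ℂ)).finite_toSet.subset fun _ hx =>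
    (Polynomial.mem_nthRootsFinset hN 1).2 hx

theorem num_key (s N : ℕ) (hN : 0 < N) (r : ℕ) (T : Fin s → Matrix (Fin r) (Fin r) ℂ)
    (h1 : ∀ k i j, j < i → T k i j = 0) (h2 : ∀ k i j, T k i j ^ N = 1 ∨ T k i j = 0)
    (h3 : (List.ofFn T).prod.det = 1) :
    ∃ A B : SL (Fin r) ℂ, (∀ i j, IsIntegral ℤ (A.1 i j) ∧ IsIntegral ℤ (B.1 i j)) ∧
      (A * B * A⁻¹ * B⁻¹).1 * (List.ofFn T).prod = 1 := by
  let f : integralClosure ℤ ℂ →+* ℂ := algebraMap _ _
  have hf : Function.Injective f := Subtype.val_injective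
  have hT : ∀ k i j, IsIntegral ℤ (T k i j) := fun k i j => by
    rcases h2 k i j with h | h
    · exact num_int_root hN h
    · rw [h]
      exact isIntegral_zero
  let T' : Fin s → Matrix (Fin r) (Fin r) (integralClosure ℤ ℂ) :=
    fun k => Matrix.of fun i j => ⟨T k i j, hT k i j⟩
  have hP : (List.ofFn T').prod.map f = (List.ofFn T).prod := by
    have := map_list_prod (f.mapMatrix : Matrix (Fin r) (Fin r) _ →+* _) (List.ofFn T')
    rw [List.map_ofFn] at this
    exact this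
  have hdet : (List.ofFn T').prod.det = 1 := by
    apply hf
    rw [RingHom.map_det, RingHom.mapMatrix_apply, hP, h3, map_one]
  have htri : (List.ofFn T').prod.BlockTriangular id := by
    refine List.prod_induction (fun M : Matrix (Fin r) (Fin r) (integralClosure ℤ ℂ) =>
      M.BlockTriangular id) (fun a b ha hb => ha.mul hb) Matrix.blockTriangular_one ?_
    intro M hM
    obtain ⟨k, rfl⟩ := List.mem_ofFn.1 hM
    intro i j hij
    exact Subtype.ext (h1 k i j hij)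
  obtain ⟨c, hc⟩ : ∃ c : SL (Fin r) (integralClosure ℤ ℂ), c.1 = (List.ofFn T').prod :=
    ⟨⟨_, hdet⟩, rfl⟩
  obtain ⟨A, B, hAB⟩ := exists_comm (fun p hp hd => num_zb_root p hp
    (Polynomial.natDegree_pos_iff_degree_pos.1 hd).ne') c
    (fun i j hij => by rw [hc]; exact htri hij)
  refine ⟨smap f A, smap f B, fun i j => ⟨(A.1 i j).2, (B.1 i j).2⟩, ?_⟩
  have h := congrArg (fun X => (smap f X).1) hAB
  simp only [map_mul, map_inv, map_one] at h
  rw [val_mul, val_one, smap_val, hc, hP] at h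
  exact h

theorem exists_E (s N R : ℕ) (hN : 0 < N) : ∃ E : Set ℂ, E.Finite ∧ (∀ x ∈ E, IsIntegral ℤ x) ∧
    ∀ r ≤ R, ∀ T : Fin s → Matrix (Fin r) (Fin r) ℂ, (∀ k i j, j < i → T k i j = 0) →
      (∀ k i j, T k i j ^ N = 1 ∨ T k i j = 0) → (List.ofFn T).prod.det = 1 →
      ∃ A B : SL (Fin r) ℂ, (∀ i j, A.1 i j ∈ E ∧ B.1 i j ∈ E) ∧
        (A * B * A⁻¹ * B⁻¹).1 * (List.ofFn T).prod = 1 := by
  have key : ∀ (r : ℕ) (T : Fin s → Matrix (Fin r) (Fin r) ℂ), ∃ F : Set ℂ, F.Finite ∧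
      (∀ x ∈ F, IsIntegral ℤ x) ∧ ((∀ k i j, j < i → T k i j = 0) →
      (∀ k i j, T k i j ^ N = 1 ∨ T k i j = 0) → (List.ofFn T).prod.det = 1 →
      ∃ A B : SL (Fin r) ℂ, (∀ i j, A.1 i j ∈ F ∧ B.1 i j ∈ F) ∧
        (A * B * A⁻¹ * B⁻¹).1 * (List.ofFn T).prod = 1) := by
    intro r T
    by_cases h : (∀ k i j, j < i → T k i j = 0) ∧ (∀ k i j, T k i j ^ N = 1 ∨ T k i j = 0) ∧
        (List.ofFn T).prod.det = 1
    · obtain ⟨A, B, hAB, h4⟩ := num_key s N hN r T h.1 h.2.1 h.2.2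
      refine ⟨(Set.range fun p : Fin r × Fin r => A.1 p.1 p.2) ∪
        (Set.range fun p : Fin r × Fin r => B.1 p.1 p.2),
        (Set.finite_range _).union (Set.finite_range _), ?_, fun _ _ _ => ⟨A, B, fun i j =>
          ⟨Or.inl ⟨(i, j), rfl⟩, Or.inr ⟨(i, j), rfl⟩⟩, h4⟩⟩
      rintro _ (⟨p, rfl⟩ | ⟨p, rfl⟩)
      · exact (hAB _ _).1
      · exact (hAB _ _).2
    · exact ⟨∅, Set.finite_empty, fun _ hx => hx.elim, fun a b c => (h ⟨a, b, c⟩).elim⟩
  choose F hF1 hF2 hF3 using key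
  have hU : ({x : ℂ | x ^ N = 1} ∪ {0}).Finite := (num_fin_root hN).union (Set.finite_singleton _)
  have hS : ∀ r, {T : Fin s → Matrix (Fin r) (Fin r) ℂ |
      ∀ k i j, T k i j ^ N = 1 ∨ T k i j = 0}.Finite := fun r =>
    Set.Finite.pi' fun _ : Fin s => Set.Finite.pi' fun _ : Fin r =>
      Set.Finite.pi' fun _ : Fin r => hU
  refine ⟨⋃ r ∈ Set.Iic R, ⋃ T ∈ {T : Fin s → Matrix (Fin r) (Fin r) ℂ |
      ∀ k i j, T k i j ^ N = 1 ∨ T k i j = 0}, F r T,
    (Set.finite_Iic R).biUnion fun r _ => (hS r).biUnion fun T _ => hF1 r T, ?_, ?_⟩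
  · intro x hx
    simp only [Set.mem_iUnion] at hx
    obtain ⟨r, -, T, -, hx⟩ := hx
    exact hF2 r T x hx
  · intro r hr T h1 h2 h3
    obtain ⟨A, B, hAB, h4⟩ := hF3 r T h1 h2 h3
    refine ⟨A, B, fun i j => ⟨?_, ?_⟩, h4⟩
    · exact Set.mem_biUnion (Set.mem_Iic.2 hr) (Set.mem_biUnion h2 (hAB i j).1)
    · exact Set.mem_biUnion (Set.mem_Iic.2 hr) (Set.mem_biUnion h2 (hAB i j).2)

theorem exists_lift_SL {n O : Type} [Fintype n] [DecidableEq n] [CommRing O] [Algebra O ℂ]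
    [FaithfulSMul O ℂ] (A : SL n ℂ) (h : ∀ i j, ∃ u : O, algebraMap O ℂ u = A.1 i j) :
    ∃ A' : SL n O, smap (algebraMap O ℂ) A' = A := by
  choose u hu using h
  have e : (Matrix.of u).map (algebraMap O ℂ) = A.1 := by
    ext i j
    exact hu i j
  have hd : (Matrix.of u).det = 1 := by
    apply FaithfulSMul.algebraMap_injective O ℂ
    rw [RingHom.map_det, RingHom.mapMatrix_apply, e, A.2, map_one]
  exact ⟨⟨_, hd⟩, Subtype.ext e⟩

theorem num_lift (L : IntermediateField ℚ ℂ) {x : ℂ} (hx : x ∈ L) (hi : IsIntegral ℤ x) :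
    ∃ u : 𝓞 L, algebraMap (𝓞 L) ℂ u = x := by
  have h : IsIntegral ℤ (⟨x, hx⟩ : L) :=
    (isIntegral_algHom_iff (IsScalarTower.toAlgHom ℤ L ℂ) Subtype.val_injective).1 hi
  exact ⟨⟨⟨x, hx⟩, h⟩, rfl⟩

theorem exists_OK (s N R : ℕ) (hN : 0 < N) :
    ∃ L : IntermediateField ℚ ℂ, FiniteDimensional ℚ L ∧ OK (𝓞 L) s N R ∧ Countable (𝓞 L) ∧
      FaithfulSMul (𝓞 L) ℂ := by
  obtain ⟨E, hE1, hE2, hE3⟩ := exists_E s N R hN
  have hM : 0 < N * R.factorial := Nat.mul_pos hN R.factorial_pos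
  let a : ℝ := 1 + Real.sqrt 2
  have ha1 : 1 < a := lt_add_of_pos_right _ (Real.sqrt_pos.2 two_pos)
  have ha2 : ((a : ℂ) - 1) ^ 2 = 2 := by
    have : (a - 1) ^ 2 = 2 := by
      simp only [a, add_sub_cancel_left]
      exact Real.sq_sqrt zero_le_two
    exact_mod_cast this
  have ha3 : IsIntegral ℤ (a : ℂ) := by
    have h : IsIntegral ℤ ((a : ℂ) - 1) := IsIntegral.of_pow two_pos (by
      rw [ha2, ← one_add_one_eq_two]
      exact isIntegral_one.add isIntegral_one)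
    simpa using h.add isIntegral_one
  let G : Set ℂ := E ∪ {x | x ^ (N * R.factorial) = 1} ∪ {(a : ℂ)}
  have hG1 : G.Finite := (hE1.union (num_fin_root hM)).union (Set.finite_singleton _)
  have hG2 : ∀ x ∈ G, IsIntegral ℤ x := by
    rintro x ((hx | hx) | hx)
    · exact hE2 x hx
    · exact num_int_root hM hx
    · rw [Set.mem_singleton_iff.1 hx]
      exact ha3
  have : Finite G := hG1
  let L := IntermediateField.adjoin ℚ G
  have hfd : FiniteDimensional ℚ L :=
    IntermediateField.finiteDimensional_adjoin fun x hx => (hG2 x hx).tower_top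
  have hinj : Function.Injective (algebraMap (𝓞 L) ℂ) := fun x y h =>
    Subtype.ext (Subtype.ext h)
  have hfs : FaithfulSMul (𝓞 L) ℂ := (faithfulSMul_iff_algebraMap_injective _ _).2 hinj
  have hl : ∀ x ∈ G, ∃ u : 𝓞 L, algebraMap (𝓞 L) ℂ u = x := fun x hx =>
    num_lift L (IntermediateField.subset_adjoin ℚ G hx) (hG2 x hx)
  have hc : Countable L := (Module.finBasis ℚ L).equivFun.injective.countable
  refine ⟨L, hfd, ⟨fun ω hω => hl ω (Or.inl (Or.inr hω)), ?_, ?_⟩,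
    (Subtype.val_injective : Function.Injective (algebraMap (𝓞 L) L)).countable, hfs⟩
  · obtain ⟨e, he⟩ := hl a (Or.inr rfl)
    have h1 : e * (e - 2) = 1 := by
      apply hinj
      rw [map_mul, map_sub, he, map_one, map_ofNat]
      linear_combination ha2
    refine Set.infinite_of_injective_forall_mem (f := fun m : ℕ => ((a ^ m : ℝ) : ℂ))
      (Complex.ofReal_injective.comp (pow_right_injective₀ (by linarith) ha1.ne')) fun m => ?_
    refine ⟨Units.mkOfMulEqOne e (e - 2) h1 ^ m, ?_⟩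
    simp only [Units.val_pow_eq_pow_val, Units.val_mkOfMulEqOne, map_pow, he, Complex.ofReal_pow]
  · intro r hr T h1 h2 h3
    obtain ⟨A, B, hAB, h4⟩ := hE3 r hr T h1 h2 h3
    obtain ⟨A', rfl⟩ := exists_lift_SL (O := 𝓞 L) A fun i j => hl _ (Or.inl (Or.inl (hAB i j).1))
    obtain ⟨B', rfl⟩ := exists_lift_SL (O := 𝓞 L) B fun i j => hl _ (Or.inl (Or.inl (hAB i j).2))
    refine ⟨A', B', ?_⟩
    rw [← smap_val]
    simp only [map_mul, map_inv]
    exact h4

end Vale.Agent.P002
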