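import Vale.Agent.P002.BDefs

/-! P002, task Poly: polynomial functions.

`IsP` is closed under the ring operations and composition (`MvPolynomial.bind₁`,
`MvPolynomial.eval₂Hom_bind₁` / `aeval_bind₁`, or induction on `f`). `IsP.adj`: the entry of the
adjugate of the generic matrix (`RingHom.map_adjugate`).
`laurent`: by induction on `f` (`MvPolynomial.induction_on`) there are `N` and a polynomial `p` in
the variables `κ` with `(∏ y) ^ N * eval (x y) f = eval y p` for all `y` with nonzero coordinates;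
`MvPolynomial.funext_set` shows `p = 0`. -/

namespace Vale.Agent.P002

open Matrix

variable {n n' ι ι' : Type} [Fintype n] [DecidableEq n] [Fintype n'] [DecidableEq n']

theorem IsP.const (c : ℂ) : IsP fun _ : ι → Matrix n n ℂ => c := by
  exact ⟨MvPolynomial.C c, fun M => by simp [val]⟩


theorem IsP.coord (v : ι) (a b : n) : IsP fun M : ι → Matrix n n ℂ => M v a b := by
  exact ⟨MvPolynomial.X (v, a, b), fun M => by simp [val]⟩


theorem IsP.add {F G : (ι → Matrix n n ℂ) → ℂ} (hF : IsP F) (hG : IsP G) :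
    IsP fun M => F M + G M := by
  obtain ⟨f, hf⟩ := hF
  obtain ⟨g, hg⟩ := hG
  exact ⟨f + g, fun M => by simp [hf M, hg M, val]⟩


theorem IsP.mul {F G : (ι → Matrix n n ℂ) → ℂ} (hF : IsP F) (hG : IsP G) :
    IsP fun M => F M * G M := by
  obtain ⟨f, hf⟩ := hF
  obtain ⟨g, hg⟩ := hG
  exact ⟨f * g, fun M => by simp [hf M, hg M, val]⟩


theorem IsP.sum {κ : Type} (s : Finset κ) {F : κ → (ι → Matrix n n ℂ) → ℂ}
    (h : ∀ k ∈ s, IsP (F k)) : IsP fun M => ∑ k ∈ s, F k M := by
  classical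
  induction s using Finset.induction_on with
  | empty => simpa using IsP.const (0 : ℂ)
  | insert a s ha ih =>
    simp only [Finset.sum_insert ha]
    exact (h a (Finset.mem_insert_self _ _)).add (ih fun k hk => h k (Finset.mem_insert_of_mem hk))


theorem IsP.adj (v : ι) (a b : n) : IsP fun M : ι → Matrix n n ℂ => (M v).adjugate a b := by
  refine ⟨(Matrix.of fun i j => (MvPolynomial.X (v, i, j) : MvPolynomial (ι × n × n) ℂ)).adjugate a b,
    fun M => ?_⟩
  have h := RingHom.map_adjugate (MvPolynomial.eval (fun p : ι × n × n => M p.1 p.2.1 p.2.2))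
    (Matrix.of fun i j => (MvPolynomial.X (v, i, j) : MvPolynomial (ι × n × n) ℂ))
  have h2 : (MvPolynomial.eval (fun p : ι × n × n => M p.1 p.2.1 p.2.2)).mapMatrix
      (Matrix.of fun i j => (MvPolynomial.X (v, i, j) : MvPolynomial (ι × n × n) ℂ)) = M v := by
    ext i j
    simp
  rw [h2] at h
  beta_reduce
  rw [← h]
  rfl


theorem IsP.comp (f : MvPolynomial (ι' × n' × n') ℂ)
    (μ : (ι → Matrix n n ℂ) → ι' → Matrix n' n' ℂ) (h : ∀ v a b, IsP fun M => μ M v a b) :
    IsP fun M => val f (μ M) := by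
  induction f using MvPolynomial.induction_on with
  | C c => simpa [val] using IsP.const c
  | add p q hp hq => simpa [val] using hp.add hq
  | mul_X p x hp => simpa [val] using hp.mul (h x.1 x.2.1 x.2.2)


theorem val_eq_aeval (f : MvPolynomial (ι × n × n) ℂ) (ρ : ι → SL n ℂ) :
    val f (fun v => (ρ v).1) = MvPolynomial.aeval (ent ρ) f := by
  rw [MvPolynomial.aeval_eq_eval]
  rfl


/-- Laurent polynomial functions on the torus -/
private def Lau {κ : Type} [Fintype κ] (F : (κ → ℂˣ) → ℂ) : Prop :=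
  ∃ (N : ℕ) (p : MvPolynomial κ ℂ), ∀ y : κ → ℂˣ,
    (∏ k, (y k : ℂ)) ^ N * F y = MvPolynomial.eval (fun k => (y k : ℂ)) p

private theorem Lau.const {κ : Type} [Fintype κ] (c : ℂ) : Lau fun _ : κ → ℂˣ => c :=
  ⟨0, MvPolynomial.C c, fun y => by simp⟩

private theorem Lau.add {κ : Type} [Fintype κ] {F G : (κ → ℂˣ) → ℂ} (hF : Lau F) (hG : Lau G) :
    Lau fun y => F y + G y := by
  obtain ⟨N, p, hp⟩ := hF
  obtain ⟨M, q, hq⟩ := hG
  refine ⟨N + M, (∏ k, MvPolynomial.X k) ^ M * p + (∏ k, MvPolynomial.X k) ^ N * q, fun y => ?_⟩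
  simp only [map_add, map_mul, map_pow, map_prod, MvPolynomial.eval_X, ← hp y, ← hq y]
  ring

private theorem Lau.mul {κ : Type} [Fintype κ] {F G : (κ → ℂˣ) → ℂ} (hF : Lau F) (hG : Lau G) :
    Lau fun y => F y * G y := by
  obtain ⟨N, p, hp⟩ := hF
  obtain ⟨M, q, hq⟩ := hG
  refine ⟨N + M, p * q, fun y => ?_⟩
  simp only [map_mul, ← hp y, ← hq y]
  ring

private theorem Lau.zpow {κ : Type} [Fintype κ] (k : κ) (m : ℤ) :
    Lau fun y : κ → ℂˣ => ((y k ^ m : ℂˣ) : ℂ) := by
  classical
  obtain ⟨j, rfl | rfl⟩ := m.eq_nat_or_neg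
  · exact ⟨0, MvPolynomial.X k ^ j, fun y => by simp⟩
  · refine ⟨j, (∏ l ∈ Finset.univ.erase k, MvPolynomial.X l) ^ j, fun y => ?_⟩
    have h0 : (y k : ℂ) ≠ 0 := (y k).ne_zero
    rw [← Finset.mul_prod_erase Finset.univ (fun l => (y l : ℂ)) (Finset.mem_univ k)]
    simp only [map_pow, map_prod, MvPolynomial.eval_X, _root_.zpow_neg, _root_.zpow_natCast,
      Units.val_inv_eq_inv_val,
      Units.val_pow_eq_pow_val, mul_pow]
    field_simp

theorem laurent {κ σ : Type} [Fintype κ] (f : MvPolynomial σ ℂ) (x : (κ → ℂˣ) → σ → ℂ)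
    (hx : ∀ p, ∃ (c : ℂ) (k : Option κ) (m : ℤ), ∀ y, x y p =
      c * (k.elim 1 fun k => ((y k ^ m : ℂˣ) : ℂ)))
    (U : Set ℂ) (hU : U.Infinite) (h : ∀ y : κ → ℂˣ, (∀ k, (y k : ℂ) ∈ U) →
      MvPolynomial.eval (x y) f = 0) (y : κ → ℂˣ) : MvPolynomial.eval (x y) f = 0 := by
  have hL : Lau fun y => MvPolynomial.eval (x y) f := by
    clear h
    induction f using MvPolynomial.induction_on with
    | C c => simpa using Lau.const c
    | add p q hp hq => simpa using hp.add hq
    | mul_X p a hp =>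
      obtain ⟨c, k, m, hk⟩ := hx a
      have h1 : Lau fun y => x y a := by
        simp only [hk]
        refine (Lau.const c).mul ?_
        cases k with
        | none => exact Lau.const 1
        | some k => exact Lau.zpow k m
      simpa using hp.mul h1
  obtain ⟨N, p, hp⟩ := hL
  beta_reduce at hp
  have hp0 : p = 0 := by
    refine MvPolynomial.funext_set (fun _ => U \ {0}) (fun _ => hU.sdiff (Set.finite_singleton 0)) ?_
    intro z hz
    have hz0 : ∀ k, z k ≠ 0 := fun k => (hz k (Set.mem_univ k)).2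
    have h1 := hp fun k => Units.mk0 (z k) (hz0 k)
    rw [h (fun k => Units.mk0 (z k) (hz0 k)) fun k => (hz k (Set.mem_univ k)).1] at h1
    simpa using h1.symm
  have h1 := hp y
  rw [hp0, map_zero] at h1
  refine (mul_eq_zero.1 h1).resolve_left (pow_ne_zero _ ?_)
  exact Finset.prod_ne_zero_iff.2 fun k _ => (y k).ne_zero


end Vale.Agent.P002
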