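import Vale.Agent.P002.BDefs

/-! P002, task SSl: semisimple families and block matrices.

* `SS.of_equiv`: transport subspaces along `φ` (`Submodule.map`, `Submodule.comap`,
  `(Submodule.orderIsoMapComap φ).isCompl`).
* `SS.blk_left`: for `W` invariant under `X`, `W' ` an invariant complement of the image of `W`
  under the inclusion `inl`, the preimage of `W'` is a complement of `W`.
* `SS.blk`: for `U` invariant, `U1` = preimage under `inl` with complement `C1`, `U2` = image under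
  the second projection with complement `C2`; the vectors with components in `C1`, `C2` form a
  complement of `U`.
* `exists_blk`: bases of `U`, `U'` (`Module.finBasis`) give a basis of `Fin r → ℂ` indexed by
  `Fin r₁ ⊕ Fin r₂` (`Submodule.prodEquivOfIsCompl`, `Module.Basis.prod`), `r₁ + r₂ = r`
  (`finSumFinEquiv`, `finCongr`); `P` has the basis vectors as columns, rescaled to determinant
  one (`exists_SL_of_unit`). -/

namespace Vale.Agent.P002

open Matrix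

variable {n n' n₁ n₂ ι : Type} [Fintype n] [DecidableEq n] [Fintype n'] [DecidableEq n']
  [Fintype n₁] [DecidableEq n₁] [Fintype n₂] [DecidableEq n₂]

theorem blk_mul {R : Type} [CommRing R] (e : n₁ ⊕ n₂ ≃ n) (X X' : Matrix n₁ n₁ R)
    (Z Z' : Matrix n₂ n₂ R) : blk e X Z * blk e X' Z' = blk e (X * X') (Z * Z') := by
  simp only [blk, Matrix.reindex_apply, Matrix.submatrix_mul_equiv, Matrix.fromBlocks_multiply,
    Matrix.mul_zero, Matrix.zero_mul, add_zero, zero_add]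

theorem blk_one {R : Type} [CommRing R] (e : n₁ ⊕ n₂ ≃ n) :
    blk e (1 : Matrix n₁ n₁ R) (1 : Matrix n₂ n₂ R) = 1 := by
  simp only [blk, Matrix.fromBlocks_one, Matrix.reindex_apply, Matrix.submatrix_one_equiv]

theorem blk_det {R : Type} [CommRing R] (e : n₁ ⊕ n₂ ≃ n) (X : Matrix n₁ n₁ R)
    (Z : Matrix n₂ n₂ R) : (blk e X Z).det = X.det * Z.det := by
  rw [blk, Matrix.det_reindex_self, Matrix.det_fromBlocks_zero₂₁]

theorem blk_map {R S : Type} [CommRing R] [CommRing S] (f : R →+* S) (e : n₁ ⊕ n₂ ≃ n)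
    (X : Matrix n₁ n₁ R) (Z : Matrix n₂ n₂ R) :
    (blk e X Z).map f = blk e (X.map f) (Z.map f) := by
  ext a b
  simp only [blk, Matrix.reindex_apply, Matrix.map_apply, Matrix.submatrix_apply]
  rcases e.symm a with a | a <;> rcases e.symm b with b | b <;> simp

theorem blk_inj {R : Type} [CommRing R] (e : n₁ ⊕ n₂ ≃ n) {X X' : Matrix n₁ n₁ R}
    {Z Z' : Matrix n₂ n₂ R} (h : blk e X Z = blk e X' Z') : X = X' ∧ Z = Z' := by
  have := Matrix.fromBlocks_inj.mp ((Matrix.reindex e e).injective h)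
  exact ⟨this.1, this.2.2.2⟩

theorem blk_charpoly {R : Type} [CommRing R] (e : n₁ ⊕ n₂ ≃ n) (X : Matrix n₁ n₁ R)
    (Z : Matrix n₂ n₂ R) : (blk e X Z).charpoly = X.charpoly * Z.charpoly := by
  rw [blk, Matrix.charpoly_reindex, Matrix.charpoly_fromBlocks_zero₂₁]

theorem blk_list_prod {R : Type} [CommRing R] (e : n₁ ⊕ n₂ ≃ n) {s : ℕ}
    (X : Fin s → Matrix n₁ n₁ R) (Z : Fin s → Matrix n₂ n₂ R) :
    (List.ofFn fun k => blk e (X k) (Z k)).prod =
      blk e (List.ofFn X).prod (List.ofFn Z).prod := by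
  induction s with
  | zero => simp [blk_one]
  | succ s ih =>
    simp only [List.ofFn_succ, List.prod_cons]
    rw [ih, blk_mul]


theorem SS.of_inj {M : ι → Matrix n n ℂ} {X : ι → Matrix n' n' ℂ} (h : SS M)
    (j : (n' → ℂ) →ₗ[ℂ] (n → ℂ)) (hj : Function.Injective j)
    (hc : ∀ i v, j (X i *ᵥ v) = M i *ᵥ j v) : SS X := by
  intro W hW
  obtain ⟨U', hU, hU'⟩ := h (W.map j) (by
    rintro i _ ⟨w, hw, rfl⟩
    exact ⟨_, hW i w hw, hc i w⟩)
  refine ⟨U'.comap j, ⟨?_, ?_⟩, fun i v hv => ?_⟩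
  · rw [Submodule.disjoint_def]
    intro x hx hx'
    have := Submodule.disjoint_def.mp hU.disjoint (j x) ⟨x, hx, rfl⟩ hx'
    exact hj (by rw [this, map_zero])
  · rw [codisjoint_iff, eq_top_iff]
    intro x _
    have hx : j x ∈ W.map j ⊔ U' := by rw [hU.sup_eq_top]; trivial
    obtain ⟨_, ⟨w, hw, rfl⟩, u, hu, e⟩ := Submodule.mem_sup.mp hx
    refine Submodule.mem_sup.mpr ⟨w, hw, x - w, ?_, by abel⟩
    rw [Submodule.mem_comap, map_sub, ← e, add_sub_cancel_left]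
    exact hu
  · rw [Submodule.mem_comap, hc]
    exact hU' i _ hv

theorem SS.of_equiv {M : ι → Matrix n n ℂ} {M' : ι → Matrix n' n' ℂ} (h : SS M)
    (φ : (n → ℂ) ≃ₗ[ℂ] (n' → ℂ)) (hφ : ∀ i v, φ (M i *ᵥ v) = M' i *ᵥ φ v) : SS M' := by
  refine h.of_inj φ.symm.toLinearMap φ.symm.injective fun i v => φ.injective ?_
  simp [hφ]

theorem SS.ad {M : ι → Matrix n n ℂ} (h : SS M) (P : SL n ℂ) : SS fun i => Ad P (M i) := by
  refine h.of_equiv (Matrix.SpecialLinearGroup.toLin' P) fun i v => ?_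
  simp only [Matrix.SpecialLinearGroup.toLin'_apply, Matrix.toLin'_apply, Ad_apply,
    Matrix.mulVec_mulVec, Matrix.mul_assoc, inv_mul_val, Matrix.mul_one]

theorem SS.smul {M : ι → Matrix n n ℂ} (h : SS M) (c : ι → ℂ) (hc : ∀ i, c i ≠ 0) :
    SS fun i => c i • M i := by
  intro U hU
  obtain ⟨U', h1, h2⟩ := h U (fun i v hv => by
    have := U.smul_mem (c i)⁻¹ (hU i v hv)
    rwa [Matrix.smul_mulVec, smul_smul, inv_mul_cancel₀ (hc i), one_smul] at this)
  refine ⟨U', h1, fun i v hv => ?_⟩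
  rw [Matrix.smul_mulVec]
  exact U'.smul_mem _ (h2 i v hv)


namespace SSl

/-- first inclusion -/
def i1 (e : n₁ ⊕ n₂ ≃ n) : (n₁ → ℂ) →ₗ[ℂ] (n → ℂ) where
  toFun v := fun a => Sum.elim v 0 (e.symm a)
  map_add' v w := by funext a; simp only [Pi.add_apply]; rcases e.symm a with a | a <;> simp
  map_smul' c v := by funext a; simp only [Pi.smul_apply]; rcases e.symm a with a | a <;> simp

/-- second inclusion -/
def i2 (e : n₁ ⊕ n₂ ≃ n) : (n₂ → ℂ) →ₗ[ℂ] (n → ℂ) where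
  toFun v := fun a => Sum.elim 0 v (e.symm a)
  map_add' v w := by funext a; simp only [Pi.add_apply]; rcases e.symm a with a | a <;> simp
  map_smul' c v := by funext a; simp only [Pi.smul_apply]; rcases e.symm a with a | a <;> simp

/-- first projection -/
def p1 (e : n₁ ⊕ n₂ ≃ n) : (n → ℂ) →ₗ[ℂ] (n₁ → ℂ) := LinearMap.funLeft ℂ ℂ fun a => e (.inl a)

/-- second projection -/
def p2 (e : n₁ ⊕ n₂ ≃ n) : (n → ℂ) →ₗ[ℂ] (n₂ → ℂ) := LinearMap.funLeft ℂ ℂ fun a => e (.inr a)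

section
omit [Fintype n] [DecidableEq n] [Fintype n₁] [DecidableEq n₁] [Fintype n₂] [DecidableEq n₂]

theorem p1_i1 (e : n₁ ⊕ n₂ ≃ n) (v : n₁ → ℂ) : p1 e (i1 e v) = v := by
  funext a; simp [p1, i1, LinearMap.funLeft_apply]

theorem p2_i1 (e : n₁ ⊕ n₂ ≃ n) (v : n₁ → ℂ) : p2 e (i1 e v) = 0 := by
  funext a; simp [p2, i1, LinearMap.funLeft_apply]

theorem p1_i2 (e : n₁ ⊕ n₂ ≃ n) (v : n₂ → ℂ) : p1 e (i2 e v) = 0 := by
  funext a; simp [p1, i2, LinearMap.funLeft_apply]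

theorem p2_i2 (e : n₁ ⊕ n₂ ≃ n) (v : n₂ → ℂ) : p2 e (i2 e v) = v := by
  funext a; simp [p2, i2, LinearMap.funLeft_apply]

theorem ext12 (e : n₁ ⊕ n₂ ≃ n) {v w : n → ℂ} (h1 : p1 e v = p1 e w) (h2 : p2 e v = p2 e w) :
    v = w := by
  funext a
  obtain ⟨a | a, rfl⟩ := e.surjective a
  · exact congrFun h1 a
  · exact congrFun h2 a

end

omit [DecidableEq n] [DecidableEq n₁] [DecidableEq n₂] in
theorem p1_blk (e : n₁ ⊕ n₂ ≃ n) (X : Matrix n₁ n₁ ℂ) (Z : Matrix n₂ n₂ ℂ) (v : n → ℂ) :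
    p1 e (blk e X Z *ᵥ v) = X *ᵥ p1 e v := by
  funext a
  simp only [p1, LinearMap.funLeft_apply, blk, Matrix.mulVec, dotProduct, Matrix.reindex_apply,
    Matrix.submatrix_apply, Equiv.symm_apply_apply]
  rw [← e.sum_comp]
  simp

omit [DecidableEq n] [DecidableEq n₁] [DecidableEq n₂] in
theorem p2_blk (e : n₁ ⊕ n₂ ≃ n) (X : Matrix n₁ n₁ ℂ) (Z : Matrix n₂ n₂ ℂ) (v : n → ℂ) :
    p2 e (blk e X Z *ᵥ v) = Z *ᵥ p2 e v := by
  funext a
  simp only [p2, LinearMap.funLeft_apply, blk, Matrix.mulVec, dotProduct, Matrix.reindex_apply,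
    Matrix.submatrix_apply, Equiv.symm_apply_apply]
  rw [← e.sum_comp]
  simp

end SSl

open SSl

theorem SS.blk_left {X : ι → Matrix n₁ n₁ ℂ} {Z : ι → Matrix n₂ n₂ ℂ} (e : n₁ ⊕ n₂ ≃ n)
    (h : SS fun i => blk e (X i) (Z i)) : SS X := by
  refine h.of_inj (i1 e) (Function.LeftInverse.injective (p1_i1 e)) fun i v => ext12 e ?_ ?_
  · rw [p1_blk, p1_i1, p1_i1]
  · rw [p2_blk, p2_i1, p2_i1, Matrix.mulVec_zero]

theorem SS.blk_right {X : ι → Matrix n₁ n₁ ℂ} {Z : ι → Matrix n₂ n₂ ℂ} (e : n₁ ⊕ n₂ ≃ n)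
    (h : SS fun i => blk e (X i) (Z i)) : SS Z := by
  refine h.of_inj (i2 e) (Function.LeftInverse.injective (p2_i2 e)) fun i v => ext12 e ?_ ?_
  · rw [p1_blk, p1_i2, p1_i2, Matrix.mulVec_zero]
  · rw [p2_blk, p2_i2, p2_i2]

theorem SS.blk {X : ι → Matrix n₁ n₁ ℂ} {Z : ι → Matrix n₂ n₂ ℂ} (e : n₁ ⊕ n₂ ≃ n)
    (h1 : SS X) (h2 : SS Z) : SS fun i => blk e (X i) (Z i) := by
  intro U hU
  obtain ⟨C1, hC1, hC1'⟩ := h1 (U.comap (i1 e)) (fun i v hv => by
    have e1 : i1 e (X i *ᵥ v) = Vale.Agent.P002.blk e (X i) (Z i) *ᵥ i1 e v := by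
      refine ext12 e ?_ ?_
      · rw [p1_blk, p1_i1, p1_i1]
      · rw [p2_blk, p2_i1, p2_i1, Matrix.mulVec_zero]
    rw [Submodule.mem_comap, e1]
    exact hU i _ hv)
  obtain ⟨C2, hC2, hC2'⟩ := h2 (U.map (p2 e)) (by
    rintro i _ ⟨u, hu, rfl⟩
    exact ⟨_, hU i u hu, p2_blk e _ _ _⟩)
  refine ⟨C1.comap (p1 e) ⊓ C2.comap (p2 e), ⟨?_, ?_⟩, ?_⟩
  · rw [Submodule.disjoint_def]
    rintro u hu ⟨hu1, hu2⟩
    have e2 : p2 e u = 0 := Submodule.disjoint_def.mp hC2.disjoint _ ⟨u, hu, rfl⟩ hu2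
    have e3 : i1 e (p1 e u) = u := ext12 e (p1_i1 e _) (by rw [p2_i1, e2])
    have e1 : p1 e u = 0 := Submodule.disjoint_def.mp hC1.disjoint _
      (by rw [Submodule.mem_comap, e3]; exact hu) hu1
    rw [← e3, e1, map_zero]
  · rw [codisjoint_iff, eq_top_iff]
    intro v _
    have hv2 : p2 e v ∈ U.map (p2 e) ⊔ C2 := by rw [hC2.sup_eq_top]; trivial
    obtain ⟨_, ⟨u, hu, rfl⟩, c2, hc2, e2⟩ := Submodule.mem_sup.mp hv2
    have hv1 : p1 e (v - u) ∈ U.comap (i1 e) ⊔ C1 := by rw [hC1.sup_eq_top]; trivial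
    obtain ⟨u1, hu1, c1, hc1, e1⟩ := Submodule.mem_sup.mp hv1
    refine Submodule.mem_sup.mpr ⟨u + i1 e u1, U.add_mem hu hu1, v - u - i1 e u1, ⟨?_, ?_⟩,
      by abel⟩
    · change p1 e (v - u - i1 e u1) ∈ C1
      rw [map_sub, p1_i1, ← e1, add_sub_cancel_left]
      exact hc1
    · change p2 e (v - u - i1 e u1) ∈ C2
      rw [map_sub, map_sub, p2_i1, ← e2, sub_zero, add_sub_cancel_left]
      exact hc2
  · rintro i v ⟨hv1, hv2⟩
    refine ⟨?_, ?_⟩
    · change p1 e _ ∈ C1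
      rw [p1_blk]; exact hC1' i _ hv1
    · change p2 e _ ∈ C2
      rw [p2_blk]; exact hC2' i _ hv2

theorem exists_SL_of_unit (P Q : Matrix n n ℂ) (h : P * Q = 1) :
    ∃ P' : SL n ℂ, ∀ X, Ad P' X = P * X * Q := by
  rcases isEmpty_or_nonempty n with hn | hn
  · exact ⟨1, fun X => Subsingleton.elim _ _⟩
  obtain ⟨c, hc⟩ := IsAlgClosed.exists_pow_nat_eq P.det (Fintype.card_pos (α := n))
  have hd : P.det ≠ 0 := by
    intro h0
    have := congrArg Matrix.det h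
    rw [Matrix.det_mul, h0, zero_mul, Matrix.det_one] at this
    exact zero_ne_one this
  have hc0 : c ≠ 0 := by
    rintro rfl
    rw [zero_pow Fintype.card_ne_zero] at hc
    exact hd hc.symm
  let P' : SL n ℂ := ⟨c⁻¹ • P, by
    rw [Matrix.det_smul, ← hc, ← mul_pow, inv_mul_cancel₀ hc0, one_pow]⟩
  have h1 : P'.1 * (c • Q) = 1 := by
    change (c⁻¹ • P) * (c • Q) = 1
    rw [Matrix.smul_mul, Matrix.mul_smul, smul_smul, inv_mul_cancel₀ hc0, one_smul, h]
  have h2 : (P'⁻¹).1 = c • Q := left_inv_eq_right_inv (inv_mul_val P') h1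
  refine ⟨P', fun X => ?_⟩
  rw [Ad_apply, h2]
  change (c⁻¹ • P) * X * (c • Q) = _
  rw [Matrix.smul_mul, Matrix.smul_mul, Matrix.mul_smul, smul_smul, inv_mul_cancel₀ hc0, one_smul]

theorem exists_blk {r : ℕ} (M : ι → Matrix (Fin r) (Fin r) ℂ) (h : SS M) (h' : ¬ Irr M) :
    ∃ (r₁ r₂ : ℕ) (e : Fin r₁ ⊕ Fin r₂ ≃ Fin r) (P : SL (Fin r) ℂ)
      (X : ι → Matrix (Fin r₁) (Fin r₁) ℂ) (Z : ι → Matrix (Fin r₂) (Fin r₂) ℂ),
      0 < r₁ ∧ 0 < r₂ ∧ r₁ + r₂ = r ∧ ∀ i, Ad P (M i) = blk e (X i) (Z i) := by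
  unfold Irr at h'
  push Not at h'
  obtain ⟨U, hU, hU0, hU1⟩ := h'
  obtain ⟨U', hc, hU'⟩ := h U hU
  have hr : Module.finrank ℂ U + Module.finrank ℂ U' = r := by
    rw [Submodule.finrank_add_eq_of_isCompl hc]; simp
  let e : Fin (Module.finrank ℂ U) ⊕ Fin (Module.finrank ℂ U') ≃ Fin r :=
    finSumFinEquiv.trans (finCongr hr)
  let b := ((Module.finBasis ℂ U).prod (Module.finBasis ℂ U')).map
    (Submodule.prodEquivOfIsCompl U U' hc)
  let b' := b.reindex e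
  let s := Pi.basisFun ℂ (Fin r)
  obtain ⟨P, hP⟩ := exists_SL_of_unit (b'.toMatrix s) (s.toMatrix b')
    (Module.Basis.toMatrix_mul_toMatrix_flip _ _)
  let T := fun i => LinearMap.toMatrix b b (Matrix.toLin' (M i))
  refine ⟨_, _, e, P, fun i => (T i).toBlocks₁₁, fun i => (T i).toBlocks₂₂, ?_, ?_, hr,
    fun i => ?_⟩
  · exact Nat.pos_of_ne_zero fun h0 => hU0 (Submodule.finrank_eq_zero.mp h0)
  · refine Nat.pos_of_ne_zero fun h0 => hU1 ?_
    have := hc.sup_eq_top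
    rwa [Submodule.finrank_eq_zero.mp h0, sup_bot_eq] at this
  · have e1 : M i = LinearMap.toMatrix s s (Matrix.toLin' (M i)) := by
      rw [LinearMap.toMatrix_eq_toMatrix', LinearMap.toMatrix'_toLin']
    have h12 : (T i).toBlocks₁₂ = 0 := by
      ext a c
      have hm : Matrix.toLin' (M i) (b (.inr c)) ∈ U' := by
        refine hU' i _ ?_
        simp [b]
      simp only [T, Matrix.toBlocks₁₂, Matrix.of_apply, LinearMap.toMatrix_apply,
        Matrix.zero_apply]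
      generalize Matrix.toLin' (M i) (b (.inr c)) = x at hm
      have := Submodule.prodEquivOfIsCompl_symm_apply_right U U' hc ⟨x, hm⟩
      simp only [b, Module.Basis.map_repr, LinearEquiv.trans_apply, Module.Basis.prod_repr_inl]
      rw [this]; simp
    have h21 : (T i).toBlocks₂₁ = 0 := by
      ext a c
      have hm : Matrix.toLin' (M i) (b (.inl c)) ∈ U := by
        refine hU i _ ?_
        simp [b]
      simp only [T, Matrix.toBlocks₂₁, Matrix.of_apply, LinearMap.toMatrix_apply,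
        Matrix.zero_apply]
      generalize Matrix.toLin' (M i) (b (.inl c)) = x at hm
      have := Submodule.prodEquivOfIsCompl_symm_apply_left U U' hc ⟨x, hm⟩
      simp only [b, Module.Basis.map_repr, LinearEquiv.trans_apply, Module.Basis.prod_repr_inr]
      rw [this]; simp
    rw [hP, e1, basis_toMatrix_mul_linearMap_toMatrix_mul_basis_toMatrix, blk, ← h12, ← h21,
      Matrix.fromBlocks_toBlocks]
    ext a c
    simp [T, b', LinearMap.toMatrix_apply]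

end Vale.Agent.P002
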