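import Vale.Agent.P002.Burn
import Vale.Agent.P002.SSl
import Vale.Agent.P002.Poly

/-! P002, task Red: the reducible case. -/

namespace Vale.Agent.P002

open Matrix

section blocks
variable {R : Type} [CommRing R] {r r₁ r₂ g s : ℕ}

/-- pairs of scalars compatible with determinant one -/
def GG (R : Type) [CommRing R] (r₁ r₂ : ℕ) : Subgroup (Rˣ × Rˣ) where
  carrier := {x | x.1 ^ r₁ * x.2 ^ r₂ = 1}
  mul_mem' := by
    intro x y hx hy
    simp only [Set.mem_setOf_eq, Prod.fst_mul, Prod.snd_mul, mul_pow] at *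
    rw [mul_mul_mul_comm, hx, hy, one_mul]
  one_mem' := by simp
  inv_mem' := by
    intro x hx
    simp only [Set.mem_setOf_eq, Prod.fst_inv, Prod.snd_inv, inv_pow] at *
    rw [← mul_inv, hx, inv_one]

/-- the block homomorphism -/
def bH (e : Fin r₁ ⊕ Fin r₂ ≃ Fin r) :
    GG R r₁ r₂ × SL (Fin r₁) R × SL (Fin r₂) R →* SL (Fin r) R where
  toFun x := ⟨blk e ((x.1.1.1 : R) • x.2.1.1) ((x.1.1.2 : R) • x.2.2.1), by
    have h : ((x.1.1.1 ^ r₁ * x.1.1.2 ^ r₂ : Rˣ) : R) = 1 := by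
      rw [show x.1.1.1 ^ r₁ * x.1.1.2 ^ r₂ = 1 from x.1.2]; rfl
    rw [blk_det, Matrix.det_smul, Matrix.det_smul, x.2.1.2, x.2.2.2]
    simpa using h⟩
  map_one' := Subtype.ext (by simpa using blk_one e)
  map_mul' x y := Subtype.ext (by
    show blk e (((x.1.1.1 : R) * y.1.1.1) • (x.2.1.1 * y.2.1.1))
      (((x.1.1.2 : R) * y.1.1.2) • (x.2.2.1 * y.2.2.1)) =
      blk e ((x.1.1.1 : R) • x.2.1.1) ((x.1.1.2 : R) • x.2.2.1) *
        blk e ((y.1.1.1 : R) • y.2.1.1) ((y.1.1.2 : R) • y.2.2.1)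
    rw [blk_mul]
    simp only [Matrix.smul_mul, Matrix.mul_smul, smul_smul, mul_comm])

theorem bH_val (e : Fin r₁ ⊕ Fin r₂ ≃ Fin r) (x : GG R r₁ r₂ × SL (Fin r₁) R × SL (Fin r₂) R) :
    (bH e x).1 = blk e ((x.1.1.1 : R) • x.2.1.1) ((x.1.1.2 : R) • x.2.2.1) := rfl

theorem Ad_bH (e : Fin r₁ ⊕ Fin r₂ ≃ Fin r) (P₁ : SL (Fin r₁) R) (P₂ : SL (Fin r₂) R)
    (X : Matrix (Fin r₁) (Fin r₁) R) (Z : Matrix (Fin r₂) (Fin r₂) R) :
    Ad (bH e (1, P₁, P₂)) (blk e X Z) = blk e (Ad P₁ X) (Ad P₂ Z) := by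
  rw [Ad_apply, ← map_inv, bH_val, bH_val, blk_mul, blk_mul]
  simp [Ad_apply]

theorem hprod_comm {G : Type} [CommGroup G] (ρ : Fin g ⊕ Fin g → G) : hprod ρ = 1 := by
  unfold hprod
  apply List.prod_eq_one
  intro x hx
  obtain ⟨i, rfl⟩ := List.mem_ofFn.1 hx
  rw [mul_comm (ρ _) (ρ _)]; group

/-- the block tuple -/
def bT (e : Fin r₁ ⊕ Fin r₂ ≃ Fin r) (χ : Fin g ⊕ Fin g → GG R r₁ r₂)
    (p₁ : Tup (Fin g) (Fin s) (Fin r₁) R) (p₂ : Tup (Fin g) (Fin s) (Fin r₂) R) :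
    Tup (Fin g) (Fin s) (Fin r) R :=
  (fun v => bH e (χ v, p₁.1 v, p₂.1 v), fun k => blk e (p₁.2 k) (p₂.2 k))

theorem bT_mem (e : Fin r₁ ⊕ Fin r₂ ≃ Fin r) (χ : Fin g ⊕ Fin g → GG R r₁ r₂)
    (p₁ : Tup (Fin g) (Fin s) (Fin r₁) R) (p₂ : Tup (Fin g) (Fin s) (Fin r₂) R) :
    bT e χ p₁ p₂ ∈ RepG g s (Fin r) R ↔ p₁ ∈ RepG g s (Fin r₁) R ∧ p₂ ∈ RepG g s (Fin r₂) R := by
  let q : Fin g ⊕ Fin g → GG R r₁ r₂ × SL (Fin r₁) R × SL (Fin r₂) R :=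
    fun v => (χ v, p₁.1 v, p₂.1 v)
  have h0 : hprod q = (1, hprod p₁.1, hprod p₂.1) := by
    refine Prod.ext ?_ (Prod.ext ?_ ?_)
    · exact (map_hprod (MonoidHom.fst _ _) q).trans (hprod_comm _)
    · exact map_hprod ((MonoidHom.fst _ _).comp (MonoidHom.snd _ _)) q
    · exact map_hprod ((MonoidHom.snd _ _).comp (MonoidHom.snd _ _)) q
  have h1 : hprod (bT e χ p₁ p₂).1 = bH e (hprod q) := (map_hprod (bH e) q).symm
  have h2 : (hprod (bT e χ p₁ p₂).1).1 * (List.ofFn (bT e χ p₁ p₂).2).prod =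
      blk e ((hprod p₁.1).1 * (List.ofFn p₁.2).prod) ((hprod p₂.1).1 * (List.ofFn p₂.2).prod) := by
    rw [h1, h0, bH_val, ← blk_mul, ← blk_list_prod]
    simp [bT]
  constructor
  · intro h
    exact blk_inj e ((h2.symm.trans h).trans (blk_one e).symm)
  · rintro ⟨k1, k2⟩
    refine h2.trans ?_
    rw [show (hprod p₁.1).1 * (List.ofFn p₁.2).prod = 1 from k1,
      show (hprod p₂.1).1 * (List.ofFn p₂.2).prod = 1 from k2, blk_one]

/-- first scalars -/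
def s1 (χ : Fin g ⊕ Fin g → GG R r₁ r₂) : Gen g s → R :=
  Sum.elim (fun v => ((χ v).1.1 : R)) fun _ => 1

/-- second scalars -/
def s2 (χ : Fin g ⊕ Fin g → GG R r₁ r₂) : Gen g s → R :=
  Sum.elim (fun v => ((χ v).1.2 : R)) fun _ => 1

/-- block matrices with scalars -/
def bM (e : Fin r₁ ⊕ Fin r₂ ≃ Fin r) (χ : Fin g ⊕ Fin g → GG R r₁ r₂)
    (M₁ : Gen g s → Matrix (Fin r₁) (Fin r₁) R) (M₂ : Gen g s → Matrix (Fin r₂) (Fin r₂) R) :
    Gen g s → Matrix (Fin r) (Fin r) R := fun v => blk e (s1 χ v • M₁ v) (s2 χ v • M₂ v)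

theorem raw_bT (e : Fin r₁ ⊕ Fin r₂ ≃ Fin r) (χ : Fin g ⊕ Fin g → GG R r₁ r₂)
    (p₁ : Tup (Fin g) (Fin s) (Fin r₁) R) (p₂ : Tup (Fin g) (Fin s) (Fin r₂) R) :
    raw (bT e χ p₁ p₂) = bM e χ (raw p₁) (raw p₂) := by
  funext v
  rcases v with v | k
  · rfl
  · simp [raw, bT, bM, s1, s2]

theorem Ad_bM (e : Fin r₁ ⊕ Fin r₂ ≃ Fin r) (χ : Fin g ⊕ Fin g → GG R r₁ r₂)
    (M₁ : Gen g s → Matrix (Fin r₁) (Fin r₁) R) (M₂ : Gen g s → Matrix (Fin r₂) (Fin r₂) R)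
    (P₁ : SL (Fin r₁) R) (P₂ : SL (Fin r₂) R) :
    (fun v => Ad (bH e (1, P₁, P₂)) (bM e χ M₁ M₂ v)) =
      bM e χ (fun v => Ad P₁ (M₁ v)) (fun v => Ad P₂ (M₂ v)) := by
  funext v
  simp only [bM, Ad_bH, map_smul]

/-- base change of scalars -/
def gmap {S : Type} [CommRing S] (f : R →+* S) (x : GG R r₁ r₂) : GG S r₁ r₂ :=
  ⟨(Units.map (f : R →* S) x.1.1, Units.map (f : R →* S) x.1.2), by
    have := congrArg (Units.map (f : R →* S)) (show x.1.1 ^ r₁ * x.1.2 ^ r₂ = 1 from x.2)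
    rw [map_mul, map_pow, map_pow, map_one] at this
    exact this⟩

theorem bM_map {S : Type} [CommRing S] (f : R →+* S) (e : Fin r₁ ⊕ Fin r₂ ≃ Fin r)
    (χ : Fin g ⊕ Fin g → GG R r₁ r₂)
    (M₁ : Gen g s → Matrix (Fin r₁) (Fin r₁) R) (M₂ : Gen g s → Matrix (Fin r₂) (Fin r₂) R) :
    (fun v => (bM e χ M₁ M₂ v).map f) =
      bM e (fun v => gmap f (χ v)) (fun v => (M₁ v).map f) (fun v => (M₂ v).map f) := by
  funext v
  have h1 : (s1 χ v • M₁ v).map f = s1 (fun v => gmap f (χ v)) v • (M₁ v).map f := by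
    ext i j; rcases v with v | k <;> simp [s1, gmap]
  have h2 : (s2 χ v • M₂ v).map f = s2 (fun v => gmap f (χ v)) v • (M₂ v).map f := by
    ext i j; rcases v with v | k <;> simp [s2, gmap]
  simp only [bM, blk_map, h1, h2]

theorem s1_ne (χ : Fin g ⊕ Fin g → GG ℂ r₁ r₂) (v : Gen g s) : s1 χ v ≠ 0 := by
  rcases v with v | k <;> simp [s1]

theorem s2_ne (χ : Fin g ⊕ Fin g → GG ℂ r₁ r₂) (v : Gen g s) : s2 χ v ≠ 0 := by
  rcases v with v | k <;> simp [s2]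

theorem det_Ad' {n : Type} [Fintype n] [DecidableEq n] (P : SL n R)
    (X : Matrix n n R) : (Ad P X).det = X.det := by
  rw [Ad_apply, Matrix.det_mul, Matrix.det_mul, P.2, (P⁻¹).2, one_mul, mul_one]

theorem charpoly_Ad' {n : Type} [Fintype n] [DecidableEq n] (P : SL n R)
    (X : Matrix n n R) : (Ad P X).charpoly = X.charpoly := by
  rw [Ad_apply, Matrix.charpoly_mul_comm, ← Matrix.mul_assoc, inv_mul_val, Matrix.one_mul]

/-- conjugation of a tuple -/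
def cT {n : Type} [Fintype n] [DecidableEq n] (P : SL n R) (p : Tup (Fin g) (Fin s) n R) :
    Tup (Fin g) (Fin s) n R := (fun v => P * p.1 v * P⁻¹, fun k => Ad P (p.2 k))

theorem Ad_list_prod {n : Type} [Fintype n] [DecidableEq n] (P : SL n R)
    (l : List (Matrix n n R)) : (l.map (Ad P)).prod = Ad P l.prod := by
  induction l with
  | nil => rw [List.map_nil, List.prod_nil, Ad_apply, Matrix.mul_one, mul_inv_val]
  | cons a l ih =>
    rw [List.map_cons, List.prod_cons, List.prod_cons, ih]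
    simp only [Ad_apply, Matrix.mul_assoc]
    rw [← Matrix.mul_assoc (P⁻¹).1, inv_mul_val, Matrix.one_mul]

theorem cT_mem {n : Type} [Fintype n] [DecidableEq n] (P : SL n R) {p : Tup (Fin g) (Fin s) n R}
    (hp : p ∈ RepG g s n R) : cT P p ∈ RepG g s n R := by
  have h1 : hprod (cT P p).1 = P * hprod p.1 * P⁻¹ :=
    (map_hprod (MulAut.conj P).toMonoidHom p.1).symm
  have h2 : (List.ofFn (cT P p).2).prod = Ad P (List.ofFn p.2).prod := by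
    rw [← Ad_list_prod, List.map_ofFn]; rfl
  have h3 : (hprod p.1).1 * (List.ofFn p.2).prod = 1 := hp
  show (hprod (cT P p).1).1 * (List.ofFn (cT P p).2).prod = 1
  rw [h1, h2, val_mul, val_mul, Ad_apply]
  simp only [Matrix.mul_assoc]
  rw [← Matrix.mul_assoc (P⁻¹).1, inv_mul_val, Matrix.one_mul, ← Matrix.mul_assoc (hprod p.1).1, h3,
    Matrix.one_mul, mul_inv_val]

theorem raw_cT {n : Type} [Fintype n] [DecidableEq n] (P : SL n R) (p : Tup (Fin g) (Fin s) n R) :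
    raw (cT P p) = fun v => Ad P (raw p v) := by
  funext v; rcases v with v | k <;> rfl

/-- base change of a tuple -/
def mT {n S : Type} [Fintype n] [DecidableEq n] [CommRing S] (f : R →+* S)
    (p : Tup (Fin g) (Fin s) n R) : Tup (Fin g) (Fin s) n S :=
  (fun v => smap f (p.1 v), fun k => (p.2 k).map f)

theorem mT_mem {n S : Type} [Fintype n] [DecidableEq n] [CommRing S] (f : R →+* S)
    {p : Tup (Fin g) (Fin s) n R} (hp : p ∈ RepG g s n R) : mT f p ∈ RepG g s n S := by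
  have h1 : hprod (mT f p).1 = smap f (hprod p.1) := (map_hprod (smap f) p.1).symm
  have h2 : (List.ofFn (mT f p).2).prod = f.mapMatrix (List.ofFn p.2).prod := by
    rw [map_list_prod, List.map_ofFn]; rfl
  have h3 : (hprod p.1).1 * (List.ofFn p.2).prod = 1 := hp
  show (hprod (mT f p).1).1 * (List.ofFn (mT f p).2).prod = 1
  rw [h1, h2, smap_val, ← RingHom.mapMatrix_apply, ← map_mul, h3, map_one]

theorem raw_mT {n S : Type} [Fintype n] [DecidableEq n] [CommRing S] (f : R →+* S)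
    (p : Tup (Fin g) (Fin s) n R) : raw (mT f p) = fun v => (raw p v).map f := by
  funext v; rcases v with v | k <;> rfl

end blocks

variable {O : Type} [CommRing O] [Algebra O ℂ] {g s N R r r₁ r₂ : ℕ}

theorem IntP.rep {n : Type} [Fintype n] [DecidableEq n] {c : Fin s → Matrix n n ℂ}
    {M : Gen g s → Matrix n n ℂ} (h : M ∈ IntP g s O c) :
    ∃ p ∈ RepG g s n ℂ, raw p = M ∧ ∀ k, (p.2 k).det = (c k).det := by
  obtain ⟨⟨p, hp, rfl⟩, -, h3⟩ := h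
  refine ⟨mT (algebraMap O ℂ) p, mT_mem _ hp, raw_mT _ p, fun k => ?_⟩
  obtain ⟨P, hP⟩ := h3 k
  rw [← det_Ad' P (c k), ← hP]; rfl

theorem bM_int (e : Fin r₁ ⊕ Fin r₂ ≃ Fin r) (χ : Fin g ⊕ Fin g → GG O r₁ r₂)
    {c₁ : Fin s → Matrix (Fin r₁) (Fin r₁) ℂ} {c₂ : Fin s → Matrix (Fin r₂) (Fin r₂) ℂ}
    {c : Fin s → Matrix (Fin r) (Fin r) ℂ} (P : SL (Fin r) ℂ)
    (hc : ∀ k, Ad P (c k) = blk e (c₁ k) (c₂ k)) {M₁ M₂} (h₁ : M₁ ∈ IntP g s O c₁)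
    (h₂ : M₂ ∈ IntP g s O c₂) :
    bM e (fun v => gmap (algebraMap O ℂ) (χ v)) M₁ M₂ ∈ IntP g s O c := by
  obtain ⟨⟨p₁, hp₁, rfl⟩, hs₁, hc₁⟩ := h₁
  obtain ⟨⟨p₂, hp₂, rfl⟩, hs₂, hc₂⟩ := h₂
  refine ⟨⟨bT e χ p₁ p₂, (bT_mem e χ p₁ p₂).2 ⟨hp₁, hp₂⟩, ?_⟩, ?_, fun k => ?_⟩
  · rw [raw_bT, bM_map]
  · exact SS.blk e (hs₁.smul _ (s1_ne _)) (hs₂.smul _ (s2_ne _))
  · obtain ⟨P₁, hP₁⟩ := hc₁ k
    obtain ⟨P₂, hP₂⟩ := hc₂ k
    refine ⟨bH e (1, P₁, P₂) * P, ?_⟩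
    rw [Ad_mul, hc, Ad_bH, ← hP₁, ← hP₂]
    simp [bM, s1, s2]

theorem isP_left (e : Fin r₁ ⊕ Fin r₂ ≃ Fin r) (χ : Fin g ⊕ Fin g → GG ℂ r₁ r₂)
    (f : MvPolynomial (Gen g s × Fin r × Fin r) ℂ) (M₂) :
    IsP fun M₁ => val f (bM e χ M₁ M₂) := by
  refine IsP.comp f _ fun v a b => ?_
  obtain ⟨a, rfl⟩ := e.surjective a
  obtain ⟨b, rfl⟩ := e.surjective b
  rcases a with a | a <;> rcases b with b | b <;>
    simp only [bM, blk, Matrix.reindex_apply, Matrix.submatrix_apply, Equiv.symm_apply_apply,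
      Matrix.fromBlocks_apply₁₁, Matrix.fromBlocks_apply₁₂, Matrix.fromBlocks_apply₂₁,
      Matrix.fromBlocks_apply₂₂, Matrix.smul_apply, smul_eq_mul]
  · exact (IsP.const _).mul (IsP.coord v a b)
  all_goals exact IsP.const _

theorem isP_right (e : Fin r₁ ⊕ Fin r₂ ≃ Fin r) (χ : Fin g ⊕ Fin g → GG ℂ r₁ r₂)
    (f : MvPolynomial (Gen g s × Fin r × Fin r) ℂ) (M₁) :
    IsP fun M₂ => val f (bM e χ M₁ M₂) := by
  refine IsP.comp f _ fun v a b => ?_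
  obtain ⟨a, rfl⟩ := e.surjective a
  obtain ⟨b, rfl⟩ := e.surjective b
  rcases a with a | a <;> rcases b with b | b <;>
    simp only [bM, blk, Matrix.reindex_apply, Matrix.submatrix_apply, Equiv.symm_apply_apply,
      Matrix.fromBlocks_apply₁₁, Matrix.fromBlocks_apply₁₂, Matrix.fromBlocks_apply₂₁,
      Matrix.fromBlocks_apply₂₂, Matrix.smul_apply, smul_eq_mul]
  · exact IsP.const _
  · exact IsP.const _
  · exact IsP.const _
  · exact (IsP.const _).mul (IsP.coord v a b)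

theorem inv_bM (e : Fin r₁ ⊕ Fin r₂ ≃ Fin r) (χ : Fin g ⊕ Fin g → GG ℂ r₁ r₂)
    {c₁ : Fin s → Matrix (Fin r₁) (Fin r₁) ℂ} {c₂ : Fin s → Matrix (Fin r₂) (Fin r₂) ℂ}
    {c : Fin s → Matrix (Fin r) (Fin r) ℂ} (P : SL (Fin r) ℂ)
    (hc : ∀ k, Ad P (c k) = blk e (c₁ k) (c₂ k)) {f : MvPolynomial (Gen g s × Fin r × Fin r) ℂ}
    (hf : Inv g s c f) {p₁ p₂} (h₁ : p₁ ∈ RepG g s (Fin r₁) ℂ) (h₂ : p₂ ∈ RepG g s (Fin r₂) ℂ)
    (d₁ : ∀ k, (p₁.2 k).det = (c₁ k).det) (d₂ : ∀ k, (p₂.2 k).det = (c₂ k).det)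
    (P₁ : SL (Fin r₁) ℂ) (P₂ : SL (Fin r₂) ℂ) :
    val f (bM e χ (fun v => Ad P₁ (raw p₁ v)) (fun v => Ad P₂ (raw p₂ v))) =
      val f (bM e χ (raw p₁) (raw p₂)) := by
  rw [← Ad_bM, ← raw_bT]
  refine hf _ ((bT_mem e χ p₁ p₂).2 ⟨h₁, h₂⟩) (fun k => ?_) _
  rw [← det_Ad' P (c k), hc, blk_det, ← d₁, ← d₂, ← blk_det e]; rfl

/-- the scalars attached to `y` and to roots of unity `ω` -/
def chi {R : Type} [CommRing R] (r₁ : ℕ) (ω : Fin g ⊕ Fin g → Rˣ) (hω : ∀ v, ω v ^ r₂ = 1)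
    (y : Fin g ⊕ Fin g → Rˣ) (v : Fin g ⊕ Fin g) : GG R r₁ r₂ :=
  ⟨(y v ^ (r₂ : ℤ), ω v * y v ^ (-(r₁ : ℤ))), by
    show (y v ^ (r₂ : ℤ)) ^ r₁ * (ω v * y v ^ (-(r₁ : ℤ))) ^ r₂ = 1
    rw [mul_pow, hω, one_mul, ← zpow_natCast, ← zpow_natCast, ← _root_.zpow_mul, ← _root_.zpow_mul,
      ← _root_.zpow_add]
    rw [show (r₂ : ℤ) * r₁ + -(r₁ : ℤ) * r₂ = 0 by ring, zpow_zero]⟩

theorem exists_unit_root (x : ℂ) (hx : x ≠ 0) (m : ℕ) (hm : 0 < m) :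
    ∃ y : ℂˣ, (y : ℂ) ^ m = x := by
  obtain ⟨y, hy⟩ := IsAlgClosed.exists_pow_nat_eq x hm
  have : y ≠ 0 := by rintro rfl; rw [zero_pow hm.ne'] at hy; exact hx hy.symm
  exact ⟨Units.mk0 y this, hy⟩

theorem red_case [FaithfulSMul O ℂ] (hO : OK O s N R) (hr : r ≤ R)
    (ih : ∀ r' < r, QQ g s N O r') (p : Tup (Fin g) (Fin s) (Fin r) ℂ)
    (hp : p ∈ RepG g s (Fin r) ℂ) (hs : SS (raw p)) (hi : ¬ Irr (raw p))
    (hq : ∀ k x, (p.2 k).charpoly.IsRoot x → x ^ N = 1)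
    (f : MvPolynomial (Gen g s × Fin r × Fin r) ℂ) (hf : Inv g s p.2 f)
    (h : ∀ M ∈ IntP g s O p.2, val f M = 0) : val f (raw p) = 0 := by
  obtain ⟨r₁, r₂, e, P, X, Z, h₁, h₂, hsum, hP⟩ := exists_blk (raw p) hs hi
  have hdet : ∀ v : Fin g ⊕ Fin g, (X (.inl v)).det * (Z (.inl v)).det = 1 := fun v => by
    rw [← blk_det e, ← hP, det_Ad']; exact (p.1 v).2
  choose a ha using fun v : Fin g ⊕ Fin g =>
    exists_unit_root _ (left_ne_zero_of_mul_eq_one (hdet v)) r₁ h₁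
  choose b hb using fun v : Fin g ⊕ Fin g =>
    exists_unit_root _ (right_ne_zero_of_mul_eq_one (hdet v)) r₂ h₂
  choose y hy using fun v : Fin g ⊕ Fin g => exists_unit_root (a v) (a v).ne_zero r₂ h₂
  have hy' : ∀ v, y v ^ r₂ = a v := fun v => Units.ext (by simpa using hy v)
  have hab : ∀ v, a v ^ r₁ * b v ^ r₂ = 1 := fun v => Units.ext (by
    simpa [ha, hb] using hdet v)
  let ω : Fin g ⊕ Fin g → ℂˣ := fun v => b v * y v ^ r₁
  have hω : ∀ v, ω v ^ r₂ = 1 := fun v => by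
    simp only [ω]
    rw [mul_pow, ← pow_mul, mul_comm r₁, pow_mul, hy', mul_comm, hab]
  let p₁ : Tup (Fin g) (Fin s) (Fin r₁) ℂ := (fun v => ⟨(((a v)⁻¹ : ℂˣ) : ℂ) • X (.inl v), by
    rw [Matrix.det_smul, ← ha]; simp⟩, fun k => X (.inr k))
  let p₂ : Tup (Fin g) (Fin s) (Fin r₂) ℂ := (fun v => ⟨(((b v)⁻¹ : ℂˣ) : ℂ) • Z (.inl v), by
    rw [Matrix.det_smul, ← hb]; simp⟩, fun k => Z (.inr k))
  have hcT : cT P p = bT e (chi r₁ ω hω y) p₁ p₂ := by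
    refine Prod.ext (funext fun v => Subtype.ext ?_) (funext fun k => hP (.inr k))
    refine (hP (.inl v)).trans ?_
    have e1 : (chi r₁ ω hω y v).1.1 = a v := by simp [chi, hy']
    have e2 : (chi r₁ ω hω y v).1.2 = b v := by simp [chi, ω]
    show _ = blk e (((chi r₁ ω hω y v).1.1 : ℂ) • (((a v)⁻¹ : ℂˣ) : ℂ) • X (.inl v))
      (((chi r₁ ω hω y v).1.2 : ℂ) • (((b v)⁻¹ : ℂˣ) : ℂ) • Z (.inl v))
    rw [e1, e2, smul_smul, smul_smul]; simp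
  obtain ⟨hp₁, hp₂⟩ := (bT_mem e _ p₁ p₂).1 (hcT ▸ cT_mem P hp)
  have hc : ∀ k, Ad P (p.2 k) = blk e (p₁.2 k) (p₂.2 k) := fun k => hP (.inr k)
  have hsb : SS fun v => blk e (X v) (Z v) := by
    have := hs.ad P
    rwa [show (fun i => Ad P (raw p i)) = fun v => blk e (X v) (Z v) from funext hP] at this
  have hs₁ : SS (raw p₁) := by
    have := (SS.blk_left e hsb).smul (Sum.elim (fun v => (((a v)⁻¹ : ℂˣ) : ℂ)) fun _ => 1)
      (by rintro (v | k) <;> simp)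
    rwa [show (fun i => Sum.elim (fun v => (((a v)⁻¹ : ℂˣ) : ℂ)) (fun _ => (1 : ℂ)) i • X i) =
      raw p₁ by funext v; rcases v with v | k <;> simp [raw, p₁]] at this
  have hs₂ : SS (raw p₂) := by
    have := (SS.blk_right e hsb).smul (Sum.elim (fun v => (((b v)⁻¹ : ℂˣ) : ℂ)) fun _ => 1)
      (by rintro (v | k) <;> simp)
    rwa [show (fun i => Sum.elim (fun v => (((b v)⁻¹ : ℂˣ) : ℂ)) (fun _ => (1 : ℂ)) i • Z i) =
      raw p₂ by funext v; rcases v with v | k <;> simp [raw, p₂]] at this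
  have hch : ∀ k, (p.2 k).charpoly = (p₁.2 k).charpoly * (p₂.2 k).charpoly := fun k => by
    rw [← charpoly_Ad' P, hc, blk_charpoly]
  have hq₁ : ∀ k x, (p₁.2 k).charpoly.IsRoot x → x ^ N = 1 := fun k x hx =>
    hq k x (by rw [hch, Polynomial.IsRoot, Polynomial.eval_mul, hx, zero_mul])
  have hq₂ : ∀ k x, (p₂.2 k).charpoly.IsRoot x → x ^ N = 1 := fun k x hx =>
    hq k x (by rw [hch, Polynomial.IsRoot, Polynomial.eval_mul, hx, mul_zero])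
  have step : ∀ χ : Fin g ⊕ Fin g → GG O r₁ r₂,
      val f (bM e (fun v => gmap (algebraMap O ℂ) (χ v)) (raw p₁) (raw p₂)) = 0 := by
    intro χ
    obtain ⟨f₂, hf₂⟩ := isP_right e (fun v => gmap (algebraMap O ℂ) (χ v)) f (raw p₁)
    beta_reduce at hf₂
    rw [hf₂]
    refine ih r₂ (by omega) p₂ hp₂ hs₂ hq₂ f₂ (fun q hq' hd P₂ => ?_) fun M₂ hM₂ => ?_
    · rw [← hf₂, ← hf₂]
      simpa only [Ad_one] using inv_bM e _ P hc hf hp₁ hq' (fun _ => rfl) hd 1 P₂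
    · obtain ⟨f₁, hf₁⟩ := isP_left e (fun v => gmap (algebraMap O ℂ) (χ v)) f M₂
      beta_reduce at hf₁
      rw [← hf₂, hf₁]
      obtain ⟨q₂, hq₂', rfl, hd₂⟩ := IntP.rep hM₂
      refine ih r₁ (by omega) p₁ hp₁ hs₁ hq₁ f₁ (fun q hq' hd P₁ => ?_) fun M₁ hM₁ => ?_
      · rw [← hf₁, ← hf₁]
        simpa only [Ad_one] using inv_bM e _ P hc hf hq' hq₂' hd hd₂ P₁ 1
      · rw [← hf₁]
        exact h _ (bM_int e χ P hc hM₁ hM₂)
  rw [← hf p hp (fun _ => rfl) P, ← raw_cT, hcT, raw_bT]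
  have hroot : ∀ v, ∃ u : Oˣ, Units.map (algebraMap O ℂ : O →* ℂ) u = ω v ∧ u ^ r₂ = 1 := by
    intro v
    have h1 : ((ω v : ℂˣ) : ℂ) ^ r₂ = 1 := by rw [← Units.val_pow_eq_pow_val, hω, Units.val_one]
    obtain ⟨d, hd⟩ : r₂ ∣ N * R.factorial :=
      (Nat.dvd_factorial h₂ (by omega)).mul_left N
    obtain ⟨u, hu⟩ := hO.root (ω v) (by rw [hd, pow_mul, h1, one_pow])
    have h2 : u ^ r₂ = 1 := FaithfulSMul.algebraMap_injective O ℂ (by rw [map_pow, hu, h1, map_one])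
    exact ⟨Units.ofPowEqOne u r₂ h2 h₂.ne', Units.ext hu, Units.ext (by simpa using h2)⟩
  choose u hu hu' using hroot
  refine laurent f (fun y q => bM e (chi r₁ ω hω y) (raw p₁) (raw p₂) q.1 q.2.1 q.2.2) ?_ _
    hO.inf (fun y' hy' => ?_) y
  · rintro ⟨v, i, j⟩
    obtain ⟨i, rfl⟩ := e.surjective i
    obtain ⟨j, rfl⟩ := e.surjective j
    rcases v with v | k
    · rcases i with i | i <;> rcases j with j | j
      · exact ⟨raw p₁ (.inl v) i j, some v, r₂, fun y => by simp [bM, blk, s1, chi, mul_comm]⟩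
      · exact ⟨0, none, 0, fun y => by simp [bM, blk]⟩
      · exact ⟨0, none, 0, fun y => by simp [bM, blk]⟩
      · exact ⟨ω v * raw p₂ (.inl v) i j, some v, -(r₁ : ℤ), fun y => by
          simp [bM, blk, s2, chi]; ring⟩
    · exact ⟨blk e (raw p₁ (.inr k)) (raw p₂ (.inr k)) (e i) (e j), none, 0, fun y => by
        simp [bM, s1, s2]⟩
  · choose z hz using hy'
    have := step (chi r₁ u hu' z)
    have e0 : (fun v => gmap (algebraMap O ℂ) (chi r₁ u hu' z v)) = chi r₁ ω hω y' := by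
      funext v
      have hz' : Units.map (algebraMap O ℂ : O →* ℂ) (z v) = y' v := Units.ext (hz v)
      apply Subtype.ext
      simp only [gmap, chi, map_mul, map_zpow, hu, hz']
    rw [e0] at this
    exact this

end Vale.Agent.P002
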