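import Vale.Agent.P002.Core
import Vale.Agent.P002.Conc
import Vale.Agent.P002.Red
import Vale.Agent.P002.Num

/-! P002, task Irr: the irreducible case. -/

namespace Vale.Agent.P002

open Matrix

section aux
variable {n R : Type} [Fintype n] [DecidableEq n] [CommRing R] {m s : ℕ}

theorem val_list_prod {s : ℕ} (x : Fin s → SL n R) :
    (List.ofFn x).prod.1 = (List.ofFn fun k => (x k).1).prod := by
  have := map_list_prod (Matrix.SpecialLinearGroup.coeMonoidHom (ι := n) (R := R)) (List.ofFn x)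
  rw [List.map_ofFn] at this
  exact this

theorem prod_smul_list {s : ℕ} (c : Fin s → R) (Y : Fin s → Matrix n n R) :
    (List.ofFn fun k => c k • Y k).prod = (∏ k, c k) • (List.ofFn Y).prod := by
  induction s with
  | zero => simp
  | succ s ih =>
    rw [List.ofFn_succ, List.ofFn_succ, List.prod_cons, List.prod_cons, ih, Fin.prod_univ_succ,
      Matrix.smul_mul, Matrix.mul_smul, smul_smul]

theorem det_list_prod {s : ℕ} (Y : Fin s → Matrix n n R) :
    (List.ofFn Y).prod.det = ∏ k, (Y k).det := by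
  induction s with
  | zero => simp
  | succ s ih => rw [List.ofFn_succ, List.prod_cons, Matrix.det_mul, ih, Fin.prod_univ_succ]

/-- variables of the core system -/
abbrev VV (m s : ℕ) : Type := Fin 4 ⊕ (Fin m ⊕ Fin m ⊕ Fin (s + 1))

/-- the handle variables -/
def hv {m s : ℕ} : Fin (m + 2) ⊕ Fin (m + 2) → VV m s :=
  Sum.elim (Fin.cons (.inl 0) (Fin.cons (.inl 2) fun i => .inr (.inl i)))
    (Fin.cons (.inl 1) (Fin.cons (.inl 3) fun i => .inr (.inr (.inl i))))

/-- the puncture variables -/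
def wv {m s : ℕ} (k : Fin (s + 1)) : VV m s := .inr (.inr (.inr k))

/-- the tuple of a point of the core system -/
def toT (c : Fin s → R) (J : Fin (s + 1) → SL n R) (ρ : VV m s → SL n R) :
    Tup (Fin (m + 2)) (Fin s) n R :=
  (fun v => ρ (hv v), fun k => c k • Ad (ρ (wv k.castSucc)) (J k.castSucc).1)

theorem toT_rel (c : Fin s → R) (J : Fin (s + 1) → SL n R)
    (hJ : (J (Fin.last s)).1 = (∏ k, c k) • (1 : Matrix n n R)) (ρ : VV m s → SL n R) :
    ((sys (CW m (s + 1))).ev J ρ).1 =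
      (hprod (toT c J ρ).1).1 * (List.ofFn (toT c J ρ).2).prod := by
  have h1 : (sys (CW m (s + 1))).ev J ρ = hprod (toT c J ρ).1 *
      (List.ofFn fun k => ρ (wv k) * J k * (ρ (wv k))⁻¹).prod := by
    simp only [sys, CW, hprod, toT, List.ofFn_succ (n := m + 1), List.ofFn_succ (n := m),
      List.prod_cons, hv, wv, Sum.elim_inl, Sum.elim_inr, Fin.cons_zero, Fin.cons_succ, mul_assoc]
  rw [h1, val_mul, List.ofFn_succ', List.prod_concat, val_mul, val_list_prod]
  congr 1
  have h2 : (ρ (wv (Fin.last s)) * J (Fin.last s) * (ρ (wv (Fin.last s)))⁻¹).1 =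
      (∏ k, c k) • (1 : Matrix n n R) := by
    rw [val_mul, val_mul, hJ, Matrix.mul_smul, Matrix.mul_one, Matrix.smul_mul, mul_inv_val]
  rw [h2, Matrix.mul_smul, Matrix.mul_one, ← prod_smul_list]
  rfl

theorem toT_mem (c : Fin s → R) (J : Fin (s + 1) → SL n R)
    (hJ : (J (Fin.last s)).1 = (∏ k, c k) • (1 : Matrix n n R)) (ρ : VV m s → SL n R) :
    toT c J ρ ∈ RepG (m + 2) s n R ↔ (sys (CW m (s + 1))).ev J ρ = 1 := by
  constructor
  · intro h
    exact Subtype.ext ((toT_rel c J hJ ρ).trans h)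
  · intro h
    exact (toT_rel c J hJ ρ).symm.trans (congrArg Subtype.val h)

theorem toT_map {S : Type} [CommRing S] (f : R →+* S) (c : Fin s → R) (J : Fin (s + 1) → SL n R)
    (ρ : VV m s → SL n R) :
    (fun v => (raw (toT c J ρ) v).map f) =
      raw (toT (fun k => f (c k)) (fun k => smap f (J k)) (fun v => smap f (ρ v))) := by
  funext v
  rcases v with v | k
  · rfl
  · have := Ad_map f (ρ (wv k.castSucc)) (J k.castSucc).1
    ext i j
    have h2 := congrFun (congrFun this i) j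
    simp only [Matrix.map_apply] at h2
    simp only [raw, toT, Sum.elim_inr, Matrix.map_apply, Matrix.smul_apply, smul_eq_mul, map_mul,
      h2, smap_val]

theorem isP_toT (c : Fin s → ℂ) (J : Fin (s + 1) → SL n ℂ)
    (f : MvPolynomial (Gen (m + 2) s × n × n) ℂ) :
    ∃ f' : MvPolynomial (VV m s × n × n) ℂ, ∀ ρ : VV m s → SL n ℂ,
      val f (raw (toT c J ρ)) = MvPolynomial.aeval (ent ρ) f' := by
  obtain ⟨f', hf'⟩ := IsP.comp f (fun (M : VV m s → Matrix n n ℂ) => Sum.elim (fun v => M (hv v))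
    fun k => c k • (M (wv k.castSucc) * (J k.castSucc).1 * (M (wv k.castSucc)).adjugate)) (by
      rintro (v | k) a b
      · exact IsP.coord _ a b
      · simp only [Sum.elim_inr, Matrix.smul_apply, smul_eq_mul, Matrix.mul_apply]
        exact (IsP.const _).mul (IsP.sum _ fun j _ =>
          (IsP.sum _ fun l _ => (IsP.coord _ a l).mul (IsP.const _)).mul (IsP.adj _ j b)))
  refine ⟨f', fun ρ => ?_⟩
  rw [← val_eq_aeval, ← hf']
  congr 1

theorem exists_base (J : Fin (s + 1) → SL n R) (A B : SL n R) (h : m = 0 → A = 1 ∧ B = 1)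
    (hAB : A * B * A⁻¹ * B⁻¹ * (List.ofFn J).prod = 1) :
    ∃ y, (CW m (s + 1)).ev J y = 1 := by
  cases m with
  | zero =>
    obtain ⟨rfl, rfl⟩ := h rfl
    exact ⟨fun _ => 1, by simpa [CW] using hAB⟩
  | succ m =>
    refine ⟨Sum.elim (Fin.cons A fun _ => 1) (Sum.elim (Fin.cons B fun _ => 1) fun _ => 1), ?_⟩
    simpa [CW, List.ofFn_succ (n := m)] using hAB

end aux

theorem not_irr_of_scalar {ι : Type} {r : ℕ} (hr : 2 ≤ r) (M : ι → Matrix (Fin r) (Fin r) ℂ)
    (h : ∀ i, ∃ c : ℂ, M i = c • (1 : Matrix (Fin r) (Fin r) ℂ)) : ¬ Irr M := by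
  intro hi
  let a : Fin r := ⟨0, by omega⟩
  let b : Fin r := ⟨1, by omega⟩
  have hab : a ≠ b := by simp [a, b]
  have h1 : Invt M (LinearMap.ker (LinearMap.proj a : (Fin r → ℂ) →ₗ[ℂ] ℂ)) := by
    intro i v hv
    obtain ⟨c, hc⟩ := h i
    rw [hc, Matrix.smul_mulVec, Matrix.one_mulVec]
    exact Submodule.smul_mem _ _ hv
  rcases hi _ h1 with h2 | h2
  · have : (Pi.single b 1 : Fin r → ℂ) ∈ LinearMap.ker (LinearMap.proj a : (Fin r → ℂ) →ₗ[ℂ] ℂ) := by
      simp [hab]
    rw [h2, Submodule.mem_bot] at this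
    simpa using congrFun this b
  · have : (Pi.single a 1 : Fin r → ℂ) ∈ LinearMap.ker (LinearMap.proj a : (Fin r → ℂ) →ₗ[ℂ] ℂ) := by
      rw [h2]; trivial
    simp at this

theorem two_le_g {g s r : ℕ} (hr : 2 ≤ r) (hg : s = 0 ∨ 3 ≤ g)
    (p : Tup (Fin g) (Fin s) (Fin r) ℂ) (hp : p ∈ RepG g s (Fin r) ℂ) (hi : Irr (raw p)) :
    2 ≤ g := by
  by_contra hlt
  obtain rfl : s = 0 := by omega
  refine not_irr_of_scalar hr _ (fun v => schur _ hi _ fun v' => ?_) hi
  obtain rfl | rfl : g = 0 ∨ g = 1 := by omega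
  · rcases v with (v | v) | v <;> exact v.elim0
  · have h1 : p.1 (.inl 0) * p.1 (.inr 0) * (p.1 (.inl 0))⁻¹ * (p.1 (.inr 0))⁻¹ = 1 := by
      apply Subtype.ext
      simpa [RepG, hprod] using hp
    have h2 : p.1 (.inl 0) * p.1 (.inr 0) = p.1 (.inr 0) * p.1 (.inl 0) := by
      rw [mul_inv_eq_one, mul_inv_eq_iff_eq_mul] at h1; exact h1
    have h3 := congrArg Subtype.val h2
    rcases v with (v | v) | v <;> rcases v' with (v' | v') | v' <;>
      first
        | exact v.elim0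
        | exact v'.elim0
        | (obtain rfl := Subsingleton.elim v 0; obtain rfl := Subsingleton.elim v' 0
           first | rfl | exact h3 | exact h3.symm)

variable {O : Type} [CommRing O] [Algebra O ℂ] [FaithfulSMul O ℂ] {g s N R r : ℕ}

theorem OK.rootN (hO : OK O s N R) {x : ℂ} (hx : x ^ N = 1) : ∃ u : O, algebraMap O ℂ u = x :=
  hO.root x (by rw [pow_mul, hx, one_pow])

theorem small_case (hO : OK O s N R) (hr : r ≤ 1)
    (p : Tup (Fin g) (Fin s) (Fin r) ℂ) (hp : p ∈ RepG g s (Fin r) ℂ) (hi : Irr (raw p))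
    (hq : ∀ k x, (p.2 k).charpoly.IsRoot x → x ^ N = 1) : raw p ∈ IntP g s O p.2 := by
  have hsub : Subsingleton (Fin r) := Fin.subsingleton_iff_le_one.2 hr
  have h1 : ∀ v, p.1 v = 1 := fun v => Subsingleton.elim _ _
  have h2 : ∀ k i j, ∃ u : O, algebraMap O ℂ u = p.2 k i j := fun k i j => by
    obtain rfl := Subsingleton.elim j i
    refine hO.rootN (hq k _ ?_)
    rw [Polynomial.IsRoot, Matrix.eval_charpoly, Matrix.det_eq_elem_of_subsingleton _ j]
    simp
  choose u hu using h2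
  let p' : Tup (Fin g) (Fin s) (Fin r) O := (fun _ => 1, fun k => Matrix.of (u k))
  have e : mT (algebraMap O ℂ) p' = p := by
    refine Prod.ext (funext fun v => Subsingleton.elim _ _) (funext fun k => ?_)
    ext i j; exact hu k i j
  refine ⟨⟨p', ?_, by rw [← raw_mT, e]⟩, hi.ss, fun k => ⟨1, by simp [raw]⟩⟩
  have hinj : Function.Injective
      ((algebraMap O ℂ).mapMatrix : Matrix (Fin r) (Fin r) O →+* Matrix (Fin r) (Fin r) ℂ) :=
    Matrix.map_injective (FaithfulSMul.algebraMap_injective O ℂ)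
  apply hinj
  rw [← e] at hp
  have h3 : hprod (mT (algebraMap O ℂ) p').1 = smap (algebraMap O ℂ) (hprod p'.1) :=
    (map_hprod (smap (algebraMap O ℂ)) p'.1).symm
  have h4 : (hprod (mT (algebraMap O ℂ) p').1).1 * (List.ofFn (mT (algebraMap O ℂ) p').2).prod = 1 :=
    hp
  rw [map_mul, map_one, map_list_prod, List.map_ofFn, ← h4, h3]
  rfl

theorem irr_case [IsDomain O] [CharZero O] [Countable O] (hO : OK O s N R) (hr : r ≤ R)
    (hg : s = 0 ∨ 3 ≤ g)
    (p : Tup (Fin g) (Fin s) (Fin r) ℂ) (hp : p ∈ RepG g s (Fin r) ℂ) (hi : Irr (raw p))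
    (hq : ∀ k x, (p.2 k).charpoly.IsRoot x → x ^ N = 1)
    (f : MvPolynomial (Gen g s × Fin r × Fin r) ℂ) (h : ∀ M ∈ IntP g s O p.2, val f M = 0) :
    val f (raw p) = 0 := by
  by_cases hr1 : r ≤ 1
  · exact h _ (small_case hO hr1 p hp hi hq)
  have hr2 : 2 ≤ r := by omega
  have : Nonempty (Fin r) := ⟨⟨0, by omega⟩⟩
  obtain ⟨m, rfl⟩ : ∃ m, g = m + 2 := ⟨g - 2, by have := two_le_g hr2 hg p hp hi; omega⟩
  have hinj := FaithfulSMul.algebraMap_injective O ℂ
  choose P Q T hPQ hQP hT htri hroot hoff using fun k => jordan_tri (p.2 k)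
  choose P' hP' using fun k => exists_SL_of_unit (P k) (Q k) (hPQ k)
  have hT' : ∀ k, p.2 k = Ad (P' k) (T k) := fun k => (hT k).trans (hP' k _).symm
  have hTN : ∀ k i j, T k i j ^ N = 1 ∨ T k i j = 0 := fun k i j => by
    by_cases hij : i = j
    · subst hij; exact Or.inl (hq k _ (hroot k i))
    · rcases hoff k i j hij with h0 | h0
      · exact Or.inr h0
      · exact Or.inl (by rw [h0, one_pow])
  have hdet1 : ∏ k, (T k).det = 1 := by
    have := congrArg Matrix.det (show (hprod p.1).1 * (List.ofFn p.2).prod = 1 from hp)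
    rw [Matrix.det_mul, (hprod p.1).2, one_mul, det_list_prod, Matrix.det_one] at this
    rw [← this]
    exact Finset.prod_congr rfl fun k _ => by rw [hT', det_Ad']
  have hdN : ∀ k, (T k).det ^ N = 1 := fun k => by
    rw [Matrix.det_of_upperTriangular (fun i j hij => htri k i j hij), ← Finset.prod_pow]
    exact Finset.prod_eq_one fun i _ => hq k _ (hroot k i)
  have hd0 : ∀ k, (T k).det ≠ 0 := fun k h0 => by
    have := hdet1
    rw [Finset.prod_eq_zero (Finset.mem_univ k) h0] at this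
    exact zero_ne_one this
  choose ω hω using fun k => exists_unit_root _ (hd0 k) r (by omega)
  obtain ⟨d, hd⟩ : r ∣ R.factorial := Nat.dvd_factorial (by omega) hr
  have hωN : ∀ k, (ω k : ℂ) ^ (N * R.factorial) = 1 := fun k => by
    rw [hd, show N * (r * d) = r * N * d by ring, pow_mul, pow_mul, hω, hdN, one_pow]
  choose u hu using fun k => hO.root _ (hωN k)
  choose u' hu' using fun k => hO.root ((ω k)⁻¹ : ℂˣ) (by
    rw [Units.val_inv_eq_inv_val, inv_pow, hωN, inv_one])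
  choose J' hJ' using fun k => exists_lift_SL (O := O)
    (⟨(((ω k)⁻¹ : ℂˣ) : ℂ) • T k, by rw [Matrix.det_smul, ← hω]; simp⟩ : SL (Fin r) ℂ) (by
      intro i j
      rcases hTN k i j with h0 | h0
      · obtain ⟨t, ht⟩ := hO.rootN h0
        exact ⟨u' k * t, by rw [map_mul, hu', ht]; rfl⟩
      · exact ⟨0, by simp [h0]⟩)
  have hJ'' : ∀ k, (ω k : ℂ) • (smap (algebraMap O ℂ) (J' k)).1 = T k := fun k => by
    rw [hJ']; simp [smul_smul]
  let Jl : SL (Fin r) O := ⟨(∏ k, u k) • (1 : Matrix (Fin r) (Fin r) O), by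
    apply hinj
    rw [Matrix.det_smul, Matrix.det_one, mul_one, map_pow, map_prod, map_one, ← hdet1,
      ← Finset.prod_pow]
    exact Finset.prod_congr rfl fun k _ => by rw [hu, Fintype.card_fin, hω]⟩
  let J : Fin (s + 1) → SL (Fin r) O := Fin.snoc (α := fun _ => SL (Fin r) O) J' Jl
  have hJc : ∀ k : Fin s, J k.castSucc = J' k := fun k => Fin.snoc_castSucc ..
  have hJl : (J (Fin.last s)).1 = (∏ k, u k) • (1 : Matrix (Fin r) (Fin r) O) :=
    congrArg Subtype.val (show J (Fin.last s) = Jl from Fin.snoc_last ..)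
  have hJlc : (cJ J ℂ (Fin.last s)).1 = (∏ k, (ω k : ℂ)) • (1 : Matrix (Fin r) (Fin r) ℂ) := by
    rw [cJ, smap_val, hJl]
    ext i j
    by_cases hij : i = j <;> simp [hij, hu]
  have hJprod : (List.ofFn J).prod.1.map (algebraMap O ℂ) = (List.ofFn T).prod := by
    rw [← smap_val, map_list_prod, List.map_ofFn, List.ofFn_succ', List.prod_concat, val_mul,
      val_list_prod]
    have := hJlc
    simp only [cJ] at this
    simp only [Function.comp_apply, this, hJc]
    rw [Matrix.mul_smul, Matrix.mul_one, ← prod_smul_list]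
    simp only [hJ'']
  have hbase : ∃ y, (CW m (s + 1)).ev J y = 1 := by
    rcases hg with rfl | hg
    · refine exists_base J 1 1 (fun _ => ⟨rfl, rfl⟩) (Subtype.ext ?_)
      apply Matrix.map_injective hinj
      simpa using hJprod
    · obtain ⟨A, B, hAB⟩ := hO.comm r hr T htri hTN (by rw [det_list_prod, hdet1])
      refine exists_base J A B (fun h0 => by omega) (Subtype.ext ?_)
      apply Matrix.map_injective hinj
      simp only [val_mul (A * B * A⁻¹ * B⁻¹), Matrix.map_mul, hJprod, hAB]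
      simp
  obtain ⟨y, hy⟩ := hbase
  let ρ0 : VV m s → SL (Fin r) ℂ := Sum.elim
    ![p.1 (.inl 0), p.1 (.inr 0), p.1 (.inl 1), p.1 (.inr 1)]
    (Sum.elim (fun i => p.1 (.inl i.succ.succ)) (Sum.elim (fun i => p.1 (.inr i.succ.succ))
      (Fin.snoc (α := fun _ => SL (Fin r) ℂ) P' 1)))
  have hΓ : ∀ (ρ : VV m s → SL (Fin r) ℂ) k,
      (toT (fun k => (ω k : ℂ)) (cJ J ℂ) ρ).2 k = Ad (ρ (wv k.castSucc)) (T k) := fun ρ k => by
    simp only [toT, cJ, hJc]
    rw [← map_smul, hJ'']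
  have hρ0 : toT (fun k => (ω k : ℂ)) (cJ J ℂ) ρ0 = p := by
    refine Prod.ext (funext fun v => ?_) (funext fun k => ?_)
    · rcases v with v | v <;> refine Fin.cases rfl (fun v => Fin.cases rfl (fun v => rfl) v) v
    · rw [hΓ, hT']; simp [ρ0, wv]
  have hX : ρ0 ∈ XX (sys (CW m (s + 1))) J ℂ := (toT_mem _ _ hJlc ρ0).1 (by rwa [hρ0])
  have hsm : Sm (sys (CW m (s + 1))) (cJ J ℂ) ρ0 := by
    refine CW_sm m (s + 1) _ ρ0 fun ζ h0 h1 h2 h3 h4 => ?_
    obtain ⟨c, rfl⟩ := schur (raw p) hi ζ (by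
      rw [← hρ0]
      rintro ((v | v) | k)
      · refine (Ad_eq_self_iff _ _).1 ?_
        exact Fin.cases (h1 0) (fun v => Fin.cases (h1 2) (fun v => h2 v) v) v
      · refine (Ad_eq_self_iff _ _).1 ?_
        exact Fin.cases (h1 1) (fun v => Fin.cases (h1 3) (fun v => h3 v) v) v
      · have := (Ad_eq_self_iff _ _).1 (h4 k.castSucc)
        show ((ω k : ℂ) • _) * ζ = ζ * ((ω k : ℂ) • _)
        rw [Matrix.smul_mul, Matrix.mul_smul]
        exact congrArg _ this)
    have hc : c = 0 := by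
      have : c * (r : ℂ) = 0 := by simpa using h0
      exact (mul_eq_zero.1 this).resolve_right (Nat.cast_ne_zero.2 (by omega))
    rw [hc, zero_smul]
  have hW := core (CW m (s + 1)) J y hy (fun B => CW_RT m (s + 1) J y) ρ0 hX hsm
  obtain ⟨q, hq0, hq1⟩ := irr_open (raw p) hi
  obtain ⟨f', hf'⟩ := isP_toT (m := m) (fun k => (ω k : ℂ)) (cJ J ℂ) (f * q)
  have key := WW_coeff hW f' fun z hz => by
    rw [← hf']
    simp only [val, map_mul]
    by_cases hz0 : val q (raw (toT (fun k => (ω k : ℂ)) (cJ J ℂ) (cJ z ℂ))) = 0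
    · exact mul_eq_zero_of_right _ hz0
    refine mul_eq_zero_of_left (h _ ⟨⟨toT u J z, (toT_mem u J hJl z).2 ?_, ?_⟩,
      (hq1 _ hz0).ss, fun k => ⟨cJ z ℂ (wv k.castSucc) * (P' k)⁻¹, ?_⟩⟩) _
    · have := hz
      rwa [XX, Set.mem_setOf_eq, cJ_self] at this
    · rw [toT_map]; simp only [hu]; rfl
    · rw [Ad_mul, hT', Ad_inv_Ad, ← hΓ]; rfl
  rw [← hf', hρ0] at key
  simp only [val, map_mul] at key
  exact (mul_eq_zero.1 key).resolve_right hq0

end Vale.Agent.P002
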