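import Vale.Agent.P002.Der
import Vale.Agent.P002.Rank
import Vale.Agent.P002.Jac
import Vale.Agent.P002.Jordan

/-! P002, task Kac: a dimension count.

`r = card n`, `d = finrank sl`, `ε = finrank (Z0 A B) > 0`.
* `rank_ad`: for `η` traceless, nonzero (so not scalar, char 0) there is `v` with `v, η v`
  independent; `X ↦ (X * η - η * X) *ᵥ v` is onto `n → F` (choose `X` with `X v = 0`,
  `X (η v) = w`: `X = vecMulVec w φ` for a covector `φ` with `φ v = 0`, `φ (η v) = 1`). A concrete
  way: if some off-diagonal `η a b ≠ 0` take `v = e_b`, `φ = (η a b)⁻¹ e_a`; otherwise `η` is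
  diagonal with `η a a ≠ η b b`, take `v = e_a + e_b`, `φ = (η a a - η b b)⁻¹ (e_a - e_b)`.
* `kac`: take a basis `η i` (`i : Fin ε`) of `Z0 A B` and `s` from `exists_transc_fam` for the
  family of all entries of `A`, `B`, `η i`; `η = ∑ s i • η i ∈ Z0 A B`. With
  `f = (ldL A).prod (ldL B)`, `g D = η.map D` (linear in `D`):
  `Z0 A B ≤ (ker f).map g`, hence `η ≠ 0` and `finrank range (f.prod g) ≥ finrank range f + ε`
  (`finrank_range_prod`). Let `lam` be from `exists_eig`, `e D = fun i => D (lam i)`; its range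
  lies in the hyperplane of vectors with sum zero (the sum of the `lam i` is the trace, `0`), so
  has dimension `≤ r - 1`; `finrank range (f.prod g) ≤ finrank range (e.prod (f.prod g))`.
  On `ker e`: `g D ∈ range (ad η)` by `jordan_der`; if moreover `g D = 0` then differentiating
  `A η = η A` (`map_der_mul`, `ld_mul_val`) shows that `ld D A`, `ld D B` commute with `η` and are
  traceless (`trace_ld`). The traceless centraliser of `η` has dimension
  `≤ r * r - rank (ad η) - 1` (the identity commutes with `η` and has nonzero trace). Total: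
  `finrank range f + ε ≤ (r - 1) + ρ + 2 (r * r - ρ - 1)` with `ρ = rank (ad η) ≥ r`. -/

namespace Vale.Agent.P002

open Module

variable {n : Type} [Fintype n] [DecidableEq n]

/-- `X ↦ X η - η X` -/
def adL {F : Type} [Field F] (η : Matrix n n F) : Matrix n n F →ₗ[F] Matrix n n F :=
  LinearMap.mulRight F η - LinearMap.mulLeft F η

theorem adL_apply {F : Type} [Field F] (η X : Matrix n n F) : adL η X = X * η - η * X := rfl

theorem kac_exists_vec {F : Type} [Field F] [CharZero F] (η : Matrix n n F) (h0 : η.trace = 0)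
    (h : η ≠ 0) : ∃ v φ : n → F, φ ⬝ᵥ v = 0 ∧ φ ⬝ᵥ (η.mulVec v) = 1 := by
  by_contra hc
  have h1 : ∀ v φ : n → F, φ ⬝ᵥ v = 0 → φ ⬝ᵥ (η.mulVec v) = 0 := by
    intro v φ hv
    by_contra h2
    refine hc ⟨v, (φ ⬝ᵥ (η.mulVec v))⁻¹ • φ, ?_, ?_⟩
    · rw [smul_dotProduct, hv, smul_zero]
    · rw [smul_dotProduct, smul_eq_mul, inv_mul_cancel₀ h2]
  have h2 : ∀ a b, a ≠ b → η a b = 0 := by
    intro a b hab
    have h3 := h1 (Pi.single b 1) (Pi.single a 1) (by simp [hab])
    simpa using h3
  have h3 : ∀ a b, η a a = η b b := by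
    intro a b
    by_cases hab : a = b
    · rw [hab]
    have h4 := h1 (Pi.single a 1 + Pi.single b 1) (Pi.single a 1 - Pi.single b 1)
      (by simp [hab, Ne.symm hab])
    simp only [Matrix.mulVec_add, Matrix.mulVec_single_one, sub_dotProduct, single_dotProduct,
      one_mul, Pi.add_apply, Matrix.col_apply, h2 a b hab, h2 b a (Ne.symm hab), add_zero,
      zero_add] at h4
    exact sub_eq_zero.1 h4
  apply h
  ext a b
  by_cases hab : a = b
  · subst hab
    have h5 : η.trace = Fintype.card n * η a a := by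
      have h7 : η.trace = ∑ _i : n, η a a := Finset.sum_congr rfl (fun i _ => h3 i a)
      rw [h7, Finset.sum_const, Finset.card_univ, nsmul_eq_mul]
    rw [h0] at h5
    have h6 : (Fintype.card n : F) ≠ 0 := Nat.cast_ne_zero.2 (Fintype.card_pos_iff.2 ⟨a⟩).ne'
    exact (mul_eq_zero.1 h5.symm).resolve_left h6
  · exact h2 a b hab

theorem rank_ad {F : Type} [Field F] [CharZero F] (η : Matrix n n F) (h0 : η.trace = 0)
    (h : η ≠ 0) : Fintype.card n ≤ finrank F (LinearMap.range (adL η)) := by
  obtain ⟨v, φ, h1, h2⟩ := kac_exists_vec η h0 h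
  let T : Matrix n n F →ₗ[F] (n → F) := (Matrix.mulVecBilin F F).flip v
  have h3 : (LinearMap.range (adL η)).map T = ⊤ := by
    rw [eq_top_iff]
    intro w _
    refine ⟨adL η (Matrix.vecMulVec w φ), ⟨_, rfl⟩, ?_⟩
    show (Matrix.vecMulVec w φ * η - η * Matrix.vecMulVec w φ).mulVec v = w
    rw [Matrix.sub_mulVec, ← Matrix.mulVec_mulVec, ← Matrix.mulVec_mulVec, Matrix.vecMulVec_mulVec,
      Matrix.vecMulVec_mulVec, h1, h2]
    simp
  have h4 := Submodule.finrank_map_le T (LinearMap.range (adL η))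
  rw [h3, finrank_top, finrank_fintype_fun_eq_card] at h4
  exact h4

theorem kac_step {F D E G : Type} [Field F] [AddCommGroup D] [Module F D]
    [AddCommGroup E] [Module F E] [AddCommGroup G] [Module F G] [FiniteDimensional F E]
    [FiniteDimensional F G] (f : D →ₗ[F] E) (g : D →ₗ[F] G) (U : Submodule F D) :
    finrank F (U.map f) ≤ finrank F (U.map g) + finrank F ((U ⊓ LinearMap.ker g).map f) := by
  have h1 := finrank_range_prod (g.comp U.subtype) (f.comp U.subtype)
  have h2 : LinearMap.range (g.comp U.subtype) = U.map g := by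
    rw [LinearMap.range_comp, Submodule.range_subtype]
  have h3 : (LinearMap.ker (g.comp U.subtype)).map (f.comp U.subtype) =
      (U ⊓ LinearMap.ker g).map f := by
    rw [Submodule.map_comp, LinearMap.ker_comp, Submodule.map_comap_subtype]
  have h4 : (LinearMap.range ((g.comp U.subtype).prod (f.comp U.subtype))).map
      (LinearMap.snd F G E) = U.map f := by
    rw [← LinearMap.range_comp, LinearMap.snd_prod, LinearMap.range_comp, Submodule.range_subtype]
  rw [h2, h3] at h1
  rw [← h1, ← h4]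
  exact Submodule.finrank_map_le _ _

/-- the entrywise derivative of a fixed matrix, linear in the derivation -/
def kacG {O R : Type} [CommRing O] [CommRing R] [Algebra O R] (η : Matrix n n R) :
    Derivation O R R →ₗ[R] Matrix n n R where
  toFun D := η.map D
  map_add' D E := by ext; simp
  map_smul' c D := by ext; simp

/-- the derivatives of a family of scalars, linear in the derivation -/
def kacE {O R : Type} [CommRing O] [CommRing R] [Algebra O R] (lam : n → R) :
    Derivation O R R →ₗ[R] (n → R) where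
  toFun D := fun i => D (lam i)
  map_add' D E := by ext; simp
  map_smul' c D := by ext; simp

theorem kac_comm {O R : Type} [CommRing O] [CommRing R] [Algebra O R] (D : Derivation O R R)
    (A : SL n R) (η : Matrix n n R) (h : A.1 * η = η * A.1) (hD : η.map D = 0) :
    ld D A * η - η * ld D A = 0 := by
  have h1 : (A.1 * η).map D = (η * A.1).map D := by rw [h]
  rw [map_der_mul, map_der_mul, hD, Matrix.mul_zero, Matrix.zero_mul, add_zero, zero_add] at h1
  have h2 : (A⁻¹).1 * η = η * (A⁻¹).1 := by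
    calc (A⁻¹).1 * η = (A⁻¹).1 * (η * A.1) * (A⁻¹).1 := by
          rw [Matrix.mul_assoc, Matrix.mul_assoc, mul_inv_val, Matrix.mul_one]
      _ = η * (A⁻¹).1 := by
          rw [← h, ← Matrix.mul_assoc, inv_mul_val, Matrix.one_mul]
  rw [ld, Matrix.mul_assoc, h2, ← Matrix.mul_assoc, h1, Matrix.mul_assoc, sub_self]

theorem kac_cent {F : Type} [Field F] [CharZero F] [Nonempty n] (η : Matrix n n F) :
    finrank F (sl n F ⊓ LinearMap.ker (adL η) : Submodule F (Matrix n n F)) +
      finrank F (LinearMap.range (adL η)) + 1 ≤ Fintype.card n * Fintype.card n := by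
  have h1 : sl n F ⊓ LinearMap.ker (adL η) < LinearMap.ker (adL η) := by
    refine lt_of_le_of_ne inf_le_right fun h => ?_
    have h2 : (1 : Matrix n n F) ∈ LinearMap.ker (adL η) := by
      rw [LinearMap.mem_ker, adL_apply, Matrix.one_mul, Matrix.mul_one, sub_self]
    rw [← h] at h2
    have h3 : (1 : Matrix n n F).trace = 0 := h2.1
    rw [Matrix.trace_one] at h3
    exact Nat.cast_ne_zero.2 Fintype.card_ne_zero h3
  have h2 := Submodule.finrank_lt_finrank_of_lt h1
  have h3 := LinearMap.finrank_range_add_finrank_ker (adL η)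
  rw [finrank_matrix, finrank_self, mul_one] at h3
  omega

theorem kac_upper {O Ω : Type} [CommRing O] [Field Ω] [IsAlgClosed Ω] [CharZero Ω]
    [Algebra O Ω] (A B : SL n Ω) (η : Matrix n n Ω) (hη : η ∈ Z0 A B) (h : η ≠ 0) :
    finrank Ω (LinearMap.range (((ldL (O := O) A).prod (ldL (O := O) B)).prod (kacG η))) <
      2 * finrank Ω (sl n Ω) := by
  have hne : Nonempty n := by
    by_contra hc
    exact h (Matrix.ext fun a _ => absurd ⟨a⟩ hc)
  obtain ⟨lam, hlam⟩ := exists_eig η
  have hsum : ∑ i, lam i = 0 := by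
    have h1 := η.trace_eq_neg_charpoly_nextCoeff
    rw [hlam, Polynomial.prod_X_sub_C_nextCoeff, neg_neg, hη.1] at h1
    exact h1.symm
  set f := ((ldL (O := O) A).prod (ldL (O := O) B)).prod (kacG η) with hf
  set U1 : Submodule Ω (Derivation O Ω Ω) := ⊤ ⊓ LinearMap.ker (kacE lam) with hU1
  set U2 := U1 ⊓ LinearMap.ker (kacG η) with hU2
  set U3 := U2 ⊓ LinearMap.ker (ldL A) with hU3
  set U4 := U3 ⊓ LinearMap.ker (ldL B) with hU4
  have s1 := kac_step f (kacE lam) ⊤
  have s2 := kac_step f (kacG η) U1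
  have s3 := kac_step f (ldL A) U2
  have s4 := kac_step f (ldL B) U3
  have t1 : finrank Ω ((⊤ : Submodule Ω (Derivation O Ω Ω)).map (kacE lam)) < Fintype.card n := by
    rw [← finrank_fintype_fun_eq_card Ω]
    refine Submodule.finrank_lt fun htop => ?_
    obtain ⟨i0⟩ := hne
    have h1 : (Pi.single i0 1 : n → Ω) ∈ (⊤ : Submodule Ω (Derivation O Ω Ω)).map (kacE lam) := by
      rw [htop]; trivial
    obtain ⟨D, -, hD⟩ := h1
    have h2 : ∑ i, kacE lam D i = 0 := by
      show ∑ i, D (lam i) = 0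
      rw [← map_sum, hsum, map_zero]
    rw [hD] at h2
    simp at h2
  have t2 : finrank Ω (U1.map (kacG η)) ≤ finrank Ω (LinearMap.range (adL η)) := by
    refine Submodule.finrank_mono ?_
    rintro _ ⟨D, hD, rfl⟩
    have h1 : kacE lam D = 0 := hD.2
    obtain ⟨ν, hν⟩ := jordan_der D η (fun x hx => by
      rw [hlam, Polynomial.IsRoot.def, Polynomial.eval_prod, Finset.prod_eq_zero_iff] at hx
      obtain ⟨i, -, hi⟩ := hx
      rw [Polynomial.eval_sub, Polynomial.eval_X, Polynomial.eval_C, sub_eq_zero] at hi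
      rw [hi]
      exact congrFun h1 i)
    exact ⟨ν, hν.symm⟩
  have t3 : finrank Ω (U2.map (ldL A)) ≤
      finrank Ω (sl n Ω ⊓ LinearMap.ker (adL η) : Submodule Ω (Matrix n n Ω)) := by
    refine Submodule.finrank_mono ?_
    rintro _ ⟨D, hD, rfl⟩
    exact ⟨trace_ld D A, kac_comm D A η hη.2.1 hD.2⟩
  have t4 : finrank Ω (U3.map (ldL B)) ≤
      finrank Ω (sl n Ω ⊓ LinearMap.ker (adL η) : Submodule Ω (Matrix n n Ω)) := by
    refine Submodule.finrank_mono ?_
    rintro _ ⟨D, hD, rfl⟩
    exact ⟨trace_ld D B, kac_comm D B η hη.2.2 hD.1.2⟩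
  have t5 : finrank Ω (U4.map f) = 0 := by
    have h1 : U4.map f = ⊥ := by
      rw [eq_bot_iff]
      rintro _ ⟨D, hD, rfl⟩
      have a1 : ldL A D = 0 := hD.1.2
      have a2 : ldL B D = 0 := hD.2
      have a3 : kacG η D = 0 := hD.1.1.2
      exact Prod.ext (Prod.ext a1 a2) a3
    rw [h1, finrank_bot]
  have t6 := kac_cent η
  have t7 := rank_ad η hη.1 h
  have t8 := finrank_sl (n := n) (F := Ω)
  rw [Submodule.map_top] at s1
  rw [← hU1] at s1
  rw [← hU2] at s2
  rw [← hU3] at s3
  rw [← hU4] at s4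
  omega

theorem kac {O Ω : Type} [CommRing O] [Countable O] [Field Ω] [IsAlgClosed Ω] [CharZero Ω]
    [Uncountable Ω] [Algebra O Ω] (A B : SL n Ω) (h : Z0 A B ≠ ⊥) :
    finrank Ω (LinearMap.range ((ldL (O := O) A).prod (ldL (O := O) B))) + finrank Ω (Z0 A B) <
      2 * finrank Ω (sl n Ω) := by
  let b := finBasis Ω (Z0 A B)
  let y : (n × n) ⊕ (n × n) ⊕ (Fin (finrank Ω (Z0 A B)) × n × n) → Ω :=
    Sum.elim (fun p => A.1 p.1 p.2) (Sum.elim (fun p => B.1 p.1 p.2)
      fun p => (b p.1 : Matrix n n Ω) p.2.1 p.2.2)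
  obtain ⟨s, hs⟩ := exists_transc_fam (O := O) y (finrank Ω (Z0 A B))
  let η : Z0 A B := ∑ i, s i • b i
  have h1 : Z0 A B ≤ (LinearMap.ker ((ldL (O := O) A).prod (ldL (O := O) B))).map
      (kacG (η : Matrix n n Ω)) := by
    intro ζ hζ
    obtain ⟨D, hD, hD2⟩ := hs (b.repr ⟨ζ, hζ⟩)
    refine ⟨D, ?_, ?_⟩
    · have a1 : A.1.map D = 0 := Matrix.ext fun i j => hD (.inl (i, j))
      have a2 : B.1.map D = 0 := Matrix.ext fun i j => hD (.inr (.inl (i, j)))
      refine Prod.ext ?_ ?_
      · show ld D A = 0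
        rw [ld, a1, Matrix.zero_mul]
      · show ld D B = 0
        rw [ld, a2, Matrix.zero_mul]
    · have a3 : ∀ k i j, D ((b k : Matrix n n Ω) i j) = 0 := fun k i j =>
        hD (.inr (.inr (k, i, j)))
      have a4 : ζ = ∑ k, b.repr ⟨ζ, hζ⟩ k • (b k : Matrix n n Ω) := by
        have a5 := congrArg Subtype.val (b.sum_repr ⟨ζ, hζ⟩)
        rw [Submodule.coe_sum] at a5
        exact a5.symm
      have a6 : (η : Matrix n n Ω) = ∑ k, s k • (b k : Matrix n n Ω) := by
        show ((∑ i, s i • b i : Z0 A B) : Matrix n n Ω) = _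
        rw [Submodule.coe_sum]
        rfl
      ext i j
      show D ((η : Matrix n n Ω) i j) = ζ i j
      rw [a6]
      conv_rhs => rw [a4]
      simp only [Matrix.sum_apply, Matrix.smul_apply, smul_eq_mul, map_sum, Derivation.leibniz,
        a3, hD2, mul_zero, zero_add]
      exact Finset.sum_congr rfl fun k _ => mul_comm _ _
  have h2 : (η : Matrix n n Ω) ≠ 0 := by
    intro h0
    apply h
    rw [eq_bot_iff]
    intro ζ hζ
    obtain ⟨D, -, hD⟩ := h1 hζ
    rw [← hD, h0]
    show (0 : Matrix n n Ω).map D = 0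
    ext i j
    simp
  have h3 := kac_upper (O := O) A B η η.2 h2
  rw [finrank_range_prod] at h3
  have h4 := Submodule.finrank_mono h1
  omega

end Vale.Agent.P002
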