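import Vale.Agent.P002.Defs

/-! P002, task Moves: automorphisms of the first two handles and conjugated twists.

With `(a0, b0, a1, b1)` the first four variables:
* `sigma`: `e = b0 a0⁻¹ b0⁻¹ a1 b1 a1⁻¹`, `(a0, e b0 a0, e a1, b1)`. Inverse: first replace `b0` by
  `b0 a0⁻¹ =: b`, then with `e = b a0⁻¹ b⁻¹ a1 b1 a1⁻¹` (computed from these values) return
  `(a0, e⁻¹ b, e⁻¹ a1, b1)`.
* `kappa`: `e = b0 a0⁻¹ b0⁻¹ [a1, b1]`, `(a0, e b0 a0, e a1 e⁻¹, e b1 e⁻¹)`; the inverse is built in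
  the same way (`b = b0 a0⁻¹`, `e = b a0⁻¹ b⁻¹ [a1, b1]`, `(a0, e⁻¹ b, e⁻¹ a1 e, e⁻¹ b1 e)`).
All identities are checked with `funext`, `rcases v`, `fin_cases`, `simp [sys, base]`, `group`.
For `Pr.mv` note `(fun v => TG.zs (base A0 A1 y v)) = base (TG.zs A0) (TG.zs A1) (TG.zs ∘ y)`. -/

namespace Vale.Agent.P002

variable {n : Type} [Fintype n] [DecidableEq n] {K W : Type}

/-- An invertible natural move of the variables fixing the further variables. -/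
structure Mv (W : Type) where
  φ : ∀ {G : Type} [Group G], (Fin 4 ⊕ W → G) → Fin 4 ⊕ W → G
  ψ : ∀ {G : Type} [Group G], (Fin 4 ⊕ W → G) → Fin 4 ⊕ W → G
  natφ : ∀ {G H : Type} [Group G] [Group H] (f : G →* H) (ρ : Fin 4 ⊕ W → G) (v),
    f (φ ρ v) = φ (fun v => f (ρ v)) v
  natψ : ∀ {G H : Type} [Group G] [Group H] (f : G →* H) (ρ : Fin 4 ⊕ W → G) (v),
    f (ψ ρ v) = ψ (fun v => f (ρ v)) v
  inv : ∀ {G : Type} [Group G] (ρ : Fin 4 ⊕ W → G), ψ (φ ρ) = ρ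
  restψ : ∀ {G : Type} [Group G] (ρ : Fin 4 ⊕ W → G) (w : W), ψ ρ (.inr w) = ρ (.inr w)
  presφ : ∀ {K G : Type} [Group G] (C : Word K W) (J : K → G) (ρ : Fin 4 ⊕ W → G),
    (sys C).ev J (φ ρ) = (sys C).ev J ρ
  presψ : ∀ {K G : Type} [Group G] (C : Word K W) (J : K → G) (ρ : Fin 4 ⊕ W → G),
    (sys C).ev J (ψ ρ) = (sys C).ev J ρ

/-- the conjugate of a twist family by a move -/
def Tw.conj {C : Word K W} (t : Tw (sys C)) (m : Mv W) : Tw (sys C) where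
  γ := ⟨fun J ρ => t.γ.ev J (m.φ ρ), fun f J ρ => by
    rw [t.γ.nat]; congr 1; funext v; exact m.natφ f ρ v⟩
  τ J ρ z := m.ψ (t.τ J (m.φ ρ) z)
  nat f J ρ z v := by
    rw [m.natψ]; congr 1; funext v; rw [t.nat]; congr 1; funext v; exact m.natφ f ρ v
  one J ρ := by rw [t.one, m.inv]
  pres J ρ z hz := by rw [m.presψ, t.pres J _ z hz, m.presφ]

/-- replace the first four variables -/
private def rep {G : Type} (ρ : Fin 4 ⊕ W → G) (a b c d : G) : Fin 4 ⊕ W → G :=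
  Sum.elim ![a, b, c, d] (fun w => ρ (.inr w))

section rep
variable {G H : Type}

private theorem rep_0 (ρ : Fin 4 ⊕ W → G) (a b c d : G) : rep ρ a b c d (.inl 0) = a := rfl
private theorem rep_1 (ρ : Fin 4 ⊕ W → G) (a b c d : G) : rep ρ a b c d (.inl 1) = b := rfl
private theorem rep_2 (ρ : Fin 4 ⊕ W → G) (a b c d : G) : rep ρ a b c d (.inl 2) = c := rfl
private theorem rep_3 (ρ : Fin 4 ⊕ W → G) (a b c d : G) : rep ρ a b c d (.inl 3) = d := rfl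
private theorem rep_r (ρ : Fin 4 ⊕ W → G) (a b c d : G) (w : W) :
    rep ρ a b c d (.inr w) = ρ (.inr w) := rfl

private theorem ext4 {ρ ρ' : Fin 4 ⊕ W → G} (h0 : ρ (.inl 0) = ρ' (.inl 0)) (h1 : ρ (.inl 1) = ρ' (.inl 1))
    (h2 : ρ (.inl 2) = ρ' (.inl 2)) (h3 : ρ (.inl 3) = ρ' (.inl 3))
    (h4 : ∀ w, ρ (.inr w) = ρ' (.inr w)) : ρ = ρ' := by
  funext v
  rcases v with v | w
  · fin_cases v
    · exact h0
    · exact h1
    · exact h2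
    · exact h3
  · exact h4 w

private theorem map_rep (f : G → H) (ρ : Fin 4 ⊕ W → G) (a b c d : G) (v : Fin 4 ⊕ W) :
    f (rep ρ a b c d v) = rep (fun v => f (ρ v)) (f a) (f b) (f c) (f d) v :=
  congrFun (ext4 (ρ := fun v => f (rep ρ a b c d v))
    (ρ' := rep (fun v => f (ρ v)) (f a) (f b) (f c) (f d)) rfl rfl rfl rfl fun _ => rfl) v

variable [Group G] [Group H]

private theorem base_0 (A0 A1 : G) (y : W → G) : base A0 A1 y (.inl 0) = A0 := rfl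
private theorem base_1 (A0 A1 : G) (y : W → G) : base A0 A1 y (.inl 1) = 1 := rfl
private theorem base_2 (A0 A1 : G) (y : W → G) : base A0 A1 y (.inl 2) = A1 := rfl
private theorem base_3 (A0 A1 : G) (y : W → G) : base A0 A1 y (.inl 3) = 1 := rfl
private theorem base_r (A0 A1 : G) (y : W → G) (w : W) : base A0 A1 y (.inr w) = y w := rfl

private theorem map_base (f : G →* H) (A0 A1 : G) (y : W → G) :
    (fun v => f (base A0 A1 y v)) = base (f A0) (f A1) (fun w => f (y w)) :=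
  ext4 rfl (map_one f) rfl (map_one f) fun _ => rfl

private theorem sys_rep (C : Word K W) (J : K → G) (ρ : Fin 4 ⊕ W → G) (a b c d : G)
    (h : (a * b * a⁻¹ * b⁻¹) * (c * d * c⁻¹ * d⁻¹) =
      (ρ (.inl 0) * ρ (.inl 1) * (ρ (.inl 0))⁻¹ * (ρ (.inl 1))⁻¹) *
        (ρ (.inl 2) * ρ (.inl 3) * (ρ (.inl 2))⁻¹ * (ρ (.inl 3))⁻¹)) :
    (sys C).ev J (rep ρ a b c d) = (sys C).ev J ρ :=
  congrArg (fun x => x * C.ev J (fun w => ρ (.inr w))) h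

end rep

/-- the element `e` of `sigma` -/
private def eS {G : Type} [Group G] (a0 b0 a1 b1 : G) : G := b0 * a0⁻¹ * b0⁻¹ * (a1 * b1 * a1⁻¹)

/-- the element `e` of `kappa` -/
private def eK {G : Type} [Group G] (a0 b0 a1 b1 : G) : G := b0 * a0⁻¹ * b0⁻¹ * (a1 * b1 * a1⁻¹ * b1⁻¹)

/-- the move `sigma` -/
private def sigmaMv (W : Type) : Mv W where
  φ ρ := rep ρ (ρ (.inl 0))
    (eS (ρ (.inl 0)) (ρ (.inl 1)) (ρ (.inl 2)) (ρ (.inl 3)) * ρ (.inl 1) * ρ (.inl 0))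
    (eS (ρ (.inl 0)) (ρ (.inl 1)) (ρ (.inl 2)) (ρ (.inl 3)) * ρ (.inl 2)) (ρ (.inl 3))
  ψ ρ := rep ρ (ρ (.inl 0))
    ((eS (ρ (.inl 0)) (ρ (.inl 1) * (ρ (.inl 0))⁻¹) (ρ (.inl 2)) (ρ (.inl 3)))⁻¹ *
      (ρ (.inl 1) * (ρ (.inl 0))⁻¹))
    ((eS (ρ (.inl 0)) (ρ (.inl 1) * (ρ (.inl 0))⁻¹) (ρ (.inl 2)) (ρ (.inl 3)))⁻¹ * ρ (.inl 2))
    (ρ (.inl 3))
  natφ f ρ v := by rw [map_rep f]; simp only [eS, map_mul, map_inv]
  natψ f ρ v := by rw [map_rep f]; simp only [eS, map_mul, map_inv]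
  inv ρ := by
    refine ext4 rfl ?_ ?_ rfl fun _ => rfl
    · simp only [rep_0, rep_1, rep_2, rep_3, eS]; group
    · simp only [rep_0, rep_1, rep_2, rep_3, eS]; group
  restψ ρ w := rfl
  presφ C J ρ := sys_rep C J ρ _ _ _ _ (by simp only [eS]; group)
  presψ C J ρ := sys_rep C J ρ _ _ _ _ (by simp only [eS]; group)

/-- the move `kappa` -/
private def kappaMv (W : Type) : Mv W where
  φ ρ := rep ρ (ρ (.inl 0))
    (eK (ρ (.inl 0)) (ρ (.inl 1)) (ρ (.inl 2)) (ρ (.inl 3)) * ρ (.inl 1) * ρ (.inl 0))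
    (eK (ρ (.inl 0)) (ρ (.inl 1)) (ρ (.inl 2)) (ρ (.inl 3)) * ρ (.inl 2) *
      (eK (ρ (.inl 0)) (ρ (.inl 1)) (ρ (.inl 2)) (ρ (.inl 3)))⁻¹)
    (eK (ρ (.inl 0)) (ρ (.inl 1)) (ρ (.inl 2)) (ρ (.inl 3)) * ρ (.inl 3) *
      (eK (ρ (.inl 0)) (ρ (.inl 1)) (ρ (.inl 2)) (ρ (.inl 3)))⁻¹)
  ψ ρ := rep ρ (ρ (.inl 0))
    ((eK (ρ (.inl 0)) (ρ (.inl 1) * (ρ (.inl 0))⁻¹) (ρ (.inl 2)) (ρ (.inl 3)))⁻¹ *
      (ρ (.inl 1) * (ρ (.inl 0))⁻¹))
    ((eK (ρ (.inl 0)) (ρ (.inl 1) * (ρ (.inl 0))⁻¹) (ρ (.inl 2)) (ρ (.inl 3)))⁻¹ * ρ (.inl 2) *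
      eK (ρ (.inl 0)) (ρ (.inl 1) * (ρ (.inl 0))⁻¹) (ρ (.inl 2)) (ρ (.inl 3)))
    ((eK (ρ (.inl 0)) (ρ (.inl 1) * (ρ (.inl 0))⁻¹) (ρ (.inl 2)) (ρ (.inl 3)))⁻¹ * ρ (.inl 3) *
      eK (ρ (.inl 0)) (ρ (.inl 1) * (ρ (.inl 0))⁻¹) (ρ (.inl 2)) (ρ (.inl 3)))
  natφ f ρ v := by rw [map_rep f]; simp only [eK, map_mul, map_inv]
  natψ f ρ v := by rw [map_rep f]; simp only [eK, map_mul, map_inv]
  inv ρ := by
    refine ext4 rfl ?_ ?_ ?_ fun _ => rfl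
    · simp only [rep_0, rep_1, rep_2, rep_3, eK]; group
    · simp only [rep_0, rep_1, rep_2, rep_3, eK]; group
    · simp only [rep_0, rep_1, rep_2, rep_3, eK]; group
  restψ ρ w := rfl
  presφ C J ρ := sys_rep C J ρ _ _ _ _ (by simp only [eK]; group)
  presψ C J ρ := sys_rep C J ρ _ _ _ _ (by simp only [eK]; group)

theorem exists_sigma (W : Type) : ∃ m : Mv W, ∀ {G : Type} [Group G],
    (∀ (A0 A1 : G) (y : W → G), m.φ (base A0 A1 y) = base A0 (A0⁻¹ * A1) y) ∧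
    ∀ ρ : Fin 4 ⊕ W → G, m.ψ ρ (.inl 3) = ρ (.inl 3) := by
  refine ⟨sigmaMv W, fun {G} _ => ⟨fun A0 A1 y => ?_, fun ρ => rfl⟩⟩
  refine ext4 rfl ?_ ?_ rfl fun _ => rfl
  · simp only [sigmaMv, rep_1, base_0, base_1, base_2, base_3, eS]; group
  · simp only [sigmaMv, rep_2, base_0, base_1, base_2, base_3, eS]; group

theorem exists_kappa (W : Type) : ∃ m : Mv W, ∀ {G : Type} [Group G],
    ∀ (A0 A1 : G) (y : W → G), m.φ (base A0 A1 y) = base A0 (A0⁻¹ * A1 * A0) y := by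
  refine ⟨kappaMv W, fun {G} _ A0 A1 y => ?_⟩
  refine ext4 rfl ?_ ?_ ?_ fun _ => rfl
  · simp only [kappaMv, rep_1, base_0, base_1, base_2, base_3, eK]; group
  · simp only [kappaMv, rep_2, base_0, base_1, base_2, base_3, eK]; group
  · simp only [kappaMv, rep_3, base_0, base_1, base_2, base_3, eK]; group

theorem Pr.mv {F : Type} [Field F] {C : Word K W} {J : K → SL n F} {y : W → SL n F}
    {t : Tw (sys C)} {Φ : SL n F → SL n F → SL n F}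
    {lam : Matrix n n F →ₗ[F] (W → Matrix n n F)} (h : Pr J y t Φ lam) (m : Mv W)
    (g : ∀ {G : Type} [Group G], G → G → G)
    (hg : ∀ {G H : Type} [Group G] [Group H] (f : G →* H) (a b : G), f (g a b) = g (f a) (f b))
    (hm : ∀ {G : Type} [Group G] (A0 A1 : G) (y : W → G),
      m.φ (base A0 A1 y) = base A0 (g A0 A1) y) :
    Pr J y (t.conj m) (fun A0 A1 => Φ A0 (g A0 A1)) lam := by
  intro A0 A1
  obtain ⟨h1, h2⟩ := h A0 (g A0 A1)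
  refine ⟨?_, fun ξ w => ?_⟩
  · show t.γ.ev J (m.φ (base A0 A1 y)) = _
    rw [hm, h1]
  · rw [← h2 ξ w]
    show (m.ψ (t.τ (fun k => TG.zs (J k)) (m.φ (fun v => TG.zs (base A0 A1 y v))) ⟨ξ, 1⟩)
      (.inr w)).u = (t.τ (fun k => TG.zs (J k)) (fun v => TG.zs (base A0 (g A0 A1) y v)) ⟨ξ, 1⟩
        (.inr w)).u
    rw [m.restψ, map_base, map_base, hm, hg]

/-- iterating `sigma` and `kappa` -/
theorem Pr.iter {F : Type} [Field F] {C : Word K W} {J : K → SL n F} {y : W → SL n F}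
    {t : Tw (sys C)} {q : SL n F} {lam : Matrix n n F →ₗ[F] (W → Matrix n n F)}
    (h : Pr J y t (fun _ A1 => q * A1) lam) (l m : ℕ) :
    ∃ t' : Tw (sys C),
      Pr J y t' (fun A0 A1 => q * (A0⁻¹ ^ l * (A0⁻¹ ^ m * A1 * A0 ^ m))) lam := by
  obtain ⟨ms, hs⟩ := exists_sigma W
  obtain ⟨mk, hk⟩ := exists_kappa W
  have h1 : ∀ l : ℕ, ∃ t' : Tw (sys C), Pr J y t' (fun A0 A1 => q * (A0⁻¹ ^ l * A1)) lam := by
    intro l
    induction l with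
    | zero => exact ⟨t, by simpa using h⟩
    | succ l ih =>
      obtain ⟨t', ht'⟩ := ih
      have h2 := ht'.mv ms (fun a b => a⁻¹ * b) (fun f a b => by simp only [map_mul, map_inv])
        (fun A0 A1 y => hs.1 A0 A1 y)
      refine ⟨t'.conj ms, ?_⟩
      have e : (fun A0 A1 : SL n F => q * (A0⁻¹ ^ (l + 1) * A1)) =
          fun A0 A1 => q * (A0⁻¹ ^ l * (A0⁻¹ * A1)) := by
        funext A0 A1; rw [pow_succ, mul_assoc]
      rw [e]; exact h2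
  induction m with
  | zero =>
    obtain ⟨t', ht'⟩ := h1 l
    exact ⟨t', by simpa only [pow_zero, one_mul, mul_one] using ht'⟩
  | succ m ih =>
    obtain ⟨t', ht'⟩ := ih
    have h2 := ht'.mv mk (fun a b => a⁻¹ * b * a) (fun f a b => by simp only [map_mul, map_inv])
      (fun A0 A1 y => hk A0 A1 y)
    refine ⟨t'.conj mk, ?_⟩
    have e : (fun A0 A1 : SL n F => q * (A0⁻¹ ^ l * (A0⁻¹ ^ (m + 1) * A1 * A0 ^ (m + 1)))) =
        fun A0 A1 => q * (A0⁻¹ ^ l * (A0⁻¹ ^ m * (A0⁻¹ * A1 * A0) * A0 ^ m)) := by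
      funext A0 A1; rw [pow_succ A0⁻¹, pow_succ' A0]; simp only [mul_assoc]
    rw [e]; exact h2

/-- the twist `b1 ↦ b1 z` along `a1` -/
private def twA1 (C : Word K W) : Tw (sys C) where
  γ := ⟨fun _ ρ => ρ (.inl 2), fun _ _ _ => rfl⟩
  τ _ ρ z := rep ρ (ρ (.inl 0)) (ρ (.inl 1)) (ρ (.inl 2)) (ρ (.inl 3) * z)
  nat f J ρ z v := by rw [map_rep f]; simp only [map_mul]
  one J ρ := ext4 rfl rfl rfl (mul_one _) fun _ => rfl
  pres J ρ z hz := sys_rep C J ρ _ _ _ _ (by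
    have h : z * (ρ (.inl 2))⁻¹ = (ρ (.inl 2))⁻¹ * z := (Commute.inv_right hz).eq
    congr 1
    rw [mul_inv_rev, ← mul_assoc, ← mul_assoc, mul_assoc _ z, h]
    group)

/-- the twist `b0 ↦ b0 z` along `a0` -/
private def twB0 (C : Word K W) : Tw (sys C) where
  γ := ⟨fun _ ρ => ρ (.inl 0), fun _ _ _ => rfl⟩
  τ _ ρ z := rep ρ (ρ (.inl 0)) (ρ (.inl 1) * z) (ρ (.inl 2)) (ρ (.inl 3))
  nat f J ρ z v := by rw [map_rep f]; simp only [map_mul]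
  one J ρ := ext4 rfl (mul_one _) rfl rfl fun _ => rfl
  pres J ρ z hz := sys_rep C J ρ _ _ _ _ (by
    have h : z * (ρ (.inl 0))⁻¹ = (ρ (.inl 0))⁻¹ * z := (Commute.inv_right hz).eq
    congr 1
    rw [mul_inv_rev, ← mul_assoc, ← mul_assoc, mul_assoc _ z, h]
    group)

/-- twists along the images of `a1`: start from `γ = a1`, `b1 ↦ b1 z` and conjugate by `sigma` -/
theorem exists_twA1 (C : Word K W) (l : ℕ) : ∃ t : Tw (sys C), ∀ {G : Type} [Group G]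
    (J : K → G) (A0 A1 : G) (y : W → G), t.γ.ev J (base A0 A1 y) = A0⁻¹ ^ l * A1 ∧
      ∀ z, t.τ J (base A0 A1 y) z (.inl 3) = z ∧
        ∀ w, t.τ J (base A0 A1 y) z (.inr w) = y w := by
  obtain ⟨ms, hs⟩ := exists_sigma W
  induction l with
  | zero =>
    refine ⟨twA1 C, fun {G} _ J A0 A1 y => ⟨?_, fun z => ⟨one_mul z, fun w => rfl⟩⟩⟩
    rw [pow_zero, one_mul]; rfl
  | succ l ih =>
    obtain ⟨t, ht⟩ := ih
    refine ⟨t.conj ms, fun {G} _ J A0 A1 y => ?_⟩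
    obtain ⟨h1, h2⟩ := ht J A0 (A0⁻¹ * A1) y
    refine ⟨?_, fun z => ⟨?_, fun w => ?_⟩⟩
    · show t.γ.ev J (ms.φ (base A0 A1 y)) = _
      rw [hs.1, h1, pow_succ, mul_assoc]
    · show ms.ψ (t.τ J (ms.φ (base A0 A1 y)) z) (.inl 3) = z
      rw [hs.2, hs.1, (h2 z).1]
    · show ms.ψ (t.τ J (ms.φ (base A0 A1 y)) z) (.inr w) = y w
      rw [ms.restψ, hs.1, (h2 z).2]

/-- the twist along `a0`: `b0 ↦ b0 z` -/
theorem exists_twB0 (C : Word K W) : ∃ t : Tw (sys C), ∀ {G : Type} [Group G]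
    (J : K → G) (ρ : Fin 4 ⊕ W → G), t.γ.ev J ρ = ρ (.inl 0) ∧
      ∀ z, t.τ J ρ z (.inl 1) = ρ (.inl 1) * z ∧ ∀ v, v ≠ .inl 1 → t.τ J ρ z v = ρ v := by
  refine ⟨twB0 C, fun {G} _ J ρ => ⟨rfl, fun z => ⟨rfl, fun v hv => ?_⟩⟩⟩
  rcases v with v | w
  · fin_cases v
    · rfl
    · exact absurd rfl hv
    · rfl
    · rfl
  · rfl

end Vale.Agent.P002
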