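import Mathlib

namespace Vale.Agent.P002

open Matrix

/-- Generators `a i`, `b i` (`i < g`) and `γ k` (`k < s`) of the fundamental group of a surface
of genus `g` with `s` punctures. -/
abbrev Gen (g s : ℕ) : Type := (Fin g ⊕ Fin g) ⊕ Fin s

/-- `Hom(π₁, SL_r(R))`: families satisfying `∏ [a i, b i] * ∏ γ k = 1`. -/
def Rep (g s r : ℕ) (R : Type) [CommRing R] : Set (Gen g s → SpecialLinearGroup (Fin r) R) :=
  {ρ | (List.ofFn fun i : Fin g => ρ (.inl (.inl i)) * ρ (.inl (.inr i)) *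
      (ρ (.inl (.inl i)))⁻¹ * (ρ (.inl (.inr i)))⁻¹).prod *
    (List.ofFn fun k : Fin s => ρ (.inr k)).prod = 1}

/-- The subspace `U` is invariant under all the matrices `M i`. -/
def Invt {ι n : Type} [Fintype n] (M : ι → Matrix n n ℂ) (U : Submodule ℂ (n → ℂ)) : Prop :=
  ∀ i, ∀ v ∈ U, M i *ᵥ v ∈ U

/-- Every invariant subspace has an invariant complement. -/
def SS {ι n : Type} [Fintype n] (M : ι → Matrix n n ℂ) : Prop :=
  ∀ U, Invt M U → ∃ U', IsCompl U U' ∧ Invt M U'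

/-- Value of a polynomial in the matrix entries. -/
noncomputable def val {ι n : Type} (f : MvPolynomial (ι × n × n) ℂ) (M : ι → Matrix n n ℂ) : ℂ :=
  MvPolynomial.eval (fun p => M p.1 p.2.1 p.2.2) f

/-- Semisimple representations whose boundary monodromies are conjugate to the `c k`. -/
def YY (g s r : ℕ) (c : Fin s → SpecialLinearGroup (Fin r) ℂ) :
    Set (Gen g s → SpecialLinearGroup (Fin r) ℂ) :=
  {ρ | ρ ∈ Rep g s r ℂ ∧ SS (fun v => (ρ v).1) ∧ ∀ k, IsConj (c k) (ρ (.inr k))}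

end Vale.Agent.P002
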