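import Vale.Agent.P002.St1
import Vale.Agent.P002.GenE
import Vale.Agent.P002.GoodD

/-! P002, task St2: the free coordinates of a full point are algebraically independent.

Frame: `B = P Λ Q`, `B' = A B A⁻¹ = P' Λ Q'` with `P' = A P`, `Q' = Q A⁻¹`. For `w : n → F` put
`yy w i = P i0 i * (Q w) i - P' i0 i * (Q' w) i`; `∑ i, yy w i = w i0 - w i0 = 0` and
`(B ^ k w) i0 - (B' ^ k w) i0 = ∑ lam i ^ k * yy w i`.
* `nd_surj`: `Φ w i = yy w i + w i0` is injective (sum over `i`, char 0, then `ND`), hence onto.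
* `solve_Lc`: `δ0` = `δ` with column `i0` replaced by zero, `β0 = δ0 B⁻¹`,
  `β = β0 + B * vecMulVec w (Pi.single i0 1) * B⁻¹`; `trace β = trace β0 + w i0`.
  `M = Y - Ad A β + Ad c β` (`c = A B A⁻¹ B⁻¹`, `c B = B'`) has
  `(Q' M P') i i = (Q' M0 P') i i - yy w i`, `M0` the same expression for `β0` (traceless).
  Choose `w` with `Φ w i = (Q' M0 P') i i - trace β0`; summing gives `w i0 = - trace β0`.
  Then `α = P' α' Q'` with `α' i j = (Q' M P') i j / (1 - lam i / lam j)` off the diagonal and `0`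
  on it solves `α - Ad B' α = M`.
* `ti_indep`: `algInd_of_der`. Given target values, for `v ≠ a0, b0` let `δ v` have the given
  entries off `(i0, i0)` and choose the entry `(i0, i0)` such that `u v = δ v * (ρ v)⁻¹` is traceless
  (`gen_entry_ne (gen_inv (full_gen_rest …))`); `solve_Lc` with
  `Y = - Ad c0 (…)` (`Lin_sys`, `trace_Lc`, `trace_Lin`) gives `u a0`, `u b0`; fullness gives `D`,
  and `D (ent ρ p) = (u v * ρ v) a b` (`ld_mul_val`). `Good` from `good_of_gen`, `ND` from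
  `nd_of_dgen (full_gen0 hF)`. -/

namespace Vale.Agent.P002

open Matrix

variable {n : Type} [Fintype n] [DecidableEq n]

private theorem st2_pow {F : Type} [Field F] (P Q : Matrix n n F) (lam : n → F) (hPQ : P * Q = 1)
    (hQP : Q * P = 1) (B : SL n F) (hB : B.1 = P * Matrix.diagonal lam * Q) (k : ℕ) (w : n → F)
    (i0 : n) : ((B ^ k).1 *ᵥ w) i0 = ∑ i, lam i ^ k * (P i0 i * (Q *ᵥ w) i) := by
  have h : (B ^ k).1 = P * Matrix.diagonal (fun i => lam i ^ k) * Q := by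
    induction k with
    | zero => simp [hPQ]
    | succ k ih =>
      rw [pow_succ, val_mul, ih, hB]
      have : Matrix.diagonal (fun i => lam i ^ (k + 1)) =
          Matrix.diagonal (fun i => lam i ^ k) * Matrix.diagonal lam := by
        rw [Matrix.diagonal_mul_diagonal]
        simp only [pow_succ]
      rw [this]
      simp only [Matrix.mul_assoc]
      rw [← Matrix.mul_assoc Q P, hQP, Matrix.one_mul]
  rw [h, ← Matrix.mulVec_mulVec]
  simp only [Matrix.mulVec, dotProduct, Matrix.mul_diagonal]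
  exact Finset.sum_congr rfl fun i _ => by ring

private theorem st2_sum {F : Type} [Field F] (P Q : Matrix n n F) (hPQ : P * Q = 1) (w : n → F)
    (i0 : n) : ∑ i, P i0 i * (Q *ᵥ w) i = w i0 := by
  have h : (P *ᵥ (Q *ᵥ w)) i0 = w i0 := by rw [Matrix.mulVec_mulVec, hPQ, Matrix.one_mulVec]
  exact h

private theorem st2_frame {F : Type} [Field F] (A B : SL n F) (P Q D : Matrix n n F)
    (hPQ : P * Q = 1) (hQP : Q * P = 1) (hB : B.1 = P * D * Q) :
    (A.1 * P) * (Q * (A⁻¹).1) = 1 ∧ (Q * (A⁻¹).1) * (A.1 * P) = 1 ∧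
      (A * B * A⁻¹).1 = (A.1 * P) * D * (Q * (A⁻¹).1) := by
  refine ⟨?_, ?_, ?_⟩
  · rw [Matrix.mul_assoc, ← Matrix.mul_assoc P, hPQ, Matrix.one_mul, mul_inv_val]
  · rw [Matrix.mul_assoc, ← Matrix.mul_assoc _ A.1, inv_mul_val, Matrix.one_mul, hQP]
  · rw [val_mul, val_mul, hB]
    simp only [Matrix.mul_assoc]

theorem nd_surj {F : Type} [Field F] [CharZero F] (i0 : n) (A B : SL n F) (hND : ND i0 A B)
    (P Q : Matrix n n F) (lam : n → F) (hPQ : P * Q = 1) (hQP : Q * P = 1)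
    (hB : B.1 = P * Matrix.diagonal lam * Q) (d : n → F) :
    ∃ w : n → F, ∀ i, P i0 i * (Q *ᵥ w) i - (A.1 * P) i0 i * ((Q * (A⁻¹).1) *ᵥ w) i + w i0 =
      d i := by
  obtain ⟨h1, h2, h3⟩ := st2_frame A B P Q _ hPQ hQP hB
  generalize A.1 * P = P' at *
  generalize Q * (A⁻¹).1 = Q' at *
  let Φ : (n → F) →ₗ[F] (n → F) :=
    { toFun := fun w i => P i0 i * (Q *ᵥ w) i - P' i0 i * (Q' *ᵥ w) i + w i0
      map_add' := fun w w' => by
        funext i
        simp only [Matrix.mulVec_add, Pi.add_apply]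
        ring
      map_smul' := fun c w => by
        funext i
        simp only [Matrix.mulVec_smul, Pi.smul_apply, smul_eq_mul, RingHom.id_apply]
        ring }
  have hinj : Function.Injective Φ := by
    rw [injective_iff_map_eq_zero]
    intro w hw
    have hi : ∀ i, P i0 i * (Q *ᵥ w) i - P' i0 i * (Q' *ᵥ w) i + w i0 = 0 := congrFun hw
    have hs := Finset.sum_congr rfl fun i (_ : i ∈ Finset.univ) => hi i
    rw [Finset.sum_add_distrib, Finset.sum_sub_distrib, st2_sum P Q hPQ, st2_sum P' Q' h1,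
      sub_self, zero_add, Finset.sum_const_zero, Finset.sum_const, nsmul_eq_mul] at hs
    have hc : ((Finset.univ : Finset n).card : F) ≠ 0 :=
      Nat.cast_ne_zero.2 (Finset.card_ne_zero.2 ⟨i0, Finset.mem_univ _⟩)
    have h0 : w i0 = 0 := (mul_eq_zero.1 hs).resolve_left hc
    refine hND w h0 fun k => ?_
    rw [st2_pow P Q lam hPQ hQP B hB, st2_pow P' Q' lam h1 h2 _ h3]
    refine Finset.sum_congr rfl fun i _ => ?_
    have := hi i
    rw [h0, add_zero, sub_eq_zero] at this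
    rw [this]
  obtain ⟨w, hw⟩ := LinearMap.injective_iff_surjective.1 hinj d
  exact ⟨w, congrFun hw⟩

private theorem st2_Ad {F : Type} [Field F] (P Q : Matrix n n F) (lam : n → Fˣ) (hPQ : P * Q = 1)
    (hQP : Q * P = 1) (B : SL n F) (hB : B.1 = P * Matrix.diagonal (fun i => (lam i : F)) * Q)
    (X : Matrix n n F) (i j : n) :
    (Q * Ad B X * P) i j = lam i * (Q * X * P) i j * (lam j : F)⁻¹ := by
  have h1 : B.1 * (P * Matrix.diagonal (fun i => (lam i : F)⁻¹) * Q) = 1 := by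
    rw [hB]
    simp only [Matrix.mul_assoc]
    rw [← Matrix.mul_assoc Q P, hQP, Matrix.one_mul, ← Matrix.mul_assoc (Matrix.diagonal _),
      Matrix.diagonal_mul_diagonal]
    simp [hPQ]
  have h2 : (B⁻¹).1 = P * Matrix.diagonal (fun i => (lam i : F)⁻¹) * Q := by
    rw [← Matrix.mul_one (B⁻¹).1, ← h1, ← Matrix.mul_assoc, inv_mul_val, Matrix.one_mul]
  have h3 : Q * Ad B X * P = Matrix.diagonal (fun i => (lam i : F)) * (Q * X * P) *
      Matrix.diagonal (fun i => (lam i : F)⁻¹) := by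
    rw [Ad_apply, h2, hB]
    simp only [Matrix.mul_assoc]
    rw [hQP, Matrix.mul_one, ← Matrix.mul_assoc Q P, hQP, Matrix.one_mul]
  rw [h3, Matrix.mul_diagonal, Matrix.diagonal_mul]

private theorem st2_solve {F : Type} [Field F] (P Q : Matrix n n F) (lam : n → Fˣ)
    (hl : Function.Injective lam) (hPQ : P * Q = 1) (hQP : Q * P = 1) (B : SL n F)
    (hB : B.1 = P * Matrix.diagonal (fun i => (lam i : F)) * Q) (M : Matrix n n F)
    (hM : ∀ i, (Q * M * P) i i = 0) : ∃ α : Matrix n n F, α.trace = 0 ∧ α - Ad B α = M := by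
  let a : Matrix n n F := Matrix.of fun i j => (Q * M * P) i j / (1 - lam i * (lam j : F)⁻¹)
  have ha : Q * (P * a * Q) * P = a := by
    simp only [Matrix.mul_assoc]
    rw [hQP, Matrix.mul_one, ← Matrix.mul_assoc, hQP, Matrix.one_mul]
  have hb : ∀ X : Matrix n n F, P * (Q * X * P) * Q = X := fun X => by
    simp only [Matrix.mul_assoc]
    rw [hPQ, Matrix.mul_one, ← Matrix.mul_assoc, hPQ, Matrix.one_mul]
  refine ⟨P * a * Q, ?_, ?_⟩
  · rw [Matrix.trace_mul_comm, ← Matrix.mul_assoc, hQP, Matrix.one_mul]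
    exact Finset.sum_eq_zero fun i _ => by simp [a, hM]
  · rw [← hb M, ← hb (P * a * Q - _)]
    congr 2
    ext i j
    rw [Matrix.mul_sub, Matrix.sub_mul, Matrix.sub_apply, st2_Ad P Q lam hPQ hQP B hB, ha]
    by_cases h : i = j
    · subst h
      simp [a, hM]
    · have h1 : (1 : F) - lam i * (lam j : F)⁻¹ ≠ 0 := by
        rw [sub_ne_zero, ne_comm, Ne, mul_inv_eq_one₀ (lam j).ne_zero]
        exact fun e => h (hl (Units.ext e))
      have h2 : a i j * (1 - lam i * (lam j : F)⁻¹) = (Q * M * P) i j := div_mul_cancel₀ _ h1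
      rw [← h2]
      ring

private theorem st2_vec {F : Type} [Field F] (P Q : Matrix n n F) (w : n → F) (i0 i : n) :
    (Q * Matrix.vecMulVec w (Pi.single i0 1) * P) i i = P i0 i * (Q *ᵥ w) i := by
  rw [Matrix.mul_vecMulVec, Matrix.vecMulVec_mul, Matrix.vecMulVec_apply, Matrix.single_one_vecMul,
    mul_comm]
  rfl

theorem solve_Lc {F : Type} [Field F] [CharZero F] (i0 : n) (A B : SL n F) (hB : Good B)
    (hND : ND i0 A B) (Y : Matrix n n F) (hY : Y.trace = 0) (δ : Matrix n n F) :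
    ∃ α β : Matrix n n F, α.trace = 0 ∧ β.trace = 0 ∧ Lc A B α β = Y ∧
      ∀ a b, b ≠ i0 → (β * B.1) a b = δ a b := by
  obtain ⟨P, Q, lam, hPQ, hQP, hB, hl⟩ := hB
  obtain ⟨h1, h2, h3⟩ := st2_frame A B P Q _ hPQ hQP hB
  have hA : ∀ Z : Matrix n n F, Q * (A⁻¹).1 * Ad A Z * (A.1 * P) = Q * Z * P := fun Z => by
    rw [Ad_apply]
    simp only [Matrix.mul_assoc]
    rw [← Matrix.mul_assoc (A⁻¹).1 A.1 P, inv_mul_val, Matrix.one_mul,
      ← Matrix.mul_assoc (A⁻¹).1 A.1, inv_mul_val, Matrix.one_mul]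
  obtain ⟨β0, hβ0⟩ : ∃ β0, β0 = δ * (B⁻¹).1 := ⟨_, rfl⟩
  obtain ⟨M0, hM0⟩ : ∃ M0, M0 = Y - Ad A β0 + Ad (A * B * A⁻¹ * B⁻¹) β0 := ⟨_, rfl⟩
  obtain ⟨w, hw⟩ := nd_surj i0 A B hND P Q _ hPQ hQP hB
    fun i => (Q * (A⁻¹).1 * M0 * (A.1 * P)) i i - β0.trace
  generalize A.1 * P = P' at *
  generalize Q * (A⁻¹).1 = Q' at *
  have ht : ∑ i, (Q' * M0 * P') i i = 0 := by
    change (Q' * M0 * P').trace = 0
    rw [Matrix.trace_mul_comm, ← Matrix.mul_assoc, h1, Matrix.one_mul, hM0]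
    simp [hY]
  have hs := Finset.sum_congr rfl fun i (_ : i ∈ Finset.univ) => hw i
  rw [Finset.sum_add_distrib, Finset.sum_sub_distrib, st2_sum P Q hPQ, st2_sum P' Q' h1,
    sub_self, zero_add, Finset.sum_sub_distrib, ht, Finset.sum_const, Finset.sum_const,
    nsmul_eq_mul, nsmul_eq_mul, zero_sub, ← mul_neg] at hs
  have hc : ((Finset.univ : Finset n).card : F) ≠ 0 :=
    Nat.cast_ne_zero.2 (Finset.card_ne_zero.2 ⟨i0, Finset.mem_univ _⟩)
  have h0 : w i0 = -β0.trace := mul_left_cancel₀ hc hs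
  obtain ⟨E, hE⟩ : ∃ E : Matrix n n F, E = Matrix.vecMulVec w (Pi.single i0 1) := ⟨_, rfl⟩
  obtain ⟨α, hα, hα'⟩ := st2_solve P' Q' lam (inj_of_indep lam hl) h1 h2 _ h3
    (M0 - Ad A (Ad B E) + Ad (A * B * A⁻¹) E) fun i => by
      rw [Matrix.mul_add, Matrix.add_mul, Matrix.mul_sub, Matrix.sub_mul, hA, Matrix.add_apply,
        Matrix.sub_apply, st2_Ad P Q lam hPQ hQP B hB, st2_Ad P' Q' lam h1 h2 _ h3, hE, st2_vec,
        st2_vec]
      have e := hw i
      have e2 : (lam i : F) * (lam i : F)⁻¹ = 1 := mul_inv_cancel₀ (lam i).ne_zero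
      rw [h0] at e
      linear_combination -e - (P i0 i * (Q *ᵥ w) i - P' i0 i * (Q' *ᵥ w) i) * e2
  refine ⟨α, β0 + Ad B E, hα, ?_, ?_, fun a b hb => ?_⟩
  · rw [Matrix.trace_add, trace_Ad, hE, Matrix.trace_vecMulVec, dotProduct_single, mul_one, h0,
      add_neg_cancel]
  · have e : Ad (A * B * A⁻¹ * B⁻¹) (Ad B E) = Ad (A * B * A⁻¹) E := by
      rw [← Ad_mul, inv_mul_cancel_right]
    rw [Lc, map_add, map_add, e]
    rw [hM0, sub_eq_iff_eq_add] at hα'
    conv_lhs => enter [1, 1, 1]; rw [hα']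
    abel
  · rw [Matrix.add_mul, hβ0, Ad_apply, Matrix.mul_assoc δ, Matrix.mul_assoc _ _ B.1, inv_mul_val,
      Matrix.mul_one, Matrix.mul_one, hE, Matrix.mul_vecMulVec, Matrix.add_apply,
      Matrix.vecMulVec_apply, Pi.single_eq_of_ne hb, mul_zero, add_zero]

private theorem st2_fix {F : Type} [Field F] (i0 : n) (A : SL n F) (hA : (A⁻¹).1 i0 i0 ≠ 0)
    (δ : Matrix n n F) : ∃ u : Matrix n n F, u.trace = 0 ∧
      ∀ a b, (a, b) ≠ (i0, i0) → (u * A.1) a b = δ a b := by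
  refine ⟨(δ + Matrix.single i0 i0 (-(δ * (A⁻¹).1).trace / (A⁻¹).1 i0 i0)) * (A⁻¹).1, ?_,
    fun a b h => ?_⟩
  · rw [Matrix.add_mul, Matrix.trace_add, Matrix.trace_single_mul, smul_eq_mul,
      div_mul_cancel₀ _ hA, add_neg_cancel]
  · rw [Matrix.mul_assoc, inv_mul_val, Matrix.mul_one, Matrix.add_apply,
      Matrix.single_apply_of_ne, add_zero]
    rintro ⟨rfl, rfl⟩
    exact h rfl

theorem ti_indep {K W O Ω : Type} [Finite W] [CommRing O] [Countable O] [Field Ω] [IsAlgClosed Ω]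
    [CharZero Ω] [Uncountable Ω] [Algebra O Ω] [FaithfulSMul O Ω] {C : Word K W}
    {J : K → SL n O} {ρ : Fin 4 ⊕ W → SL n Ω} (hF : Full (sys C) J ρ) (i0 : n) :
    AlgebraicIndependent O fun p : {p // TI (W := W) i0 p} => ent ρ p := by
  classical
  have : Nonempty n := ⟨i0⟩
  refine algInd_of_der _ fun c => ?_
  let δ : Fin 4 ⊕ W → Matrix n n Ω := fun v => Matrix.of fun a b =>
    if h : TI i0 (v, a, b) then c ⟨_, h⟩ else 0
  choose u hu hu' using fun v => st2_fix i0 (ρ v)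
    (gen_entry_ne _ (gen_inv _ (full_gen_rest hF v)) i0 i0) (δ v)
  obtain ⟨α, β, hα, hβ, hL, hδ⟩ := solve_Lc i0 (ρ (.inl 0)) (ρ (.inl 1))
    (good_of_gen _ (full_gen_rest hF (.inl 1))) (nd_of_dgen i0 _ _ (full_gen0 hF))
    (-Ad (ρ (.inl 0) * ρ (.inl 1) * (ρ (.inl 0))⁻¹ * (ρ (.inl 1))⁻¹)
      (Lc (ρ (.inl 2)) (ρ (.inl 3)) (u (.inl 2)) (u (.inl 3)) +
        Ad (ρ (.inl 2) * ρ (.inl 3) * (ρ (.inl 2))⁻¹ * (ρ (.inl 3))⁻¹)
          (Lin C (cJ J Ω) (fun w => ρ (.inr w)) (fun w => u (.inr w)))))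
    (by
      rw [Matrix.trace_neg, trace_Ad, Matrix.trace_add, trace_Ad, trace_Lc,
        trace_Lin _ _ _ _ fun w => hu _, add_zero, neg_zero]) (δ (.inl 1))
  let u2 : Fin 4 ⊕ W → Matrix n n Ω :=
    Sum.elim ![α, β, u (.inl 2), u (.inl 3)] fun w => u (.inr w)
  have k1 : ∀ v, (u2 v).trace = 0 := by
    rintro (i | w)
    · fin_cases i
      · exact hα
      · exact hβ
      · exact hu _
      · exact hu _
    · exact hu _
  have k2 : Lin (sys C) (cJ J Ω) ρ u2 = 0 := by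
    rw [Lin_sys]
    exact (congrArg (· + _) hL).trans (neg_add_cancel _)
  obtain ⟨D, hD⟩ := hF u2 (mem_Z1.2 ⟨k1, k2⟩)
  refine ⟨D, ?_⟩
  rintro ⟨⟨v, a, b⟩, hp⟩
  have e1 : D (ent ρ (v, a, b)) = (u2 v * (ρ v).1) a b := by
    rw [← hD, ld_mul_val]
    rfl
  have e2 : δ v a b = c ⟨_, hp⟩ := dif_pos hp
  change D (ent ρ (v, a, b)) = _
  rw [e1, ← e2]
  obtain ⟨p1, p2, p3⟩ := hp
  rcases v with i | w
  · fin_cases i
    · exact absurd rfl p1
    · exact hδ a b (p2 rfl)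
    · exact hu' (.inl 2) a b (p3 (by simp))
    · exact hu' (.inl 3) a b (p3 (by simp))
  · exact hu' (.inr w) a b (p3 (by simp))

end Vale.Agent.P002
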