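import Vale.Agent.P002.GoodD

/-! P002, task Wlem: properties of the closure `WW`.

Let `I` be the ideal of the polynomials vanishing on `XX w J O`, `S` the quotient,
`ρS = uT I _` (`aeval_gM_det`). An element of `S` killed by all the maps `θ_y : S →ₐ O`
(`uT_lift` at `y ∈ XX w J O`) is zero. A point `ρ ∈ WW` gives `θ : S →ₐ R` with `pm θ ρS = ρ`.
* `WW_sub_XX`: the entries of `w.ev (cJ J S) ρS - 1` are killed by all `θ_y` (`ev_pm`).
* `WW_nat`: `aeval (ent (μ (cJ J S) ρS)) f` is killed by all `θ_y` (`aeval_ent_pm`, `pm_cJ`,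
  naturality; `cJ J O = J`).
* `WW_twist`: `good_dense` gives `T, zT, φ, ψ`; make `T` an `O`-algebra through `Ω`;
  `t = aeval (ent (τ (cJ J T) ρT zT)) f`; `φ k t = 0` by `WW_nat` applied to
  `μ J ρ = τ J ρ (γ.ev J ρ ^ k)`.
* `WW_base`: substitute: `g = bind₁` of `f` along the map sending the entries of `a0`, `a1` to
  variables of `Fin 2 × n × n` and the other entries to constants; `dense_int`.
* `WW_coeff`: `coeff_ext` with `Y = ent '' XX w J O`. -/

namespace Vale.Agent.P002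

variable {n : Type} [Fintype n] [DecidableEq n] {K V O : Type} [CommRing O]

theorem cJ_self (J : K → SL n O) : cJ J O = J := by
  funext k
  ext i j
  simp [cJ]

theorem XX_pm {w : Word K V} {J : K → SL n O} {R S : Type} [CommRing R] [CommRing S]
    [Algebra O R] [Algebra O S] (θ : R →ₐ[O] S) {ρ : V → SL n R} (h : ρ ∈ XX w J R) :
    pm θ ρ ∈ XX w J S := by
  change w.ev (cJ J S) (pm θ ρ) = 1
  rw [ev_pm, show w.ev (cJ J R) ρ = 1 from h, map_one]

theorem WW_pm {w : Word K V} {J : K → SL n O} {R S : Type} [CommRing R] [CommRing S]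
    [Algebra O R] [Algebra O S] (θ : R →ₐ[O] S) {ρ : V → SL n R} (h : ρ ∈ WW w J R) :
    pm θ ρ ∈ WW w J S := by
  intro f hf
  rw [aeval_ent_pm, h f hf, map_zero]

theorem WW_of_inj {w : Word K V} {J : K → SL n O} {R S : Type} [CommRing R] [CommRing S]
    [Algebra O R] [Algebra O S] (θ : R →ₐ[O] S) (hθ : Function.Injective θ) {ρ : V → SL n R}
    (h : pm θ ρ ∈ WW w J S) : ρ ∈ WW w J R := by
  intro f hf
  apply hθ
  rw [← aeval_ent_pm, h f hf, map_zero]

theorem univ_WW {w : Word K V} {J : K → SL n O} {R : Type} [CommRing R] [Algebra O R]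
    {ρ : V → SL n R} (h : ρ ∈ WW w J R) :
    ∃ (S : Type) (_ : CommRing S) (_ : Algebra O S) (ρS : V → SL n S) (θ : S →ₐ[O] R),
      pm θ ρS = ρ ∧ ∀ s : S, (∀ χ : S →ₐ[O] O, pm χ ρS ∈ XX w J O → χ s = 0) → s = 0 := by
  let I : Ideal (MvPolynomial (V × n × n) O) :=
    ⨅ y : XX w J O, RingHom.ker (MvPolynomial.aeval (R := O) (ent y.1))
  have hI : ∀ f, f ∈ I ↔ ∀ y ∈ XX w J O, MvPolynomial.aeval (ent y) f = 0 := by
    intro f
    simp only [I, Submodule.mem_iInf, RingHom.mem_ker, Subtype.forall]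
  have hd : ∀ v, (gM O v : Matrix n n _).det - 1 ∈ I := fun v =>
    (hI _).2 fun y _ => aeval_gM_det y v
  obtain ⟨θ, h1, -⟩ := uT_lift I hd ρ fun f hf => h f ((hI f).1 hf)
  refine ⟨_, inferInstance, inferInstance, uT I hd, θ, h1, fun s hs => ?_⟩
  obtain ⟨f, rfl⟩ := Ideal.Quotient.mk_surjective s
  refine Ideal.Quotient.eq_zero_iff_mem.2 ((hI f).2 fun y hy => ?_)
  obtain ⟨χ, k1, k2⟩ := uT_lift I hd y fun g hg => (hI g).1 hg y hy
  rw [← k2]
  exact hs χ (k1.symm ▸ hy)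

theorem WW_sub_XX {w : Word K V} {J : K → SL n O} {R : Type} [CommRing R] [Algebra O R]
    {ρ : V → SL n R} (h : ρ ∈ WW w J R) : ρ ∈ XX w J R := by
  obtain ⟨S, _, _, ρS, θ, rfl, hS⟩ := univ_WW h
  refine XX_pm θ ?_
  change w.ev (cJ J S) ρS = 1
  ext i j
  refine sub_eq_zero.1 (hS _ fun χ hχ => ?_)
  have h1 : w.ev (cJ J O) (pm χ ρS) = 1 := hχ
  rw [ev_pm] at h1
  have h2 := congrArg (fun A : SL n O => A.1 i j) h1
  have h3 := congrArg (fun A : SL n O => A.1 i j) (map_one (smap (n := n) (χ : S →+* O)))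
  rw [map_sub]
  exact sub_eq_zero.2 (h2.trans h3.symm)

theorem WW_nat {w : Word K V} {J : K → SL n O}
    (μ : ∀ {G : Type} [Group G], (K → G) → (V → G) → V → G)
    (hμ : ∀ {G H : Type} [Group G] [Group H] (f : G →* H) (J : K → G) (ρ : V → G) (v : V),
      f (μ J ρ v) = μ (fun k => f (J k)) (fun v => f (ρ v)) v)
    (hp : ∀ {G : Type} [Group G] (J : K → G) (ρ : V → G), w.ev J ρ = 1 → w.ev J (μ J ρ) = 1)
    {R : Type} [CommRing R] [Algebra O R] {ρ : V → SL n R} (h : ρ ∈ WW w J R) :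
    μ (cJ J R) ρ ∈ WW w J R := by
  obtain ⟨S, _, _, ρS, θ, rfl, hS⟩ := univ_WW h
  have key : ∀ {T : Type} [CommRing T] [Algebra O T] (χ : S →ₐ[O] T),
      pm χ (μ (cJ J S) ρS) = μ (cJ J T) (pm χ ρS) := by
    intro T _ _ χ
    funext v
    rw [← pm_cJ χ J]
    exact hμ (smap (χ : S →+* T)) _ _ v
  intro f hf
  have h0 : MvPolynomial.aeval (ent (μ (cJ J S) ρS)) f = 0 := hS _ fun χ hχ => by
    rw [← aeval_ent_pm, key χ]
    exact hf _ (hp _ _ hχ)
  rw [← key θ, aeval_ent_pm, h0, map_zero]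

theorem WW_twist {w : Word K V} {J : K → SL n O} (t : Tw w) {Ω : Type} [Field Ω] [Algebra O Ω]
    {ρ : V → SL n Ω} (h : ρ ∈ WW w J Ω) (hg : Good (t.γ.ev (cJ J Ω) ρ)) (z : SL n Ω)
    (hz : Commute z (t.γ.ev (cJ J Ω) ρ)) : t.τ (cJ J Ω) ρ z ∈ WW w J Ω := by
  obtain ⟨T, _, _, zT, φ, ψ, h1, h2, h3⟩ := good_dense _ hg z hz
  let _ : Algebra O T := ((algebraMap Ω T).comp (algebraMap O Ω)).toAlgebra
  have _ : IsScalarTower O Ω T := IsScalarTower.of_algebraMap_eq fun _ => rfl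
  have key : ∀ χ : T →ₐ[Ω] Ω, pm (χ.restrictScalars O)
      (t.τ (cJ J T) (pm (IsScalarTower.toAlgHom O Ω T) ρ) zT) =
      t.τ (cJ J Ω) ρ (smap (χ : T →+* Ω) zT) := by
    intro χ
    have e : pm (χ.restrictScalars O) (pm (IsScalarTower.toAlgHom O Ω T) ρ) = ρ := by
      funext v
      ext i j
      simp [pm]
    funext v
    conv_rhs => rw [← pm_cJ (χ.restrictScalars O) J, ← e]
    exact t.nat (smap (χ : T →+* Ω)) _ _ _ v
  intro f hf
  rw [← h2, ← key ψ, aeval_ent_pm]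
  refine h3 _ fun k => ?_
  have h4 := WW_nat (w := w) (J := J)
    (fun {G} [Group G] (J : K → G) (ρ : V → G) => t.τ J ρ (t.γ.ev J ρ ^ k))
    (fun f J ρ v => by rw [t.nat, map_pow, t.γ.nat])
    (fun J ρ h => by rw [t.pres J ρ _ ((Commute.refl _).pow_left k), h]) h f hf
  rw [← h1 k, ← key (φ k), aeval_ent_pm] at h4
  exact h4

theorem WW_base [IsDomain O] [CharZero O] {W : Type} (C : Word K W) (J : K → SL n O)
    (y : W → SL n O) (hy : C.ev J y = 1) {F : Type} [Field F] [CharZero F] [Algebra O F]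
    (A0 A1 : SL n F) : base A0 A1 (cJ y F) ∈ WW (sys C) J F := by
  intro f hf
  let M : Fin 4 ⊕ W → n → n → MvPolynomial (Fin 2 × n × n) O :=
    Sum.elim ![fun i j => .X (0, i, j), fun i j => .C ((1 : Matrix n n O) i j),
      fun i j => .X (1, i, j), fun i j => .C ((1 : Matrix n n O) i j)]
      fun w i j => .C ((y w).1 i j)
  have key : ∀ {R : Type} [CommRing R] [Algebra O R] (B : Fin 2 → SL n R),
      MvPolynomial.aeval (ent B) (MvPolynomial.aeval (fun p : (Fin 4 ⊕ W) × n × n =>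
        M p.1 p.2.1 p.2.2) f) = MvPolynomial.aeval (ent (base (B 0) (B 1) (cJ y R))) f := by
    intro R _ _ B
    rw [MvPolynomial.comp_aeval_apply]
    congr 2
    funext ⟨v, i, j⟩
    rcases v with v | v
    · fin_cases v <;> simp [M, ent, base, Matrix.one_apply]
    · simp [M, ent, base, cJ]
  have h := dense_int _ (fun B : Fin 2 → SL n O => (key B).trans (hf _ (by
    simp [XX, sys, base, cJ_self, hy]))) ![A0, A1]
  rw [key] at h
  exact h

theorem WW_coeff [IsDomain O] {w : Word K V} {J : K → SL n O} {F : Type} [Field F] [Algebra O F]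
    [FaithfulSMul O F] {ρ : V → SL n F} (h : ρ ∈ WW w J F) (f : MvPolynomial (V × n × n) F)
    (hf : ∀ y ∈ XX w J O, MvPolynomial.aeval (ent (cJ y F)) f = 0) :
    MvPolynomial.aeval (ent ρ) f = 0 := by
  refine coeff_ext (ent '' XX w J O) (ent ρ) (fun g hg => h g fun y hy => hg _ ⟨y, hy, rfl⟩) f ?_
  rintro _ ⟨y, hy, rfl⟩
  exact hf y hy

end Vale.Agent.P002
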