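import Vale.Agent.P002.St2
import Vale.Agent.P002.Wlem

/-! P002, task Uniq: a full point lies in `WW` as soon as one full point does.

* `eq_of_cof`: `A' = A + c • single i0 i0 1`, `det A' = det A * det (1 + c • A⁻¹ single)
  = 1 + c * (A⁻¹) i0 i0` (or `Matrix.det_updateCol_add`, `Matrix.cramer`, `adjugate`).
* `uniq_B`: `c = A B A⁻¹ B⁻¹`, `B' = A B A⁻¹ = c B`, `B2' = A2 B2 A2⁻¹ = c B2`.
  `B2 = B (1 + w e_{i0}ᵀ)` with `w` the column `i0` of `B⁻¹ B2 - 1`; `det = 1` gives `w i0 = 0`.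
  For every scalar `x`, `det (x - B2) = det (x - B2')` and `det (x - B) = det (x - B')`.
  `x - B2 = updateCol (x - B) i0 (col - B w)`, so
  `det (x - B2) = det (x - B) - (adjugate (x - B) *ᵥ (B w)) i0`, the same for `B'`. At
  `x = lam i`: `adjugate (P D Q) = P * adjugate D * Q` (`adjugate_mul_distrib`), `adjugate_diagonal`;
  this gives `P i0 i * (Q w) i = P' i0 i * (Q' w) i` (`P' = A P`, `Q' = Q A⁻¹`), hence
  `(B ^ k w) i0 = (B' ^ k w) i0` and `w = 0` by `ND`.
* `twA0`: `γ = b0`, `τ ρ z = update ρ a0 (a0 * z)`.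
* `core1`: `spec_exists` with `x = ent ρt`, `T = TI i0`, `t = ent ρ` (`ti_indep` twice) gives `x'`;
  the matrices `of fun a b => x' (v, a, b)` have determinant `1` (`aeval_gM_det`), giving
  `ρ' ∈ WW` hence in `XX`. `eq_of_cof` for `v ≠ a0, b0`; then the first commutators agree,
  `uniq_B`, and `ρ = twA0.τ ρ' z` with `z = (ρ' a0)⁻¹ * ρ a0`; `WW_twist`. -/

namespace Vale.Agent.P002

open Matrix

variable {n : Type} [Fintype n] [DecidableEq n]

private theorem det_col {R : Type} [CommRing R] (i0 : n) (M N : Matrix n n R)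
    (h : ∀ a b, b ≠ i0 → N a b = M a b) :
    N.det = M.det + (M.adjugate *ᵥ fun a => N a i0 - M a i0) i0 := by
  have e : N = M.updateCol i0 ((fun a => M a i0) + fun a => N a i0 - M a i0) := by
    ext a b
    by_cases hb : b = i0
    · subst hb
      simp
    · rw [updateCol_ne hb, h a b hb]
  conv_lhs => rw [e]
  rw [det_updateCol_add, updateCol_eq_self, ← cramer_apply, cramer_eq_adjugate_mulVec]

theorem eq_of_cof {F : Type} [Field F] (i0 : n) (A A' : SL n F)
    (h : ∀ a b, (a, b) ≠ (i0, i0) → A.1 a b = A'.1 a b) (hc : (A⁻¹).1 i0 i0 ≠ 0) : A = A' := by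
  have h1 := det_col i0 A.1 A'.1 fun a b hb => (h a b fun e => hb (Prod.ext_iff.1 e).2).symm
  rw [A.2, A'.2] at h1
  have h2 : (A.1.adjugate *ᵥ fun a => A'.1 a i0 - A.1 a i0) i0 =
      (A⁻¹).1 i0 i0 * (A'.1 i0 i0 - A.1 i0 i0) := by
    rw [Matrix.SpecialLinearGroup.coe_inv]
    simp only [mulVec, dotProduct]
    refine Finset.sum_eq_single i0 (fun a _ ha => ?_) (fun hn => absurd (Finset.mem_univ _) hn)
    rw [h a i0 fun e => ha (Prod.ext_iff.1 e).1, sub_self, mul_zero]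
  rw [h2] at h1
  have h3 : (A⁻¹).1 i0 i0 * (A'.1 i0 i0 - A.1 i0 i0) = 0 := by linear_combination -h1
  have h4 := (mul_eq_zero.1 h3).resolve_left hc
  ext a b
  by_cases hab : (a, b) = (i0, i0)
  · have ha : a = i0 := (Prod.ext_iff.1 hab).1
    have hb : b = i0 := (Prod.ext_iff.1 hab).2
    rw [ha, hb]
    exact (sub_eq_zero.1 h4).symm
  · exact h a b hab

private theorem adj_frame {R : Type} [CommRing R] (P Q D : Matrix n n R) (hPQ : P * Q = 1)
    (hQP : Q * P = 1) : (P * D * Q).adjugate = P * D.adjugate * Q := by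
  have h1 : P.adjugate = P.det • Q := by
    calc P.adjugate = P.adjugate * (P * Q) := by rw [hPQ, Matrix.mul_one]
      _ = P.det • Q := by rw [← Matrix.mul_assoc, adjugate_mul, Matrix.smul_mul, Matrix.one_mul]
  have h2 : Q.adjugate = Q.det • P := by
    calc Q.adjugate = Q.adjugate * (Q * P) := by rw [hQP, Matrix.mul_one]
      _ = Q.det • P := by rw [← Matrix.mul_assoc, adjugate_mul, Matrix.smul_mul, Matrix.one_mul]
  have h3 : Q.det * P.det = 1 := by rw [← det_mul, hQP, det_one]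
  rw [adjugate_mul_distrib, adjugate_mul_distrib, h1, h2, Matrix.smul_mul, Matrix.mul_smul,
    Matrix.mul_smul, smul_smul, h3, one_smul, Matrix.mul_assoc]

private theorem frame_apply {R : Type} [CommRing R] (i0 : n) (P Q : Matrix n n R) (u w : n → R) :
    ((P * diagonal u * Q) *ᵥ w) i0 = ∑ i, u i * (P i0 i * (Q *ᵥ w) i) := by
  rw [← mulVec_mulVec]
  simp only [mulVec, dotProduct, mul_diagonal]
  exact Finset.sum_congr rfl fun i _ => by ring

private theorem frame_pow {R : Type} [CommRing R] (P Q : Matrix n n R) (hPQ : P * Q = 1)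
    (hQP : Q * P = 1) (lam : n → R) (k : ℕ) :
    (P * diagonal lam * Q) ^ k = P * diagonal (fun i => lam i ^ k) * Q := by
  induction k with
  | zero => simp [hPQ]
  | succ k ih =>
    rw [pow_succ, ih]
    calc P * diagonal (fun i => lam i ^ k) * Q * (P * diagonal lam * Q)
        = P * (diagonal (fun i => lam i ^ k) * (Q * P) * diagonal lam) * Q := by
          simp only [Matrix.mul_assoc]
      _ = _ := by
          rw [hQP, Matrix.mul_one, diagonal_mul_diagonal]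
          simp only [pow_succ]

private theorem adj_eig {R : Type} [CommRing R] (i0 j : n) (P Q : Matrix n n R) (hPQ : P * Q = 1)
    (hQP : Q * P = 1) (lam w : n → R) :
    ((lam j • (1 : Matrix n n R) - P * diagonal lam * Q).adjugate *ᵥ
      ((P * diagonal lam * Q) *ᵥ w)) i0 =
      ((∏ k ∈ Finset.univ.erase j, (lam j - lam k)) * lam j) * (P i0 j * (Q *ᵥ w) j) := by
  have e : lam j • (1 : Matrix n n R) - P * diagonal lam * Q =
      P * diagonal (fun k => lam j - lam k) * Q := by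
    have : diagonal (fun k => lam j - lam k) = lam j • (1 : Matrix n n R) - diagonal lam := by
      ext a b
      by_cases hab : a = b
      · subst hab
        simp
      · simp [hab]
    rw [this, Matrix.mul_sub, Matrix.sub_mul, Matrix.mul_smul, Matrix.mul_one, Matrix.smul_mul, hPQ]
  rw [e, adj_frame P Q _ hPQ hQP, adjugate_diagonal, mulVec_mulVec]
  have e2 : P * diagonal (fun i => ∏ k ∈ Finset.univ.erase i, (lam j - lam k)) * Q *
      (P * diagonal lam * Q) =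
      P * diagonal (fun i => (∏ k ∈ Finset.univ.erase i, (lam j - lam k)) * lam i) * Q := by
    calc _ = P * (diagonal (fun i => ∏ k ∈ Finset.univ.erase i, (lam j - lam k)) * (Q * P) *
          diagonal lam) * Q := by simp only [Matrix.mul_assoc]
      _ = _ := by rw [hQP, Matrix.mul_one, diagonal_mul_diagonal]
  rw [e2, frame_apply]
  refine Finset.sum_eq_single j (fun i _ hi => ?_) (fun hn => absurd (Finset.mem_univ _) hn)
  rw [Finset.prod_eq_zero (i := j) (Finset.mem_erase.2 ⟨hi.symm, Finset.mem_univ _⟩) (sub_self _),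
    zero_mul, zero_mul]

private theorem det_sub_conj {R : Type} [CommRing R] (A B : SL n R) (x : R) :
    (x • (1 : Matrix n n R) - (A * B * A⁻¹).1).det = (x • (1 : Matrix n n R) - B.1).det := by
  have e : x • (1 : Matrix n n R) - (A * B * A⁻¹).1 = A.1 * (x • (1 : Matrix n n R) - B.1) * (A⁻¹).1 := by
    rw [Matrix.mul_sub, Matrix.sub_mul, Matrix.mul_smul, Matrix.mul_one, Matrix.smul_mul, mul_inv_val,
      val_mul, val_mul]
  rw [e, det_mul, det_mul, A.2, (A⁻¹).2, one_mul, mul_one]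

private theorem det_sub_col {R : Type} [CommRing R] (i0 : n) (M N : Matrix n n R) (x : R)
    (h : ∀ a b, b ≠ i0 → N a b = M a b) (d : n → R) (hd : ∀ a, N a i0 - M a i0 = d a) :
    (x • (1 : Matrix n n R) - N).det =
      (x • (1 : Matrix n n R) - M).det - ((x • (1 : Matrix n n R) - M).adjugate *ᵥ d) i0 := by
  rw [det_col i0 (x • (1 : Matrix n n R) - M) (x • (1 : Matrix n n R) - N)
    fun a b hb => by rw [Matrix.sub_apply, Matrix.sub_apply, h a b hb]]
  have e : (fun a => (x • (1 : Matrix n n R) - N) a i0 - (x • (1 : Matrix n n R) - M) a i0) = -d := by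
    funext a
    rw [Matrix.sub_apply, Matrix.sub_apply, Pi.neg_apply, ← hd a]
    ring
  rw [e, mulVec_neg, Pi.neg_apply, sub_eq_add_neg (x • (1 : Matrix n n R) - M).det]

theorem uniq_B {F : Type} [Field F] (i0 : n) (A B A2 B2 : SL n F) (hB : Good B)
    (hND : ND i0 A B) (hcol : ∀ a b, b ≠ i0 → B.1 a b = B2.1 a b)
    (hc : A * B * A⁻¹ * B⁻¹ = A2 * B2 * A2⁻¹ * B2⁻¹) : B = B2 := by
  obtain ⟨P, Q, lam, hPQ, hQP, hBe, hind⟩ := hB
  have hinj := inj_of_indep lam hind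
  obtain ⟨d, hd⟩ : ∃ d : n → F, d = fun a => B2.1 a i0 - B.1 a i0 := ⟨_, rfl⟩
  obtain ⟨w, hw⟩ : ∃ w : n → F, w = (B⁻¹).1 *ᵥ d := ⟨_, rfl⟩
  obtain ⟨c, hcd⟩ : ∃ c : SL n F, c = A * B * A⁻¹ * B⁻¹ := ⟨_, rfl⟩
  have hBw : B.1 *ᵥ w = d := by rw [hw, mulVec_mulVec, mul_inv_val, one_mulVec]
  have hw0 : w i0 = 0 := by
    have h1 := det_col i0 B.1 B2.1 fun a b hb => (hcol a b hb).symm
    rw [B.2, B2.2, ← hd, ← Matrix.SpecialLinearGroup.coe_inv, ← hw] at h1
    linear_combination -h1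
  have e1 : A * B * A⁻¹ = c * B := by rw [hcd, inv_mul_cancel_right]
  have e2 : A2 * B2 * A2⁻¹ = c * B2 := by rw [hcd, hc, inv_mul_cancel_right]
  have hP : A.1 * P * (Q * (A⁻¹).1) = 1 := by
    rw [Matrix.mul_assoc, ← Matrix.mul_assoc P, hPQ, Matrix.one_mul, mul_inv_val]
  have hQ : Q * (A⁻¹).1 * (A.1 * P) = 1 := by
    rw [Matrix.mul_assoc, ← Matrix.mul_assoc (A⁻¹).1, inv_mul_val, Matrix.one_mul, hQP]
  have hB' : (A * B * A⁻¹).1 = A.1 * P * diagonal (fun i => (lam i : F)) * (Q * (A⁻¹).1) := by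
    rw [val_mul, val_mul, hBe]
    simp only [Matrix.mul_assoc]
  have key : ∀ x : F, ((x • (1 : Matrix n n F) - B.1).adjugate *ᵥ (B.1 *ᵥ w)) i0 =
      ((x • (1 : Matrix n n F) - (A * B * A⁻¹).1).adjugate *ᵥ ((A * B * A⁻¹).1 *ᵥ w)) i0 := by
    intro x
    have a1 := det_sub_col i0 B.1 B2.1 x (fun a b hb => (hcol a b hb).symm) (B.1 *ᵥ w)
      (fun a => by rw [hBw, hd])
    have a2 := det_sub_col i0 (A * B * A⁻¹).1 (A2 * B2 * A2⁻¹).1 x (fun a b hb => by
      rw [e1, e2, val_mul, val_mul, mul_apply, mul_apply]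
      exact Finset.sum_congr rfl fun k _ => by rw [hcol k b hb]) ((A * B * A⁻¹).1 *ᵥ w)
      (fun a => by
        rw [e1, e2, val_mul, val_mul, ← mulVec_mulVec, hBw, hd, mul_apply, mul_apply,
          ← Finset.sum_sub_distrib]
        simp only [mulVec, dotProduct, mul_sub])
    rw [det_sub_conj, det_sub_conj] at a2
    linear_combination a1 - a2
  have key2 : ∀ j, P i0 j * (Q *ᵥ w) j = (A.1 * P) i0 j * ((Q * (A⁻¹).1) *ᵥ w) j := by
    intro j
    have h1 := key (lam j)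
    rw [hB', hBe, adj_eig i0 j P Q hPQ hQP (fun i => (lam i : F)) w,
      adj_eig i0 j _ _ hP hQ (fun i => (lam i : F)) w] at h1
    refine mul_left_cancel₀ (mul_ne_zero ?_ (lam j).ne_zero) h1
    refine Finset.prod_ne_zero_iff.2 fun k hk => sub_ne_zero.2 fun e => ?_
    exact (Finset.mem_erase.1 hk).1 (hinj (Units.ext e)).symm
  have hw1 : w = 0 := by
    refine hND w hw0 fun k => ?_
    rw [Matrix.SpecialLinearGroup.coe_pow, Matrix.SpecialLinearGroup.coe_pow, hB', hBe,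
      frame_pow P Q hPQ hQP, frame_pow _ _ hP hQ, frame_apply, frame_apply]
    exact Finset.sum_congr rfl fun j _ => by rw [key2 j]
  have hd0 : d = 0 := by rw [← hBw, hw1, mulVec_zero]
  ext a b
  by_cases hb : b = i0
  · have h1 := congrFun hd0 a
    rw [hd] at h1
    rw [hb]
    exact (sub_eq_zero.1 h1).symm
  · exact hcol a b hb

/-- the twist of the first handle -/
private def twA0 {K W : Type} (C : Word K W) : Tw (sys C) where
  γ := ⟨fun _ ρ => ρ (.inl 1), fun _ _ _ => rfl⟩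
  τ := fun _ ρ z => Sum.elim (fun i => if i = 0 then ρ (.inl 0) * z else ρ (.inl i))
    fun w => ρ (.inr w)
  nat f J ρ z v := by
    rcases v with i | w
    · by_cases hi : i = 0 <;> simp [hi]
    · rfl
  one J ρ := by
    funext v
    rcases v with i | w
    · by_cases hi : i = 0 <;> simp [hi]
    · rfl
  pres J ρ z hz := by
    have h : z * ρ (.inl 1) = ρ (.inl 1) * z := hz
    have e : ρ (.inl 0) * z * ρ (.inl 1) * (ρ (.inl 0) * z)⁻¹ =
        ρ (.inl 0) * ρ (.inl 1) * (ρ (.inl 0))⁻¹ := by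
      rw [mul_assoc (ρ (.inl 0)) z, h]
      group
    simp only [sys, Sum.elim_inl, Sum.elim_inr, if_true, Fin.reduceEq, if_false, e]

theorem exists_twA0 {K W : Type} (C : Word K W) :
    ∃ t : Tw (sys C), ∀ {G : Type} [Group G] (J : K → G) (ρ : Fin 4 ⊕ W → G),
      t.γ.ev J ρ = ρ (.inl 1) ∧ ∀ z, t.τ J ρ z (.inl 0) = ρ (.inl 0) * z ∧
        ∀ v, v ≠ .inl 0 → t.τ J ρ z v = ρ v := by
  refine ⟨twA0 C, fun J ρ => ⟨rfl, fun z => ⟨rfl, fun v hv => ?_⟩⟩⟩
  rcases v with i | w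
  · have hi : i ≠ 0 := fun e => hv (by rw [e])
    simp [twA0, hi]
  · rfl

theorem core1 {K W O : Type} [Finite W] [CommRing O] [IsDomain O] [Countable O] [Nonempty n]
    {C : Word K W} {J : K → SL n O} (B B' : BigField O) {ρt : Fin 4 ⊕ W → SL n B.Ω}
    (ht : ρt ∈ WW (sys C) J B.Ω) (htF : Full (sys C) J ρt) {ρ : Fin 4 ⊕ W → SL n B'.Ω}
    (h : ρ ∈ XX (sys C) J B'.Ω) (hF : Full (sys C) J ρ) : ρ ∈ WW (sys C) J B'.Ω := by
  obtain ⟨i0⟩ := (inferInstance : Nonempty n)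
  obtain ⟨x', hx1, hx2⟩ := spec_exists (O := O) (ent ρt) (TI (W := W) i0) (ent ρ)
    (ti_indep htF i0) (ti_indep hF i0)
  have hdet : ∀ v, (Matrix.of fun a b => x' (v, a, b) : Matrix n n B'.Ω).det = 1 := by
    intro v
    have h1 := hx2 _ (aeval_gM_det ρt v)
    rw [map_sub, map_one, sub_eq_zero, AlgHom.map_det] at h1
    rw [← h1]
    congr 1
    ext a b
    simp [gM]
  obtain ⟨ρ', hρ'⟩ : ∃ ρ' : Fin 4 ⊕ W → SL n B'.Ω, ent ρ' = x' :=
    ⟨fun v => ⟨_, hdet v⟩, rfl⟩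
  have hW : ρ' ∈ WW (sys C) J B'.Ω := fun f hf => by
    rw [hρ']
    exact hx2 f (ht f hf)
  have hX := WW_sub_XX hW
  have hent : ∀ v a b, TI (W := W) i0 (v, a, b) → (ρ v).1 a b = (ρ' v).1 a b := fun v a b hT =>
    ((congrFun hρ' (v, a, b)).trans (hx1 _ hT)).symm
  have hrest : ∀ v, v ≠ .inl 0 → v ≠ .inl 1 → ρ v = ρ' v := fun v h0 h1 =>
    eq_of_cof i0 _ _ (fun a b hab => hent v a b ⟨h0, fun e => absurd e h1, fun _ => hab⟩)
      (gen_entry_ne _ (gen_inv _ (full_gen_rest hF v)) i0 i0)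
  have hc : ρ (.inl 0) * ρ (.inl 1) * (ρ (.inl 0))⁻¹ * (ρ (.inl 1))⁻¹ =
      ρ' (.inl 0) * ρ' (.inl 1) * (ρ' (.inl 0))⁻¹ * (ρ' (.inl 1))⁻¹ := by
    have e1 : (sys C).ev (cJ J B'.Ω) ρ = (sys C).ev (cJ J B'.Ω) ρ' := h.trans hX.symm
    have e2 : (fun w => ρ (.inr w)) = fun w => ρ' (.inr w) :=
      funext fun w => hrest _ (by simp) (by simp)
    simp only [sys] at e1
    rw [e2, hrest (.inl 2) (by simp) (by simp), hrest (.inl 3) (by simp) (by simp)] at e1
    exact mul_right_cancel (mul_right_cancel e1)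
  have hgood : Good (ρ (.inl 1)) := good_of_gen _ (full_gen_rest hF _)
  have hb : ρ (.inl 1) = ρ' (.inl 1) :=
    uniq_B i0 _ _ _ _ hgood (nd_of_dgen i0 _ _ (full_gen0 hF))
      (fun a b hb => hent _ a b ⟨by simp, fun _ => hb, fun e => absurd rfl e⟩) hc
  obtain ⟨t, htw⟩ := exists_twA0 C
  obtain ⟨t1, t2⟩ := htw (cJ J B'.Ω) ρ'
  have hz : Commute ((ρ' (.inl 0))⁻¹ * ρ (.inl 0)) (t.γ.ev (cJ J B'.Ω) ρ') := by
    rw [t1, ← hb]
    rw [← hb] at hc
    have e := mul_right_cancel hc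
    change (ρ' (.inl 0))⁻¹ * ρ (.inl 0) * ρ (.inl 1) = ρ (.inl 1) * ((ρ' (.inl 0))⁻¹ * ρ (.inl 0))
    calc (ρ' (.inl 0))⁻¹ * ρ (.inl 0) * ρ (.inl 1)
        = (ρ' (.inl 0))⁻¹ * (ρ (.inl 0) * ρ (.inl 1) * (ρ (.inl 0))⁻¹) * ρ (.inl 0) := by group
      _ = _ := by
          rw [e]
          group
  have hres := WW_twist t hW (by rw [t1, ← hb]; exact hgood) _ hz
  have e : t.τ (cJ J B'.Ω) ρ' ((ρ' (.inl 0))⁻¹ * ρ (.inl 0)) = ρ := by
    funext v
    by_cases h0 : v = .inl 0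
    · rw [h0, (t2 _).1, mul_inv_cancel_left]
    · rw [(t2 _).2 v h0]
      by_cases h1 : v = .inl 1
      · rw [h1, hb]
      · exact (hrest v h0 h1).symm
  rwa [e] at hres

end Vale.Agent.P002
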